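import Mathlib

/-!
# Row 305 (S0468): the matroid covering theorem (Edmonds)

`edmonds_cover`: if `|Y| ≤ k r(Y)` for every `Y ⊆ S` (`S` finite), then `S` can be coloured with `k`
colours such that every colour class is independent.
-/

set_option autoImplicit false

namespace Crest.Agent.MS

open Set

variable {α κ : Type*}

/-- colour class of a partial colouring -/
def cls (c : α → Option κ) (a : κ) : Set α := {e | c e = some a}

/-- the decreasing layers of the augmentation argument -/
def lay (M : Matroid α) (S : Set α) (c : α → Option κ) : ℕ → Set α
  | 0 => S
  | j + 1 => lay M S c j ∩ {e | ∀ a, e ∈ M.closure (cls c a ∩ lay M S c j)}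

theorem lay_succ_subset (M : Matroid α) (S : Set α) (c : α → Option κ) (j : ℕ) :
    lay M S c (j + 1) ⊆ lay M S c j := fun _ h => h.1

theorem lay_antitone (M : Matroid α) (S : Set α) (c : α → Option κ) :
    Antitone (lay M S c) := antitone_nat_of_succ_le (lay_succ_subset M S c)

theorem lay_subset (M : Matroid α) (S : Set α) (c : α → Option κ) (j : ℕ) :
    lay M S c j ⊆ S := lay_antitone M S c (Nat.zero_le j)

/-- augmentation: an uncovered element which does not lie in all layers can be covered -/
theorem lay_augment [DecidableEq α] [DecidableEq κ] (M : Matroid α) (S : Set α) (hSE : S ⊆ M.E)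
    (j : ℕ) : ∀ (c : α → Option κ) (e : α), (∀ a, M.Indep (cls c a)) →
      (∀ x, c x ≠ none → x ∈ S) → e ∈ S → c e = none → e ∉ lay M S c (j + 1) →
      ∃ c' : α → Option κ, (∀ a, M.Indep (cls c' a)) ∧
        (∀ x, c' x ≠ none ↔ (x = e ∨ c x ≠ none)) := by
  induction j using Nat.strong_induction_on with
  | _ j ih =>
    intro c e hc hS he hce hlay
    by_cases hej : e ∈ lay M S c j
    · have hex : ∃ a, e ∉ M.closure (cls c a ∩ lay M S c j) := by
        by_contra hcon
        push Not at hcon
        exact hlay ⟨hej, hcon⟩
      obtain ⟨a, ha⟩ := hex
      have heI : e ∉ cls c a := by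
        intro h
        have h2 : c e = some a := h
        rw [hce] at h2
        cases h2
      by_cases hI : M.Indep (insert e (cls c a))
      · refine ⟨Function.update c e (some a), fun b => ?_, fun x => ?_⟩
        · by_cases hb : b = a
          · subst hb
            refine hI.subset fun x hx => ?_
            by_cases hxe : x = e
            · exact Or.inl hxe
            · right
              have hx' : Function.update c e (some b) x = some b := hx
              rw [Function.update_of_ne hxe] at hx'
              exact hx'
          · refine (hc b).subset fun x hx => ?_
            have hx' : Function.update c e (some a) x = some b := hx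
            by_cases hxe : x = e
            · subst hxe
              rw [Function.update_self] at hx'
              exact absurd (Option.some.inj hx').symm hb
            · rw [Function.update_of_ne hxe] at hx'
              exact hx'
        · by_cases hxe : x = e
          · subst hxe
            simp
          · rw [Function.update_of_ne hxe]
            simp [hxe]
      · have heE : e ∈ M.E := hSE he
        have hcl : e ∈ M.closure (cls c a) := by
          by_contra hcon
          exact hI (((hc a).notMem_closure_iff_of_notMem heI heE).1 hcon)
        have hC := (hc a).fundCircuit_isCircuit hcl heI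
        have hCsub : M.fundCircuit e (cls c a) ⊆ insert e (cls c a) :=
          M.fundCircuit_subset_insert e _
        have heC : e ∈ M.fundCircuit e (cls c a) := M.mem_fundCircuit e _
        generalize hCdef : M.fundCircuit e (cls c a) = C at hC hCsub heC
        have hPj : ¬ C ⊆ lay M S c j := by
          intro h
          refine ha ?_
          refine M.closure_subset_closure ?_ (hC.mem_closure_sdiff_singleton_of_mem heC)
          intro x hx
          rcases hCsub hx.1 with h2 | h2
          · exact absurd h2 hx.2
          · exact ⟨h2, h hx.1⟩
        have hP0 : C ⊆ lay M S c 0 := by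
          intro x hx
          rcases hCsub hx with h2 | h2
          · rw [h2]; exact he
          · refine hS x ?_
            have h3 : c x = some a := h2
            rw [h3]
            simp
        classical
        have hexi : ∃ i, ¬ C ⊆ lay M S c i := ⟨j, hPj⟩
        obtain ⟨i, hij, hPi, hPi1⟩ : ∃ i, i < j ∧ C ⊆ lay M S c i ∧ ¬ C ⊆ lay M S c (i + 1) := by
          have h1 := Nat.find_spec hexi
          have h2 : Nat.find hexi ≠ 0 := by
            intro h0
            rw [h0] at h1
            exact h1 hP0
          obtain ⟨i, hi⟩ := Nat.exists_eq_succ_of_ne_zero h2
          refine ⟨i, ?_, ?_, ?_⟩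
          · have h3 := Nat.find_min' hexi hPj
            omega
          · have h3 := Nat.find_min hexi (m := i) (by omega)
            push Not at h3
            exact h3
          · rw [hi] at h1
            exact h1
        obtain ⟨f, hfC, hfi⟩ := Set.not_subset.1 hPi1
        have hfe : f ≠ e := by
          intro h
          rw [h] at hfi
          exact hfi (lay_antitone M S c (by omega : i + 1 ≤ j) hej)
        have hfI : f ∈ cls c a := (hCsub hfC).resolve_left hfe
        have hfS : f ∈ S := hP0 hfC
        let c₁ : α → Option κ := Function.update (Function.update c f none) e (some a)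
        have hc₁e : c₁ e = some a := Function.update_self _ _ _
        have hc₁f : c₁ f = none := by
          show Function.update (Function.update c f none) e (some a) f = none
          rw [Function.update_of_ne hfe, Function.update_self]
        have hc₁o : ∀ x, x ≠ e → x ≠ f → c₁ x = c x := by
          intro x hx1 hx2
          show Function.update (Function.update c f none) e (some a) x = c x
          rw [Function.update_of_ne hx1, Function.update_of_ne hx2]
        have hcls_a : cls c₁ a = insert e (cls c a) \ {f} := by
          ext x
          by_cases hx1 : x = e
          · subst hx1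
            exact ⟨fun _ => ⟨Or.inl rfl, fun h => hfe h.symm⟩, fun _ => hc₁e⟩
          · by_cases hx2 : x = f
            · subst hx2
              constructor
              · intro h
                have h2 : c₁ x = some a := h
                rw [hc₁f] at h2
                cases h2
              · intro h
                exact absurd rfl h.2
            · constructor
              · intro h
                have h2 : c₁ x = some a := h
                rw [hc₁o x hx1 hx2] at h2
                exact ⟨Or.inr h2, hx2⟩
              · intro h
                have h2 : c x = some a := h.1.resolve_left hx1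
                show c₁ x = some a
                rw [hc₁o x hx1 hx2]
                exact h2
        have hcls_b : ∀ b, b ≠ a → cls c₁ b = cls c b := by
          intro b hb
          ext x
          by_cases hx1 : x = e
          · subst hx1
            constructor
            · intro h
              have h2 : c₁ x = some b := h
              rw [hc₁e] at h2
              exact absurd (Option.some.inj h2).symm hb
            · intro h
              have h2 : c x = some b := h
              rw [hce] at h2
              cases h2
          · by_cases hx2 : x = f
            · subst hx2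
              constructor
              · intro h
                have h2 : c₁ x = some b := h
                rw [hc₁f] at h2
                cases h2
              · intro h
                have h2 : c x = some b := h
                have h3 : c x = some a := hfI
                rw [h3] at h2
                exact absurd (Option.some.inj h2).symm hb
            · show c₁ x = some b ↔ c x = some b
              rw [hc₁o x hx1 hx2]
        have hind_a : M.Indep (insert e (cls c a) \ {f}) := by
          rw [← (hc a).mem_fundCircuit_iff hcl heI, hCdef]
          exact hfC
        have hind : ∀ b, M.Indep (cls c₁ b) := by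
          intro b
          by_cases hb : b = a
          · rw [hb, hcls_a]; exact hind_a
          · rw [hcls_b b hb]; exact hc b
        -- the closures inside the layers `≤ i` do not change
        have hclo : ∀ Y : Set α, C ⊆ Y → ∀ b,
            M.closure (cls c₁ b ∩ Y) = M.closure (cls c b ∩ Y) := by
          intro Y hY b
          by_cases hb : b = a
          · rw [hb]
            have hCa : C \ {e} ⊆ cls c a ∩ Y := by
              intro x hx
              exact ⟨(hCsub hx.1).resolve_left hx.2, hY hx.1⟩
            have hCf : C \ {f} ⊆ cls c₁ a ∩ Y := by
              intro x hx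
              rw [hcls_a]
              exact ⟨⟨hCsub hx.1, hx.2⟩, hY hx.1⟩
            have he1 : e ∈ M.closure (cls c a ∩ Y) :=
              M.closure_subset_closure hCa (hC.mem_closure_sdiff_singleton_of_mem heC)
            have hf1 : f ∈ M.closure (cls c₁ a ∩ Y) :=
              M.closure_subset_closure hCf (hC.mem_closure_sdiff_singleton_of_mem hfC)
            have hg1 : cls c a ⊆ M.E := (hc a).subset_ground
            have hg2 : cls c₁ a ⊆ M.E := (hind a).subset_ground
            apply subset_antisymm
            · refine M.closure_subset_closure_of_subset_closure fun x hx => ?_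
              have hx1 := hx.1
              rw [hcls_a] at hx1
              rcases hx1.1 with h | h
              · rw [h]; exact he1
              · exact M.mem_closure_of_mem' ⟨h, hx.2⟩ (hg1 h)
            · refine M.closure_subset_closure_of_subset_closure fun x hx => ?_
              by_cases hxf : x = f
              · rw [hxf]; exact hf1
              · have : x ∈ cls c₁ a := by
                  rw [hcls_a]
                  exact ⟨Or.inr hx.1, hxf⟩
                exact M.mem_closure_of_mem' ⟨this, hx.2⟩ (hg2 this)
          · rw [hcls_b b hb]
        have hlay_eq : ∀ i', i' ≤ i + 1 → lay M S c₁ i' = lay M S c i' := by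
          intro i'
          induction i' with
          | zero => intro _; rfl
          | succ i' ihi =>
            intro hi'
            have h1 := ihi (by omega)
            show lay M S c₁ i' ∩ {e | ∀ a, e ∈ M.closure (cls c₁ a ∩ lay M S c₁ i')} =
              lay M S c i' ∩ {e | ∀ a, e ∈ M.closure (cls c a ∩ lay M S c i')}
            rw [h1]
            have hCi' : C ⊆ lay M S c i' := hPi.trans (lay_antitone M S c (by omega))
            congr 1
            ext x
            simp only [Set.mem_ofPred_eq]
            refine forall_congr' fun b => ?_
            rw [hclo _ hCi' b]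
        have hc₁S : ∀ x, c₁ x ≠ none → x ∈ S := by
          intro x hx
          by_cases hx1 : x = e
          · rw [hx1]; exact he
          · by_cases hx2 : x = f
            · rw [hx2]; exact hfS
            · rw [hc₁o x hx1 hx2] at hx
              exact hS x hx
        have hfl : f ∉ lay M S c₁ (i + 1) := by
          rw [hlay_eq (i + 1) le_rfl]
          exact hfi
        obtain ⟨c₂, hc₂, hsupp⟩ := ih i hij c₁ f hind hc₁S hfS hc₁f hfl
        refine ⟨c₂, hc₂, fun x => ?_⟩
        rw [hsupp x]
        have hcf : c f ≠ none := by
          have h3 : c f = some a := hfI
          rw [h3]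
          simp
        by_cases hx1 : x = e
        · subst hx1
          simp [hc₁e]
        · by_cases hx2 : x = f
          · subst hx2
            simp [hcf]
          · rw [hc₁o x hx1 hx2]
            simp [hx1, hx2]
    · cases j with
      | zero => exact absurd he hej
      | succ j => exact ih j (Nat.lt_succ_self j) c e hc hS he hce hej

/-- **Edmonds' covering theorem** -/
theorem edmonds_cover (M : Matroid α) (S : Finset α) (hSE : (S : Set α) ⊆ M.E) {k : ℕ} (hk : 0 < k)
    (hS : ∀ Y : Finset α, Y ⊆ S → (Y.card : ℕ∞) ≤ k * M.eRk Y) :
    ∃ c : α → Fin k, ∀ a, M.Indep {e | e ∈ S ∧ c e = a} := by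
  classical
  -- a feasible partial colouring with maximal support
  let Feas : (α → Option (Fin k)) → Prop := fun c =>
    (∀ a, M.Indep (cls c a)) ∧ ∀ x, c x ≠ none → x ∈ S
  have hne : ∃ n, ∃ c : α → Option (Fin k), Feas c ∧ (S.filter fun x => c x ≠ none).card = n :=
    ⟨0, fun _ => none, ⟨fun a => by
      have : cls (fun _ : α => (none : Option (Fin k))) a = ∅ := by
        ext x
        simp [cls]
      rw [this]
      exact M.empty_indep, fun x hx => absurd rfl hx⟩, by simp⟩
  obtain ⟨c, hFc, hmax⟩ : ∃ c : α → Option (Fin k), Feas c ∧
      ∀ c' : α → Option (Fin k), Feas c' →
        (S.filter fun x => c' x ≠ none).card ≤ (S.filter fun x => c x ≠ none).card := by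
    have hbdd : ∀ n, (∃ c : α → Option (Fin k), Feas c ∧
        (S.filter fun x => c x ≠ none).card = n) → n ≤ S.card := by
      rintro n ⟨c, _, rfl⟩
      exact Finset.card_filter_le _ _
    obtain ⟨c, hc, hcn⟩ := Nat.findGreatest_spec (P := fun n => ∃ c : α → Option (Fin k), Feas c ∧
      (S.filter fun x => c x ≠ none).card = n) (m := hne.choose) (hbdd _ hne.choose_spec)
      hne.choose_spec
    refine ⟨c, hc, fun c' hc' => ?_⟩
    rw [hcn]
    exact Nat.le_findGreatest (hbdd _ ⟨c', hc', rfl⟩) ⟨c', hc', rfl⟩
  by_cases hall : ∀ x ∈ S, c x ≠ none
  · refine ⟨fun x => (c x).getD ⟨0, hk⟩, fun a => ?_⟩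
    refine (hFc.1 a).subset fun x hx => ?_
    obtain ⟨y, hy⟩ := Option.ne_none_iff_exists'.1 (hall x hx.1)
    have h2 : (c x).getD ⟨0, hk⟩ = a := hx.2
    rw [hy] at h2
    show c x = some a
    rw [hy]
    exact congrArg some h2
  · exfalso
    push Not at hall
    obtain ⟨e, heS, hce⟩ := hall
    have hin : ∀ j, e ∈ lay M (S : Set α) c (j + 1) := by
      intro j
      by_contra hcon
      obtain ⟨c', hc', hsupp⟩ := lay_augment M (S : Set α) hSE j c e hFc.1
        (fun x hx => hFc.2 x hx) heS hce hcon
      have hF' : Feas c' := ⟨hc', fun x hx => by
        rcases (hsupp x).1 hx with h | h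
        · rw [h]; exact heS
        · exact hFc.2 x h⟩
      have h1 := hmax c' hF'
      have h2 : (S.filter fun x => c x ≠ none) ⊂ (S.filter fun x => c' x ≠ none) := by
        rw [Finset.ssubset_iff_of_subset]
        · refine ⟨e, ?_, ?_⟩
          · rw [Finset.mem_filter]
            exact ⟨heS, (hsupp e).2 (Or.inl rfl)⟩
          · rw [Finset.mem_filter]
            rintro ⟨_, h⟩
            exact h hce
        · intro x hx
          rw [Finset.mem_filter] at hx ⊢
          exact ⟨hx.1, (hsupp x).2 (Or.inr hx.2)⟩
      exact absurd (Finset.card_lt_card h2) (by omega)
    -- the layers stabilise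
    have hstab : ∃ j, lay M (S : Set α) c (j + 1) = lay M (S : Set α) c j := by
      by_contra hcon
      push Not at hcon
      have hcard : ∀ j, (S.filter fun x => x ∈ lay M (S : Set α) c j).card + j ≤ S.card := by
        intro j
        induction j with
        | zero => simpa using Finset.card_filter_le _ _
        | succ j ihj =>
          have hss : (S.filter fun x => x ∈ lay M (S : Set α) c (j + 1)) ⊂
              (S.filter fun x => x ∈ lay M (S : Set α) c j) := by
            rw [Finset.ssubset_iff_of_subset]
            · obtain ⟨x, hx1, hx2⟩ := Set.exists_of_ssubset
                ((lay_succ_subset M (S : Set α) c j).ssubset_of_ne (hcon j))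
              refine ⟨x, ?_, ?_⟩
              · rw [Finset.mem_filter]
                exact ⟨lay_subset M _ c j hx1, hx1⟩
              · rw [Finset.mem_filter]
                rintro ⟨_, h⟩
                exact hx2 h
            · intro x hx
              rw [Finset.mem_filter] at hx ⊢
              exact ⟨hx.1, lay_succ_subset M _ c j hx.2⟩
          have := Finset.card_lt_card hss
          omega
      have := hcard (S.card + 1)
      omega
    obtain ⟨j, hj⟩ := hstab
    have hcl : ∀ x ∈ lay M (S : Set α) c j, ∀ a,
        x ∈ M.closure (cls c a ∩ lay M (S : Set α) c j) := by
      intro x hx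
      rw [← hj] at hx
      exact hx.2
    have hej : e ∈ lay M (S : Set α) c j := by
      rw [← hj]
      exact hin j
    -- count
    let X : Finset α := S.filter fun x => x ∈ lay M (S : Set α) c j
    have hXset : (X : Set α) = lay M (S : Set α) c j := by
      ext x
      simp only [X, Finset.coe_filter, Set.mem_ofPred_eq]
      exact ⟨fun h => h.2, fun h => ⟨lay_subset M _ c j h, h⟩⟩
    have hXE : (X : Set α) ⊆ M.E := by
      rw [hXset]
      exact (lay_subset M _ c j).trans hSE
    have hrk : ∀ a : Fin k, M.eRk (X : Set α) = ((X.filter fun x => c x = some a).card : ℕ∞) := by
      intro a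
      have hI : M.Indep (cls c a ∩ lay M (S : Set α) c j) := (hFc.1 a).subset Set.inter_subset_left
      have h1 : M.closure (X : Set α) = M.closure (cls c a ∩ lay M (S : Set α) c j) := by
        apply subset_antisymm
        · refine M.closure_subset_closure_of_subset_closure ?_
          rw [hXset]
          exact fun x hx => hcl x hx a
        · rw [hXset]
          exact M.closure_subset_closure Set.inter_subset_right
      rw [← M.eRk_closure_eq, h1, M.eRk_closure_eq, hI.eRk_eq_encard]
      rw [← Set.encard_coe_eq_coe_finsetCard]
      congr 1
      ext x
      simp only [Finset.coe_filter, Set.mem_ofPred_eq, Set.mem_inter_iff]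
      rw [← Finset.mem_coe, hXset]
      exact ⟨fun h => ⟨h.2, h.1⟩, fun h => ⟨h.2, h.1⟩⟩
    have h1 := hS X (Finset.filter_subset _ _)
    -- `k * r(X) = ∑ |X ∩ I_a| ≤ |X| - 1`
    have h2 : (∑ a : Fin k, (X.filter fun x => c x = some a).card) + 1 ≤ X.card := by
      have h3 : (∑ a : Fin k, (X.filter fun x => c x = some a).card) =
          (X.filter fun x => c x ≠ none).card := by
        rw [← Finset.card_biUnion]
        · congr 1
          ext x
          simp only [Finset.mem_biUnion, Finset.mem_univ, true_and, Finset.mem_filter]
          constructor
          · rintro ⟨a, hx, ha⟩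
            exact ⟨hx, by rw [ha]; simp⟩
          · rintro ⟨hx, hx2⟩
            obtain ⟨a, ha⟩ := Option.ne_none_iff_exists'.1 hx2
            exact ⟨a, hx, ha⟩
        · intro a _ b _ hab
          rw [Function.onFun, Finset.disjoint_left]
          intro x hx1 hx2
          rw [Finset.mem_filter] at hx1 hx2
          rw [hx1.2] at hx2
          exact hab (Option.some.inj hx2.2)
      rw [h3]
      have h4 : (X.filter fun x => c x ≠ none) ⊂ X := by
        rw [Finset.ssubset_iff_of_subset (Finset.filter_subset _ _)]
        refine ⟨e, ?_, ?_⟩
        · rw [← Finset.mem_coe, hXset]
          exact hej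
        · rw [Finset.mem_filter]
          rintro ⟨_, h⟩
          exact h hce
      exact Finset.card_lt_card h4
    obtain ⟨r, hr⟩ : ∃ r : ℕ, M.eRk (X : Set α) = r := ⟨_, hrk ⟨0, hk⟩⟩
    have h5 : ∀ a : Fin k, (X.filter fun x => c x = some a).card = r := by
      intro a
      have := (hrk a).symm.trans hr
      exact_mod_cast this
    rw [hr] at h1
    have h6 : X.card ≤ k * r := by exact_mod_cast h1
    simp only [h5, Finset.sum_const, Finset.card_univ, Fintype.card_fin, smul_eq_mul] at h2
    omega

end Crest.Agent.MS
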