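import Mathlib
import Crest.Agent.MS.EdmondsM

/-!
# Row 305 (S0468): rank, independence over a flat, `λ`-sparse flats and the operator `F_λ(S)`

`Fop M lam S V` = the smallest flat `Y ⊇ V` such that `S` is `lam`-sparse over `Y`
(`|S ∩ X \ Y| ≤ lam (r(X) - r(Y))` for all `X ⊇ Y`).  It is the minimal minimiser of
`lam r(X | V) - |S ∩ X|` (`Fop_min`, `Fop_le`).
-/

set_option autoImplicit false
set_option linter.unusedSectionVars false

namespace Crest.Agent.MS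

open Set

variable {α : Type*} [Finite α] {M : Matroid α}

/-! ### rank -/

/-- `ℕ`-valued rank -/
noncomputable def rk (M : Matroid α) (X : Set α) : ℕ := (M.eRk X).toNat

theorem coe_rk (M : Matroid α) (X : Set α) : ((rk M X : ℕ) : ℕ∞) = M.eRk X := by
  refine ENat.natCast_toNat ?_
  have h1 := M.eRk_le_encard X
  have h2 : X.encard ≠ ⊤ := by
    rw [Set.encard_ne_top_iff]
    exact X.toFinite
  exact ne_top_of_le_ne_top h2 h1

theorem rk_mono (M : Matroid α) {X Y : Set α} (h : X ⊆ Y) : rk M X ≤ rk M Y := by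
  have := M.eRk_mono h
  rw [← coe_rk, ← coe_rk] at this
  exact_mod_cast this

theorem rk_submod (M : Matroid α) (X Y : Set α) :
    rk M (X ∩ Y) + rk M (X ∪ Y) ≤ rk M X + rk M Y := by
  have := M.eRk_inter_add_eRk_union_le X Y
  simp only [← coe_rk] at this
  exact_mod_cast this

theorem rk_closure (M : Matroid α) (X : Set α) : rk M (M.closure X) = rk M X := by
  unfold rk
  rw [M.eRk_closure_eq]

theorem rk_le_ncard (M : Matroid α) (X : Set α) : rk M X ≤ X.ncard := by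
  have := M.eRk_le_encard X
  rw [← coe_rk, ← X.toFinite.cast_ncard_eq] at this
  exact_mod_cast this

theorem rk_union_le (M : Matroid α) (Z J : Set α) : rk M (Z ∪ J) ≤ rk M Z + J.ncard := by
  have h1 := rk_submod M Z J
  have h2 := rk_le_ncard M J
  omega

theorem rk_union_closure_left (M : Matroid α) (X Y : Set α) :
    rk M (M.closure X ∪ Y) = rk M (X ∪ Y) := by
  unfold rk
  rw [M.eRk_union_closure_left_eq]

/-- marginal ranks decrease -/
theorem rk_marg (M : Matroid α) {X Y : Set α} (h : X ⊆ Y) (A : Set α) :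
    rk M (Y ∪ A) + rk M X ≤ rk M (X ∪ A) + rk M Y := by
  have h1 := rk_submod M (X ∪ A) Y
  have h2 : X ⊆ (X ∪ A) ∩ Y := fun x hx => ⟨Or.inl hx, h hx⟩
  have h3 : Y ∪ A ⊆ (X ∪ A) ∪ Y := by
    rintro x (hx | hx)
    · exact Or.inr hx
    · exact Or.inl (Or.inr hx)
  have := rk_mono M h2
  have := rk_mono M h3
  omega

theorem subset_of_rk_le {Y Z : Set α} (hY : M.IsFlat Y) (hYZ : Y ⊆ Z) (hZ : Z ⊆ M.E)
    (h : rk M Z ≤ rk M Y) : Z ⊆ Y := by
  have h1 : M.eRk Z ≤ M.eRk Y := by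
    rw [← coe_rk, ← coe_rk]
    exact_mod_cast h
  have h2 : M.IsRkFinite Y := by
    rw [← Matroid.eRk_ne_top_iff, ← coe_rk]
    exact ENat.natCast_ne_top _
  have h3 := h2.closure_eq_closure_of_subset_of_eRk_ge_eRk hYZ h1
  rw [hY.closure] at h3
  rw [h3]
  exact M.subset_closure Z hZ

/-! ### independence over a set -/

/-- `J` is independent in `M / Z` -/
def IndOver (M : Matroid α) (Z J : Set α) : Prop := rk M (Z ∪ J) = rk M Z + J.ncard

theorem IndOver.subset {Z J J' : Set α} (h : IndOver M Z J) (hJ : J' ⊆ J) : IndOver M Z J' := by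
  unfold IndOver at *
  have h1 : rk M (Z ∪ J) ≤ rk M (Z ∪ J') + (J \ J').ncard := by
    have := rk_union_le M (Z ∪ J') (J \ J')
    rwa [Set.union_assoc, Set.union_sdiff_cancel hJ] at this
  have h2 := rk_union_le M Z J'
  have h3 := Set.ncard_sdiff_add_ncard_of_subset hJ
  omega

theorem IndOver.disjoint {Z J : Set α} (h : IndOver M Z J) : Disjoint Z J := by
  rw [Set.disjoint_left]
  intro x hx hx'
  have h1 := h.subset (J' := {x}) (by simpa using hx')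
  unfold IndOver at h1
  rw [Set.union_eq_self_of_subset_right (by simpa using hx)] at h1
  simp at h1

theorem IndOver.union {Z Z' Q Q' : Set α} (hZ : Z ⊆ Z') (hQ : Q ⊆ Z') (h : IndOver M Z Q)
    (h' : IndOver M Z' Q') : IndOver M Z (Q ∪ Q') := by
  have hd : Disjoint Q Q' := by
    rw [Set.disjoint_left]
    intro x hx hx'
    exact Set.disjoint_left.1 h'.disjoint (hQ hx) hx'
  have hc := Set.ncard_union_eq hd
  have h1 := rk_marg M (X := Z ∪ Q) (Y := Z') (Set.union_subset hZ hQ) Q'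
  unfold IndOver at *
  have h2 := rk_union_le M Z (Q ∪ Q')
  rw [← Set.union_assoc] at *
  omega

theorem IndOver.mono {Z Z' Q : Set α} (hZ : Z ⊆ Z') (h : IndOver M Z' Q) : IndOver M Z Q := by
  have h0 : IndOver M Z ∅ := by simp [IndOver]
  have := IndOver.union hZ (Set.empty_subset _) h0 h
  simpa using this

/-- circuits over `Z` -/
theorem exists_circ {Z J : Set α} (h : ¬ IndOver M Z J) :
    ∃ C ⊆ J, ¬ IndOver M Z C ∧ ∀ e ∈ C, IndOver M Z (C \ {e}) := by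
  classical
  have hne : ∃ n, ∃ C ⊆ J, ¬ IndOver M Z C ∧ C.ncard = n := ⟨_, J, subset_rfl, h, rfl⟩
  obtain ⟨C, hCJ, hC, hCn⟩ := Nat.find_spec hne
  refine ⟨C, hCJ, hC, fun e he => ?_⟩
  by_contra hcon
  have h1 := Nat.find_min' hne ⟨C \ {e}, sdiff_subset.trans hCJ, hcon, rfl⟩
  have h2 := Set.ncard_sdiff_singleton_add_one he C.toFinite
  omega

theorem circ_rk {Z C : Set α} (hC : ¬ IndOver M Z C) (hC' : ∀ e ∈ C, IndOver M Z (C \ {e})) {e : α}
    (he : e ∈ C) : rk M (Z ∪ C) = rk M (Z ∪ (C \ {e})) ∧ rk M (Z ∪ C) + 1 = rk M Z + C.ncard := by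
  have h1 := hC' e he
  have h2 := Set.ncard_sdiff_singleton_add_one he C.toFinite
  have h3 : rk M (Z ∪ (C \ {e})) ≤ rk M (Z ∪ C) :=
    rk_mono M (Set.union_subset_union_right _ sdiff_subset)
  have h4 := rk_union_le M Z C
  unfold IndOver at *
  omega

theorem circ_nonempty {Z C : Set α} (hC : ¬ IndOver M Z C) : C.Nonempty := by
  rw [Set.nonempty_iff_ne_empty]
  rintro rfl
  exact hC (by simp [IndOver])

/-- a circuit over `Z` whose part outside `Y ⊇ Z` is independent over `Y` lies in `Y` -/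
theorem circ_subset {Z C Y : Set α} (hC : ¬ IndOver M Z C) (hC' : ∀ e ∈ C, IndOver M Z (C \ {e}))
    (hZY : Z ⊆ Y) (hY : IndOver M Y (C \ Y)) : C ⊆ Y := by
  by_contra hcon
  obtain ⟨e, heC, heY⟩ := Set.not_subset.1 hcon
  have h1 := (circ_rk hC hC' heC).1
  have h2 := rk_marg M (X := Z ∪ (C \ {e})) (Y := Y ∪ (C \ {e}))
    (Set.union_subset_union_left _ hZY) {e}
  have h3 : Y ∪ (C \ {e}) ∪ {e} = Y ∪ C := by
    rw [Set.union_assoc, Set.sdiff_union_self, Set.union_eq_self_of_subset_right (t := {e})]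
    simpa using heC
  have h4 : Z ∪ (C \ {e}) ∪ {e} = Z ∪ C := by
    rw [Set.union_assoc, Set.sdiff_union_self, Set.union_eq_self_of_subset_right (t := {e})]
    simpa using heC
  rw [h3, h4] at h2
  have h5 : Y ∪ C = Y ∪ (C \ Y) := by rw [Set.union_sdiff_self]
  have h6 : Y ∪ (C \ {e}) ⊆ Y ∪ ((C \ Y) \ {e}) := by
    rintro x (hx | hx)
    · exact Or.inl hx
    · by_cases hxY : x ∈ Y
      · exact Or.inl hxY
      · exact Or.inr ⟨⟨hx.1, hxY⟩, hx.2⟩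
  have h7 := rk_mono M h6
  have h8 := rk_union_le M Y ((C \ Y) \ {e})
  have h9 := Set.ncard_sdiff_singleton_add_one (show e ∈ C \ Y from ⟨heC, heY⟩) (Set.toFinite _)
  unfold IndOver at hY
  rw [h5] at h2
  omega

/-! ### sparse flats and the operator -/

/-- `S` is `lam`-sparse over `Y` -/
def Sp (M : Matroid α) (lam : ℕ) (S Y : Set α) : Prop :=
  ∀ X, Y ⊆ X → ((S ∩ X) \ Y).ncard + lam * rk M Y ≤ lam * rk M X

theorem Sp.anti {lam : ℕ} {S S' Y : Set α} (h : Sp M lam S' Y) (hS : S ⊆ S') : Sp M lam S Y := by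
  intro X hX
  have h1 := h X hX
  have h2 : ((S ∩ X) \ Y).ncard ≤ ((S' ∩ X) \ Y).ncard :=
    Set.ncard_le_ncard (fun x hx => ⟨⟨hS hx.1.1, hx.1.2⟩, hx.2⟩) (Set.toFinite _)
  omega

/-- sparse over `Y`, for arbitrary `A` -/
theorem Sp.le {lam : ℕ} {S Y : Set α} (h : Sp M lam S Y) (A : Set α) :
    ((S ∩ A) \ Y).ncard + lam * rk M Y ≤ lam * rk M (Y ∪ A) := by
  have h1 := h (Y ∪ A) Set.subset_union_left
  have h2 : ((S ∩ A) \ Y).ncard ≤ ((S ∩ (Y ∪ A)) \ Y).ncard :=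
    Set.ncard_le_ncard (fun x hx => ⟨⟨hx.1.1, Or.inr hx.1.2⟩, hx.2⟩) (Set.toFinite _)
  omega

theorem Sp.inter {lam : ℕ} {S Y₁ Y₂ : Set α} (h₁ : Sp M lam S Y₁) (h₂ : Sp M lam S Y₂) :
    Sp M lam S (Y₁ ∩ Y₂) := by
  intro X hX
  have h3 := h₁.le X
  have h4 := h₂.le (X ∩ Y₁)
  have h5 := rk_marg M (X := X ∩ Y₁) (Y := Y₁) Set.inter_subset_right X
  have h6 := rk_marg M (X := Y₁ ∩ Y₂) (Y := Y₂) Set.inter_subset_right (X ∩ Y₁)
  have h7 : X ∩ Y₁ ∪ X = X := Set.union_eq_self_of_subset_left Set.inter_subset_left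
  have h8 : Y₁ ∩ Y₂ ∪ X ∩ Y₁ = X ∩ Y₁ :=
    Set.union_eq_self_of_subset_left (fun x hx => ⟨hX hx, hx.1⟩)
  rw [h7] at h5
  rw [h8] at h6
  have h9 : ((S ∩ X) \ (Y₁ ∩ Y₂)).ncard ≤
      ((S ∩ X) \ Y₁).ncard + ((S ∩ (X ∩ Y₁)) \ Y₂).ncard := by
    refine le_trans (Set.ncard_le_ncard ?_ (Set.toFinite _)) (Set.ncard_union_le _ _)
    intro x hx
    by_cases hx1 : x ∈ Y₁
    · exact Or.inr ⟨⟨hx.1.1, hx.1.2, hx1⟩, fun h => hx.2 ⟨hx1, h⟩⟩
    · exact Or.inl ⟨hx.1, hx1⟩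
  nlinarith [Nat.mul_le_mul_left lam h5, Nat.mul_le_mul_left lam h6]

/-- a nonempty family of sets (finite type) closed under intersections contains its intersection -/
theorem sInter_mem_of_inter {P : Set α → Prop} (hne : ∃ Y, P Y)
    (hinter : ∀ Y₁ Y₂, P Y₁ → P Y₂ → P (Y₁ ∩ Y₂)) : P (⋂₀ {Y | P Y}) := by
  classical
  have hex : ∃ n, ∃ Y, P Y ∧ Y.ncard = n := by
    obtain ⟨Y, hY⟩ := hne
    exact ⟨_, Y, hY, rfl⟩
  obtain ⟨Y, hY, hYn⟩ := Nat.find_spec hex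
  have : ⋂₀ {Y | P Y} = Y := by
    apply subset_antisymm
    · exact Set.sInter_subset_of_mem hY
    · refine Set.subset_sInter fun Y' hY' => ?_
      have h1 := Nat.find_min' hex ⟨Y ∩ Y', hinter _ _ hY hY', rfl⟩
      have h2 : Y ∩ Y' = Y := by
        refine Set.eq_of_subset_of_ncard_le Set.inter_subset_left ?_ (Set.toFinite _)
        omega
      rw [← h2]
      exact Set.inter_subset_right
  rw [this]
  exact hY

/-- the operator `F_lam(S)`: the smallest flat `Y ⊇ V` such that `S` is `lam`-sparse over `Y` -/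
def Fop (M : Matroid α) (lam : ℕ) (S V : Set α) : Set α :=
  ⋂₀ {Y | V ⊆ Y ∧ M.IsFlat Y ∧ Sp M lam S Y}

theorem Sp_ground (M : Matroid α) (lam : ℕ) {S : Set α} (hS : S ⊆ M.E) : Sp M lam S M.E := by
  intro X hX
  have h1 : (S ∩ X) \ M.E = ∅ := by
    ext x
    simp only [Set.mem_sdiff, Set.mem_inter_iff, Set.mem_empty_iff_false, iff_false]
    rintro ⟨⟨h1, _⟩, h2⟩
    exact h2 (hS h1)
  rw [h1]
  simp only [Set.ncard_empty, zero_add]
  exact Nat.mul_le_mul_left _ (rk_mono M hX)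

omit [Finite α] in
theorem isFlat_inter {F₁ F₂ : Set α} (h₁ : M.IsFlat F₁) (h₂ : M.IsFlat F₂) :
    M.IsFlat (F₁ ∩ F₂) := by
  rw [Set.inter_eq_iInter]
  refine Matroid.IsFlat.iInter fun b => ?_
  cases b
  · exact h₂
  · exact h₁

theorem Fop_spec (M : Matroid α) (lam : ℕ) {S V : Set α} (hS : S ⊆ M.E) (hV : V ⊆ M.E) :
    V ⊆ Fop M lam S V ∧ M.IsFlat (Fop M lam S V) ∧ Sp M lam S (Fop M lam S V) := by
  refine sInter_mem_of_inter (P := fun Y => V ⊆ Y ∧ M.IsFlat Y ∧ Sp M lam S Y)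
    ⟨M.E, hV, M.ground_isFlat, Sp_ground M lam hS⟩ ?_
  rintro Y₁ Y₂ ⟨h1, h2, h3⟩ ⟨h4, h5, h6⟩
  exact ⟨Set.subset_inter h1 h4, isFlat_inter h2 h5, h3.inter h6⟩

theorem Fop_subset_of {lam : ℕ} {S V Y : Set α} (hV : V ⊆ Y) (hY : M.IsFlat Y)
    (hSp : Sp M lam S Y) : Fop M lam S V ⊆ Y := Set.sInter_subset_of_mem ⟨hV, hY, hSp⟩

theorem Fop_ground {lam : ℕ} {S V : Set α} (hS : S ⊆ M.E) (hV : V ⊆ M.E) :
    Fop M lam S V ⊆ M.E := (Fop_spec M lam hS hV).2.1.subset_ground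

theorem Fop_mono_left {lam : ℕ} {S V V' : Set α} (hV : V ⊆ V') : Fop M lam S V ⊆ Fop M lam S V' :=
  Set.sInter_subset_sInter fun _ hY => ⟨hV.trans hY.1, hY.2⟩

theorem Fop_mono_right {lam : ℕ} {S S' V : Set α} (hS : S ⊆ S') :
    Fop M lam S V ⊆ Fop M lam S' V :=
  Set.sInter_subset_sInter fun _ hY => ⟨hY.1, hY.2.1, hY.2.2.anti hS⟩

/-- a flat minimiser of `lam r(X) + |S ∩ Z \ X|` in `[V, Z]`, `Z = F(V)`, is `Z` -/
theorem Fop_eq_of_min {lam : ℕ} {S V Y : Set α} (hS : S ⊆ M.E) (hV : V ⊆ M.E) (hVY : V ⊆ Y)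
    (hYZ : Y ⊆ Fop M lam S V) (hY : M.IsFlat Y)
    (hmin : ∀ X, V ⊆ X → X ⊆ Fop M lam S V →
      lam * rk M Y + ((S ∩ Fop M lam S V) \ Y).ncard ≤
        lam * rk M X + ((S ∩ Fop M lam S V) \ X).ncard) : Y = Fop M lam S V := by
  refine subset_antisymm hYZ (Fop_subset_of hVY hY ?_)
  intro X hX
  obtain ⟨_, _, hsp⟩ := Fop_spec M lam hS hV
  set Z := Fop M lam S V with hZ
  have h1 := hmin (X ∩ Z) (Set.subset_inter (hVY.trans hX) (hVY.trans hYZ)) Set.inter_subset_right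
  have h2 := hsp.le X
  have h3 := rk_submod M X Z
  have h4 : ((S ∩ Z) \ Y).ncard = ((S ∩ Z ∩ X) \ Y).ncard + ((S ∩ Z) \ X).ncard := by
    rw [← Set.ncard_union_eq]
    · congr 1
      ext x
      by_cases hxX : x ∈ X
      · simp [hxX]
      · have hxY : x ∉ Y := fun h => hxX (hX h)
        simp [hxX, hxY]
    · rw [Set.disjoint_left]
      rintro x hx hx'
      exact hx'.2 hx.1.2
  have h5 : ((S ∩ Z) \ (X ∩ Z)).ncard = ((S ∩ Z) \ X).ncard := by
    congr 1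
    ext x
    simp only [Set.mem_sdiff, Set.mem_inter_iff]
    tauto
  have h6 : ((S ∩ X) \ Y).ncard ≤ ((S ∩ Z ∩ X) \ Y).ncard + ((S ∩ X) \ Z).ncard := by
    refine le_trans (Set.ncard_le_ncard ?_ (Set.toFinite _)) (Set.ncard_union_le _ _)
    intro x hx
    by_cases hxZ : x ∈ Z
    · exact Or.inl ⟨⟨⟨hx.1.1, hxZ⟩, hx.1.2⟩, hx.2⟩
    · exact Or.inr ⟨hx.1, hxZ⟩
  rw [h5, h4] at h1
  rw [Set.union_comm Z X] at h2
  nlinarith [Nat.mul_le_mul_left lam h3]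

theorem exists_flat_min {lam : ℕ} {S V : Set α} (hS : S ⊆ M.E) (hV : V ⊆ M.E) :
    ∃ Y, V ⊆ Y ∧ Y ⊆ Fop M lam S V ∧ M.IsFlat Y ∧ ∀ X, V ⊆ X → X ⊆ Fop M lam S V →
      lam * rk M Y + ((S ∩ Fop M lam S V) \ Y).ncard ≤
        lam * rk M X + ((S ∩ Fop M lam S V) \ X).ncard := by
  classical
  obtain ⟨hVZ, hZf, _⟩ := Fop_spec M lam hS hV
  set Z := Fop M lam S V with hZ
  have hex : ∃ n, ∃ X, V ⊆ X ∧ X ⊆ Z ∧ lam * rk M X + ((S ∩ Z) \ X).ncard = n :=
    ⟨_, Z, hVZ, subset_rfl, rfl⟩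
  obtain ⟨X, hVX, hXZ, hXn⟩ := Nat.find_spec hex
  have hXE : X ⊆ M.E := hXZ.trans hZf.subset_ground
  refine ⟨M.closure X, hVX.trans (M.subset_closure X hXE), ?_, M.isFlat_closure X, fun X' h1 h2 => ?_⟩
  · rw [← hZf.closure]
    exact M.closure_subset_closure hXZ
  · have h3 := Nat.find_min' hex ⟨X', h1, h2, rfl⟩
    have h4 : ((S ∩ Z) \ M.closure X).ncard ≤ ((S ∩ Z) \ X).ncard :=
      Set.ncard_le_ncard (fun x hx => ⟨hx.1, fun h => hx.2 (M.subset_closure X hXE h)⟩)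
        (Set.toFinite _)
    rw [rk_closure]
    omega

/-- `F(V)` minimises `lam r(X) - |S ∩ X|` over `V ⊆ X ⊆ F(V)` -/
theorem Fop_le {lam : ℕ} {S V X : Set α} (hS : S ⊆ M.E) (hV : V ⊆ M.E) (hVX : V ⊆ X)
    (hXZ : X ⊆ Fop M lam S V) :
    lam * rk M (Fop M lam S V) ≤ lam * rk M X + ((S ∩ Fop M lam S V) \ X).ncard := by
  obtain ⟨Y, h1, h2, h3, h4⟩ := exists_flat_min (lam := lam) hS hV
  have h5 := Fop_eq_of_min hS hV h1 h2 h3 h4
  have h6 := h4 X hVX hXZ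
  rw [h5] at h6
  have h7 : (S ∩ Fop M lam S V) \ Fop M lam S V = ∅ := by
    ext x
    simp only [Set.mem_sdiff, Set.mem_inter_iff, Set.mem_empty_iff_false, iff_false]
    rintro ⟨⟨_, h1⟩, h2⟩
    exact h2 h1
  rw [h7] at h6
  simpa using h6

/-- strict version for flats -/
theorem Fop_lt {lam : ℕ} {S V Y : Set α} (hS : S ⊆ M.E) (hV : V ⊆ M.E) (hVY : V ⊆ Y)
    (hYZ : Y ⊆ Fop M lam S V) (hY : M.IsFlat Y) (hne : Y ≠ Fop M lam S V) :
    lam * rk M (Fop M lam S V) < lam * rk M Y + ((S ∩ Fop M lam S V) \ Y).ncard := by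
  by_contra hcon
  push Not at hcon
  refine hne (Fop_eq_of_min hS hV hVY hYZ hY fun X h1 h2 => ?_)
  exact hcon.trans (Fop_le hS hV h1 h2)

end Crest.Agent.MS
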