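import Crest.Agent.MS.Time
import Crest.Agent.MS.Ops

/-!
Row 305 (S0468): the concrete lattice of pairs of flats (frozen, current) and the batch process.
Author: helper41.
-/

set_option autoImplicit false
set_option linter.unusedSectionVars false

namespace Crest.Agent.MS

open Set

variable {α : Type*} [Finite α]

/-- pairs (frozen flat ≤ current flat) -/
@[ext]
structure FPair (M : Matroid α) where
  cur : Set α
  frz : Set α
  cur_flat : M.IsFlat cur
  frz_flat : M.IsFlat frz
  frz_le : frz ⊆ cur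

namespace FPair

variable {M : Matroid α}

instance : PartialOrder (FPair M) where
  le V V' := V.cur ⊆ V'.cur ∧ V.frz ⊆ V'.frz
  le_refl V := ⟨subset_rfl, subset_rfl⟩
  le_trans V V' V'' h h' := ⟨h.1.trans h'.1, h.2.trans h'.2⟩
  le_antisymm V V' h h' := FPair.ext (subset_antisymm h.1 h'.1) (subset_antisymm h.2 h'.2)

omit [Finite α] in
lemma le_def {V V' : FPair M} : V ≤ V' ↔ V.cur ⊆ V'.cur ∧ V.frz ⊆ V'.frz := Iff.rfl

omit [Finite α] in
lemma cur_mono {V V' : FPair M} (h : V ≤ V') : V.cur ⊆ V'.cur := h.1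

omit [Finite α] in
lemma frz_mono {V V' : FPair M} (h : V ≤ V') : V.frz ⊆ V'.frz := h.2

/-- add an element to the current flat -/
def addEl (V : FPair M) (z : α) : FPair M where
  cur := M.closure (insert z V.cur)
  frz := V.frz
  cur_flat := M.isFlat_closure _
  frz_flat := V.frz_flat
  frz_le := V.frz_le.trans (by
    have h1 : V.cur = M.closure V.cur := V.cur_flat.closure.symm
    rw [h1]
    refine (M.closure_subset_closure ?_)
    rw [← h1]
    exact subset_insert _ _)

omit [Finite α] in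
@[simp] lemma addEl_frz (V : FPair M) (z : α) : (V.addEl z).frz = V.frz := rfl

omit [Finite α] in
@[simp] lemma addEl_cur (V : FPair M) (z : α) : (V.addEl z).cur = M.closure (insert z V.cur) := rfl

omit [Finite α] in
lemma cur_subset_addEl (V : FPair M) (z : α) : V.cur ⊆ (V.addEl z).cur := by
  have h1 : V.cur = M.closure V.cur := V.cur_flat.closure.symm
  rw [addEl_cur]
  conv_lhs => rw [h1]
  exact M.closure_subset_closure (subset_insert _ _)

/-- the dynamics: membership is tested on the frozen flat -/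
def dyn (M : Matroid α) : Dyn α (FPair M) where
  mem z V := z ∈ V.frz
  add V z := V.addEl z
  add_mono {V V'} z h := ⟨M.closure_subset_closure (insert_subset_insert h.1), h.2⟩
  le_add V z := ⟨cur_subset_addEl V z, subset_rfl⟩
  mem_mono h hz := h.2 hz
  add_of_mem {V z} hz := by
    refine FPair.ext ?_ rfl
    rw [addEl_cur, insert_eq_of_mem (V.frz_le hz), V.cur_flat.closure]

omit [Finite α] in
@[simp] lemma dyn_mem (V : FPair M) (z : α) : (dyn M).mem z V ↔ z ∈ V.frz := Iff.rfl

omit [Finite α] in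
@[simp] lemma dyn_add (V : FPair M) (z : α) : (dyn M).add V z = V.addEl z := rfl

/-- the bottom -/
def bot (M : Matroid α) : FPair M where
  cur := M.closure ∅
  frz := M.closure ∅
  cur_flat := M.isFlat_closure _
  frz_flat := M.isFlat_closure _
  frz_le := subset_rfl

/-- a monotone, flat-valued operator acting on both flats (and re-freezing) -/
def opp (M : Matroid α) (F : Set α → Set α) (hF : ∀ V, M.IsFlat V → M.IsFlat (F V))
    (hmono : ∀ V V', M.IsFlat V → M.IsFlat V' → V ⊆ V' → F V ⊆ F V') : FPair M →o FPair M where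
  toFun V := ⟨F V.cur, F V.cur, hF _ V.cur_flat, hF _ V.cur_flat, subset_rfl⟩
  monotone' V V' h := ⟨hmono _ _ V.cur_flat V'.cur_flat h.1, hmono _ _ V.cur_flat V'.cur_flat h.1⟩

end FPair

open Crest.Agent.MS.FPair

variable {M : Matroid α}

/-- a list of elements as a list of steps -/
def els (Q : List α) : List (Step α (FPair M)) := Q.map Sum.inl

section batch

variable (X : List (Step α (FPair M))) (c : α → Bool)

/-- `z` reaches level `m` -/
lemma reach_congr {X X' : List (Step α (FPair M))}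
    (h : ∀ m, ((dyn M).Wf (bot M) m X c).frz = ((dyn M).Wf (bot M) m X' c).frz) (z : α) (m : ℕ) :
    (dyn M).Reach (bot M) X c z m ↔ (dyn M).Reach (bot M) X' c z m := by
  cases m with
  | zero => exact Iff.rfl
  | succ m =>
    show z ∈ ((dyn M).Wf (bot M) m X c).frz ↔ z ∈ ((dyn M).Wf (bot M) m X' c).frz
    rw [h m]

lemma Wf_els_frz (Q : List α) (m : ℕ) :
    ((dyn M).Wf (bot M) m (X ++ els Q) c).frz = ((dyn M).Wf (bot M) m X c).frz := by
  induction Q using List.reverseRecOn with
  | nil => simp [els]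
  | append_singleton Q z ih =>
    have : X ++ els (M := M) (Q ++ [z]) = (X ++ els Q) ++ [Sum.inl z] := by simp [els]
    rw [this, Dyn.Wf_append_inl]
    split_ifs
    · simpa using ih
    · exact ih

lemma Yf_els_frz (Q : List α) (m : ℕ) :
    ((dyn M).Yf (bot M) m (X ++ els Q) c).frz = ((dyn M).Yf (bot M) m X c).frz := by
  induction Q using List.reverseRecOn with
  | nil => simp [els]
  | append_singleton Q z ih =>
    have : X ++ els (M := M) (Q ++ [z]) = (X ++ els Q) ++ [Sum.inl z] := by simp [els]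
    rw [this, Dyn.Yf_append_inl]
    split_ifs
    · simpa using ih
    · exact ih

/-- the `W` flat after a batch -/
lemma Wf_els_cur (Q : List α) (m : ℕ) :
    ((dyn M).Wf (bot M) m (X ++ els Q) c).cur =
      M.closure (((dyn M).Wf (bot M) m X c).cur ∪
        {z | z ∈ Q ∧ (dyn M).Reach (bot M) X c z m ∧ c z = true}) := by
  induction Q using List.reverseRecOn with
  | nil =>
    simp [els, ((dyn M).Wf (bot M) m X c).cur_flat.closure]
  | append_singleton Q z ih =>
    have e : X ++ els (M := M) (Q ++ [z]) = (X ++ els Q) ++ [Sum.inl z] := by simp [els]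
    rw [e, Dyn.Wf_append_inl]
    have hr : (dyn M).Reach (bot M) (X ++ els Q) c z m ↔ (dyn M).Reach (bot M) X c z m :=
      reach_congr c (fun m => Wf_els_frz X c Q m) z m
    by_cases h : (dyn M).Reach (bot M) X c z m ∧ c z = true
    · rw [if_pos (by rw [hr]; exact h)]
      rw [dyn_add, addEl_cur, ih, M.closure_insert_closure_eq_closure_insert]
      congr 1
      ext y
      simp only [mem_insert_iff, mem_union, mem_ofPred_eq, List.mem_append, List.mem_singleton]
      constructor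
      · rintro (rfl | h' | h')
        · exact Or.inr ⟨Or.inr rfl, h⟩
        · exact Or.inl h'
        · exact Or.inr ⟨Or.inl h'.1, h'.2⟩
      · rintro (h' | ⟨h' | rfl, h''⟩)
        · exact Or.inr (Or.inl h')
        · exact Or.inr (Or.inr ⟨h', h''⟩)
        · exact Or.inl rfl
    · rw [if_neg (by rw [hr]; exact h), ih]
      congr 1
      ext y
      simp only [mem_union, mem_ofPred_eq, List.mem_append, List.mem_singleton]
      constructor
      · rintro (h' | h')
        · exact Or.inl h'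
        · exact Or.inr ⟨Or.inl h'.1, h'.2⟩
      · rintro (h' | ⟨h' | rfl, h''⟩)
        · exact Or.inl h'
        · exact Or.inr ⟨h', h''⟩
        · exact absurd h'' h

/-- the `Y` flat after a batch -/
lemma Yf_els_cur (Q : List α) (m : ℕ) :
    ((dyn M).Yf (bot M) m (X ++ els Q) c).cur =
      M.closure (((dyn M).Yf (bot M) m X c).cur ∪
        {z | z ∈ Q ∧ (dyn M).Reach (bot M) X c z m ∧
          (z ∈ ((dyn M).Wf (bot M) m X c).frz ↔ c z = true)}) := by
  induction Q using List.reverseRecOn with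
  | nil =>
    simp [els, ((dyn M).Yf (bot M) m X c).cur_flat.closure]
  | append_singleton Q z ih =>
    have e : X ++ els (M := M) (Q ++ [z]) = (X ++ els Q) ++ [Sum.inl z] := by simp [els]
    rw [e, Dyn.Yf_append_inl]
    have hr : (dyn M).Reach (bot M) (X ++ els Q) c z m ↔ (dyn M).Reach (bot M) X c z m :=
      reach_congr c (fun m => Wf_els_frz X c Q m) z m
    have hf := Wf_els_frz X c Q m
    by_cases h : (dyn M).Reach (bot M) X c z m ∧
        (z ∈ ((dyn M).Wf (bot M) m X c).frz ↔ c z = true)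
    · rw [if_pos (by rw [hr, dyn_mem, hf]; exact h)]
      rw [dyn_add, addEl_cur, ih, M.closure_insert_closure_eq_closure_insert]
      congr 1
      ext y
      simp only [mem_insert_iff, mem_union, mem_ofPred_eq, List.mem_append, List.mem_singleton]
      constructor
      · rintro (rfl | h' | h')
        · exact Or.inr ⟨Or.inr rfl, h⟩
        · exact Or.inl h'
        · exact Or.inr ⟨Or.inl h'.1, h'.2⟩
      · rintro (h' | ⟨h' | rfl, h''⟩)
        · exact Or.inr (Or.inl h')
        · exact Or.inr (Or.inr ⟨h', h''⟩)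
        · exact Or.inl rfl
    · rw [if_neg (by rw [hr, dyn_mem, hf]; exact h), ih]
      congr 1
      ext y
      simp only [mem_union, mem_ofPred_eq, List.mem_append, List.mem_singleton]
      constructor
      · rintro (h' | h')
        · exact Or.inl h'
        · exact Or.inr ⟨Or.inl h'.1, h'.2⟩
      · rintro (h' | ⟨h' | rfl, h''⟩)
        · exact Or.inl h'
        · exact Or.inr ⟨h', h''⟩
        · exact absurd h'' h

end batch

/-! ### the class-structured process -/

/-- Data of the process: for each class an operator on flats and a list of elements. -/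
structure ProcData (M : Matroid α) where
  F : ℕ → Set α → Set α
  flat : ∀ i V, M.IsFlat V → M.IsFlat (F i V)
  mono : ∀ i V V', M.IsFlat V → M.IsFlat V' → V ⊆ V' → F i V ⊆ F i V'
  ext : ∀ i V, M.IsFlat V → V ⊆ F i V
  fix : ∀ i, F i (M.closure ∅) = M.closure ∅
  Q : ℕ → List α

namespace ProcData

variable (P : ProcData M)

/-- the operator step of class `i` -/
def op (i : ℕ) : FPair M →o FPair M := FPair.opp M (P.F i) (P.flat i) (P.mono i)

/-- stream of the classes `< i` -/
def Xs : ℕ → List (Step α (FPair M))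
  | 0 => []
  | i + 1 => Xs i ++ [Sum.inr (P.op i)] ++ els (P.Q i)

/-- `W_m` before class `i` -/
def W (c : α → Bool) (i m : ℕ) : Set α := ((dyn M).Wf (bot M) m (P.Xs i) c).cur
/-- `Y_m` before class `i` -/
def Y (c : α → Bool) (i m : ℕ) : Set α := ((dyn M).Yf (bot M) m (P.Xs i) c).cur
/-- `W_m` at the start of class `i` (after the operator) -/
def V (c : α → Bool) (i m : ℕ) : Set α := P.F i (P.W c i m)
/-- `Y_m` at the start of class `i` (after the operator) -/
def VY (c : α → Bool) (i m : ℕ) : Set α := P.F i (P.Y c i m)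

lemma W_flat (c : α → Bool) (i m : ℕ) : M.IsFlat (P.W c i m) :=
  ((dyn M).Wf (bot M) m (P.Xs i) c).cur_flat
lemma Y_flat (c : α → Bool) (i m : ℕ) : M.IsFlat (P.Y c i m) :=
  ((dyn M).Yf (bot M) m (P.Xs i) c).cur_flat
lemma V_flat (c : α → Bool) (i m : ℕ) : M.IsFlat (P.V c i m) := P.flat i _ (P.W_flat c i m)
lemma VY_flat (c : α → Bool) (i m : ℕ) : M.IsFlat (P.VY c i m) := P.flat i _ (P.Y_flat c i m)

lemma V_eq (c : α → Bool) (i m : ℕ) :
    ((dyn M).Wf (bot M) m (P.Xs i ++ [Sum.inr (P.op i)]) c).cur = P.V c i m := by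
  rw [Dyn.Wf_append_inr]; rfl
lemma V_eq' (c : α → Bool) (i m : ℕ) :
    ((dyn M).Wf (bot M) m (P.Xs i ++ [Sum.inr (P.op i)]) c).frz = P.V c i m := by
  rw [Dyn.Wf_append_inr]; rfl
lemma VY_eq (c : α → Bool) (i m : ℕ) :
    ((dyn M).Yf (bot M) m (P.Xs i ++ [Sum.inr (P.op i)]) c).cur = P.VY c i m := by
  rw [Dyn.Yf_append_inr]; rfl

lemma W_succ_le (c : α → Bool) (i m : ℕ) : P.W c i (m + 1) ⊆ P.W c i m :=
  ((dyn M).Wf_succ_le_Wf (bot M) m (P.Xs i) c).1
lemma W_succ_le_Y (c : α → Bool) (i m : ℕ) : P.W c i (m + 1) ⊆ P.Y c i m :=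
  ((dyn M).Wf_succ_le_Yf (bot M) m (P.Xs i) c).1
lemma Y_succ_le_W (c : α → Bool) (i m : ℕ) : P.Y c i (m + 1) ⊆ P.W c i m :=
  ((dyn M).Yf_succ_le_Wf (bot M) m (P.Xs i) c).1
lemma V_succ_le (c : α → Bool) (i m : ℕ) : P.V c i (m + 1) ⊆ P.V c i m :=
  P.mono i _ _ (P.W_flat c i _) (P.W_flat c i _) (P.W_succ_le c i m)
lemma V_succ_le_VY (c : α → Bool) (i m : ℕ) : P.V c i (m + 1) ⊆ P.VY c i m :=
  P.mono i _ _ (P.W_flat c i _) (P.Y_flat c i _) (P.W_succ_le_Y c i m)
lemma VY_succ_le_V (c : α → Bool) (i m : ℕ) : P.VY c i (m + 1) ⊆ P.V c i m :=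
  P.mono i _ _ (P.Y_flat c i _) (P.W_flat c i _) (P.Y_succ_le_W c i m)

lemma W_anti (c : α → Bool) (i : ℕ) {m m' : ℕ} (h : m ≤ m') : P.W c i m' ⊆ P.W c i m :=
  ((dyn M).Wf_anti (bot M) (P.Xs i) c h).1

lemma V_anti (c : α → Bool) (i : ℕ) {m m' : ℕ} (h : m ≤ m') : P.V c i m' ⊆ P.V c i m :=
  P.mono i _ _ (P.W_flat c i _) (P.W_flat c i _) (P.W_anti c i h)

/-- elements of class `i` which reach level `m` -/
def reach (c : α → Bool) (i : ℕ) : ℕ → Set α
  | 0 => {z | z ∈ P.Q i}
  | m + 1 => {z | z ∈ P.Q i ∧ z ∈ P.V c i m}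

/-- elements of class `i` of level exactly `m` -/
def lev (c : α → Bool) (i m : ℕ) : Set α := P.reach c i m \ P.V c i m

/-- `A`-elements of level `m` -/
def Ael (c : α → Bool) (i m : ℕ) : Set α := {z | z ∈ P.lev c i m ∧ c z = true}
/-- `R`-elements of level `m` (candidates) -/
def Cel (c : α → Bool) (i m : ℕ) : Set α := {z | z ∈ P.lev c i m ∧ c z = false}

lemma reach_iff (c : α → Bool) (i m : ℕ) (z : α) :
    (z ∈ P.Q i ∧ (dyn M).Reach (bot M) (P.Xs i ++ [Sum.inr (P.op i)]) c z m) ↔
      z ∈ P.reach c i m := by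
  cases m with
  | zero => simp [Dyn.Reach, reach]
  | succ m =>
    show (z ∈ P.Q i ∧ z ∈ ((dyn M).Wf (bot M) m (P.Xs i ++ [Sum.inr (P.op i)]) c).frz) ↔
      z ∈ P.reach c i (m + 1)
    rw [P.V_eq']
    rfl

lemma reach_subset (c : α → Bool) (i m : ℕ) : P.reach c i m ⊆ {z | z ∈ P.Q i} := by
  cases m with
  | zero => exact subset_rfl
  | succ m => exact fun z hz => hz.1

lemma reach_anti (c : α → Bool) (i : ℕ) {m m' : ℕ} (h : m ≤ m') :
    P.reach c i m' ⊆ P.reach c i m := by
  intro z hz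
  cases m with
  | zero => exact P.reach_subset c i m' hz
  | succ m =>
    obtain ⟨m'', rfl⟩ : ∃ m'', m' = m'' + 1 := ⟨m' - 1, by omega⟩
    exact ⟨hz.1, P.V_anti c i (by omega) hz.2⟩

lemma W_succ_eq' (c : α → Bool) (i m : ℕ) :
    P.W c (i + 1) m = M.closure (P.V c i m ∪ {z | z ∈ P.reach c i m ∧ c z = true}) := by
  have h := Wf_els_cur (M := M) (P.Xs i ++ [Sum.inr (P.op i)]) c (P.Q i) m
  rw [V_eq] at h
  refine h.trans ?_
  congr 2
  ext z
  simp only [mem_ofPred_eq]
  rw [← P.reach_iff c i m z]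
  tauto

lemma Y_succ_eq' (c : α → Bool) (i m : ℕ) :
    P.Y c (i + 1) m = M.closure (P.VY c i m ∪
      {z | z ∈ P.reach c i m ∧ (z ∈ P.V c i m ↔ c z = true)}) := by
  have h := Yf_els_cur (M := M) (P.Xs i ++ [Sum.inr (P.op i)]) c (P.Q i) m
  rw [VY_eq, V_eq'] at h
  refine h.trans ?_
  congr 2
  ext z
  simp only [mem_ofPred_eq]
  rw [← P.reach_iff c i m z]
  tauto

/-- `W_m` after class `i` -/
lemma W_succ_eq (c : α → Bool) (i m : ℕ) :
    P.W c (i + 1) m = M.closure (P.V c i m ∪ P.Ael c i m) := by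
  rw [W_succ_eq']
  congr 1
  ext z
  simp only [Ael, lev, mem_union, mem_ofPred_eq, mem_sdiff]
  tauto

lemma VY_subset_Y_succ (c : α → Bool) (i m : ℕ) : P.VY c i m ⊆ P.Y c (i + 1) m := by
  rw [Y_succ_eq']
  intro z hz
  exact M.mem_closure_of_mem' (Or.inl hz) ((P.VY_flat c i m).subset_ground hz)

lemma V_subset_W_succ (c : α → Bool) (i m : ℕ) : P.V c i m ⊆ P.W c (i + 1) m := by
  rw [W_succ_eq']
  intro z hz
  exact M.mem_closure_of_mem' (Or.inl hz) ((P.V_flat c i m).subset_ground hz)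

lemma W_subset_V (c : α → Bool) (i m : ℕ) : P.W c i m ⊆ P.V c i m := P.ext i _ (P.W_flat c i m)
lemma Y_subset_VY (c : α → Bool) (i m : ℕ) : P.Y c i m ⊆ P.VY c i m := P.ext i _ (P.Y_flat c i m)

lemma Cel_subset_Y_succ (hE : ∀ i, ∀ z ∈ P.Q i, z ∈ M.E) (c : α → Bool) (i m : ℕ) :
    P.Cel c i m ⊆ P.Y c (i + 1) m := by
  rw [Y_succ_eq']
  intro z hz
  refine M.mem_closure_of_mem' (Or.inr ?_) (hE i z (P.reach_subset c i m hz.1.1))
  exact ⟨hz.1.1, by
    constructor
    · intro h; exact absurd h hz.1.2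
    · intro h; rw [hz.2] at h; exact absurd h (by decide)⟩

lemma W_mono_time (c : α → Bool) {i j : ℕ} (h : i ≤ j) (m : ℕ) : P.W c i m ⊆ P.W c j m := by
  induction h with
  | refl => exact subset_rfl
  | step _ ih => exact ih.trans ((P.W_subset_V c _ m).trans (P.V_subset_W_succ c _ m))

lemma Y_mono_time (c : α → Bool) {i j : ℕ} (h : i ≤ j) (m : ℕ) : P.Y c i m ⊆ P.Y c j m := by
  induction h with
  | refl => exact subset_rfl
  | step _ ih => exact ih.trans ((P.Y_subset_VY c _ m).trans (P.VY_subset_Y_succ c _ m))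

/-- lighter candidates of level `m` -/
def Dl (c : α → Bool) (i m : ℕ) : Set α := ⋃ j ∈ Set.Iio i, P.Cel c j m

lemma Dl_subset_Y (hE : ∀ i, ∀ z ∈ P.Q i, z ∈ M.E) (c : α → Bool) (i m : ℕ) :
    P.Dl c i m ⊆ P.Y c i m := by
  intro z hz
  simp only [Dl, mem_iUnion, mem_Iio] at hz
  obtain ⟨j, hj, hz⟩ := hz
  exact P.Y_mono_time c (Nat.succ_le_of_lt hj) m (P.Cel_subset_Y_succ hE c j m hz)

end ProcData

end Crest.Agent.MS
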