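import Mathlib

/-!
Row 305 (S0468), module "bins": abstract dynamics of nested flats, the exchange law, freshness of
coins, and (in `LemG`) Lemma G.  Author: helper41.
-/

set_option autoImplicit false

namespace Crest.Agent.MS

open Finset

/-! ### averages over a finite type -/

/-- average of a real function over a finite type -/
noncomputable def avg {Ω : Type*} [Fintype Ω] (φ : Ω → ℝ) : ℝ :=
  (∑ ω, φ ω) / (Fintype.card Ω : ℝ)

section avg
variable {Ω : Type*} [Fintype Ω]

lemma avg_add (φ ψ : Ω → ℝ) : avg (fun ω => φ ω + ψ ω) = avg φ + avg ψ := by
  unfold avg; rw [Finset.sum_add_distrib, add_div]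

lemma avg_sub (φ ψ : Ω → ℝ) : avg (fun ω => φ ω - ψ ω) = avg φ - avg ψ := by
  unfold avg; rw [Finset.sum_sub_distrib, sub_div]

lemma avg_mul_left (a : ℝ) (φ : Ω → ℝ) : avg (fun ω => a * φ ω) = a * avg φ := by
  unfold avg; rw [← Finset.mul_sum, mul_div_assoc]

lemma avg_div (a : ℝ) (φ : Ω → ℝ) : avg (fun ω => φ ω / a) = avg φ / a := by
  unfold avg; rw [← Finset.sum_div, div_right_comm]

lemma avg_congr {φ ψ : Ω → ℝ} (h : ∀ ω, φ ω = ψ ω) : avg φ = avg ψ := by
  unfold avg; rw [Finset.sum_congr rfl (fun ω _ => h ω)]

lemma avg_le {φ ψ : Ω → ℝ} (h : ∀ ω, φ ω ≤ ψ ω) : avg φ ≤ avg ψ := by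
  unfold avg
  exact div_le_div_of_nonneg_right (Finset.sum_le_sum fun ω _ => h ω) (by positivity)

lemma avg_nonneg {φ : Ω → ℝ} (h : ∀ ω, 0 ≤ φ ω) : 0 ≤ avg φ := by
  unfold avg
  exact div_nonneg (Finset.sum_nonneg fun ω _ => h ω) (by positivity)

lemma avg_sum {ι : Type*} (s : Finset ι) (φ : ι → Ω → ℝ) :
    avg (fun ω => ∑ i ∈ s, φ i ω) = ∑ i ∈ s, avg (φ i) := by
  unfold avg; rw [Finset.sum_comm, Finset.sum_div]

lemma avg_const [Nonempty Ω] (a : ℝ) : avg (fun _ : Ω => a) = a := by
  unfold avg
  have h : (Fintype.card Ω : ℝ) ≠ 0 := by exact_mod_cast Fintype.card_ne_zero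
  rw [Finset.sum_const, Finset.card_univ, nsmul_eq_mul]
  field_simp

lemma avg_comp_equiv {Ω' : Type*} [Fintype Ω'] (e : Ω' ≃ Ω) (φ : Ω → ℝ) :
    avg (fun ω => φ (e ω)) = avg φ := by
  unfold avg; rw [Equiv.sum_comp e φ, Fintype.card_congr e]

end avg

section coins
variable {β : Type*} [Fintype β] [DecidableEq β]

/-- flip the coin of `z` -/
def flipAt (z : β) : (β → Bool) ≃ (β → Bool) where
  toFun c := Function.update c z (!(c z))
  invFun c := Function.update c z (!(c z))
  left_inv c := by
    funext e
    by_cases h : e = z
    · subst h; simp
    · simp [Function.update_of_ne h]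
  right_inv c := by
    funext e
    by_cases h : e = z
    · subst h; simp
    · simp [Function.update_of_ne h]

lemma avg_split (z : β) (φ : (β → Bool) → ℝ) :
    avg φ = (avg (fun c => φ (Function.update c z true)) +
      avg (fun c => φ (Function.update c z false))) / 2 := by
  have h1 : ∀ c : β → Bool, φ (Function.update c z true) + φ (Function.update c z false) =
      φ c + φ (flipAt z c) := by
    intro c
    rcases hb : c z with _ | _
    · have e1 : Function.update c z false = c := by
        rw [← hb]; exact Function.update_eq_self z c
      have e2 : flipAt z c = Function.update c z true := by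
        simp [flipAt, hb]
      rw [e1, e2, add_comm]
    · have e1 : Function.update c z true = c := by
        rw [← hb]; exact Function.update_eq_self z c
      have e2 : flipAt z c = Function.update c z false := by
        simp [flipAt, hb]
      rw [e1, e2]
  rw [← avg_add]
  rw [avg_congr h1, avg_add, avg_comp_equiv (flipAt z) φ]
  ring

/-- `φ` depends only on the coins of the elements of `S`. -/
def DependsOn' {γ : Type*} (φ : (β → Bool) → γ) (S : Set β) : Prop :=
  ∀ c c' : β → Bool, (∀ e ∈ S, c e = c' e) → φ c = φ c'

/-- complement of a coin vector -/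
def bnot (c : β → Bool) : β → Bool := fun e => !(c e)

omit [Fintype β] in
lemma bnot_update (c : β → Bool) (z : β) (b : Bool) :
    bnot (Function.update c z b) = Function.update (bnot c) z (!b) := by
  funext e
  by_cases h : e = z
  · subst h; simp [bnot]
  · simp [bnot, Function.update_of_ne h]

omit [Fintype β] [DecidableEq β] in
@[simp] lemma bnot_bnot (c : β → Bool) : bnot (bnot c) = c := by
  funext e; simp [bnot]

lemma avg_bnot (φ : (β → Bool) → ℝ) : avg (fun c => φ (bnot c)) = avg φ := by
  let e : (β → Bool) ≃ (β → Bool) :=
    ⟨bnot, bnot, fun c => bnot_bnot c, fun c => bnot_bnot c⟩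
  exact avg_comp_equiv e φ

end coins

/-! ### the dynamics -/

/-- Abstract lattice-of-flats dynamics: `mem e V` means "e lies in the flat V", `add V e` is the
flat spanned by `V` and `e`. -/
structure Dyn (β L : Type*) [PartialOrder L] where
  mem : β → L → Prop
  add : L → β → L
  add_mono : ∀ {V V' : L} (e : β), V ≤ V' → add V e ≤ add V' e
  le_add : ∀ (V : L) (e : β), V ≤ add V e
  mem_mono : ∀ {e : β} {V V' : L}, V ≤ V' → mem e V → mem e V'
  add_of_mem : ∀ {V : L} {e : β}, mem e V → add V e = V

variable {β L : Type*} [PartialOrder L]

/-- a step of a stream: an element, or a monotone operator applied to all flats -/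
abbrev Step (β L : Type*) [PartialOrder L] := β ⊕ (L →o L)

/-- elements of a stream -/
def elems : List (Step β L) → List β
  | [] => []
  | Sum.inl z :: X => z :: elems X
  | Sum.inr _ :: X => elems X

namespace Dyn

variable (D : Dyn β L)

open Classical in
/-- start with `V`, add all elements with coin `true`, apply all operators -/
noncomputable def run : L → List (Step β L) → (β → Bool) → L
  | V, [], _ => V
  | V, Sum.inl z :: X, c => if c z = true then run (D.add V z) X c else run V X c
  | V, Sum.inr F :: X, c => run (F V) X c

open Classical in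
/-- the substream of elements which lie in the current flat (started from `V`), operators kept -/
noncomputable def filt : L → List (Step β L) → (β → Bool) → List (Step β L)
  | _, [], _ => []
  | V, Sum.inl z :: X, c =>
      if D.mem z V then Sum.inl z :: filt V X c
      else if c z = true then filt (D.add V z) X c else filt V X c
  | V, Sum.inr F :: X, c => Sum.inr F :: filt (F V) X c

open Classical in
/-- the `Y` flat: elements outside the current flat with coin `false`, elements inside with coin
`true` -/
noncomputable def runY : L → L → List (Step β L) → (β → Bool) → L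
  | _, Y, [], _ => Y
  | V, Y, Sum.inl z :: X, c =>
      if D.mem z V then (if c z = true then runY V (D.add Y z) X c else runY V Y X c)
      else (if c z = true then runY (D.add V z) Y X c else runY V (D.add Y z) X c)
  | V, Y, Sum.inr F :: X, c => runY (F V) (F Y) X c

open Classical in
/-- three flats process -/
noncomputable def run3 : L → L → L → List (Step β L) → (β → Bool) → L × L × L
  | V', V1, V2, [], _ => (V', V1, V2)
  | V', V1, V2, Sum.inl z :: X, c =>
      if D.mem z V' then
        (if c z = true then run3 V' (D.add V1 z) V2 X c else run3 V' V1 (D.add V2 z) X c)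
      else (if c z = true then run3 (D.add V' z) V1 V2 X c else run3 V' V1 V2 X c)
  | V', V1, V2, Sum.inr F :: X, c => run3 (F V') (F V1) (F V2) X c

/-! dependence on coins -/

lemma run_congr (X : List (Step β L)) : ∀ (V : L) (c c' : β → Bool),
    (∀ e ∈ elems X, c e = c' e) → D.run V X c = D.run V X c' := by
  induction X with
  | nil => intro V c c' _; rfl
  | cons s X ih =>
    intro V c c' h
    cases s with
    | inl z =>
      have hz : c z = c' z := h z (by simp [elems])
      have ht : ∀ e ∈ elems X, c e = c' e := fun e he => h e (by simp [elems, he])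
      simp only [run, hz]
      split_ifs
      · exact ih _ _ _ ht
      · exact ih _ _ _ ht
    | inr F =>
      have ht : ∀ e ∈ elems X, c e = c' e := fun e he => h e (by simpa [elems] using he)
      simp only [run]
      exact ih _ _ _ ht

lemma filt_congr (X : List (Step β L)) : ∀ (V : L) (c c' : β → Bool),
    (∀ e ∈ elems X, c e = c' e) → D.filt V X c = D.filt V X c' := by
  induction X with
  | nil => intro V c c' _; rfl
  | cons s X ih =>
    intro V c c' h
    cases s with
    | inl z =>
      have hz : c z = c' z := h z (by simp [elems])
      have ht : ∀ e ∈ elems X, c e = c' e := fun e he => h e (by simp [elems, he])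
      simp only [filt, hz]
      split_ifs
      · rw [ih _ _ _ ht]
      · exact ih _ _ _ ht
      · exact ih _ _ _ ht
    | inr F =>
      have ht : ∀ e ∈ elems X, c e = c' e := fun e he => h e (by simpa [elems] using he)
      simp only [filt]
      rw [ih _ _ _ ht]

lemma runY_congr (X : List (Step β L)) : ∀ (V Y : L) (c c' : β → Bool),
    (∀ e ∈ elems X, c e = c' e) → D.runY V Y X c = D.runY V Y X c' := by
  induction X with
  | nil => intro V Y c c' _; rfl
  | cons s X ih =>
    intro V Y c c' h
    cases s with
    | inl z =>
      have hz : c z = c' z := h z (by simp [elems])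
      have ht : ∀ e ∈ elems X, c e = c' e := fun e he => h e (by simp [elems, he])
      simp only [runY, hz]
      split_ifs <;> exact ih _ _ _ _ ht
    | inr F =>
      have ht : ∀ e ∈ elems X, c e = c' e := fun e he => h e (by simpa [elems] using he)
      simp only [runY]
      exact ih _ _ _ _ ht

lemma run3_congr (X : List (Step β L)) : ∀ (V V1 V2 : L) (c c' : β → Bool),
    (∀ e ∈ elems X, c e = c' e) → D.run3 V V1 V2 X c = D.run3 V V1 V2 X c' := by
  induction X with
  | nil => intro V V1 V2 c c' _; rfl
  | cons s X ih =>
    intro V V1 V2 c c' h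
    cases s with
    | inl z =>
      have hz : c z = c' z := h z (by simp [elems])
      have ht : ∀ e ∈ elems X, c e = c' e := fun e he => h e (by simp [elems, he])
      simp only [run3, hz]
      split_ifs <;> exact ih _ _ _ _ _ ht
    | inr F =>
      have ht : ∀ e ∈ elems X, c e = c' e := fun e he => h e (by simpa [elems] using he)
      simp only [run3]
      exact ih _ _ _ _ _ ht

/-! monotonicity -/

lemma run_mono (X : List (Step β L)) : ∀ (V V' : L) (c : β → Bool), V ≤ V' →
    D.run V X c ≤ D.run V' X c := by
  induction X with
  | nil => intro V V' c h; exact h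
  | cons s X ih =>
    intro V V' c h
    cases s with
    | inl z =>
      simp only [run]
      split_ifs
      · exact ih _ _ _ (D.add_mono z h)
      · exact ih _ _ _ h
    | inr F =>
      simp only [run]
      exact ih _ _ _ (F.monotone h)

/-- `W_{m+1} ≤ W_m` -/
lemma run_filt_le (X : List (Step β L)) : ∀ (V1 V : L) (c : β → Bool), V1 ≤ V →
    D.run V1 (D.filt V X c) c ≤ D.run V X c := by
  induction X with
  | nil => intro V1 V c h; exact h
  | cons s X ih =>
    intro V1 V c h
    cases s with
    | inl z =>
      simp only [run, filt]
      by_cases hm : D.mem z V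
      · rw [if_pos hm]
        simp only [run]
        split_ifs
        · rw [D.add_of_mem hm]
          exact ih _ _ _ (by rw [← D.add_of_mem hm]; exact D.add_mono z h)
        · exact ih _ _ _ h
      · rw [if_neg hm]
        split_ifs
        · exact ih _ _ _ (h.trans (D.le_add V z))
        · exact ih _ _ _ h
    | inr F =>
      simp only [run, filt]
      exact ih _ _ _ (F.monotone h)

/-- `W_{m+1} ≤ Y_m` -/
lemma run_filt_le_runY (X : List (Step β L)) : ∀ (V1 V Y : L) (c : β → Bool), V1 ≤ Y →
    D.run V1 (D.filt V X c) c ≤ D.runY V Y X c := by
  induction X with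
  | nil => intro V1 V Y c h; exact h
  | cons s X ih =>
    intro V1 V Y c h
    cases s with
    | inl z =>
      simp only [runY, filt]
      by_cases hm : D.mem z V
      · rw [if_pos hm, if_pos hm]
        simp only [run]
        split_ifs
        · exact ih _ _ _ _ (D.add_mono z h)
        · exact ih _ _ _ _ h
      · rw [if_neg hm, if_neg hm]
        split_ifs
        · exact ih _ _ _ _ h
        · exact ih _ _ _ _ (h.trans (D.le_add Y z))
    | inr F =>
      simp only [run, filt, runY]
      exact ih _ _ _ _ (F.monotone h)

/-- `Y_{m+1} ≤ W_m` -/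
lemma runY_filt_le (X : List (Step β L)) : ∀ (V1 Y V : L) (c : β → Bool), V1 ≤ V → Y ≤ V →
    D.runY V1 Y (D.filt V X c) c ≤ D.run V X c := by
  induction X with
  | nil => intro V1 Y V c _ h; exact h
  | cons s X ih =>
    intro V1 Y V c h1 h2
    cases s with
    | inl z =>
      simp only [run, filt]
      by_cases hm : D.mem z V
      · rw [if_pos hm]
        have e1 : D.add V1 z ≤ V := by
          rw [← D.add_of_mem hm]; exact D.add_mono z h1
        have e2 : D.add Y z ≤ V := by
          rw [← D.add_of_mem hm]; exact D.add_mono z h2
        simp only [runY]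
        rw [D.add_of_mem hm]
        split_ifs
        · exact ih _ _ _ _ h1 e2
        · exact ih _ _ _ _ h1 h2
        · exact ih _ _ _ _ e1 h2
        · exact ih _ _ _ _ h1 e2
      · rw [if_neg hm]
        split_ifs
        · exact ih _ _ _ _ (h1.trans (D.le_add V z)) (h2.trans (D.le_add V z))
        · exact ih _ _ _ _ h1 h2
    | inr F =>
      simp only [run, filt, runY]
      exact ih _ _ _ _ (F.monotone h1) (F.monotone h2)

lemma elems_filt_subset (X : List (Step β L)) : ∀ (V : L) (c : β → Bool) (e : β),
    e ∈ elems (D.filt V X c) → e ∈ elems X := by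
  induction X with
  | nil => intro V c e h; simpa [filt] using h
  | cons s X ih =>
    intro V c e h
    cases s with
    | inl z =>
      simp only [filt] at h
      simp only [elems, List.mem_cons]
      split_ifs at h
      · simp only [elems, List.mem_cons] at h
        rcases h with h | h
        · exact Or.inl h
        · exact Or.inr (ih _ _ _ h)
      · exact Or.inr (ih _ _ _ h)
      · exact Or.inr (ih _ _ _ h)
    | inr F =>
      simp only [filt, elems] at h ⊢
      exact ih _ _ _ h

lemma elems_filt_sublist (X : List (Step β L)) : ∀ (V : L) (c : β → Bool),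
    (elems (D.filt V X c)).Sublist (elems X) := by
  induction X with
  | nil => intro V c; simp [filt]
  | cons s X ih =>
    intro V c
    cases s with
    | inl z =>
      simp only [filt]
      split_ifs
      · simp only [elems]; exact (ih _ _).cons_cons z
      · simp only [elems]; exact (ih _ _).cons z
      · simp only [elems]; exact (ih _ _).cons z
    | inr F =>
      simp only [filt, elems]
      exact ih _ _

lemma nodup_filt {X : List (Step β L)} (h : (elems X).Nodup) (V : L) (c : β → Bool) :
    (elems (D.filt V X c)).Nodup :=
  (D.elems_filt_sublist X V c).nodup h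

/-- run3 = (W_0, W_1, complement version) -/
lemma run3_eq (X : List (Step β L)) : ∀ (V' V1 V2 : L) (c : β → Bool),
    D.run3 V' V1 V2 X c = (D.run V' X c, D.run V1 (D.filt V' X c) c,
      D.run V2 (D.filt V' X c) (bnot c)) := by
  induction X with
  | nil => intro V' V1 V2 c; rfl
  | cons s X ih =>
    intro V' V1 V2 c
    cases s with
    | inl z =>
      simp only [run3, run, filt]
      by_cases hm : D.mem z V'
      · rw [if_pos hm, if_pos hm]
        rcases hc : c z with _ | _
        · simp only [run, hc, bnot]
          simp only [Bool.false_eq_true, if_false, Bool.not_false, if_true]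
          exact ih _ _ _ _
        · simp only [run, hc, bnot]
          simp only [Bool.not_true, Bool.false_eq_true, if_false, if_true]
          rw [D.add_of_mem hm]
          exact ih _ _ _ _
      · rw [if_neg hm, if_neg hm]
        rcases hc : c z with _ | _
        · simp only [Bool.false_eq_true, if_false]
          exact ih _ _ _ _
        · simp only [if_true]
          exact ih _ _ _ _
    | inr F =>
      simp only [run3, run, filt]
      exact ih _ _ _ _

end Dyn

end Crest.Agent.MS
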