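import Crest.Agent.MS.ClassStep

/-!
Row 305 (S0468): barrier of the heavier classes, class bound, averages over the coins.
Author: helper41.
-/

set_option autoImplicit false
set_option linter.unusedSectionVars false

namespace Crest.Agent.MS

open Set Crest.Agent.MS.FPair

variable {α : Type*}

namespace ProcData

section det

variable [Finite α] {M : Matroid α} (P : ProcData M)

/-- samples of the classes `j`, `i < j < n` -/
def Kset (S : ℕ → Set α) (c : α → Bool) (i n : ℕ) : Set α :=
  {z | ∃ j, i < j ∧ j < n ∧ (z ∈ S j ∨ (z ∈ P.Q j ∧ c z = true))}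

lemma W_subset_barrier {S : ℕ → Set α}
    (hS : ∀ j V, M.IsFlat V → P.F j V ⊆ M.closure (V ∪ S j)) (c : α → Bool) (i m : ℕ) :
    ∀ n, i + 1 ≤ n → P.W c n m ⊆ M.closure (P.W c (i + 1) m ∪ P.Kset S c i n) := by
  intro n hn
  induction n, hn using Nat.le_induction with
  | base =>
    intro z hz
    exact M.mem_closure_of_mem' (Or.inl hz) ((P.W_flat c (i + 1) m).subset_ground hz)
  | succ n hn ih =>
    rw [P.W_succ_eq']
    refine (M.closure_subset_closure (union_subset_union_left _
      (hS n _ (P.W_flat c n m)))).trans ?_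
    rw [Matroid.closure_union_closure_left_eq]
    have h1 : M.closure (P.W c n m ∪ S n ∪ {z | z ∈ P.reach c n m ∧ c z = true}) ⊆
        M.closure (M.closure (P.W c (i + 1) m ∪ P.Kset S c i n) ∪
          (S n ∪ {z | z ∈ P.reach c n m ∧ c z = true})) := by
      refine M.closure_subset_closure ?_
      rw [union_assoc]
      exact union_subset_union_left _ ih
    refine h1.trans ?_
    rw [Matroid.closure_union_closure_left_eq]
    refine M.closure_subset_closure ?_
    rintro z ((hz | ⟨j, h1, h2, h3⟩) | (hz | hz))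
    · exact Or.inl hz
    · exact Or.inr ⟨j, h1, Nat.lt_succ_of_lt h2, h3⟩
    · exact Or.inr ⟨n, hn, Nat.lt_succ_self n, Or.inl hz⟩
    · exact Or.inr ⟨n, hn, Nat.lt_succ_self n, Or.inr ⟨P.reach_subset c n m hz.1, hz.2⟩⟩

/-- contribution of class `i` to bin `m` over the final barrier and the lighter candidates -/
noncomputable def contrib (c : α → Bool) (n i m : ℕ) : ℝ :=
  rr M (P.W c n (m + 1) ∪ P.Dl c i m ∪ P.Cel c i m) - rr M (P.W c n (m + 1) ∪ P.Dl c i m)

lemma contrib_nonneg (c : α → Bool) (n i m : ℕ) : 0 ≤ P.contrib c n i m := by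
  unfold contrib
  have := rr_mono (M := M) (show P.W c n (m + 1) ∪ P.Dl c i m ⊆
    P.W c n (m + 1) ∪ P.Dl c i m ∪ P.Cel c i m from subset_union_left)
  linarith

lemma contrib_ge {S : ℕ → Set α}
    (hS : ∀ j V, M.IsFlat V → P.F j V ⊆ M.closure (V ∪ S j)) (c : α → Bool) {i n : ℕ}
    (hn : i + 1 ≤ n) (m : ℕ) :
    rr M (P.Dl c i m ∪ P.W c (i + 1) (m + 1) ∪ P.Kset S c i n ∪ P.Cel c i m) -
        rr M (P.Dl c i m ∪ P.W c (i + 1) (m + 1) ∪ P.Kset S c i n) ≤ P.contrib c n i m := by
  unfold contrib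
  have h1 : P.W c n (m + 1) ∪ P.Dl c i m ⊆
      M.closure (P.W c (i + 1) (m + 1) ∪ P.Kset S c i n) ∪ P.Dl c i m :=
    union_subset_union_left _ (P.W_subset_barrier hS c i (m + 1) n hn)
  have h2 := rr_marg (M := M) h1 (P.Cel c i m)
  rw [union_assoc (M.closure _), rr_closure_union, rr_closure_union] at h2
  have e1 : P.W c (i + 1) (m + 1) ∪ P.Kset S c i n ∪ (P.Dl c i m ∪ P.Cel c i m) =
      P.Dl c i m ∪ P.W c (i + 1) (m + 1) ∪ P.Kset S c i n ∪ P.Cel c i m := by
    ext z; simp only [mem_union]; tauto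
  have e2 : P.W c (i + 1) (m + 1) ∪ P.Kset S c i n ∪ P.Dl c i m =
      P.Dl c i m ∪ P.W c (i + 1) (m + 1) ∪ P.Kset S c i n := by
    ext z; simp only [mem_union]; tauto
  rw [e1, e2] at h2
  exact h2

/-- class bound for one parity -/
theorem class_bound (hE : ∀ i, ∀ z ∈ P.Q i, z ∈ M.E) {S : ℕ → Set α}
    (hS : ∀ j V, M.IsFlat V → P.F j V ⊆ M.closure (V ∪ S j)) (c : α → Bool) {i n : ℕ}
    (hn : i + 1 ≤ n) (q N : ℕ) :
    ∑ t ∈ Finset.range N, (((P.Cel c i (q + 2 * t) \ P.VY c i (q + 2 * t)).ncard : ℝ) -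
        defi M (P.VY c i (q + 2 * t)) (P.reach c i (q + 2 * t))) -
      ((P.Kset S c i n).ncard : ℝ) ≤ ∑ t ∈ Finset.range N, P.contrib c n i (q + 2 * t) := by
  have h1 := P.cost_sum hE c i (P.Kset S c i n) q N
  have h2 : ∀ t ∈ Finset.range N, (((P.Cel c i (q + 2 * t) \ P.VY c i (q + 2 * t)).ncard : ℝ) -
        defi M (P.VY c i (q + 2 * t)) (P.reach c i (q + 2 * t))) - P.contrib c n i (q + 2 * t) ≤
      ((rr M (P.Dl c i (q + 2 * t) ∪ P.W c (i + 1) (q + 2 * t + 1) ∪ P.Cel c i (q + 2 * t)) -
        rr M (P.Dl c i (q + 2 * t) ∪ P.W c (i + 1) (q + 2 * t + 1))) -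
      (rr M (P.Dl c i (q + 2 * t) ∪ P.W c (i + 1) (q + 2 * t + 1) ∪ P.Kset S c i n ∪
          P.Cel c i (q + 2 * t)) -
        rr M (P.Dl c i (q + 2 * t) ∪ P.W c (i + 1) (q + 2 * t + 1) ∪ P.Kset S c i n))) := by
    intro t _
    have e1 := P.class_step hE c i (q + 2 * t)
    have e2 := P.contrib_ge hS c hn (q + 2 * t)
    linarith
  have h3 := Finset.sum_le_sum h2
  rw [Finset.sum_sub_distrib] at h3
  linarith

lemma sum_parity (f : ℕ → ℝ) (N : ℕ) :
    ∑ t ∈ Finset.range N, f (0 + 2 * t) + ∑ t ∈ Finset.range N, f (1 + 2 * t) =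
      ∑ m ∈ Finset.range (2 * N), f m := by
  induction N with
  | zero => simp
  | succ N ih =>
    rw [Finset.sum_range_succ, Finset.sum_range_succ, Nat.mul_succ, Finset.sum_range_succ,
      Finset.sum_range_succ, ← ih]
    have e1 : 0 + 2 * N = 2 * N := by omega
    have e2 : 1 + 2 * N = 2 * N + 1 := by omega
    rw [e1, e2]
    ring

/-- class bound, sum of both parities -/
theorem class_bound_both (hE : ∀ i, ∀ z ∈ P.Q i, z ∈ M.E) {S : ℕ → Set α}
    (hS : ∀ j V, M.IsFlat V → P.F j V ⊆ M.closure (V ∪ S j)) (c : α → Bool) {i n : ℕ}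
    (hn : i + 1 ≤ n) (N : ℕ) :
    ∑ m ∈ Finset.range (2 * N), (((P.Cel c i m \ P.VY c i m).ncard : ℝ) -
        defi M (P.VY c i m) (P.reach c i m)) - 2 * ((P.Kset S c i n).ncard : ℝ) ≤
      ∑ m ∈ Finset.range (2 * N), P.contrib c n i m := by
  have h0 := P.class_bound hE hS c hn 0 N
  have h1 := P.class_bound hE hS c hn 1 N
  have e1 := sum_parity (fun m => (((P.Cel c i m \ P.VY c i m).ncard : ℝ) -
        defi M (P.VY c i m) (P.reach c i m))) N
  have e2 := sum_parity (fun m => P.contrib c n i m) N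
  linarith

end det

section avg

variable [Fintype α] [DecidableEq α] {M : Matroid α} (P : ProcData M)

/-- all elements of the classes `< i` -/
def before (i : ℕ) : List α := elems (P.Xs i ++ [Sum.inr (P.op i)])

lemma elems_els (Q : List α) : elems (els (M := M) Q) = Q := by
  induction Q with
  | nil => rfl
  | cons z Q ih => simp only [els, List.map_cons, elems] at *; rw [ih]

lemma elems_Xs (i : ℕ) : elems (P.Xs (i + 1)) = elems (P.Xs i) ++ P.Q i := by
  simp only [Xs]
  rw [Dyn.elems_append, Dyn.elems_append, elems_els]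
  simp [elems]

lemma before_eq (i : ℕ) : P.before i = elems (P.Xs i) := by
  unfold before
  rw [Dyn.elems_append]
  simp [elems]

lemma mem_before {i : ℕ} {z : α} (hz : z ∈ P.before i) : ∃ j < i, z ∈ P.Q j := by
  rw [before_eq] at hz
  induction i with
  | zero => simp [Xs, elems] at hz
  | succ i ih =>
    rw [elems_Xs, List.mem_append] at hz
    rcases hz with hz | hz
    · obtain ⟨j, hj, h⟩ := ih hz
      exact ⟨j, Nat.lt_succ_of_lt hj, h⟩
    · exact ⟨i, Nat.lt_succ_self i, hz⟩

/-- hypotheses on the element lists -/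
structure Ok : Prop where
  mem : ∀ i, ∀ z ∈ P.Q i, z ∈ M.E
  nonloop : ∀ i, ∀ z ∈ P.Q i, z ∉ M.closure ∅
  nodup : ∀ i, (P.Q i).Nodup
  disj : ∀ i j, i ≠ j → ∀ z ∈ P.Q i, z ∉ P.Q j

lemma nodup_before (h : P.Ok) (i : ℕ) : (P.before i).Nodup := by
  rw [before_eq]
  induction i with
  | zero => simp [Xs, elems]
  | succ i ih =>
    rw [elems_Xs, List.nodup_append]
    refine ⟨ih, h.nodup i, ?_⟩
    intro z hz z' hz' hzz
    subst hzz
    obtain ⟨j, hj, hzj⟩ := P.mem_before (by rw [before_eq]; exact hz)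
    exact h.disj j i (by omega) z hzj hz'

lemma V_congr {c c' : α → Bool} (i m : ℕ) (h : ∀ e ∈ P.before i, c e = c' e) :
    P.V c i m = P.V c' i m := by
  rw [← V_eq, ← V_eq]
  have hs : ∀ m, (dyn M).strm (bot M) m (P.Xs i ++ [Sum.inr (P.op i)]) c =
      (dyn M).strm (bot M) m (P.Xs i ++ [Sum.inr (P.op i)]) c' := by
    intro m
    induction m with
    | zero => rfl
    | succ m ih =>
      simp only [Dyn.strm]
      rw [ih]
      exact Dyn.filt_congr _ _ _ _ _ fun e he => h e (Dyn.elems_strm_subset _ _ _ _ _ _ he)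
  unfold Dyn.Wf
  rw [hs m]
  rw [Dyn.run_congr _ _ _ c c' fun e he => h e (Dyn.elems_strm_subset _ _ _ _ _ _ he)]

lemma VY_congr {c c' : α → Bool} (i m : ℕ) (h : ∀ e ∈ P.before i, c e = c' e) :
    P.VY c i m = P.VY c' i m := by
  rw [← VY_eq, ← VY_eq]
  have hs : ∀ m, (dyn M).strm (bot M) m (P.Xs i ++ [Sum.inr (P.op i)]) c =
      (dyn M).strm (bot M) m (P.Xs i ++ [Sum.inr (P.op i)]) c' := by
    intro m
    induction m with
    | zero => rfl
    | succ m ih =>
      simp only [Dyn.strm]
      rw [ih]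
      exact Dyn.filt_congr _ _ _ _ _ fun e he => h e (Dyn.elems_strm_subset _ _ _ _ _ _ he)
  unfold Dyn.Yf
  rw [hs m]
  rw [Dyn.runY_congr _ _ _ _ c c' fun e he => h e (Dyn.elems_strm_subset _ _ _ _ _ _ he)]

lemma reach_congr' {c c' : α → Bool} (i m : ℕ) (h : ∀ e ∈ P.before i, c e = c' e) :
    P.reach c i m = P.reach c' i m := by
  cases m with
  | zero => rfl
  | succ m => simp only [reach]; rw [P.V_congr i m h]

/-- Lemma G for one class -/
theorem class_good (h : P.Ok) (i : ℕ) {N : ℕ} (hN : (P.before i).length + 2 ≤ N) :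
    ((P.Q i).length : ℝ) / 4 ≤
      avg (fun c : α → Bool => ∑ m ∈ Finset.range N,
        ((P.Cel c i m \ P.VY c i m).ncard : ℝ)) := by
  classical
  -- ncard as a sum of indicators over the list
  have e1 : ∀ (c : α → Bool) (m : ℕ), ((P.Cel c i m \ P.VY c i m).ncard : ℝ) =
      ∑ z ∈ (P.Q i).toFinset, Dyn.ind (z ∈ P.Cel c i m \ P.VY c i m) := by
    intro c m
    have h1 : P.Cel c i m \ P.VY c i m =
        (((P.Q i).toFinset.filter (fun z => z ∈ P.Cel c i m \ P.VY c i m) : Finset α) : Set α) := by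
      ext z
      simp only [Finset.coe_filter, List.mem_toFinset, mem_ofPred_eq]
      constructor
      · intro hz; exact ⟨P.reach_subset c i m hz.1.1.1, hz⟩
      · intro hz; exact hz.2
    conv_lhs => rw [h1, Set.ncard_coe_finset, Finset.card_filter]
    push_cast
    refine Finset.sum_congr rfl fun z _ => ?_
    by_cases hz : z ∈ P.Cel c i m \ P.VY c i m
    · unfold Dyn.ind; rw [if_pos hz, if_pos hz]
    · unfold Dyn.ind; rw [if_neg hz, if_neg hz]
  have e2 : ∀ c : α → Bool, (∑ m ∈ Finset.range N, ((P.Cel c i m \ P.VY c i m).ncard : ℝ)) =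
      ∑ z ∈ (P.Q i).toFinset, ∑ m ∈ Finset.range N,
        Dyn.ind (z ∈ P.Cel c i m \ P.VY c i m) := by
    intro c
    rw [Finset.sum_comm]
    exact Finset.sum_congr rfl fun m _ => e1 c m
  rw [avg_congr e2, avg_sum]
  have hcard : ((P.Q i).length : ℝ) = ((P.Q i).toFinset.card : ℝ) := by
    rw [List.toFinset_card_of_nodup (h.nodup i)]
  rw [hcard, ← nsmul_one, div_eq_mul_inv, smul_mul_assoc, one_mul, ← Finset.sum_const]
  refine Finset.sum_le_sum fun z hz => ?_
  rw [List.mem_toFinset] at hz
  -- `z` is fresh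
  have hzb : z ∉ P.before i := by
    intro hzb
    obtain ⟨j, hj, hzj⟩ := P.mem_before hzb
    exact h.disj j i (by omega) z hzj hz
  have hupd : ∀ (c : α → Bool) (b : Bool), ∀ e ∈ P.before i,
      (Function.update c z b) e = c e := by
    intro c b e he
    rw [Function.update_of_ne]; rintro rfl; exact hzb he
  set X := P.Xs i ++ [Sum.inr (P.op i)] with hX
  have hG : ∀ (c : α → Bool) (m : ℕ), Dyn.ind (z ∈ P.lev c i m \ P.VY c i m) =
      Dyn.ind ((dyn M).Good (fun L : FPair M => z ∈ L.cur) (bot M) X m c) := by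
    intro c m
    refine Dyn.ind_congr ?_
    cases m with
    | zero =>
      simp only [Dyn.Good, hX, V_eq, VY_eq, lev, reach, mem_sdiff, mem_ofPred_eq]
      tauto
    | succ m =>
      simp only [Dyn.Good, hX, V_eq, VY_eq, lev, reach, mem_sdiff, mem_ofPred_eq]
      tauto
  have e3 : ∀ m, avg (fun c : α → Bool => Dyn.ind (z ∈ P.Cel c i m \ P.VY c i m)) =
      avg (fun c : α → Bool => Dyn.ind (z ∈ P.lev c i m \ P.VY c i m)) / 2 := by
    intro m
    rw [avg_split z]
    have a1 : ∀ c : α → Bool, Dyn.ind (z ∈ P.Cel (Function.update c z true) i m \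
        P.VY (Function.update c z true) i m) = 0 := by
      intro c
      unfold Dyn.ind
      rw [if_neg]
      rintro ⟨⟨_, h2⟩, _⟩
      simp at h2
    have a2 : ∀ c : α → Bool, Dyn.ind (z ∈ P.Cel (Function.update c z false) i m \
        P.VY (Function.update c z false) i m) =
        Dyn.ind (z ∈ P.lev c i m \ P.VY c i m) := by
      intro c
      refine Dyn.ind_congr ?_
      have b1 := P.VY_congr (c := Function.update c z false) (c' := c) i m (hupd c false)
      have b2 := P.V_congr (c := Function.update c z false) (c' := c) i m (hupd c false)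
      have b3 := P.reach_congr' (c := Function.update c z false) (c' := c) i m (hupd c false)
      simp only [Cel, lev, mem_sdiff, mem_ofPred_eq, Function.update_self, b1, b2, b3, and_true]
    rw [avg_congr a1, avg_congr a2, avg_const]
    ring
  rw [avg_sum]
  rw [Finset.sum_congr rfl fun m _ => e3 m, ← Finset.sum_div]
  have hP : Monotone (fun L : FPair M => z ∈ L.cur) := fun _ _ hle hz => hle.1 hz
  have hn : (elems X).Nodup := P.nodup_before h i
  have g1 := (dyn M).lemma_G (fun L : FPair M => z ∈ L.cur) hP (bot M) X hn (P.before i).length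
  have hFb : ∀ F : FPair M →o FPair M, Sum.inr F ∈ X → F (bot M) = bot M := by
    intro F hF
    have : ∃ j, F = P.op j := by
      rw [hX, List.mem_append] at hF
      rcases hF with hF | hF
      · clear g1 hn hG hX
        induction i with
        | zero => simp [Xs] at hF
        | succ i _ =>
          have aux : ∀ n, Sum.inr F ∈ P.Xs n → ∃ j, F = P.op j := by
            intro n
            induction n with
            | zero => intro hF; simp [Xs] at hF
            | succ n ihn =>
              intro hF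
              simp only [Xs, List.mem_append, List.mem_singleton] at hF
              rcases hF with (hF | hF) | hF
              · exact ihn hF
              · exact ⟨n, by simpa using hF⟩
              · simp [els] at hF
          exact aux _ hF
      · exact ⟨i, by simpa using hF⟩
    obtain ⟨j, rfl⟩ := this
    refine FPair.ext ?_ ?_
    · exact P.fix j
    · exact P.fix j
  have hzl : z ∉ M.closure ∅ := h.nonloop i z hz
  have hb : ∀ y ∈ elems X, ¬ (dyn M).mem y (bot M) := by
    intro y hy
    obtain ⟨j, _, hyj⟩ := P.mem_before (i := i) hy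
    exact h.nonloop j y hyj
  have g2 : ∀ c : α → Bool, Dyn.ind (¬ z ∈ ((dyn M).Wf (bot M) (P.before i).length X c).cur) =
      1 := by
    intro c
    have := (dyn M).Wf_eq_bot (bot M) X c hFb hb (m := (P.before i).length) le_rfl
    rw [this]
    unfold Dyn.ind
    rw [if_pos]
    exact hzl
  rw [avg_congr g2, avg_const] at g1
  have g3 : ∑ m ∈ Finset.range ((P.before i).length + 2),
      avg (fun c : α → Bool => Dyn.ind ((dyn M).Good (fun L : FPair M => z ∈ L.cur) (bot M) X m c)) ≤
      ∑ m ∈ Finset.range N, avg (fun c : α → Bool => Dyn.ind (z ∈ P.lev c i m \ P.VY c i m)) := by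
    have : ∀ m, avg (fun c : α → Bool => Dyn.ind (z ∈ P.lev c i m \ P.VY c i m)) =
        avg (fun c : α → Bool => Dyn.ind ((dyn M).Good (fun L : FPair M => z ∈ L.cur)
          (bot M) X m c)) := fun m => avg_congr fun c => hG c m
    rw [Finset.sum_congr rfl fun m _ => this m]
    refine Finset.sum_le_sum_of_subset_of_nonneg (Finset.range_mono hN) ?_
    intro m _ _
    exact avg_nonneg fun c => Dyn.ind_nonneg _
  linarith

/-- exchange of `Y` and `W` in the deficiencies -/
theorem class_defi (h : P.Ok) (i m : ℕ) :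
    avg (fun c : α → Bool => defi M (P.VY c i m) (P.reach c i m)) =
      avg (fun c : α → Bool => defi M (P.V c i m) (P.reach c i m)) := by
  set X := P.Xs i ++ [Sum.inr (P.op i)] with hX
  have hn : (elems X).Nodup := P.nodup_before h i
  cases m with
  | zero =>
    have := (dyn M).exchange_zero (bot M) X hn (fun L => defi M L.cur {z | z ∈ P.Q i})
    simp only [hX, V_eq, VY_eq] at this
    exact this
  | succ m =>
    have := (dyn M).exchange_succ (bot M) X hn m
      (fun u v => defi M v.cur {z | z ∈ P.Q i ∧ z ∈ u.cur})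
    simp only [hX, V_eq, VY_eq] at this
    exact this

/-- the class theorem -/
theorem class_avg (h : P.Ok) {S : ℕ → Set α}
    (hS : ∀ j V, M.IsFlat V → P.F j V ⊆ M.closure (V ∪ S j)) {i n : ℕ}
    (hn : i + 1 ≤ n) {N : ℕ} (hN : (P.before i).length + 2 ≤ 2 * N) :
    ((P.Q i).length : ℝ) / 4 -
        ∑ m ∈ Finset.range (2 * N), avg (fun c : α → Bool => defi M (P.V c i m) (P.reach c i m)) -
        2 * avg (fun c : α → Bool => ((P.Kset S c i n).ncard : ℝ)) ≤
      avg (fun c : α → Bool => ∑ m ∈ Finset.range (2 * N), P.contrib c n i m) := by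
  have h1 : ∀ c : α → Bool,
      ∑ m ∈ Finset.range (2 * N), ((P.Cel c i m \ P.VY c i m).ncard : ℝ) -
        ∑ m ∈ Finset.range (2 * N), defi M (P.VY c i m) (P.reach c i m) -
        2 * ((P.Kset S c i n).ncard : ℝ) ≤ ∑ m ∈ Finset.range (2 * N), P.contrib c n i m := by
    intro c
    have := P.class_bound_both h.mem hS c hn N
    rw [Finset.sum_sub_distrib] at this
    exact this
  refine le_trans ?_ (avg_le h1)
  rw [avg_sub, avg_sub, avg_mul_left, avg_sum (φ := fun m c => defi M (P.VY c i m) (P.reach c i m)),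
    Finset.sum_congr rfl fun m _ => P.class_defi h i m]
  have h2 := P.class_good h i hN
  linarith

end avg

end ProcData

end Crest.Agent.MS
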