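import Crest.Agent.MS.Batch

/-!
Row 305 (S0468): the class step (same class), the cost lemma (heavier classes), Lemma G and the
exchange for one class.  Author: helper41.
-/

set_option autoImplicit false
set_option linter.unusedSectionVars false

namespace Crest.Agent.MS

open Set Crest.Agent.MS.FPair

variable {α : Type*} [Finite α] {M : Matroid α}

/-- real valued rank -/
noncomputable def rr (M : Matroid α) (X : Set α) : ℝ := (rk M X : ℝ)

lemma rr_mono {X Y : Set α} (h : X ⊆ Y) : rr M X ≤ rr M Y := by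
  unfold rr; exact_mod_cast rk_mono M h

lemma rr_closure_union (X Y : Set α) : rr M (M.closure X ∪ Y) = rr M (X ∪ Y) := by
  unfold rr; rw [rk_union_closure_left]

lemma rr_closure (X : Set α) : rr M (M.closure X) = rr M X := by
  unfold rr; rw [rk_closure]

lemma rr_marg {X Y : Set α} (h : X ⊆ Y) (A : Set α) :
    rr M (Y ∪ A) - rr M Y ≤ rr M (X ∪ A) - rr M X := by
  have := rk_marg M h A
  have h' : (rk M (Y ∪ A) : ℝ) + rk M X ≤ rk M (X ∪ A) + rk M Y := by exact_mod_cast this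
  unfold rr; linarith

lemma rr_union_le (Z J : Set α) : rr M (Z ∪ J) ≤ rr M Z + (J.ncard : ℝ) := by
  unfold rr; exact_mod_cast rk_union_le M Z J

/-- deficiency of the set `G` over the flat `Z` -/
noncomputable def defi (M : Matroid α) (Z G : Set α) : ℝ :=
  ((G \ Z).ncard : ℝ) - (rr M (Z ∪ G) - rr M Z)

lemma defi_nonneg (Z G : Set α) : 0 ≤ defi M Z G := by
  unfold defi
  have h1 : Z ∪ G = Z ∪ (G \ Z) := by rw [union_sdiff_self]
  rw [h1]
  have := rr_union_le (M := M) Z (G \ Z)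
  linarith

/-- general class step -/
lemma class_step_aux {Z G A C : Set α} (hA : A ⊆ G) (hC : C ⊆ G) (hAC : Disjoint A C) :
    ((C \ Z).ncard : ℝ) - defi M Z G ≤ rr M (Z ∪ A ∪ C) - rr M (Z ∪ A) := by
  unfold defi
  set U : Set α := (G \ Z) \ ((A \ Z) ∪ (C \ Z)) with hU
  have h1 : Z ∪ G ⊆ (Z ∪ A ∪ C) ∪ U := by
    intro x hx
    simp only [hU, mem_union, mem_sdiff] at *
    tauto
  have h2 : rr M (Z ∪ G) ≤ rr M (Z ∪ A ∪ C) + (U.ncard : ℝ) :=
    (rr_mono h1).trans (rr_union_le _ _)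
  have hsub : (A \ Z) ∪ (C \ Z) ⊆ G \ Z := by
    rintro x (hx | hx)
    · exact ⟨hA hx.1, hx.2⟩
    · exact ⟨hC hx.1, hx.2⟩
  have h3 : (U.ncard : ℝ) = ((G \ Z).ncard : ℝ) - ((A \ Z).ncard : ℝ) - ((C \ Z).ncard : ℝ) := by
    have e1 := ncard_sdiff_add_ncard_of_subset hsub (toFinite _)
    have e2 : ((A \ Z) ∪ (C \ Z)).ncard = (A \ Z).ncard + (C \ Z).ncard :=
      ncard_union_eq (hAC.mono sdiff_subset sdiff_subset)
    rw [e2] at e1
    have e3 : ((U.ncard + ((A \ Z).ncard + (C \ Z).ncard) : ℕ) : ℝ) = ((G \ Z).ncard : ℝ) := by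
      exact_mod_cast e1
    push_cast at e3
    linarith
  have h4 : rr M (Z ∪ A) ≤ rr M Z + ((A \ Z).ncard : ℝ) := by
    have e : Z ∪ A = Z ∪ (A \ Z) := by rw [union_sdiff_self]
    rw [e]; exact rr_union_le _ _
  linarith

namespace ProcData

variable (P : ProcData M)

lemma Ael_subset_reach (c : α → Bool) (i m : ℕ) : P.Ael c i m ⊆ P.reach c i m :=
  fun _ hz => hz.1.1
lemma Cel_subset_reach (c : α → Bool) (i m : ℕ) : P.Cel c i m ⊆ P.reach c i m :=
  fun _ hz => hz.1.1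

/-- the class step: contribution of class `i` in bin `m` over lighter candidates and the barrier
`W_{m+1}` after the class -/
theorem class_step (hE : ∀ i, ∀ z ∈ P.Q i, z ∈ M.E) (c : α → Bool) (i m : ℕ) :
    ((P.Cel c i m \ P.VY c i m).ncard : ℝ) - defi M (P.VY c i m) (P.reach c i m) ≤
      rr M (P.Dl c i m ∪ P.W c (i + 1) (m + 1) ∪ P.Cel c i m) -
        rr M (P.Dl c i m ∪ P.W c (i + 1) (m + 1)) := by
  have h1 := class_step_aux (M := M) (Z := P.VY c i m) (G := P.reach c i m)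
    (A := P.Ael c i (m + 1)) (C := P.Cel c i m)
    ((P.Ael_subset_reach c i (m + 1)).trans (P.reach_anti c i (Nat.le_succ m)))
    (P.Cel_subset_reach c i m)
    (by
      rw [Set.disjoint_left]
      intro z hz hz'
      have := hz.2; rw [hz'.2] at this; exact absurd this (by decide))
  refine h1.trans ?_
  have h2 : P.Dl c i m ∪ P.W c (i + 1) (m + 1) ⊆ M.closure (P.VY c i m ∪ P.Ael c i (m + 1)) := by
    apply union_subset
    · intro z hz
      have hz' := P.Y_subset_VY c i m (P.Dl_subset_Y hE c i m hz)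
      exact M.mem_closure_of_mem' (Or.inl hz') ((P.VY_flat c i m).subset_ground hz')
    · rw [P.W_succ_eq]
      exact M.closure_subset_closure (union_subset_union_left _ (P.V_succ_le_VY c i m))
  have h3 := rr_marg (M := M) h2 (P.Cel c i m)
  rw [rr_closure_union, rr_closure] at h3
  exact h3

/-- cost of adding a set `K` to the barrier, in one bin -/
theorem cost_step (hE : ∀ i, ∀ z ∈ P.Q i, z ∈ M.E) (c : α → Bool) (i m : ℕ) (K : Set α) :
    (rr M (P.Dl c i m ∪ P.W c (i + 1) (m + 1) ∪ P.Cel c i m) -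
        rr M (P.Dl c i m ∪ P.W c (i + 1) (m + 1))) -
      (rr M (P.Dl c i m ∪ P.W c (i + 1) (m + 1) ∪ K ∪ P.Cel c i m) -
        rr M (P.Dl c i m ∪ P.W c (i + 1) (m + 1) ∪ K)) ≤
    (rr M (P.W c (i + 1) (m + 1) ∪ K) - rr M (P.W c (i + 1) (m + 1))) -
      (rr M (P.Y c (i + 1) m ∪ K) - rr M (P.Y c (i + 1) m)) := by
  set Z := P.Dl c i m ∪ P.W c (i + 1) (m + 1) with hZ
  have h1 := rr_marg (M := M) (X := P.W c (i + 1) (m + 1)) (Y := Z)
    (by rw [hZ]; exact subset_union_right) K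
  have h2 : Z ∪ P.Cel c i m ⊆ P.Y c (i + 1) m := by
    rw [hZ]
    refine union_subset (union_subset ?_ ?_) (P.Cel_subset_Y_succ hE c i m)
    · exact (P.Dl_subset_Y hE c i m).trans (P.Y_mono_time c (Nat.le_succ i) m)
    · exact P.W_succ_le_Y c (i + 1) m
  have h3 := rr_marg (M := M) h2 K
  have h4 : Z ∪ K ∪ P.Cel c i m = Z ∪ P.Cel c i m ∪ K := by
    rw [union_right_comm]
  rw [h4]
  linarith

/-- marginal of `K` over `W_m` (after class `i`) -/
noncomputable def kap (c : α → Bool) (i : ℕ) (K : Set α) (m : ℕ) : ℝ :=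
  rr M (P.W c (i + 1) m ∪ K) - rr M (P.W c (i + 1) m)

lemma kap_nonneg (c : α → Bool) (i : ℕ) (K : Set α) (m : ℕ) : 0 ≤ P.kap c i K m := by
  unfold kap
  have := rr_mono (M := M) (show P.W c (i + 1) m ⊆ P.W c (i + 1) m ∪ K from subset_union_left)
  linarith

lemma kap_le (c : α → Bool) (i : ℕ) (K : Set α) (m : ℕ) : P.kap c i K m ≤ (K.ncard : ℝ) := by
  unfold kap
  have := rr_union_le (M := M) (P.W c (i + 1) m) K
  linarith

/-- sum over the bins `m < 2 n + q`.. of parity `q`: bins `q, q + 2, …, q + 2 (n - 1)` -/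
theorem cost_sum (hE : ∀ i, ∀ z ∈ P.Q i, z ∈ M.E) (c : α → Bool) (i : ℕ) (K : Set α) (q : ℕ)
    (n : ℕ) :
    ∑ t ∈ Finset.range n,
      ((rr M (P.Dl c i (q + 2 * t) ∪ P.W c (i + 1) (q + 2 * t + 1) ∪ P.Cel c i (q + 2 * t)) -
        rr M (P.Dl c i (q + 2 * t) ∪ P.W c (i + 1) (q + 2 * t + 1))) -
      (rr M (P.Dl c i (q + 2 * t) ∪ P.W c (i + 1) (q + 2 * t + 1) ∪ K ∪ P.Cel c i (q + 2 * t)) -
        rr M (P.Dl c i (q + 2 * t) ∪ P.W c (i + 1) (q + 2 * t + 1) ∪ K))) ≤ (K.ncard : ℝ) := by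
  -- telescoping bound
  have key : ∀ n : ℕ, ∑ t ∈ Finset.range n,
      ((rr M (P.Dl c i (q + 2 * t) ∪ P.W c (i + 1) (q + 2 * t + 1) ∪ P.Cel c i (q + 2 * t)) -
        rr M (P.Dl c i (q + 2 * t) ∪ P.W c (i + 1) (q + 2 * t + 1))) -
      (rr M (P.Dl c i (q + 2 * t) ∪ P.W c (i + 1) (q + 2 * t + 1) ∪ K ∪ P.Cel c i (q + 2 * t)) -
        rr M (P.Dl c i (q + 2 * t) ∪ P.W c (i + 1) (q + 2 * t + 1) ∪ K))) ≤
      if n = 0 then 0 else P.kap c i K (q + 2 * n - 1) := by
    intro n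
    induction n with
    | zero => simp
    | succ n ih =>
      rw [Finset.sum_range_succ]
      have h1 := P.cost_step hE c i (q + 2 * n) K
      have e1 : q + 2 * (n + 1) - 1 = q + 2 * n + 1 := by omega
      rw [if_neg (Nat.succ_ne_zero n), e1]
      have h2 : (rr M (P.W c (i + 1) (q + 2 * n + 1) ∪ K) -
          rr M (P.W c (i + 1) (q + 2 * n + 1))) = P.kap c i K (q + 2 * n + 1) := rfl
      rw [h2] at h1
      by_cases hn : n = 0
      · subst hn
        simp only [Finset.range_zero, Finset.sum_empty, zero_add]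
        have h3 : 0 ≤ rr M (P.Y c (i + 1) (q + 2 * 0) ∪ K) - rr M (P.Y c (i + 1) (q + 2 * 0)) := by
          have := rr_mono (M := M) (show P.Y c (i + 1) (q + 2 * 0) ⊆ P.Y c (i + 1) (q + 2 * 0) ∪ K
            from subset_union_left)
          linarith
        linarith
      · rw [if_neg hn] at ih
        have e2 : q + 2 * n = (q + 2 * n - 1) + 1 := by omega
        have h3 : P.kap c i K (q + 2 * n - 1) ≤
            rr M (P.Y c (i + 1) (q + 2 * n) ∪ K) - rr M (P.Y c (i + 1) (q + 2 * n)) := by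
          have h4 : P.Y c (i + 1) (q + 2 * n) ⊆ P.W c (i + 1) (q + 2 * n - 1) := by
            conv_lhs => rw [e2]
            exact P.Y_succ_le_W c (i + 1) (q + 2 * n - 1)
          exact rr_marg (M := M) h4 K
        linarith
  refine (key n).trans ?_
  split_ifs
  · positivity
  · exact P.kap_le c i K _

end ProcData

end Crest.Agent.MS
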