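import Crest.Agent.MS.Setup

/-!
Row 305 (S0468): class theorem + key lemma: the bound for one class, averaged over the labels of
the improving elements (bits `S`, `Q`) and the coins.
Author: helper41.
-/

set_option autoImplicit false
set_option linter.unusedSectionVars false

namespace Crest.Agent.MS

open Set Crest.Agent.MS.FPair

variable {α : Type*}

section fop

variable [Finite α] {M : Matroid α}

lemma Fop_E {lam : ℕ} {S : Set α} (hS : S ⊆ M.E) : Fop M lam S M.E = M.E :=
  subset_antisymm (Fop_ground hS subset_rfl) (Fop_spec M lam hS subset_rfl).1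

end fop

/-! ### the recursion of the barriers in terms of the samples only -/

/-- the flats `W` computed from the operators and the `A`-elements -/
def Wrec (M : Matroid α) (F : ℕ → Set α → Set α) (A : ℕ → Set α) : ℕ → ℕ → Set α
  | 0, _ => M.closure ∅
  | i + 1, m => M.closure (F i (Wrec M F A i m) ∪
      {z | z ∈ A i ∧ (m = 0 ∨ z ∈ F i (Wrec M F A i (m - 1)))})

namespace ProcData

variable [Finite α] {M : Matroid α} (P : ProcData M)

lemma W_eq_Wrec (c : α → Bool) (i m : ℕ) :
    P.W c i m = Wrec M P.F (fun j => {z | z ∈ P.Q j ∧ c z = true}) i m := by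
  induction i generalizing m with
  | zero =>
    unfold W Wrec Xs
    have : ∀ m, ((dyn M).Wf (bot M) m [] c) = bot M := by
      intro m
      unfold Dyn.Wf
      have : (dyn M).strm (bot M) m [] c = [] := by
        induction m with
        | zero => rfl
        | succ m ih => simp only [Dyn.strm]; rw [ih]; rfl
      rw [this]
      rfl
    rw [this]
    rfl
  | succ i ih =>
    rw [W_succ_eq']
    simp only [Wrec]
    rw [← ih m]
    congr 2
    ext z
    cases m with
    | zero => simp [reach]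
    | succ m =>
      simp only [reach, mem_ofPred_eq, Nat.succ_ne_zero, false_or, Nat.succ_sub_one]
      rw [← ih m]
      unfold V
      tauto

lemma W_eq_of_agree {P P' : ProcData M} (c : α → Bool) (i : ℕ)
    (hF : ∀ j < i, P.F j = P'.F j) (hQ : ∀ j < i, ∀ z, z ∈ P.Q j ↔ z ∈ P'.Q j) (m : ℕ) :
    P.W c i m = P'.W c i m := by
  induction i generalizing m with
  | zero => rw [W_eq_Wrec, W_eq_Wrec]; rfl
  | succ i ih =>
    have ih' := ih (fun j hj => hF j (Nat.lt_succ_of_lt hj))
      (fun j hj => hQ j (Nat.lt_succ_of_lt hj))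
    have hV : ∀ m, P.V c i m = P'.V c i m := by
      intro m
      unfold V
      rw [ih' m, hF i (Nat.lt_succ_self i)]
    rw [W_succ_eq', W_succ_eq', hV m]
    congr 2
    ext z
    have := hQ i (Nat.lt_succ_self i) z
    cases m with
    | zero => simp only [reach, mem_ofPred_eq, this]
    | succ m => simp only [reach, mem_ofPred_eq, this, hV m]

end ProcData

/-! ### the process of the labels -/

section proc

variable [Fintype α] [DecidableEq α] (M : Matroid α)

/-- the process data for label sets `S` (sample part), `Q` (thin part), classes `T` -/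
noncomputable def procOf (lam : ℕ) (hlam : 1 ≤ lam) (T : ℕ → Finset α)
    (S Q : Finset α) : ProcData M where
  F i V := Fop M lam (selB M (S ∩ T i) : Set α) V
  flat _ _ hV := (Fop_spec M lam (selB_indep M _).subset_ground hV.subset_ground).2.1
  mono _ _ _ _ _ h := Fop_mono_left h
  ext _ _ hV := (Fop_spec M lam (selB_indep M _).subset_ground hV.subset_ground).1
  fix _ := Fop_bot hlam (selB_indep M _)
  Q i := ((Q ∩ T i) \ S).toList

variable {M}
variable {lam : ℕ} (hlam : 1 ≤ lam) {T : ℕ → Finset α}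

/-- hypotheses on the classes -/
structure Classes (M : Matroid α) (T : ℕ → Finset α) : Prop where
  mem : ∀ i, ∀ z ∈ T i, z ∈ M.E
  nonloop : ∀ i, ∀ z ∈ T i, z ∉ M.closure ∅
  disj : ∀ i j, i ≠ j → Disjoint (T i) (T j)

lemma procOf_ok (hT : Classes M T) (S Q : Finset α) : (procOf M lam hlam T S Q).Ok where
  mem i z hz := by
    simp only [procOf, Finset.mem_toList, Finset.mem_sdiff, Finset.mem_inter] at hz
    exact hT.mem i z hz.1.2
  nonloop i z hz := by
    simp only [procOf, Finset.mem_toList, Finset.mem_sdiff, Finset.mem_inter] at hz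
    exact hT.nonloop i z hz.1.2
  nodup i := Finset.nodup_toList _
  disj i j hij z hz hz' := by
    simp only [procOf, Finset.mem_toList, Finset.mem_sdiff, Finset.mem_inter] at hz hz'
    exact Finset.disjoint_left.1 (hT.disj i j hij) hz.1.2 hz'.1.2

lemma procOf_hS (S Q : Finset α) (j : ℕ) (V : Set α) (hV : M.IsFlat V) :
    (procOf M lam hlam T S Q).F j V ⊆ M.closure (V ∪ (selB M (S ∩ T j) : Set α)) :=
  Fop_subset_closure (selB_indep M _).subset_ground hV.subset_ground

/-! ### averages over the bits -/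

/-- average over independent bits -/
noncomputable def Eb (s q : ℝ) (f : Finset α → Finset α → ℝ) : ℝ :=
  ∑ S : Finset α, bw s S * ∑ Q : Finset α, bw q Q * f S Q

lemma Eb_le {s q : ℝ} (hs0 : 0 ≤ s) (hs1 : s ≤ 1) (hq0 : 0 ≤ q) (hq1 : q ≤ 1)
    {f g : Finset α → Finset α → ℝ} (h : ∀ S Q, f S Q ≤ g S Q) : Eb s q f ≤ Eb s q g :=
  Finset.sum_le_sum fun S _ => mul_le_mul_of_nonneg_left
    (Finset.sum_le_sum fun Q _ => mul_le_mul_of_nonneg_left (h S Q) (bw_nonneg hq0 hq1 Q))
    (bw_nonneg hs0 hs1 S)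

lemma Eb_const (s q a : ℝ) : Eb (α := α) s q (fun _ _ => a) = a := by
  unfold Eb
  simp only [← Finset.sum_mul, sum_bw, one_mul]

lemma Eb_sub (s q : ℝ) (f g : Finset α → Finset α → ℝ) :
    Eb s q (fun S Q => f S Q - g S Q) = Eb s q f - Eb s q g := by
  unfold Eb
  simp only [mul_sub, Finset.sum_sub_distrib]

lemma Eb_add (s q : ℝ) (f g : Finset α → Finset α → ℝ) :
    Eb s q (fun S Q => f S Q + g S Q) = Eb s q f + Eb s q g := by
  unfold Eb
  simp only [mul_add, Finset.sum_add_distrib]

lemma Eb_mul_left (s q a : ℝ) (f : Finset α → Finset α → ℝ) :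
    Eb s q (fun S Q => a * f S Q) = a * Eb s q f := by
  unfold Eb
  rw [Finset.mul_sum]
  refine Finset.sum_congr rfl fun S _ => ?_
  have h : ∑ Q : Finset α, bw q Q * (a * f S Q) = a * ∑ Q : Finset α, bw q Q * f S Q := by
    rw [Finset.mul_sum]
    exact Finset.sum_congr rfl fun Q _ => by ring
  rw [h]
  ring

lemma Eb_div (s q a : ℝ) (f : Finset α → Finset α → ℝ) :
    Eb s q (fun S Q => f S Q / a) = Eb s q f / a := by
  have := Eb_mul_left s q a⁻¹ f
  rw [div_eq_inv_mul, ← this]
  unfold Eb
  simp only [div_eq_inv_mul]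

lemma Eb_sum {ι : Type*} (s q : ℝ) (I : Finset ι) (f : ι → Finset α → Finset α → ℝ) :
    Eb s q (fun S Q => ∑ i ∈ I, f i S Q) = ∑ i ∈ I, Eb s q (f i) := by
  classical
  induction I using Finset.induction_on with
  | empty => simp only [Finset.sum_empty]; exact Eb_const s q 0
  | insert i I hi ih =>
    rw [Finset.sum_insert hi, ← ih, ← Eb_add]
    congr 1
    funext S Q
    rw [Finset.sum_insert hi]

lemma Eb_card (s q : ℝ) (B : Finset α) :
    Eb s q (fun S Q => (((Q ∩ B) \ S).card : ℝ)) = q * ((1 - s) * B.card) := by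
  unfold Eb
  have h1 : ∀ S : Finset α, ∑ Q : Finset α, bw q Q * (((Q ∩ B) \ S).card : ℝ) =
      q * ((B \ S).card : ℝ) := by
    intro S
    rw [← sum_bw_card]
    refine Finset.sum_congr rfl fun Q _ => ?_
    rw [Finset.inter_sdiff_assoc]
  have h2 : ∀ S : Finset α, ((B \ S).card : ℝ) = B.card - ((S ∩ B).card : ℝ) := by
    intro S
    rw [Finset.card_sdiff, Nat.cast_sub (Finset.card_le_card Finset.inter_subset_right)]
  simp only [h1, h2]
  have h3 : ∀ S : Finset α, bw s S * (q * ((B.card : ℝ) - ((S ∩ B).card : ℝ))) =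
      q * (bw s S * B.card - bw s S * ((S ∩ B).card : ℝ)) := by intro S; ring
  simp only [h3]
  rw [← Finset.mul_sum, Finset.sum_sub_distrib, ← Finset.sum_mul, sum_bw, sum_bw_card]
  ring

lemma Eb_mix (s q : ℝ) (B : Finset α) (f : Finset α → Finset α → ℝ) :
    Eb s q f = Eb s q (fun S Q => Eb s q (fun S' Q' => f (mix B S S') (mix B Q Q'))) := by
  unfold Eb
  rw [resample s B]
  refine Finset.sum_congr rfl fun S _ => ?_
  congr 1
  have h1 : ∀ S' : Finset α, ∑ Q : Finset α, bw q Q * f (mix B S S') Q =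
      ∑ Q : Finset α, bw q Q * ∑ Q' : Finset α, bw q Q' * f (mix B S S') (mix B Q Q') :=
    fun S' => resample q B (fun Q => f (mix B S S') Q)
  simp only [h1]
  simp only [Finset.mul_sum]
  rw [Finset.sum_comm]
  refine Finset.sum_congr rfl fun Q _ => ?_
  refine Finset.sum_congr rfl fun S' _ => ?_
  refine Finset.sum_congr rfl fun Q' _ => ?_
  ring

/-- the chain of the barriers before class `i` -/
noncomputable def chainU (M : Matroid α) (lam : ℕ) (hlam : 1 ≤ lam) (T : ℕ → Finset α)
    (c : α → Bool) (i h : ℕ) (S Q : Finset α) (t : ℕ) : Set α :=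
  if t < h then (procOf M lam hlam T S Q).W c i (h - 1 - t) else M.E

lemma chainU_subset (c : α → Bool) (i h : ℕ) (S Q : Finset α) (t : ℕ) :
    chainU M lam hlam T c i h S Q t ⊆ M.E := by
  unfold chainU
  split_ifs
  · exact ((procOf M lam hlam T S Q).W_flat c i _).subset_ground
  · exact subset_rfl

lemma chainU_mono (c : α → Bool) (i h : ℕ) (S Q : Finset α) (t : ℕ) :
    chainU M lam hlam T c i h S Q t ⊆ chainU M lam hlam T c i h S Q (t + 1) := by
  unfold chainU
  split_ifs with h1 h2
  · exact (procOf M lam hlam T S Q).W_anti c i (by omega)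
  · exact ((procOf M lam hlam T S Q).W_flat c i _).subset_ground
  · omega
  · exact subset_rfl

lemma chainU_mix (hT : Classes M T) (c : α → Bool) (i h : ℕ) (S S' Q Q' : Finset α) :
    chainU M lam hlam T c i h (mix (T i) S S') (mix (T i) Q Q') =
      chainU M lam hlam T c i h S Q := by
  funext t
  unfold chainU
  split_ifs
  · refine ProcData.W_eq_of_agree c i ?_ ?_ _
    · intro j hj
      have : mix (T i) S S' ∩ T j = S ∩ T j := by
        ext x
        have hd : x ∈ T j → x ∉ T i := fun h => Finset.disjoint_left.1 (hT.disj j i (by omega)) h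
        simp only [Finset.mem_inter, mem_mix]
        tauto
      simp only [procOf, this]
    · intro j hj z
      have hd : z ∈ T j → z ∉ T i := fun h => Finset.disjoint_left.1 (hT.disj j i (by omega)) h
      simp only [procOf, Finset.mem_toList, Finset.mem_sdiff, Finset.mem_inter, mem_mix]
      tauto
  · rfl

lemma defi_eq_loss (hT : Classes M T) (c : α → Bool) (i h : ℕ) (S Q : Finset α) :
    ∑ m ∈ Finset.range h, defi M ((procOf M lam hlam T S Q).V c i m)
        ((procOf M lam hlam T S Q).reach c i m) =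
      loss M (Zc M lam (chainU M lam hlam T c i h S Q) (selB M (S ∩ T i))) h
        (((Q ∩ T i) \ S : Finset α) : Set α) := by
  unfold loss
  rw [← Finset.sum_range_reflect]
  refine Finset.sum_congr rfl fun t ht => ?_
  rw [Finset.mem_range] at ht
  have hZ : Zc M lam (chainU M lam hlam T c i h S Q) (selB M (S ∩ T i)) t =
      (procOf M lam hlam T S Q).V c i (h - 1 - t) := by
    unfold Zc chainU
    rw [if_pos ht]
    rfl
  have hR : (((Q ∩ T i) \ S : Finset α) : Set α) ∩
      Zc M lam (chainU M lam hlam T c i h S Q) (selB M (S ∩ T i)) (t + 1) =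
      (procOf M lam hlam T S Q).reach c i (h - 1 - t) := by
    by_cases h1 : t + 1 < h
    · have e : h - 1 - t = (h - 1 - (t + 1)) + 1 := by omega
      have hZ' : Zc M lam (chainU M lam hlam T c i h S Q) (selB M (S ∩ T i)) (t + 1) =
          (procOf M lam hlam T S Q).V c i (h - 1 - (t + 1)) := by
        unfold Zc chainU
        rw [if_pos h1]
        rfl
      rw [hZ', e]
      ext z
      simp only [ProcData.reach, procOf, Finset.mem_toList, mem_inter_iff, Finset.mem_coe,
        mem_ofPred_eq]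
    · have e : h - 1 - t = 0 := by omega
      have hZ' : Zc M lam (chainU M lam hlam T c i h S Q) (selB M (S ∩ T i)) (t + 1) = M.E := by
        unfold Zc chainU
        rw [if_neg h1]
        exact Fop_E (selB_indep M _).subset_ground
      rw [hZ', e]
      ext z
      simp only [ProcData.reach, procOf, Finset.mem_toList, mem_inter_iff, Finset.mem_coe,
        mem_ofPred_eq, Finset.mem_sdiff, Finset.mem_inter]
      constructor
      · intro hz; exact hz.1
      · intro hz; exact ⟨hz, hT.mem i z hz.1.2⟩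
  rw [hZ, hR]
  rfl

/-- the key lemma for the deficiencies of class `i` -/
theorem defi_bound (hT : Classes M T) (c : α → Bool) (i h : ℕ) {Lam : ℕ} {s q : ℝ}
    (hlam3 : 3 ≤ lam) (hLam0 : 0 < Lam) (h0 : 0 < s) (h1 : s ≤ 1) (hq : 0 ≤ q)
    (hq1 : q ≤ 1) (hqL : q * Lam ≤ 1) (hLam : (lam : ℝ) ≤ s / 20 * Lam) :
    Eb s q (fun S Q => ∑ m ∈ Finset.range h, defi M ((procOf M lam hlam T S Q).V c i m)
        ((procOf M lam hlam T S Q).reach c i m)) ≤
      q * ((T i).card * (24 * Real.log lam / (lam * s) + Real.exp (-(s * Lam / 4)) + q * Lam) +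
        20 * ((T i).card - rk M (T i : Set α) : ℕ) / s) := by
  rw [Eb_mix s q (T i)]
  refine le_trans (Eb_le h0.le h1 hq hq1 fun S Q => ?_) (Eb_const s q _).le
  have hkey := key_lemma (M := M) (T i) (fun z hz => hT.mem i z hz)
    (V := chainU M lam hlam T c i h S Q) (chainU_subset hlam c i h S Q)
    (chainU_mono hlam c i h S Q) h (selB M) (selB_subset M)
    (ν := (T i).card - rk M (T i : Set α)) (fun S hS => card_sdiff_selB M hS) hlam3 hLam0 h0 h1 hq hq1
    hqL hLam
  refine le_trans (le_of_eq ?_) hkey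
  unfold Eb
  refine Finset.sum_congr rfl fun S' _ => ?_
  congr 1
  refine Finset.sum_congr rfl fun Q' _ => ?_
  congr 1
  show ∑ m ∈ Finset.range h, defi M
      ((procOf M lam hlam T (mix (T i) S S') (mix (T i) Q Q')).V c i m)
      ((procOf M lam hlam T (mix (T i) S S') (mix (T i) Q Q')).reach c i m) = _
  rw [defi_eq_loss hlam hT, chainU_mix hlam hT]
  have e1 : mix (T i) S S' ∩ T i = S' ∩ T i := by
    ext x; simp only [Finset.mem_inter, mem_mix]; tauto
  have e2 : (mix (T i) Q Q' ∩ T i) \ mix (T i) S S' = (Q' ∩ T i) \ S' := by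
    ext x; simp only [Finset.mem_inter, mem_mix, Finset.mem_sdiff]; tauto
  rw [e1, e2]

lemma Eb_avg {Ω : Type*} [Fintype Ω] (s q : ℝ) (f : Ω → Finset α → Finset α → ℝ) :
    Eb s q (fun S Q => avg (fun c => f c S Q)) = avg (fun c => Eb s q (f c)) := by
  unfold avg
  rw [Eb_div s q _ (fun S Q => ∑ c, f c S Q), Eb_sum]

lemma Kset_card_le (S Q : Finset α) (c : α → Bool) (i n : ℕ) :
    (((procOf M lam hlam T S Q).Kset (fun j => (selB M (S ∩ T j) : Set α)) c i n).ncard : ℝ) ≤
      ∑ j ∈ Finset.Ioo i n, ((T j).card : ℝ) := by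
  have h1 : (procOf M lam hlam T S Q).Kset (fun j => (selB M (S ∩ T j) : Set α)) c i n ⊆
      (((Finset.Ioo i n).biUnion T : Finset α) : Set α) := by
    rintro z ⟨j, hij, hjn, hz⟩
    rw [Finset.mem_coe, Finset.mem_biUnion]
    refine ⟨j, Finset.mem_Ioo.2 ⟨hij, hjn⟩, ?_⟩
    rcases hz with hz | ⟨hz, -⟩
    · have := selB_subset M (S ∩ T j) hz
      exact (Finset.mem_inter.1 this).2
    · simp only [procOf, Finset.mem_toList, Finset.mem_sdiff, Finset.mem_inter] at hz
      exact hz.1.2
  have h2 := Set.ncard_le_ncard h1 (Set.toFinite _)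
  rw [Set.ncard_coe_finset] at h2
  have h3 : ((Finset.Ioo i n).biUnion T).card ≤ ∑ j ∈ Finset.Ioo i n, (T j).card :=
    Finset.card_biUnion_le
  exact_mod_cast h2.trans h3

/-- **class bound averaged over labels and coins** -/
theorem class_total (hT : Classes M T) {i n N : ℕ} (hn : i + 1 ≤ n)
    (hN : Fintype.card α + 2 ≤ 2 * N) {Lam : ℕ} {s q : ℝ}
    (hlam3 : 3 ≤ lam) (hLam0 : 0 < Lam) (h0 : 0 < s) (h1 : s ≤ 1) (hq : 0 ≤ q)
    (hq1 : q ≤ 1) (hqL : q * Lam ≤ 1) (hLam : (lam : ℝ) ≤ s / 20 * Lam) :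
    q * ((1 - s) * (T i).card) / 4 -
      q * ((T i).card * (24 * Real.log lam / (lam * s) + Real.exp (-(s * Lam / 4)) + q * Lam) +
        20 * ((T i).card - rk M (T i : Set α) : ℕ) / s) -
      2 * ∑ j ∈ Finset.Ioo i n, ((T j).card : ℝ) ≤
    Eb s q (fun S Q => avg (fun c : α → Bool =>
      ∑ m ∈ Finset.range (2 * N), (procOf M lam hlam T S Q).contrib c n i m)) := by
  have hmain : ∀ S Q : Finset α,
      (((Q ∩ T i) \ S).card : ℝ) / 4 -
        avg (fun c : α → Bool => ∑ m ∈ Finset.range (2 * N),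
          defi M ((procOf M lam hlam T S Q).V c i m) ((procOf M lam hlam T S Q).reach c i m)) -
        2 * ∑ j ∈ Finset.Ioo i n, ((T j).card : ℝ) ≤
      avg (fun c : α → Bool =>
        ∑ m ∈ Finset.range (2 * N), (procOf M lam hlam T S Q).contrib c n i m) := by
    intro S Q
    have hok := procOf_ok hlam hT S Q
    have hb : ((procOf M lam hlam T S Q).before i).length + 2 ≤ 2 * N := by
      have := ((procOf M lam hlam T S Q).nodup_before hok i).length_le_card
      omega
    have hc := (procOf M lam hlam T S Q).class_avg hok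
      (S := fun j => (selB M (S ∩ T j) : Set α)) (procOf_hS hlam S Q) hn hb
    have hlen : (((procOf M lam hlam T S Q).Q i).length : ℝ) = (((Q ∩ T i) \ S).card : ℝ) := by
      simp only [procOf, Finset.length_toList]
    have hK : avg (fun c : α → Bool => (((procOf M lam hlam T S Q).Kset
        (fun j => (selB M (S ∩ T j) : Set α)) c i n).ncard : ℝ)) ≤
        ∑ j ∈ Finset.Ioo i n, ((T j).card : ℝ) := by
      refine (avg_le fun c => Kset_card_le hlam S Q c i n).trans ?_
      rw [avg_const]
    rw [hlen] at hc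
    rw [avg_sum]
    linarith
  have h2 := Eb_le h0.le h1 hq hq1 hmain
  rw [Eb_sub, Eb_sub, Eb_const, Eb_div s q 4 (fun S Q => (((Q ∩ T i) \ S).card : ℝ)), Eb_card,
    Eb_avg s q (fun c S Q => ∑ m ∈ Finset.range (2 * N),
          defi M ((procOf M lam hlam T S Q).V c i m) ((procOf M lam hlam T S Q).reach c i m))] at h2
  have h3 := avg_le (Ω := α → Bool) fun c => defi_bound hlam hT c i (2 * N) hlam3 hLam0 h0 h1 hq
    hq1 hqL hLam
  rw [avg_const] at h3
  linarith

/-- version for `proc` of `Setup` -/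
theorem class_total_proc (T : Finset α) (hTE : (T : Set α) ⊆ M.E)
    (hTl : ∀ e ∈ T, e ∉ M.closure ∅) (cls : α → ℕ) {i n N : ℕ} (hn : i + 1 ≤ n)
    (hN : Fintype.card α + 2 ≤ 2 * N) {Lam : ℕ} {s q : ℝ}
    (hlam3 : 3 ≤ lam) (hLam0 : 0 < Lam) (h0 : 0 < s) (h1 : s ≤ 1) (hq : 0 ≤ q)
    (hq1 : q ≤ 1) (hqL : q * Lam ≤ 1) (hLam : (lam : ℝ) ≤ s / 20 * Lam) :
    q * ((1 - s) * (clsOf T cls i).card) / 4 -
      q * ((clsOf T cls i).card *
          (24 * Real.log lam / (lam * s) + Real.exp (-(s * Lam / 4)) + q * Lam) +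
        20 * ((clsOf T cls i).card - rk M (clsOf T cls i : Set α) : ℕ) / s) -
      2 * ∑ j ∈ Finset.Ioo i n, ((clsOf T cls j).card : ℝ) ≤
    Eb s q (fun S Q => avg (fun c : α → Bool =>
      ∑ m ∈ Finset.range (2 * N), (proc M lam hlam T cls S Q).contrib c n i m)) := by
  have hT : Classes M (clsOf T cls) := by
    refine ⟨?_, ?_, ?_⟩
    · intro i z hz
      exact hTE (Finset.mem_filter.1 hz).1
    · intro i z hz
      exact hTl z (Finset.mem_filter.1 hz).1
    · intro i j hij
      rw [Finset.disjoint_left]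
      intro z hz hz'
      exact hij ((Finset.mem_filter.1 hz).2.symm.trans (Finset.mem_filter.1 hz').2)
  exact class_total hlam hT hn hN hlam3 hLam0 h0 h1 hq hq1 hqL hLam

end proc

end Crest.Agent.MS
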