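import Mathlib

/-!
# Row 305 (S0468): random subsets, Chernoff bound, union bound over the codes (idea 499, corollary)

* `bw s S = ∏_i (s or 1 - s)`: weight of the subset `S` when every element is chosen independently
  with probability `s`.
* `chernoff_bw`: `P(|S ∩ B| ≤ δ |B|) ≤ exp(-s |B| / 2)` for `δ ≤ s / 10`.
* `union_bw`: if `B (f S)` is always poor (`|S ∩ B (f S)| ≤ δ |B (f S)|`) and `f` takes values in a
  finite set `C` of codes, then `P(b ≤ |B (f S)|) ≤ |C| exp(-s b / 2)`.
* `rich_expect`: `E |B (f S)| ≤ n (24 log λ / (λ s) + exp(-s Λ / 4))`.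
-/

set_option autoImplicit false

namespace Crest.Agent.MS

open Finset

variable {T : Type*} [Fintype T] [DecidableEq T]

/-- weight of `S` if every element is chosen independently with probability `s` -/
noncomputable def bw (s : ℝ) (S : Finset T) : ℝ := ∏ i, if i ∈ S then s else 1 - s

theorem bw_nonneg {s : ℝ} (h0 : 0 ≤ s) (h1 : s ≤ 1) (S : Finset T) : 0 ≤ bw s S := by
  refine Finset.prod_nonneg fun i _ => ?_
  split_ifs
  · exact h0
  · linarith

theorem bw_eq (s : ℝ) (S : Finset T) :
    bw s S = s ^ S.card * (1 - s) ^ (Fintype.card T - S.card) := by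
  unfold bw
  rw [Finset.prod_ite, Finset.prod_const, Finset.prod_const]
  congr 2
  · congr 1
    ext i
    simp
  · rw [← Finset.card_compl]
    congr 1
    ext i
    simp

/-- product formula for sums over subsets -/
theorem sum_prod_ite (f g : T → ℝ) :
    ∑ S : Finset T, ∏ i, (if i ∈ S then f i else g i) = ∏ i, (f i + g i) := by
  rw [Finset.prod_add]
  rw [← Finset.powerset_univ]
  refine Finset.sum_congr rfl fun S _ => ?_
  rw [Finset.prod_ite]
  congr 1
  · congr 1
    ext i
    simp
  · congr 1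
    ext i
    simp

theorem sum_bw (s : ℝ) : ∑ S : Finset T, bw s S = 1 := by
  unfold bw
  rw [sum_prod_ite (fun _ => s) (fun _ => 1 - s)]
  simp

theorem sum_bw_pow (s x : ℝ) (B : Finset T) :
    ∑ S : Finset T, bw s S * x ^ (S ∩ B).card = (1 - s + s * x) ^ B.card := by
  have h1 : ∀ S : Finset T, bw s S * x ^ (S ∩ B).card =
      ∏ i, (if i ∈ S then s * (if i ∈ B then x else 1) else 1 - s) := by
    intro S
    have : x ^ (S ∩ B).card = ∏ i, (if i ∈ S then (if i ∈ B then x else 1) else 1) := by
      have h2 : ∀ i : T, (if i ∈ S then (if i ∈ B then x else 1) else 1) =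
          if i ∈ S ∩ B then x else 1 := by
        intro i
        by_cases h3 : i ∈ S <;> by_cases h4 : i ∈ B <;> simp [h3, h4]
      simp only [h2]
      rw [Finset.prod_ite_mem, Finset.univ_inter, Finset.prod_const]
    rw [this]
    unfold bw
    rw [← Finset.prod_mul_distrib]
    refine Finset.prod_congr rfl fun i _ => ?_
    by_cases h3 : i ∈ S <;> simp [h3]
  simp only [h1]
  rw [sum_prod_ite]
  have h2 : ∀ i : T, s * (if i ∈ B then x else 1) + (1 - s) =
      if i ∈ B then 1 - s + s * x else 1 := by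
    intro i
    by_cases h4 : i ∈ B
    · simp [h4]; ring
    · simp [h4]
  simp only [h2]
  rw [Finset.prod_ite_mem, Finset.univ_inter, Finset.prod_const]

/-- Chernoff bound for the lower tail -/
theorem chernoff_bw {s : ℝ} (h0 : 0 ≤ s) (h1 : s ≤ 1) {δ : ℝ} (hδ : δ ≤ s / 10) (B : Finset T) :
    ∑ S : Finset T with ((S ∩ B).card : ℝ) ≤ δ * B.card, bw s S ≤
      Real.exp (-(s * B.card / 2)) := by
  have hlog : Real.log 10 ≤ 4 := by
    have h2 : Real.log 10 ≤ 10 / Real.exp 1 := by
      have := Real.add_one_le_exp (10 / Real.exp 1 - 1)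
      have h3 : Real.log 10 = Real.log (10 / Real.exp 1) + 1 := by
        rw [Real.log_div (by norm_num) (Real.exp_pos 1).ne', Real.log_exp]; ring
      have h4 := Real.log_le_sub_one_of_pos (x := 10 / Real.exp 1) (by positivity)
      linarith
    have h5 : (2.7 : ℝ) ≤ Real.exp 1 := by linarith [Real.exp_one_gt_d9]
    refine h2.trans ?_
    rw [div_le_iff₀ (Real.exp_pos 1)]
    linarith
  -- the tilting parameter is `1/10`
  have hkey : ∀ S : Finset T, ((S ∩ B).card : ℝ) ≤ δ * B.card →
      1 ≤ Real.exp (s / 10 * B.card * 4) * (1 / 10 : ℝ) ^ (S ∩ B).card := by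
    intro S hS
    have h2 : (1 / 10 : ℝ) ^ (S ∩ B).card = Real.exp (-(Real.log 10 * (S ∩ B).card)) := by
      rw [one_div, inv_pow, Real.exp_neg, mul_comm (Real.log 10), Real.exp_nat_mul,
        Real.exp_log (by norm_num)]
    rw [h2, ← Real.exp_add]
    refine Real.one_le_exp ?_
    have h3 : ((S ∩ B).card : ℝ) ≤ s / 10 * B.card :=
      hS.trans (mul_le_mul_of_nonneg_right hδ (Nat.cast_nonneg _))
    have h4 : Real.log 10 * (S ∩ B).card ≤ 4 * (S ∩ B).card :=
      mul_le_mul_of_nonneg_right hlog (Nat.cast_nonneg _)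
    linarith
  have hbound : ∑ S : Finset T with ((S ∩ B).card : ℝ) ≤ δ * B.card, bw s S ≤
      ∑ S : Finset T, Real.exp (s / 10 * B.card * 4) * (bw s S * (1 / 10 : ℝ) ^ (S ∩ B).card) := by
    rw [Finset.sum_filter]
    refine Finset.sum_le_sum fun S _ => ?_
    have hb := bw_nonneg h0 h1 S
    split_ifs with h
    · have := mul_le_mul_of_nonneg_left (hkey S h) hb
      linarith
    · positivity
  refine hbound.trans ?_
  rw [← Finset.mul_sum, sum_bw_pow]
  have h3 : (1 - s + s * (1 / 10)) ^ B.card ≤ Real.exp (-(s * (9 / 10)) * B.card) := by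
    have h4 : 1 - s + s * (1 / 10) ≤ Real.exp (-(s * (9 / 10))) := by
      have := Real.add_one_le_exp (-(s * (9 / 10)))
      linarith
    calc (1 - s + s * (1 / 10)) ^ B.card ≤ (Real.exp (-(s * (9 / 10)))) ^ B.card :=
          pow_le_pow_left₀ (by linarith) h4 _
      _ = _ := by rw [← Real.exp_nat_mul]; ring_nf
  refine (mul_le_mul_of_nonneg_left h3 (Real.exp_pos _).le).trans ?_
  rw [← Real.exp_add]
  refine Real.exp_le_exp.2 ?_
  nlinarith [mul_nonneg h0 (Nat.cast_nonneg (α := ℝ) B.card)]

/-- union bound over the codes -/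
theorem union_bw {α : Type*} (C : Finset α) (f : Finset T → α) (hf : ∀ S, f S ∈ C)
    (B : α → Finset T) {s : ℝ} (h0 : 0 ≤ s) (h1 : s ≤ 1) {δ : ℝ} (hδ : δ ≤ s / 10)
    (hB : ∀ S, ((S ∩ B (f S)).card : ℝ) ≤ δ * (B (f S)).card) (b : ℝ) :
    ∑ S : Finset T with b ≤ ((B (f S)).card : ℝ), bw s S ≤ C.card * Real.exp (-(s * b / 2)) := by
  have hstep : ∑ S : Finset T with b ≤ ((B (f S)).card : ℝ), bw s S ≤
      ∑ S : Finset T, ∑ c ∈ C, if b ≤ ((B c).card : ℝ) ∧ ((S ∩ B c).card : ℝ) ≤ δ * (B c).card
        then bw s S else 0 := by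
    rw [Finset.sum_filter]
    refine Finset.sum_le_sum fun S _ => ?_
    have hb := bw_nonneg h0 h1 S
    have hnn : ∀ c ∈ C, 0 ≤ (if b ≤ ((B c).card : ℝ) ∧ ((S ∩ B c).card : ℝ) ≤ δ * (B c).card
        then bw s S else 0) := by
      intro c _
      split_ifs
      · exact hb
      · exact le_rfl
    split_ifs with h
    · have := Finset.single_le_sum hnn (hf S)
      rw [if_pos ⟨h, hB S⟩] at this
      exact this
    · exact Finset.sum_nonneg hnn
  refine hstep.trans ?_
  rw [Finset.sum_comm]
  have hc : ∀ c ∈ C, (∑ S : Finset T, if b ≤ ((B c).card : ℝ) ∧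
      ((S ∩ B c).card : ℝ) ≤ δ * (B c).card then bw s S else 0) ≤ Real.exp (-(s * b / 2)) := by
    intro c _
    by_cases h : b ≤ ((B c).card : ℝ)
    · have h2 : (∑ S : Finset T, if b ≤ ((B c).card : ℝ) ∧
          ((S ∩ B c).card : ℝ) ≤ δ * (B c).card then bw s S else 0) =
          ∑ S : Finset T with ((S ∩ B c).card : ℝ) ≤ δ * (B c).card, bw s S := by
        rw [Finset.sum_filter]
        refine Finset.sum_congr rfl fun S _ => ?_
        simp [h]
      rw [h2]
      refine (chernoff_bw h0 h1 hδ (B c)).trans (Real.exp_le_exp.2 ?_)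
      have := mul_le_mul_of_nonneg_left h h0
      linarith
    · simp only [h, false_and, if_false, Finset.sum_const_zero]
      exact (Real.exp_pos _).le
  refine (Finset.sum_le_sum hc).trans ?_
  rw [Finset.sum_const, nsmul_eq_mul]

/-- number of partial colourings with at most `m` coloured points -/
theorem card_codes_le {κ : Type*} [Fintype κ] [DecidableEq κ] (m : ℝ) {t : ℝ} (ht : 0 < t)
    (ht1 : t ≤ 1) :
    ((Finset.univ.filter fun c : T → Option κ =>
      ((Finset.univ.filter fun i => c i ≠ none).card : ℝ) ≤ m).card : ℝ) ≤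
      t ^ (-m) * (1 + Fintype.card κ * t) ^ Fintype.card T := by
  have h1 : ∀ c : T → Option κ, t ^ (Finset.univ.filter fun i => c i ≠ none).card =
      ∏ i, (if c i = none then 1 else t) := by
    intro c
    rw [Finset.prod_ite, Finset.prod_const_one, one_mul, Finset.prod_const]
  have h2 : ∑ c : T → Option κ, ∏ i, (if c i = none then (1 : ℝ) else t) =
      (1 + Fintype.card κ * t) ^ Fintype.card T := by
    rw [← Fintype.prod_sum (f := fun (_ : T) (o : Option κ) => if o = none then (1 : ℝ) else t)]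
    simp [Fintype.sum_option]
  rw [← h2, Finset.mul_sum]
  have h3 : ((Finset.univ.filter fun c : T → Option κ =>
      ((Finset.univ.filter fun i => c i ≠ none).card : ℝ) ≤ m).card : ℝ) =
      ∑ c : T → Option κ with ((Finset.univ.filter fun i => c i ≠ none).card : ℝ) ≤ m, (1 : ℝ) := by
    simp
  rw [h3, Finset.sum_filter]
  refine Finset.sum_le_sum fun c _ => ?_
  rw [← h1]
  split_ifs with h
  · rw [← Real.rpow_natCast, ← Real.rpow_add ht]
    exact Real.one_le_rpow_of_pos_of_le_one_of_nonpos ht ht1 (by linarith)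
  · positivity

/-- the codes of the encoding lemma: `λ + 1` colours, at most `2 n / λ` coloured points -/
theorem card_codes_exp {κ : Type*} [Fintype κ] [DecidableEq κ] {lam : ℝ} (hlam : 3 ≤ lam)
    (hκ : (Fintype.card κ : ℝ) ≤ lam + 1) {m : ℝ} (hm : m ≤ 2 * Fintype.card T / lam) :
    ((Finset.univ.filter fun c : T → Option κ =>
      ((Finset.univ.filter fun i => c i ≠ none).card : ℝ) ≤ m).card : ℝ) ≤
      Real.exp (6 * Fintype.card T * Real.log lam / lam) := by
  have hl0 : 0 < lam := by linarith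
  have hlog : 1 ≤ Real.log lam := by
    rw [Real.le_log_iff_exp_le hl0]
    linarith [Real.exp_one_lt_d9]
  have ht : 0 < (lam ^ 2)⁻¹ := by positivity
  have ht1 : (lam ^ 2)⁻¹ ≤ 1 := inv_le_one_of_one_le₀ (by nlinarith)
  refine (card_codes_le (κ := κ) m ht ht1).trans ?_
  have e1 : ((lam ^ 2)⁻¹ : ℝ) ^ (-m) = Real.exp (2 * m * Real.log lam) := by
    rw [Real.rpow_def_of_pos ht, Real.log_inv, Real.log_pow]
    congr 1
    push_cast
    ring
  have e2 : (1 + Fintype.card κ * (lam ^ 2)⁻¹) ^ Fintype.card T ≤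
      Real.exp (Fintype.card T * (2 / lam)) := by
    have h3 : 1 + (Fintype.card κ : ℝ) * (lam ^ 2)⁻¹ ≤ Real.exp (2 / lam) := by
      have h4 : (Fintype.card κ : ℝ) * (lam ^ 2)⁻¹ ≤ 2 / lam := by
        rw [← div_eq_mul_inv, div_le_div_iff₀ (by positivity) hl0]
        nlinarith
      have := Real.add_one_le_exp (2 / lam)
      linarith
    calc (1 + (Fintype.card κ : ℝ) * (lam ^ 2)⁻¹) ^ Fintype.card T
        ≤ (Real.exp (2 / lam)) ^ Fintype.card T := pow_le_pow_left₀ (by positivity) h3 _
      _ = _ := by rw [← Real.exp_nat_mul]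
  rw [e1]
  refine (mul_le_mul_of_nonneg_left e2 (Real.exp_pos _).le).trans ?_
  rw [← Real.exp_add]
  refine Real.exp_le_exp.2 ?_
  have h5 : 2 * m * Real.log lam ≤ 2 * (2 * Fintype.card T / lam) * Real.log lam := by
    have : 0 ≤ Real.log lam := by linarith
    gcongr
  have h6 : (Fintype.card T : ℝ) * (2 / lam) ≤ Fintype.card T * (2 / lam) * Real.log lam :=
    le_mul_of_one_le_right (by positivity) hlog
  have h7 : 6 * (Fintype.card T : ℝ) * Real.log lam / lam =
      2 * (2 * Fintype.card T / lam) * Real.log lam + Fintype.card T * (2 / lam) * Real.log lam := by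
    ring
  rw [h7]
  linarith

/-- **the rich set is small in expectation** -/
theorem rich_expect {α : Type*} (C : Finset α) (f : Finset T → α) (hf : ∀ S, f S ∈ C)
    (B : α → Finset T) {s lam Lam δ : ℝ} (h0 : 0 < s) (h1 : s ≤ 1) (hlam : 3 ≤ lam)
    (hδ : δ ≤ s / 10) (_hLam : 0 ≤ Lam)
    (hC : (C.card : ℝ) ≤ Real.exp (6 * Fintype.card T * Real.log lam / lam))
    (hB : ∀ S, ((S ∩ B (f S)).card : ℝ) ≤ δ * (B (f S)).card)
    (hbig : ∀ S, (B (f S)).card = 0 ∨ Lam ≤ (B (f S)).card) :
    ∑ S : Finset T, bw s S * (B (f S)).card ≤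
      Fintype.card T * (24 * Real.log lam / (lam * s) + Real.exp (-(s * Lam / 4))) := by
  set n : ℝ := (Fintype.card T : ℝ) with hn
  have hn0 : 0 ≤ n := Nat.cast_nonneg _
  have hl0 : 0 < lam := by linarith
  have hlog : 0 ≤ Real.log lam := Real.log_nonneg (by linarith)
  set β : ℝ := 24 * Real.log lam / (lam * s) with hβ
  have hβ0 : 0 ≤ β := by positivity
  set b : ℝ := max (β * n) Lam with hb
  have hP := union_bw C f hf B h0.le h1 hδ hB b
  have hP2 : (C.card : ℝ) * Real.exp (-(s * b / 2)) ≤ Real.exp (-(s * Lam / 4)) := by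
    refine (mul_le_mul_of_nonneg_right hC (Real.exp_pos _).le).trans ?_
    rw [← Real.exp_add]
    refine Real.exp_le_exp.2 ?_
    have h3 : s * (β * n) ≤ s * b := mul_le_mul_of_nonneg_left (le_max_left _ _) h0.le
    have h4 : s * Lam ≤ s * b := mul_le_mul_of_nonneg_left (le_max_right _ _) h0.le
    have h5 : s * (β * n) = 24 * n * Real.log lam / lam := by
      rw [hβ]
      field_simp
    have h6 : 6 * n * Real.log lam / lam = (24 * n * Real.log lam / lam) / 4 := by ring
    rw [h6, ← h5]
    linarith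
  have hterm : ∀ S : Finset T, bw s S * (B (f S)).card ≤
      bw s S * (β * n) + (if b ≤ ((B (f S)).card : ℝ) then bw s S else 0) * n := by
    intro S
    have hbw := bw_nonneg h0.le h1 S
    have hcard : ((B (f S)).card : ℝ) ≤ n := by
      rw [hn]
      exact_mod_cast Finset.card_le_univ _
    split_ifs with h
    · have := mul_le_mul_of_nonneg_left hcard hbw
      have h7 : 0 ≤ bw s S * (β * n) := by positivity
      linarith
    · have h8 : ((B (f S)).card : ℝ) ≤ β * n := by
        rcases hbig S with h9 | h9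
        · rw [h9]
          simp only [Nat.cast_zero]
          positivity
        · push Not at h
          rw [hb, lt_max_iff] at h
          rcases h with h | h
          · exact h.le
          · linarith
      have := mul_le_mul_of_nonneg_left h8 hbw
      linarith
  calc ∑ S : Finset T, bw s S * (B (f S)).card
      ≤ ∑ S : Finset T, (bw s S * (β * n) +
        (if b ≤ ((B (f S)).card : ℝ) then bw s S else 0) * n) := Finset.sum_le_sum fun S _ => hterm S
    _ = β * n + (∑ S : Finset T with b ≤ ((B (f S)).card : ℝ), bw s S) * n := by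
        rw [Finset.sum_add_distrib, ← Finset.sum_mul, sum_bw, one_mul, ← Finset.sum_mul,
          Finset.sum_filter]
    _ ≤ β * n + Real.exp (-(s * Lam / 4)) * n := by
        have := mul_le_mul_of_nonneg_right (hP.trans hP2) hn0
        linarith
    _ = n * (β + Real.exp (-(s * Lam / 4))) := by ring

end Crest.Agent.MS
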