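import Mathlib
import Crest.Agent.MS.Ops
import Crest.Agent.MS.Union

/-!
# Row 305 (S0468): the rich set of a chain and the thin rank bound

For flats `Z ⊆ Z'`, `richX M Lam T Z Z' = F_Lam(T ∩ Z')(Z)`; for a chain `Z 0 ⊆ Z 1 ⊆ ...` of flats,
`rich M Lam T Z h = ⋃_{t<h} (T ∩ X_t) \ Z t`, `X_t = richX (Z t) (Z (t+1))`.

* `richX_spec`, `richX_subset`, `le_ncard_richX`: (1), (2), (3);
* `rich_sparse`: (4) a set which is `lam`-sparse over every `Z t` meets the rich set in at most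
  `(lam / Lam) |rich|` points;
* `rich_empty_or`: (5);
* `thin_rank`: (6) the rank of a thin random subset of a `Lam`-sparse set;
* `sum_rk_ge`: (7);
* `thin_chain`: the sum of the ranks of a thin random set along the chain.
-/

set_option autoImplicit false
set_option linter.unusedSectionVars false

namespace Crest.Agent.MS

open Set

variable {α : Type*} [Finite α] {M : Matroid α}

/-! ### closure and rank -/

theorem mem_closure_of_rk_le {Y : Set α} {e : α} (_hY : Y ⊆ M.E) (he : e ∈ M.E)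
    (h : rk M (Y ∪ {e}) ≤ rk M Y) : e ∈ M.closure Y := by
  have h1 : M.closure Y ∪ {e} ⊆ M.closure Y := by
    refine subset_of_rk_le (M.isFlat_closure Y) Set.subset_union_left
      (Set.union_subset (M.closure_subset_ground Y) (by simpa using he)) ?_
    rw [rk_union_closure_left, rk_closure]
    exact h
  exact h1 (Or.inr rfl)

theorem rk_union_singleton_of_mem_closure {Y : Set α} {e : α} (h : e ∈ M.closure Y)
    (_hY : Y ⊆ M.E) : rk M (Y ∪ {e}) = rk M Y := by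
  rw [← rk_union_closure_left, Set.union_eq_self_of_subset_right (by simpa using h), rk_closure]

theorem rk_union_singleton_of_notMem_closure {Y : Set α} {e : α} (hY : Y ⊆ M.E) (he : e ∈ M.E)
    (h : e ∉ M.closure Y) : rk M Y + 1 ≤ rk M (Y ∪ {e}) := by
  by_contra hcon
  exact h (mem_closure_of_rk_le hY he (by omega))

/-- the elements of `P` which are not spanned over `X` by the rest of `P` are independent -/
theorem rk_ge_free (X P J : Set α) (hX : X ⊆ M.E) (hP : P ⊆ M.E) (hJ : J ⊆ P)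
    (h : ∀ e ∈ J, e ∉ M.closure (X ∪ (P \ {e}))) : rk M X + J.ncard ≤ rk M (X ∪ P) := by
  have key : ∀ J' : Set α, J'.Finite → J' ⊆ J → rk M (X ∪ (P \ J')) + J'.ncard ≤ rk M (X ∪ P) := by
    intro J' hJ'
    induction J', hJ' using Set.Finite.induction_on with
    | empty => intro _; simp
    | @insert e J' heJ' hfin ih =>
      intro hsub
      have h1 := ih ((Set.subset_insert e J').trans hsub)
      have heJ : e ∈ J := hsub (Set.mem_insert e J')
      have heP : e ∈ P := hJ heJ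
      have h2 := rk_union_singleton_of_notMem_closure (M := M)
        (Set.union_subset hX (sdiff_subset.trans hP)) (hP heP) (h e heJ)
      have h3 := rk_marg M (X := X ∪ (P \ insert e J')) (Y := X ∪ (P \ {e}))
        (Set.union_subset_union_right _ (fun x hx => ⟨hx.1, fun hxe => hx.2 (by
          rw [Set.mem_singleton_iff] at hxe
          exact Or.inl hxe)⟩)) {e}
      have h4 : X ∪ (P \ insert e J') ∪ {e} = X ∪ (P \ J') := by
        rw [Set.union_assoc]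
        congr 1
        ext x
        by_cases hx : x = e
        · subst hx; simp [heP, heJ']
        · simp [hx]
      rw [h4] at h3
      rw [Set.ncard_insert_of_notMem heJ' hfin]
      omega
  have h1 := key J (Set.toFinite J) subset_rfl
  have h2 : rk M X ≤ rk M (X ∪ (P \ J)) := rk_mono M Set.subset_union_left
  omega

/-! ### the rich flat of one step -/

/-- the rich flat of the step `Z ⊆ Z'` -/
def richX (M : Matroid α) (Lam : ℕ) (T Z Z' : Set α) : Set α := Fop M Lam (T ∩ Z') Z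

theorem richX_subset {Lam : ℕ} {T Z Z' : Set α} (hZ : Z ⊆ Z') (hZ' : M.IsFlat Z') :
    richX M Lam T Z Z' ⊆ Z' := by
  refine Fop_subset_of hZ hZ' ?_
  intro X hX
  have h1 : ((T ∩ Z') ∩ X) \ Z' = ∅ := by
    ext x
    simp only [Set.mem_sdiff, Set.mem_inter_iff, Set.mem_empty_iff_false, iff_false]
    rintro ⟨⟨⟨_, h1⟩, _⟩, h2⟩
    exact h2 h1
  rw [h1]
  simp only [Set.ncard_empty, zero_add]
  exact Nat.mul_le_mul_left _ (rk_mono M hX)

theorem richX_spec {Lam : ℕ} {T Z Z' : Set α} (hZ : Z ⊆ Z') (hZ' : M.IsFlat Z') :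
    Z ⊆ richX M Lam T Z Z' ∧ M.IsFlat (richX M Lam T Z Z') ∧
      Sp M Lam (T ∩ Z') (richX M Lam T Z Z') :=
  Fop_spec M Lam (Set.inter_subset_right.trans hZ'.subset_ground)
    (hZ.trans hZ'.subset_ground)

/-- (2) -/
theorem le_ncard_richX {Lam : ℕ} {T Z Z' : Set α} (hZ : Z ⊆ Z') (hZ' : M.IsFlat Z') :
    Lam * rk M (richX M Lam T Z Z') ≤
      Lam * rk M Z + ((T ∩ richX M Lam T Z Z') \ Z).ncard := by
  have h1 := Fop_le (M := M) (lam := Lam) (S := T ∩ Z') (V := Z) (X := Z)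
    (Set.inter_subset_right.trans hZ'.subset_ground) (hZ.trans hZ'.subset_ground) subset_rfl
    (richX_spec hZ hZ').1
  have h2 : ((T ∩ Z') ∩ Fop M Lam (T ∩ Z') Z) \ Z ⊆ (T ∩ richX M Lam T Z Z') \ Z :=
    fun x hx => ⟨⟨hx.1.1.1, hx.1.2⟩, hx.2⟩
  have h3 := Set.ncard_le_ncard h2 (Set.toFinite _)
  unfold richX at *
  omega

theorem richX_sparse {Lam : ℕ} {T Z Z' T' : Set α} (hZ : Z ⊆ Z') (hZ' : M.IsFlat Z')
    (hT' : T' ⊆ T ∩ Z') : Sp M Lam T' (richX M Lam T Z Z') :=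
  (richX_spec hZ hZ').2.2.anti hT'

/-! ### chains -/

/-- the rich set of a chain -/
def rich (M : Matroid α) (Lam : ℕ) (T : Set α) (Z : ℕ → Set α) (h : ℕ) : Set α :=
  ⋃ t ∈ Set.Iio h, (T ∩ richX M Lam T (Z t) (Z (t + 1))) \ Z t

theorem rich_zero (Lam : ℕ) (T : Set α) (Z : ℕ → Set α) : rich M Lam T Z 0 = ∅ := by
  simp [rich]

theorem rich_succ (Lam : ℕ) (T : Set α) (Z : ℕ → Set α) (h : ℕ) :
    rich M Lam T Z (h + 1) =
      rich M Lam T Z h ∪ ((T ∩ richX M Lam T (Z h) (Z (h + 1))) \ Z h) := by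
  ext x
  simp only [rich, Set.mem_iUnion, Set.mem_Iio, exists_prop, Set.mem_union]
  constructor
  · rintro ⟨t, ht, hx⟩
    rcases Nat.lt_succ_iff_lt_or_eq.1 ht with h1 | h1
    · exact Or.inl ⟨t, h1, hx⟩
    · subst h1
      exact Or.inr hx
  · rintro (⟨t, ht, hx⟩ | hx)
    · exact ⟨t, by omega, hx⟩
    · exact ⟨h, by omega, hx⟩

theorem chain_mono {Z : ℕ → Set α} (hmono : ∀ t, Z t ⊆ Z (t + 1)) {s t : ℕ} (h : s ≤ t) :
    Z s ⊆ Z t := by
  induction h with
  | refl => exact subset_rfl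
  | step _ ih => exact ih.trans (hmono _)

theorem rich_subset_chain {Lam : ℕ} {T : Set α} {Z : ℕ → Set α} (hflat : ∀ t, M.IsFlat (Z t))
    (hmono : ∀ t, Z t ⊆ Z (t + 1)) (h : ℕ) : rich M Lam T Z h ⊆ Z h := by
  intro x hx
  simp only [rich, Set.mem_iUnion, Set.mem_Iio, exists_prop] at hx
  obtain ⟨t, ht, hx⟩ := hx
  exact chain_mono hmono (show t + 1 ≤ h by omega) (richX_subset (hmono t) (hflat (t + 1)) hx.1.2)

theorem rich_subset (Lam : ℕ) (T : Set α) (Z : ℕ → Set α) (h : ℕ) : rich M Lam T Z h ⊆ T := by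
  intro x hx
  simp only [rich, Set.mem_iUnion, Set.mem_Iio, exists_prop] at hx
  obtain ⟨t, _, hx⟩ := hx
  exact hx.1.1

theorem rich_disjoint {Lam : ℕ} {T : Set α} {Z : ℕ → Set α} (hflat : ∀ t, M.IsFlat (Z t))
    (hmono : ∀ t, Z t ⊆ Z (t + 1)) (h : ℕ) :
    Disjoint (rich M Lam T Z h) ((T ∩ richX M Lam T (Z h) (Z (h + 1))) \ Z h) := by
  rw [Set.disjoint_left]
  intro x hx hx'
  exact hx'.2 (rich_subset_chain hflat hmono h hx)

theorem ncard_rich_succ {Lam : ℕ} {T : Set α} {Z : ℕ → Set α} (hflat : ∀ t, M.IsFlat (Z t))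
    (hmono : ∀ t, Z t ⊆ Z (t + 1)) (h : ℕ) :
    (rich M Lam T Z (h + 1)).ncard = (rich M Lam T Z h).ncard +
      ((T ∩ richX M Lam T (Z h) (Z (h + 1))) \ Z h).ncard := by
  rw [rich_succ, Set.ncard_union_eq (rich_disjoint hflat hmono h)]

/-- (4) a set which is `lam`-sparse over every `Z t` meets the rich set rarely -/
theorem rich_sparse {lam Lam : ℕ} {T S : Set α} {Z : ℕ → Set α} (hflat : ∀ t, M.IsFlat (Z t))
    (hmono : ∀ t, Z t ⊆ Z (t + 1)) (h : ℕ) (hS : ∀ t < h, Sp M lam S (Z t)) :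
    Lam * (S ∩ rich M Lam T Z h).ncard ≤ lam * (rich M Lam T Z h).ncard := by
  induction h with
  | zero => simp [rich_zero]
  | succ h ih =>
    have h1 := ih fun t ht => hS t (by omega)
    rw [ncard_rich_succ hflat hmono, rich_succ, Set.inter_union_distrib_left]
    have h2 := Set.ncard_union_le (S ∩ rich M Lam T Z h)
      (S ∩ ((T ∩ richX M Lam T (Z h) (Z (h + 1))) \ Z h))
    have h3 := (hS h (Nat.lt_succ_self h)) (richX M Lam T (Z h) (Z (h + 1)))
      (richX_spec (hmono h) (hflat (h + 1))).1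
    have h4 : (S ∩ ((T ∩ richX M Lam T (Z h) (Z (h + 1))) \ Z h)).ncard ≤
        ((S ∩ richX M Lam T (Z h) (Z (h + 1))) \ Z h).ncard :=
      Set.ncard_le_ncard (fun x hx => ⟨⟨hx.1, hx.2.1.2⟩, hx.2.2⟩) (Set.toFinite _)
    have h5 := le_ncard_richX (M := M) (Lam := Lam) (T := T) (hmono h) (hflat (h + 1))
    have h6 : Lam * (S ∩ ((T ∩ richX M Lam T (Z h) (Z (h + 1))) \ Z h)).ncard ≤
        lam * ((T ∩ richX M Lam T (Z h) (Z (h + 1))) \ Z h).ncard := by
      have h7 := Nat.mul_le_mul_left Lam (h4)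
      have h8 := Nat.mul_le_mul_left Lam h3
      have h9 := Nat.mul_le_mul_left lam h5
      nlinarith
    calc Lam * (S ∩ rich M Lam T Z h ∪
          S ∩ ((T ∩ richX M Lam T (Z h) (Z (h + 1))) \ Z h)).ncard
        ≤ Lam * ((S ∩ rich M Lam T Z h).ncard +
          (S ∩ ((T ∩ richX M Lam T (Z h) (Z (h + 1))) \ Z h)).ncard) := Nat.mul_le_mul_left _ h2
      _ ≤ _ := by rw [Nat.mul_add, Nat.mul_add]; omega

/-- (5) the rich set is empty or large -/
theorem rich_empty_or {Lam : ℕ} {T : Set α} {Z : ℕ → Set α} (hflat : ∀ t, M.IsFlat (Z t))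
    (hmono : ∀ t, Z t ⊆ Z (t + 1)) (h : ℕ) :
    rich M Lam T Z h = ∅ ∨ Lam ≤ (rich M Lam T Z h).ncard := by
  induction h with
  | zero => exact Or.inl (rich_zero _ _ _)
  | succ h ih =>
    rw [ncard_rich_succ hflat hmono]
    rcases ih with h1 | h1
    · by_cases h2 : (T ∩ richX M Lam T (Z h) (Z (h + 1))) \ Z h = ∅
      · left
        rw [rich_succ, h1, h2, Set.union_empty]
      · right
        have h3 := le_ncard_richX (M := M) (Lam := Lam) (T := T) (hmono h) (hflat (h + 1))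
        obtain ⟨hZX, hXf, _⟩ := richX_spec (M := M) (Lam := Lam) (T := T) (hmono h) (hflat (h + 1))
        have h4 : rk M (Z h) + 1 ≤ rk M (richX M Lam T (Z h) (Z (h + 1))) := by
          by_contra hcon
          have h5 := subset_of_rk_le (hflat h) hZX hXf.subset_ground (by omega)
          apply h2
          ext x
          simp only [Set.mem_sdiff, Set.mem_inter_iff, Set.mem_empty_iff_false, iff_false]
          rintro ⟨⟨_, h6⟩, h7⟩
          exact h7 (h5 h6)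
        have h5 := Nat.mul_le_mul_left Lam h4
        rw [Nat.mul_add, Nat.mul_one] at h5
        omega
    · right
      omega

/-- (7) -/
theorem sum_rk_ge {Lam : ℕ} {T P : Set α} {Z : ℕ → Set α} (hflat : ∀ t, M.IsFlat (Z t))
    (hmono : ∀ t, Z t ⊆ Z (t + 1)) (h : ℕ) :
    ∑ t ∈ Finset.range h, ((rk M (richX M Lam T (Z t) (Z (t + 1)) ∪
        ((P ∩ Z (t + 1)) \ richX M Lam T (Z t) (Z (t + 1)))) : ℝ) -
        rk M (richX M Lam T (Z t) (Z (t + 1)))) ≤
      ∑ t ∈ Finset.range h, ((rk M (Z t ∪ (P ∩ Z (t + 1))) : ℝ) - rk M (Z t)) := by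
  refine Finset.sum_le_sum fun t _ => ?_
  have h1 := (richX_spec (M := M) (Lam := Lam) (T := T) (hmono t) (hflat (t + 1))).1
  have h2 := rk_marg M h1 (P ∩ Z (t + 1))
  have h3 : richX M Lam T (Z t) (Z (t + 1)) ∪
        ((P ∩ Z (t + 1)) \ richX M Lam T (Z t) (Z (t + 1))) =
      richX M Lam T (Z t) (Z (t + 1)) ∪ (P ∩ Z (t + 1)) := by
    rw [Set.union_sdiff_self]
  rw [h3]
  have h4 : ((rk M (richX M Lam T (Z t) (Z (t + 1)) ∪ (P ∩ Z (t + 1))) : ℝ) + rk M (Z t)) ≤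
      rk M (Z t ∪ (P ∩ Z (t + 1))) + rk M (richX M Lam T (Z t) (Z (t + 1))) := by
    exact_mod_cast h2
  linarith

/-! ### thin random sets -/

/-- `Q ω` is a random set in which the element `e` is present with probability `κ`,
independently of the rest -/
def Thin {Ω : Type*} [Fintype Ω] (ν : Ω → ℝ) (P : Ω → Set α) (κ : ℝ) (G : Set α) : Prop :=
  ∀ e ∈ G, ∀ φ : Set α → ℝ,
    ∑ ω, ν ω * (P ω).indicator (fun _ => φ (P ω \ {e})) e = κ * ∑ ω, ν ω * φ (P ω \ {e})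

/-- (6) the rank of a thin random subset of a `Lam`-sparse set (abstract form) -/
theorem thin_rank {Ω : Type*} [Fintype Ω] (ν : Ω → ℝ) (hν : ∀ ω, 0 ≤ ν ω) (P : Ω → Set α)
    {κ : ℝ} (hκ : 0 ≤ κ) {G X : Set α} {Lam : ℕ} (hG : G ⊆ M.E) (hX : X ⊆ M.E)
    (hP : ∀ ω, P ω ⊆ G) (hGX : Disjoint G X) (hsp : Sp M Lam G X) (hind : Thin ν P κ G) :
    κ * (1 - κ * Lam) * G.ncard * ∑ ω, ν ω ≤
      ∑ ω, ν ω * ((rk M (X ∪ P ω) : ℝ) - rk M X) := by
  classical
  have hGfin := Set.toFinite G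
  set Gf : Finset α := hGfin.toFinset with hGf
  have hmemG : ∀ e, e ∈ Gf ↔ e ∈ G := fun e => by rw [hGf, Set.Finite.mem_toFinset]
  have hGcard : (G.ncard : ℝ) = (Gf.card : ℝ) := by
    rw [Set.ncard_eq_toFinset_card G hGfin]
  -- indicator of `e ∉ cl (X ∪ Q)`
  set φ : α → Set α → ℝ := fun e Q => if e ∈ M.closure (X ∪ Q) then 0 else 1 with hφ
  set ρ : ℝ := ∑ ω, ν ω * ((rk M (X ∪ P ω) : ℝ) - rk M X) with hρ
  -- pointwise lower bound
  have h1 : ∀ ω, ∑ e ∈ Gf, (P ω).indicator (fun _ => φ e (P ω \ {e})) e ≤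
      (rk M (X ∪ P ω) : ℝ) - rk M X := by
    intro ω
    set J : Set α := {e | e ∈ P ω ∧ e ∉ M.closure (X ∪ (P ω \ {e}))} with hJ
    have h2 := rk_ge_free (M := M) X (P ω) J hX ((hP ω).trans hG) (fun e he => he.1)
      (fun e he => he.2)
    have h3 : ∑ e ∈ Gf, (P ω).indicator (fun _ => φ e (P ω \ {e})) e = (J.ncard : ℝ) := by
      have h4 : ∀ e ∈ Gf, (P ω).indicator (fun _ => φ e (P ω \ {e})) e =
          if e ∈ J then 1 else 0 := by
        intro e _
        by_cases h5 : e ∈ P ω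
        · rw [Set.indicator_of_mem h5]
          by_cases h6 : e ∈ M.closure (X ∪ (P ω \ {e}))
          · have h7 : e ∉ J := fun h => h.2 h6
            simp [hφ, h6, h7]
          · have h7 : e ∈ J := ⟨h5, h6⟩
            simp [hφ, h6, h7]
        · rw [Set.indicator_of_notMem h5]
          have h7 : e ∉ J := fun h => h5 h.1
          simp [h7]
      rw [Finset.sum_congr rfl h4, Finset.sum_boole]
      congr 1
      rw [Set.ncard_eq_toFinset_card J (Set.toFinite J)]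
      congr 1
      ext e
      simp only [Finset.mem_filter, Set.Finite.mem_toFinset, hmemG]
      exact ⟨fun h => h.2, fun h => ⟨hP ω h.1, h⟩⟩
    rw [h3]
    have : (rk M X : ℝ) + J.ncard ≤ rk M (X ∪ P ω) := by exact_mod_cast h2
    linarith
  -- sum over ω
  have h2 : ∑ e ∈ Gf, κ * ∑ ω, ν ω * φ e (P ω \ {e}) ≤ ρ := by
    calc ∑ e ∈ Gf, κ * ∑ ω, ν ω * φ e (P ω \ {e})
        = ∑ e ∈ Gf, ∑ ω, ν ω * (P ω).indicator (fun _ => φ e (P ω \ {e})) e := by
          refine Finset.sum_congr rfl fun e he => ?_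
          exact (hind e ((hmemG e).1 he) (φ e)).symm
      _ = ∑ ω, ν ω * ∑ e ∈ Gf, (P ω).indicator (fun _ => φ e (P ω \ {e})) e := by
          rw [Finset.sum_comm]
          refine Finset.sum_congr rfl fun ω _ => ?_
          rw [Finset.mul_sum]
      _ ≤ ρ := Finset.sum_le_sum fun ω _ => mul_le_mul_of_nonneg_left (h1 ω) (hν ω)
  -- the span of `P ω` contains few elements of `G`
  have h3 : ∀ ω, (Gf.card : ℝ) - Lam * ((rk M (X ∪ P ω) : ℝ) - rk M X) ≤
      ∑ e ∈ Gf, φ e (P ω \ {e}) := by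
    intro ω
    have hXP : X ∪ P ω ⊆ M.E := Set.union_subset hX ((hP ω).trans hG)
    set K : Set α := M.closure (X ∪ P ω) with hK
    have h4 := hsp K (Set.subset_union_left.trans (M.subset_closure _ hXP))
    have h5 : (G ∩ K) \ X = G ∩ K := by
      ext x
      simp only [Set.mem_sdiff, Set.mem_inter_iff, and_iff_left_iff_imp]
      intro hx hxX
      exact Set.disjoint_left.1 hGX hx.1 hxX
    rw [h5, rk_closure] at h4
    have h6 : ((G ∩ K).ncard : ℝ) + Lam * rk M X ≤ Lam * rk M (X ∪ P ω) := by exact_mod_cast h4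
    have h7 : ∀ e ∈ Gf, (1 : ℝ) - (if e ∈ K then 1 else 0) ≤ φ e (P ω \ {e}) := by
      intro e _
      by_cases h8 : e ∈ M.closure (X ∪ (P ω \ {e}))
      · have h9 : e ∈ K := M.closure_subset_closure
          (Set.union_subset_union_right _ sdiff_subset) h8
        simp [hφ, h8, h9]
      · have : φ e (P ω \ {e}) = 1 := by simp [hφ, h8]
        rw [this]
        split_ifs <;> norm_num
    have h8 := Finset.sum_le_sum h7
    rw [Finset.sum_sub_distrib, Finset.sum_const, nsmul_eq_mul, mul_one, Finset.sum_boole] at h8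
    have h9 : ((Gf.filter fun e => e ∈ K).card : ℝ) = ((G ∩ K).ncard : ℝ) := by
      rw [Set.ncard_eq_toFinset_card (G ∩ K) (Set.toFinite _)]
      congr 2
      ext e
      simp only [Finset.mem_filter, Set.Finite.mem_toFinset, hmemG, Set.mem_inter_iff]
    rw [h9] at h8
    linarith
  have h4 : κ * ((Gf.card : ℝ) * ∑ ω, ν ω - Lam * ρ) ≤ ρ := by
    have h5 : ∑ ω, ν ω * ((Gf.card : ℝ) - Lam * ((rk M (X ∪ P ω) : ℝ) - rk M X)) ≤
        ∑ ω, ν ω * ∑ e ∈ Gf, φ e (P ω \ {e}) :=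
      Finset.sum_le_sum fun ω _ => mul_le_mul_of_nonneg_left (h3 ω) (hν ω)
    have h6 : ∑ ω, ν ω * ((Gf.card : ℝ) - Lam * ((rk M (X ∪ P ω) : ℝ) - rk M X)) =
        (Gf.card : ℝ) * ∑ ω, ν ω - Lam * ρ := by
      rw [hρ, Finset.mul_sum, Finset.mul_sum, ← Finset.sum_sub_distrib]
      refine Finset.sum_congr rfl fun ω _ => ?_
      ring
    have h7 : ∑ e ∈ Gf, κ * ∑ ω, ν ω * φ e (P ω \ {e}) =
        κ * ∑ ω, ν ω * ∑ e ∈ Gf, φ e (P ω \ {e}) := by
      rw [← Finset.mul_sum, Finset.sum_comm]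
      congr 1
      refine Finset.sum_congr rfl fun ω _ => ?_
      rw [Finset.mul_sum]
    rw [h6] at h5
    have h8 := mul_le_mul_of_nonneg_left h5 hκ
    linarith
  have hρ0 : 0 ≤ ρ := by
    refine Finset.sum_nonneg fun ω _ => mul_nonneg (hν ω) ?_
    have : (rk M X : ℝ) ≤ rk M (X ∪ P ω) := by exact_mod_cast rk_mono M Set.subset_union_left
    linarith
  rw [hGcard]
  have hν0 : 0 ≤ ∑ ω, ν ω := Finset.sum_nonneg fun ω _ => hν ω
  have h5 : κ * ((Gf.card : ℝ) * ∑ ω, ν ω) ≤ (1 + κ * Lam) * ρ := by nlinarith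
  have h6 : 0 ≤ κ * Lam := mul_nonneg hκ (Nat.cast_nonneg _)
  by_cases h7 : κ * Lam ≤ 1
  · have h8 := mul_le_mul_of_nonneg_left h5 (show (0 : ℝ) ≤ 1 - κ * Lam by linarith)
    have h9 : (1 - κ * Lam) * ((1 + κ * Lam) * ρ) ≤ ρ := by
      nlinarith [mul_nonneg (mul_nonneg h6 h6) hρ0]
    calc κ * (1 - κ * Lam) * (Gf.card : ℝ) * ∑ ω, ν ω
        = (1 - κ * Lam) * (κ * ((Gf.card : ℝ) * ∑ ω, ν ω)) := by ring
      _ ≤ ρ := h8.trans h9
  · push Not at h7
    refine le_trans ?_ hρ0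
    have h8 : 0 ≤ κ * (Gf.card : ℝ) * ∑ ω, ν ω := by positivity
    nlinarith

/-- a `bw κ`-random subset of `T`, mapped to `α` by an injection, is thin -/
theorem thin_bw {T : Type*} [Fintype T] [DecidableEq T] (ι : T → α) (hι : Function.Injective ι)
    (κ : ℝ) (G : Set α) (hG : G ⊆ Set.range ι) :
    Thin (fun S : Finset T => bw κ S) (fun S => (ι '' (S : Set T)) ∩ G) κ G := by
  classical
  intro e he φ
  obtain ⟨x, rfl⟩ := hG he
  -- split the sum according to the membership of `x`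
  have hmem : ∀ S : Finset T, (ι x ∈ (ι '' (S : Set T)) ∩ G) ↔ x ∈ S := by
    intro S
    constructor
    · rintro ⟨⟨y, hy, hyx⟩, _⟩
      rw [← hι hyx]
      exact hy
    · intro hx
      exact ⟨⟨x, hx, rfl⟩, he⟩
  have hdel : ∀ S : Finset T, ((ι '' ((S.erase x : Finset T) : Set T)) ∩ G) \ {ι x} =
      ((ι '' (S : Set T)) ∩ G) \ {ι x} := by
    intro S
    ext y
    simp only [Set.mem_sdiff, Set.mem_inter_iff, Set.mem_image, Finset.mem_coe,
      Finset.mem_erase, Set.mem_singleton_iff]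
    constructor
    · rintro ⟨⟨⟨z, hz, hzy⟩, hy⟩, hyx⟩
      exact ⟨⟨⟨z, hz.2, hzy⟩, hy⟩, hyx⟩
    · rintro ⟨⟨⟨z, hz, hzy⟩, hy⟩, hyx⟩
      exact ⟨⟨⟨z, ⟨fun h => hyx (by rw [← hzy, h]), hz⟩, hzy⟩, hy⟩, hyx⟩
  have hins : ∀ S : Finset T, ((ι '' ((insert x S : Finset T) : Set T)) ∩ G) \ {ι x} =
      ((ι '' (S : Set T)) ∩ G) \ {ι x} := by
    intro S
    rw [← hdel (insert x S), ← hdel S]
    rw [Finset.erase_insert_eq_erase]
  -- weights
  have hw : ∀ S : Finset T, x ∉ S → bw κ (insert x S) = κ * ∏ i ∈ Finset.univ.erase x,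
      (if i ∈ S then κ else 1 - κ) := by
    intro S hS
    unfold bw
    rw [← Finset.mul_prod_erase Finset.univ _ (Finset.mem_univ x)]
    rw [if_pos (Finset.mem_insert_self x S)]
    congr 1
    refine Finset.prod_congr rfl fun i hi => ?_
    have : i ≠ x := Finset.ne_of_mem_erase hi
    simp [this]
  have hw' : ∀ S : Finset T, x ∉ S → bw κ S = (1 - κ) * ∏ i ∈ Finset.univ.erase x,
      (if i ∈ S then κ else 1 - κ) := by
    intro S hS
    unfold bw
    rw [← Finset.mul_prod_erase Finset.univ _ (Finset.mem_univ x), if_neg hS]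
  have hsplit : ∀ f : Finset T → ℝ, ∑ S, f S =
      ∑ S : Finset T with x ∉ S, (f (insert x S) + f S) := by
    intro f
    rw [← Finset.sum_filter_add_sum_filter_not Finset.univ (fun S : Finset T => x ∈ S) f,
      Finset.sum_add_distrib]
    congr 1
    refine Finset.sum_bij' (fun S _ => S.erase x) (fun S _ => insert x S) ?_ ?_ ?_ ?_ ?_
    · intro S hS
      simp
    · intro S hS
      simp
    · intro S hS
      simp only [Finset.mem_filter, Finset.mem_univ, true_and] at hS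
      exact Finset.insert_erase hS
    · intro S hS
      simp only [Finset.mem_filter, Finset.mem_univ, true_and] at hS
      exact Finset.erase_insert hS
    · intro S hS
      simp only [Finset.mem_filter, Finset.mem_univ, true_and] at hS
      rw [Finset.insert_erase hS]
  rw [hsplit, hsplit, Finset.mul_sum]
  refine Finset.sum_congr rfl fun S hS => ?_
  have hxS : x ∉ S := by simpa using hS
  have h1 : ι x ∈ (ι '' ((insert x S : Finset T) : Set T)) ∩ G :=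
    (hmem _).2 (Finset.mem_insert_self x S)
  have h2 : ι x ∉ (ι '' (S : Set T)) ∩ G := fun h => hxS ((hmem _).1 h)
  rw [Set.indicator_of_mem h1, Set.indicator_of_notMem h2, hins S]
  simp only [hw S hxS, hw' S hxS]
  ring

/-- **the rank of a thin set along the chain**: `P` thin in `T' ⊆ T` -/
theorem thin_chain {Ω : Type*} [Fintype Ω] (ν : Ω → ℝ) (hν : ∀ ω, 0 ≤ ν ω) (P : Ω → Set α)
    {κ : ℝ} (hκ : 0 ≤ κ) {T T' : Set α} {Lam : ℕ} (hκL : κ * Lam ≤ 1) (hT' : T' ⊆ T)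
    {Z : ℕ → Set α} (hflat : ∀ t, M.IsFlat (Z t)) (hmono : ∀ t, Z t ⊆ Z (t + 1)) (h : ℕ)
    (hP : ∀ ω, P ω ⊆ T') (hind : ∀ G ⊆ T', Thin ν (fun ω => P ω ∩ G) κ G) :
    κ * (1 - κ * Lam) * ((((T' ∩ Z h) \ Z 0).ncard : ℝ) - (rich M Lam T Z h).ncard) * ∑ ω, ν ω ≤
      ∑ ω, ν ω * ∑ t ∈ Finset.range h, ((rk M (Z t ∪ (P ω ∩ Z (t + 1))) : ℝ) - rk M (Z t)) := by
  classical
  have hν0 : 0 ≤ ∑ ω, ν ω := Finset.sum_nonneg fun ω _ => hν ω
  have hc : 0 ≤ κ * (1 - κ * Lam) := mul_nonneg hκ (by linarith)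
  set G : ℕ → Set α := fun t => (T' ∩ Z (t + 1)) \ richX M Lam T (Z t) (Z (t + 1)) with hG
  have hstep : ∀ t, κ * (1 - κ * Lam) * (G t).ncard * ∑ ω, ν ω ≤
      ∑ ω, ν ω * ((rk M (Z t ∪ (P ω ∩ Z (t + 1))) : ℝ) - rk M (Z t)) := by
    intro t
    obtain ⟨hZX, hXf, hXsp⟩ := richX_spec (M := M) (Lam := Lam) (T := T) (hmono t) (hflat (t + 1))
    set X := richX M Lam T (Z t) (Z (t + 1)) with hX
    have hGT : G t ⊆ T' := fun x hx => hx.1.1
    have h1 := thin_rank (M := M) ν hν (fun ω => P ω ∩ G t) hκ (G := G t) (X := X) (Lam := Lam)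
      (fun x hx => (hflat (t + 1)).subset_ground hx.1.2) hXf.subset_ground
      (fun ω => Set.inter_subset_right)
      (Set.disjoint_left.2 fun x hx hx' => hx.2 hx')
      (hXsp.anti fun x hx => ⟨hT' hx.1.1, hx.1.2⟩) (hind (G t) hGT)
    refine h1.trans (Finset.sum_le_sum fun ω _ => mul_le_mul_of_nonneg_left ?_ (hν ω))
    have h2 := rk_marg M hZX (P ω ∩ Z (t + 1))
    have h3 : X ∪ (P ω ∩ G t) = X ∪ (P ω ∩ Z (t + 1)) := by
      ext x
      simp only [hG, Set.mem_union, Set.mem_inter_iff, Set.mem_sdiff]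
      constructor
      · rintro (h4 | h4)
        · exact Or.inl h4
        · exact Or.inr ⟨h4.1, h4.2.1.2⟩
      · rintro (h4 | h4)
        · exact Or.inl h4
        · by_cases h5 : x ∈ X
          · exact Or.inl h5
          · exact Or.inr ⟨h4.1, ⟨hP ω h4.1, h4.2⟩, h5⟩
    rw [h3]
    have h4 : ((rk M (X ∪ (P ω ∩ Z (t + 1))) : ℝ) + rk M (Z t)) ≤
        rk M (Z t ∪ (P ω ∩ Z (t + 1))) + rk M X := by exact_mod_cast h2
    linarith
  have hcount : ∀ h : ℕ, ((T' ∩ Z h) \ Z 0).ncard ≤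
      ∑ t ∈ Finset.range h, (G t).ncard + (rich M Lam T Z h).ncard := by
    intro h
    induction h with
    | zero =>
      have : (T' ∩ Z 0) \ Z 0 = ∅ := by
        ext x
        simp only [Set.mem_sdiff, Set.mem_inter_iff, Set.mem_empty_iff_false, iff_false]
        rintro ⟨⟨_, h1⟩, h2⟩
        exact h2 h1
      simp [this]
    | succ h ih =>
      rw [Finset.sum_range_succ, ncard_rich_succ hflat hmono]
      have h1 : (T' ∩ Z (h + 1)) \ Z 0 ⊆ ((T' ∩ Z h) \ Z 0) ∪ (G h ∪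
          ((T ∩ richX M Lam T (Z h) (Z (h + 1))) \ Z h)) := by
        intro x hx
        by_cases h2 : x ∈ Z h
        · exact Or.inl ⟨⟨hx.1.1, h2⟩, hx.2⟩
        · right
          by_cases h3 : x ∈ richX M Lam T (Z h) (Z (h + 1))
          · exact Or.inr ⟨⟨hT' hx.1.1, h3⟩, h2⟩
          · exact Or.inl ⟨⟨hx.1.1, hx.1.2⟩, h3⟩
      have h2 := Set.ncard_le_ncard h1 (Set.toFinite _)
      have h3 := Set.ncard_union_le ((T' ∩ Z h) \ Z 0) (G h ∪
          ((T ∩ richX M Lam T (Z h) (Z (h + 1))) \ Z h))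
      have h4 := Set.ncard_union_le (G h) ((T ∩ richX M Lam T (Z h) (Z (h + 1))) \ Z h)
      omega
  have h1 : (((T' ∩ Z h) \ Z 0).ncard : ℝ) - (rich M Lam T Z h).ncard ≤
      ∑ t ∈ Finset.range h, ((G t).ncard : ℝ) := by
    have := hcount h
    have h2 : (((T' ∩ Z h) \ Z 0).ncard : ℝ) ≤
        ∑ t ∈ Finset.range h, ((G t).ncard : ℝ) + (rich M Lam T Z h).ncard := by
      exact_mod_cast this
    linarith
  calc κ * (1 - κ * Lam) * ((((T' ∩ Z h) \ Z 0).ncard : ℝ) - (rich M Lam T Z h).ncard) * ∑ ω, ν ω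
      ≤ κ * (1 - κ * Lam) * (∑ t ∈ Finset.range h, ((G t).ncard : ℝ)) * ∑ ω, ν ω :=
        mul_le_mul_of_nonneg_right (mul_le_mul_of_nonneg_left h1 hc) hν0
    _ = ∑ t ∈ Finset.range h, κ * (1 - κ * Lam) * (G t).ncard * ∑ ω, ν ω := by
        simp only [Finset.mul_sum (Finset.range h), Finset.sum_mul (Finset.range h)]
    _ ≤ ∑ t ∈ Finset.range h,
          ∑ ω, ν ω * ((rk M (Z t ∪ (P ω ∩ Z (t + 1))) : ℝ) - rk M (Z t)) :=
        Finset.sum_le_sum fun t _ => hstep t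
    _ = _ := by
        rw [Finset.sum_comm]
        refine Finset.sum_congr rfl fun ω _ => ?_
        rw [Finset.mul_sum]

theorem Thin.sum_ncard {Ω : Type*} [Fintype Ω] {ν : Ω → ℝ} {P : Ω → Set α} {κ : ℝ} {G : Set α}
    (hP : ∀ ω, P ω ⊆ G) (hind : Thin ν P κ G) :
    ∑ ω, ν ω * ((P ω).ncard : ℝ) = κ * G.ncard * ∑ ω, ν ω := by
  classical
  have hGfin := Set.toFinite G
  have h1 : ∀ ω, ((P ω).ncard : ℝ) =
      ∑ e ∈ hGfin.toFinset, (P ω).indicator (fun _ => (1 : ℝ)) e := by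
    intro ω
    rw [Finset.sum_indicator_eq_sum_filter (t := fun _ => P ω)]
    rw [Finset.sum_const, nsmul_eq_mul, mul_one, Set.ncard_eq_toFinset_card (P ω) (Set.toFinite _)]
    congr 2
    ext e
    simp only [Set.Finite.mem_toFinset, Finset.mem_filter]
    exact ⟨fun h => ⟨hP ω h, h⟩, fun h => h.2⟩
  calc ∑ ω, ν ω * ((P ω).ncard : ℝ)
      = ∑ e ∈ hGfin.toFinset, ∑ ω, ν ω * (P ω).indicator (fun _ => (1 : ℝ)) e := by
        rw [Finset.sum_comm]
        refine Finset.sum_congr rfl fun ω _ => ?_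
        rw [h1 ω, Finset.mul_sum]
    _ = ∑ e ∈ hGfin.toFinset, κ * ∑ ω, ν ω := by
        refine Finset.sum_congr rfl fun e he => ?_
        have := hind e (hGfin.mem_toFinset.1 he) (fun _ => 1)
        simpa using this
    _ = κ * G.ncard * ∑ ω, ν ω := by
        rw [Finset.sum_const, nsmul_eq_mul, Set.ncard_eq_toFinset_card G hGfin]
        ring

/-- **the loss along the chain** -/
theorem thin_chain_loss {Ω : Type*} [Fintype Ω] (ν : Ω → ℝ) (hν : ∀ ω, 0 ≤ ν ω) (P : Ω → Set α)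
    {κ : ℝ} (hκ : 0 ≤ κ) {T T' : Set α} {Lam : ℕ} (hκL : κ * Lam ≤ 1) (hT' : T' ⊆ T)
    {Z : ℕ → Set α} (hflat : ∀ t, M.IsFlat (Z t)) (hmono : ∀ t, Z t ⊆ Z (t + 1)) (h : ℕ)
    (hP : ∀ ω, P ω ⊆ T') (hind : ∀ G ⊆ T', Thin ν (fun ω => P ω ∩ G) κ G) :
    ∑ ω, ν ω * ∑ t ∈ Finset.range h, ((((P ω ∩ Z (t + 1)) \ Z t).ncard : ℝ) -
        ((rk M (Z t ∪ (P ω ∩ Z (t + 1))) : ℝ) - rk M (Z t))) ≤
      κ * (κ * Lam * T'.ncard + (rich M Lam T Z h).ncard) * ∑ ω, ν ω := by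
  classical
  have hν0 : 0 ≤ ∑ ω, ν ω := Finset.sum_nonneg fun ω _ => hν ω
  have h1 := thin_chain ν hν P hκ hκL hT' hflat hmono h hP hind
  -- the number of points
  have h2 : ∀ (ω : Ω) (h : ℕ), ∑ t ∈ Finset.range h, (((P ω ∩ Z (t + 1)) \ Z t).ncard : ℝ) =
      ((P ω ∩ ((T' ∩ Z h) \ Z 0)).ncard : ℝ) := by
    intro ω h
    induction h with
    | zero =>
      have : P ω ∩ ((T' ∩ Z 0) \ Z 0) = ∅ := by
        ext x
        simp only [Set.mem_sdiff, Set.mem_inter_iff, Set.mem_empty_iff_false, iff_false]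
        rintro ⟨_, ⟨_, h1⟩, h2⟩
        exact h2 h1
      simp [this]
    | succ h ih =>
      rw [Finset.sum_range_succ, ih]
      have h3 : P ω ∩ ((T' ∩ Z (h + 1)) \ Z 0) =
          (P ω ∩ ((T' ∩ Z h) \ Z 0)) ∪ ((P ω ∩ Z (h + 1)) \ Z h) := by
        ext x
        simp only [Set.mem_union, Set.mem_inter_iff, Set.mem_sdiff]
        constructor
        · rintro ⟨h4, ⟨h5, h6⟩, h7⟩
          by_cases h8 : x ∈ Z h
          · exact Or.inl ⟨h4, ⟨h5, h8⟩, h7⟩
          · exact Or.inr ⟨⟨h4, h6⟩, h8⟩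
        · rintro (⟨h4, ⟨h5, h6⟩, h7⟩ | ⟨⟨h4, h5⟩, h6⟩)
          · exact ⟨h4, ⟨h5, hmono h h6⟩, h7⟩
          · exact ⟨h4, ⟨hP ω h4, h5⟩, fun h7 => h6 (chain_mono hmono (Nat.zero_le h) h7)⟩
      have h4 : Disjoint (P ω ∩ ((T' ∩ Z h) \ Z 0)) ((P ω ∩ Z (h + 1)) \ Z h) := by
        rw [Set.disjoint_left]
        rintro x hx hx'
        exact hx'.2 hx.2.1.2
      rw [h3, Set.ncard_union_eq h4]
      push_cast
      ring
  have h3 : ∑ ω, ν ω * ((P ω ∩ ((T' ∩ Z h) \ Z 0)).ncard : ℝ) =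
      κ * ((T' ∩ Z h) \ Z 0).ncard * ∑ ω, ν ω :=
    Thin.sum_ncard (fun ω => Set.inter_subset_right) (hind _ (fun x hx => hx.1.1))
  have h4 : ∑ ω, ν ω * ∑ t ∈ Finset.range h, ((((P ω ∩ Z (t + 1)) \ Z t).ncard : ℝ) -
        ((rk M (Z t ∪ (P ω ∩ Z (t + 1))) : ℝ) - rk M (Z t))) =
      κ * ((T' ∩ Z h) \ Z 0).ncard * ∑ ω, ν ω -
        ∑ ω, ν ω * ∑ t ∈ Finset.range h, ((rk M (Z t ∪ (P ω ∩ Z (t + 1))) : ℝ) - rk M (Z t)) := by
    rw [← h3, ← Finset.sum_sub_distrib]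
    refine Finset.sum_congr rfl fun ω _ => ?_
    rw [Finset.sum_sub_distrib, h2 ω h]
    ring
  rw [h4]
  set a : ℝ := (((T' ∩ Z h) \ Z 0).ncard : ℝ) with ha
  set b : ℝ := ((rich M Lam T Z h).ncard : ℝ) with hb
  have ha0 : 0 ≤ a := Nat.cast_nonneg _
  have hb0 : 0 ≤ b := Nat.cast_nonneg _
  have haT : a ≤ T'.ncard := by
    rw [ha]
    have h5 : (T' ∩ Z h) \ Z 0 ⊆ T' := fun x hx => hx.1.1
    exact_mod_cast Set.ncard_le_ncard h5 (Set.toFinite _)
  have h5 : κ * a - κ * (1 - κ * Lam) * (a - b) ≤ κ * (κ * Lam * T'.ncard + b) := by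
    have h6 : κ * a - κ * (1 - κ * Lam) * (a - b) = κ * (κ * Lam * a + (1 - κ * Lam) * b) := by
      ring
    rw [h6]
    have h7 : 0 ≤ κ * Lam := mul_nonneg hκ (Nat.cast_nonneg _)
    refine mul_le_mul_of_nonneg_left ?_ hκ
    nlinarith [mul_le_mul_of_nonneg_left haT h7, mul_nonneg h7 hb0]
  have h6 := mul_le_mul_of_nonneg_right h5 hν0
  linarith

end Crest.Agent.MS
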