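import Mathlib
import Crest.Agent.MS.Rich

/-!
# Row 305 (S0468): labels, the improving set, its nullity (Lemma D') and its weight

`pw p ℓ = ∏ e, p (ℓ e)` is the weight of the labelling `ℓ : α → L`.  `LH` = the `H`-labels,
`LT` = the `T`-labels (disjoint).  `ord : α → ℕ` is an injective order (larger = heavier),
`Pop` the population.

* `pw_resample`, `pw_indep`: the label of one element is independent of the others;
* `impr M Pop ord LH LT ℓ`: the elements of `Pop` with an `LT`-label which are not spanned by the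
  heavier `LH`-elements; `impr M Pop ord LH LH ℓ` is a greedy basis of the `LH`-elements;
* `null_impr`: Lemma D';
* `sum_impr_swap`, `weight_impr_ge`: `E w(T) = (p_T / p_H) E w(B) ≥ p_T w(I)`.
-/

set_option autoImplicit false
set_option linter.unusedSectionVars false

namespace Crest.Agent.MS

open Set

section pw

variable {α : Type*} [Fintype α] [DecidableEq α] {L : Type*} [Fintype L]

/-- weight of a labelling -/
noncomputable def pw (p : L → ℝ) (ℓ : α → L) : ℝ := ∏ e, p (ℓ e)

theorem pw_nonneg {p : L → ℝ} (hp : ∀ a, 0 ≤ p a) (ℓ : α → L) : 0 ≤ pw p ℓ :=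
  Finset.prod_nonneg fun e _ => hp (ℓ e)

theorem sum_pw {p : L → ℝ} (hp : ∑ a, p a = 1) : ∑ ℓ : α → L, pw p ℓ = 1 := by
  unfold pw
  rw [← Fintype.prod_sum (f := fun (_ : α) (a : L) => p a)]
  simp [hp]

theorem pw_update (p : L → ℝ) (ℓ : α → L) (e : α) (b : L) :
    pw p (Function.update ℓ e b) * p (ℓ e) = pw p ℓ * p b := by
  unfold pw
  rw [← Finset.mul_prod_erase Finset.univ _ (Finset.mem_univ e),
    ← Finset.mul_prod_erase Finset.univ (fun i => p (ℓ i)) (Finset.mem_univ e)]
  have h : ∏ x ∈ Finset.univ.erase e, p (Function.update ℓ e b x) =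
      ∏ x ∈ Finset.univ.erase e, p (ℓ x) := by
    refine Finset.prod_congr rfl fun x hx => ?_
    rw [Function.update_of_ne (Finset.ne_of_mem_erase hx)]
  rw [h, Function.update_self]
  ring

/-- the label of `e` can be resampled -/
theorem pw_resample {p : L → ℝ} (hp : ∑ a, p a = 1) (e : α) (F : (α → L) → ℝ) :
    ∑ ℓ, pw p ℓ * ∑ a, p a * F (Function.update ℓ e a) = ∑ ℓ, pw p ℓ * F ℓ := by
  have h1 : ∑ ℓ : α → L, pw p ℓ * ∑ a, p a * F (Function.update ℓ e a) =
      ∑ x : (α → L) × L, pw p x.1 * p x.2 * F (Function.update x.1 e x.2) := by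
    rw [Fintype.sum_prod_type]
    refine Finset.sum_congr rfl fun ℓ _ => ?_
    rw [Finset.mul_sum]
    refine Finset.sum_congr rfl fun a _ => ?_
    ring
  have h2 : ∑ ℓ, pw p ℓ * F ℓ = ∑ x : (α → L) × L, pw p x.1 * p x.2 * F x.1 := by
    rw [Fintype.sum_prod_type]
    refine Finset.sum_congr rfl fun ℓ _ => ?_
    have h3 : ∑ a, pw p ℓ * p a * F ℓ = (∑ a, p a) * (pw p ℓ * F ℓ) := by
      rw [Finset.sum_mul]
      refine Finset.sum_congr rfl fun a _ => ?_
      ring
    rw [h3, hp, one_mul]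
  rw [h1, h2]
  have hinv : Function.Involutive (fun x : (α → L) × L => (Function.update x.1 e x.2, x.1 e)) := by
    intro x
    simp
  refine Fintype.sum_equiv hinv.toPerm _ _ fun x => ?_
  show pw p x.1 * p x.2 * F (Function.update x.1 e x.2) =
    pw p (Function.update x.1 e x.2) * p (x.1 e) * F (Function.update x.1 e x.2)
  rw [pw_update]

/-- the label of `e` is independent of the labels of the others -/
theorem pw_indep {p : L → ℝ} (hp : ∑ a, p a = 1) (e : α) (g : L → ℝ) (f : (α → L) → ℝ)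
    (hf : ∀ ℓ a, f (Function.update ℓ e a) = f ℓ) :
    ∑ ℓ, pw p ℓ * (g (ℓ e) * f ℓ) = (∑ a, p a * g a) * ∑ ℓ, pw p ℓ * f ℓ := by
  rw [← pw_resample hp e (fun ℓ => g (ℓ e) * f ℓ)]
  rw [Finset.mul_sum]
  refine Finset.sum_congr rfl fun ℓ _ => ?_
  simp only [Function.update_self, hf]
  rw [Finset.sum_mul, Finset.mul_sum]
  refine Finset.sum_congr rfl fun a _ => ?_
  ring

end pw

section impr

variable {α : Type*} [Finite α] {L : Type*}

/-- the `A`-labelled elements of `Pop` which are heavier than `e` -/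
def above (Pop : Set α) (ord : α → ℕ) (A : Set L) (ℓ : α → L) (e : α) : Set α :=
  {e' | e' ∈ Pop ∧ ord e < ord e' ∧ ℓ e' ∈ A}

/-- the `B`-labelled elements of `Pop` which are not spanned by heavier `A`-labelled elements -/
def impr (M : Matroid α) (Pop : Set α) (ord : α → ℕ) (A B : Set L) (ℓ : α → L) : Set α :=
  {e | e ∈ Pop ∧ ℓ e ∈ B ∧ e ∉ M.closure (above Pop ord A ℓ e)}

theorem above_update [DecidableEq α] (Pop : Set α) (ord : α → ℕ) (A : Set L) (ℓ : α → L) (e : α)
    (a : L) : above Pop ord A (Function.update ℓ e a) e = above Pop ord A ℓ e := by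
  ext e'
  simp only [above, Set.mem_ofPred_eq]
  by_cases h : e' = e
  · subst h
    simp
  · rw [Function.update_of_ne h]

variable (M : Matroid α) {Pop : Set α} {ord : α → ℕ} {A : Set L} {ℓ : α → L}

/-- tail set -/
def tail (S : Set α) (ord : α → ℕ) (s : ℕ) : Set α := {e | e ∈ S ∧ s ≤ ord e}

/-- the greedy basis spans all tails -/
theorem tail_subset_closure (hPop : Pop ⊆ M.E) (s : ℕ) :
    tail {e | e ∈ Pop ∧ ℓ e ∈ A} ord s ⊆ M.closure (tail (impr M Pop ord A A ℓ) ord s) := by
  classical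
  obtain ⟨N, hN⟩ : ∃ N, ∀ e, ord e < N := by
    obtain ⟨N, hN⟩ := (Set.finite_range ord).bddAbove
    exact ⟨N + 1, fun e => Nat.lt_succ_of_le (hN ⟨e, rfl⟩)⟩
  have himprE : ∀ s, tail (impr M Pop ord A A ℓ) ord s ⊆ M.E := fun s e he => hPop he.1.1
  by_cases hs : N ≤ s
  · intro e he
    exact absurd (hN e) (by have := he.2; omega)
  push Not at hs
  -- reverse induction
  have key : ∀ d s, s + d = N → tail {e | e ∈ Pop ∧ ℓ e ∈ A} ord s ⊆
      M.closure (tail (impr M Pop ord A A ℓ) ord s) := by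
    intro d
    induction d with
    | zero =>
      intro s hs e he
      exact absurd (hN e) (by have := he.2; omega)
    | succ d ih =>
      intro s hs
      have h1 := ih (s + 1) (by omega)
      have h2 : tail (impr M Pop ord A A ℓ) ord (s + 1) ⊆ tail (impr M Pop ord A A ℓ) ord s :=
        fun e he => ⟨he.1, by have := he.2; omega⟩
      intro e he
      by_cases h3 : s + 1 ≤ ord e
      · exact M.closure_subset_closure h2 (h1 ⟨he.1, h3⟩)
      · have h4 : ord e = s := by have := he.2; omega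
        by_cases h5 : e ∈ M.closure (above Pop ord A ℓ e)
        · have h6 : above Pop ord A ℓ e ⊆ tail {e | e ∈ Pop ∧ ℓ e ∈ A} ord (s + 1) :=
            fun x hx => ⟨⟨hx.1, hx.2.2⟩, by have := hx.2.1; omega⟩
          have h7 := M.closure_subset_closure (h6.trans h1)
          rw [M.closure_closure] at h7
          exact M.closure_subset_closure h2 (h7 h5)
        · exact M.subset_closure _ (himprE s) ⟨⟨he.1.1, he.1.2, h5⟩, he.2⟩
  exact key (N - s) s (by omega)

/-- counting form -/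
theorem ncard_tail_le (hPop : Pop ⊆ M.E) {I : Set α} (hI : M.Indep I) (s : ℕ) :
    (tail {e | e ∈ I ∧ e ∈ Pop ∧ ℓ e ∈ A} ord s).ncard ≤
      (tail (impr M Pop ord A A ℓ) ord s).ncard := by
  have h1 : M.Indep (tail {e | e ∈ I ∧ e ∈ Pop ∧ ℓ e ∈ A} ord s) :=
    hI.subset fun e he => he.1.1
  have h2 : rk M (tail {e | e ∈ I ∧ e ∈ Pop ∧ ℓ e ∈ A} ord s) =
      (tail {e | e ∈ I ∧ e ∈ Pop ∧ ℓ e ∈ A} ord s).ncard := by
    unfold rk
    rw [h1.eRk_eq_encard, ← Set.Finite.cast_ncard_eq (Set.toFinite _), ENat.toNat_natCast]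
  rw [← h2]
  have h3 : tail {e | e ∈ I ∧ e ∈ Pop ∧ ℓ e ∈ A} ord s ⊆
      M.closure (tail (impr M Pop ord A A ℓ) ord s) := by
    intro e he
    exact tail_subset_closure M hPop s ⟨he.1.2, he.2⟩
  refine (rk_mono M h3).trans ?_
  rw [rk_closure]
  exact rk_le_ncard M _

/-- Abel summation: nonnegative tails give a nonnegative weighted sum -/
theorem sum_mul_nonneg_of_tails (ord : α → ℕ) (hord : Function.Injective ord) (P : Finset α)
    (d : α → ℝ) :
    ∀ w : α → ℝ, (∀ e e', ord e ≤ ord e' → w e ≤ w e') → (∀ e ∈ P, 0 ≤ w e) →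
    (∀ s, 0 ≤ ∑ e ∈ P with s ≤ ord e, d e) → 0 ≤ ∑ e ∈ P, d e * w e := by
  classical
  induction P using Finset.induction_on_min_value ord with
  | empty => intro w _ _ _; simp
  | insert a P haP hmin ih =>
    intro w hw hw0 hd
    have hlt : ∀ x ∈ P, ord a < ord x := fun x hx => lt_of_le_of_ne (hmin x hx)
      (fun h => haP (by rw [hord h]; exact hx))
    have h1 : 0 ≤ ∑ e ∈ P, d e * (w e - w a) := by
      refine ih (fun e => w e - w a) (fun e e' h => by have := hw e e' h; simpa using this)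
        (fun e he => by have := hw a e (hmin e he); simpa using this) fun s => ?_
      have h2 := hd (max s (ord a + 1))
      have h3 : ((insert a P).filter fun e => max s (ord a + 1) ≤ ord e) =
          P.filter fun e => s ≤ ord e := by
        ext x
        simp only [Finset.mem_filter, Finset.mem_insert, max_le_iff]
        constructor
        · rintro ⟨h4 | h4, h5, h6⟩
          · subst h4; omega
          · exact ⟨h4, h5⟩
        · rintro ⟨h4, h5⟩
          exact ⟨Or.inr h4, h5, hlt x h4⟩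
      rw [h3] at h2
      exact h2
    have h2 : 0 ≤ w a * ∑ e ∈ insert a P, d e := by
      refine mul_nonneg (hw0 a (Finset.mem_insert_self a P)) ?_
      have := hd 0
      simpa using this
    rw [Finset.sum_insert haP] at h2 ⊢
    have h3 : ∑ e ∈ P, d e * w e = ∑ e ∈ P, d e * (w e - w a) + (∑ e ∈ P, d e) * w a := by
      rw [Finset.sum_mul, ← Finset.sum_add_distrib]
      refine Finset.sum_congr rfl fun e _ => ?_
      ring
    rw [h3]
    nlinarith

end impr

section impr2

variable {α : Type*} [Fintype α] [DecidableEq α] {L : Type*} (M : Matroid α)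
  {Pop : Set α} {ord : α → ℕ} {A : Set L} {ℓ : α → L}

/-- the greedy basis has the largest weight -/
theorem weight_greedy_ge (hPop : Pop ⊆ M.E) (hord : Function.Injective ord) {I : Set α}
    (hI : M.Indep I) (w : α → ℝ) (hw : ∀ e e', ord e ≤ ord e' → w e ≤ w e') (hw0 : ∀ e, 0 ≤ w e) :
    ∑ e, (I ∩ {e | e ∈ Pop ∧ ℓ e ∈ A}).indicator w e ≤
      ∑ e, (impr M Pop ord A A ℓ).indicator w e := by
  classical
  set B := impr M Pop ord A A ℓ with hB
  set J : Set α := {e | e ∈ I ∧ e ∈ Pop ∧ ℓ e ∈ A} with hJ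
  have hJ' : I ∩ {e | e ∈ Pop ∧ ℓ e ∈ A} = J := rfl
  rw [hJ']
  have h1 := sum_mul_nonneg_of_tails ord hord Finset.univ
    (fun e => B.indicator (fun _ => (1 : ℝ)) e - J.indicator (fun _ => (1 : ℝ)) e) w hw
    (fun e _ => hw0 e) (fun s => by
      have h2 : ∀ S : Set α, ∑ e ∈ Finset.univ with s ≤ ord e, S.indicator (fun _ => (1 : ℝ)) e =
          ((tail S ord s).ncard : ℝ) := by
        intro S
        rw [Set.ncard_eq_toFinset_card _ (Set.toFinite _), Finset.sum_indicator_eq_sum_filter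
          (t := fun _ => S), Finset.sum_const, nsmul_eq_mul, mul_one]
        congr 2
        ext e
        simp only [tail, Finset.mem_filter, Finset.mem_univ, true_and, Set.Finite.mem_toFinset,
          Set.mem_ofPred_eq]
        exact and_comm
      rw [Finset.sum_sub_distrib, h2, h2]
      have h3 := ncard_tail_le (ℓ := ℓ) (A := A) (ord := ord) M hPop hI s
      have h4 : ((tail J ord s).ncard : ℝ) ≤ ((tail B ord s).ncard : ℝ) := by exact_mod_cast h3
      linarith)
  have h2 : ∀ S : Set α, ∀ e, S.indicator (fun _ => (1 : ℝ)) e * w e = S.indicator w e := by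
    intro S e
    by_cases h : e ∈ S <;> simp [h]
  simp only [sub_mul, h2, Finset.sum_sub_distrib] at h1
  linarith

end impr2

section swap

variable {α : Type*} [Fintype α] [DecidableEq α] {L : Type*} [Fintype L] (M : Matroid α)
  (Pop : Set α) (ord : α → ℕ)

/-- **label swap**: `W ℓ e` does not depend on the label of `e` -/
theorem impr_swap {p : L → ℝ} (hp : ∑ a, p a = 1) (A B C : Set L) (W : (α → L) → α → ℝ)
    (hW : ∀ ℓ e a, W (Function.update ℓ e a) e = W ℓ e) :
    (∑ a, C.indicator p a) *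
        ∑ ℓ, pw p ℓ * ∑ e, (impr M Pop ord A B ℓ).indicator (W ℓ) e =
      (∑ a, B.indicator p a) *
        ∑ ℓ, pw p ℓ * ∑ e, (impr M Pop ord A C ℓ).indicator (W ℓ) e := by
  classical
  set f : α → (α → L) → ℝ := fun e ℓ =>
    if e ∈ Pop ∧ e ∉ M.closure (above Pop ord A ℓ e) then W ℓ e else 0 with hf
  have hfu : ∀ e ℓ a, f e (Function.update ℓ e a) = f e ℓ := by
    intro e ℓ a
    simp only [hf, above_update, hW]
  have hone : ∀ B : Set L, ∑ ℓ, pw p ℓ * ∑ e, (impr M Pop ord A B ℓ).indicator (W ℓ) e =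
      (∑ a, B.indicator p a) * ∑ e, ∑ ℓ, pw p ℓ * f e ℓ := by
    intro B
    have h1 : ∀ ℓ e, (impr M Pop ord A B ℓ).indicator (W ℓ) e =
        B.indicator (fun _ => (1 : ℝ)) (ℓ e) * f e ℓ := by
      intro ℓ e
      by_cases h2 : ℓ e ∈ B
      · rw [Set.indicator_of_mem h2, one_mul]
        by_cases h3 : e ∈ Pop ∧ e ∉ M.closure (above Pop ord A ℓ e)
        · have h4 : e ∈ impr M Pop ord A B ℓ := ⟨h3.1, h2, h3.2⟩
          rw [Set.indicator_of_mem h4]
          simp only [hf, if_pos h3]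
        · have h4 : e ∉ impr M Pop ord A B ℓ := fun h => h3 ⟨h.1, h.2.2⟩
          rw [Set.indicator_of_notMem h4]
          simp only [hf, if_neg h3]
      · have h4 : e ∉ impr M Pop ord A B ℓ := fun h => h2 h.2.1
        rw [Set.indicator_of_notMem h4, Set.indicator_of_notMem h2, zero_mul]
    have h2 : ∑ a, p a * B.indicator (fun _ => (1 : ℝ)) a = ∑ a, B.indicator p a := by
      refine Finset.sum_congr rfl fun a _ => ?_
      by_cases h : a ∈ B <;> simp [h]
    rw [Finset.mul_sum]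
    simp only [Finset.mul_sum Finset.univ, h1]
    rw [Finset.sum_comm]
    refine Finset.sum_congr rfl fun e _ => ?_
    have h3 := pw_indep hp e (B.indicator fun _ => (1 : ℝ)) (f e) (hfu e)
    rw [h2] at h3
    rw [← Finset.mul_sum, ← h3]
  rw [hone B, hone C]
  ring

/-- the expected weight of the improving set -/
theorem weight_impr_ge (hPop : Pop ⊆ M.E) (hord : Function.Injective ord) {p : L → ℝ}
    (hp : ∑ a, p a = 1) (hp0 : ∀ a, 0 ≤ p a) (A B : Set L) (hA : 0 < ∑ a, A.indicator p a)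
    {I : Set α} (hI : M.Indep I) (hIP : I ⊆ Pop) (w : α → ℝ)
    (hw : ∀ e e', ord e ≤ ord e' → w e ≤ w e') (hw0 : ∀ e, 0 ≤ w e) :
    (∑ a, B.indicator p a) * ∑ e, I.indicator w e ≤
      ∑ ℓ, pw p ℓ * ∑ e, (impr M Pop ord A B ℓ).indicator w e := by
  classical
  have h1 := impr_swap M Pop ord hp A B A (fun _ => w) (fun _ _ _ => rfl)
  set pA := ∑ a, A.indicator p a with hpA
  set pB := ∑ a, B.indicator p a with hpB
  have hpB0 : 0 ≤ pB := Finset.sum_nonneg fun a _ => Set.indicator_nonneg (fun x _ => hp0 x) a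
  -- the weight of the greedy basis
  have h2 : pA * ∑ e, I.indicator w e ≤
      ∑ ℓ, pw p ℓ * ∑ e, (impr M Pop ord A A ℓ).indicator w e := by
    have h3 : ∀ ℓ : α → L, ∑ e, (I ∩ {e | e ∈ Pop ∧ ℓ e ∈ A}).indicator w e ≤
        ∑ e, (impr M Pop ord A A ℓ).indicator w e :=
      fun ℓ => weight_greedy_ge (ℓ := ℓ) (A := A) M hPop hord hI w hw hw0
    have h4 : ∑ ℓ : α → L, pw p ℓ * ∑ e, (I ∩ {e | e ∈ Pop ∧ ℓ e ∈ A}).indicator w e =
        pA * ∑ e, I.indicator w e := by
      simp only [Finset.mul_sum Finset.univ]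
      rw [Finset.sum_comm]
      refine Finset.sum_congr rfl fun e _ => ?_
      have h5 := pw_indep hp e (A.indicator fun _ => (1 : ℝ)) (fun _ => I.indicator w e)
        (fun _ _ => rfl)
      have h6 : ∑ a, p a * A.indicator (fun _ => (1 : ℝ)) a = pA := by
        refine Finset.sum_congr rfl fun a _ => ?_
        by_cases h : a ∈ A <;> simp [h]
      rw [h6, ← Finset.sum_mul, sum_pw hp, one_mul] at h5
      rw [← h5]
      refine Finset.sum_congr rfl fun ℓ _ => ?_
      congr 1
      by_cases h7 : e ∈ I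
      · by_cases h8 : ℓ e ∈ A
        · rw [Set.indicator_of_mem (show e ∈ I ∩ {e | e ∈ Pop ∧ ℓ e ∈ A} from ⟨h7, hIP h7, h8⟩),
            Set.indicator_of_mem h8, Set.indicator_of_mem h7, one_mul]
        · rw [Set.indicator_of_notMem (show e ∉ I ∩ {e | e ∈ Pop ∧ ℓ e ∈ A} from
            fun h => h8 h.2.2), Set.indicator_of_notMem h8, zero_mul]
      · rw [Set.indicator_of_notMem (show e ∉ I ∩ {e | e ∈ Pop ∧ ℓ e ∈ A} from
            fun h => h7 h.1), Set.indicator_of_notMem h7, mul_zero]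
    rw [← h4]
    exact Finset.sum_le_sum fun ℓ _ => mul_le_mul_of_nonneg_left (h3 ℓ) (pw_nonneg hp0 ℓ)
  have h3 : pA * (pB * ∑ e, I.indicator w e) ≤
      pA * ∑ ℓ, pw p ℓ * ∑ e, (impr M Pop ord A B ℓ).indicator w e := by
    rw [h1]
    calc pA * (pB * ∑ e, I.indicator w e) = pB * (pA * ∑ e, I.indicator w e) := by ring
      _ ≤ _ := mul_le_mul_of_nonneg_left h2 hpB0
  exact le_of_mul_le_mul_left h3 hA

end swap

section null

variable {α : Type*} [Finite α] {M : Matroid α}

/-- elements of `J'` free over `Z` and the heavier elements of `J` are independent over `Z` -/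
theorem rk_ge_tail {ord : α → ℕ} (hord : Function.Injective ord) {Z J J' : Set α} (hZ : Z ⊆ M.E)
    (hJ : J ⊆ M.E) (hJ' : J' ⊆ J)
    (h : ∀ e ∈ J', e ∉ M.closure (Z ∪ {e' | e' ∈ J ∧ ord e < ord e'})) :
    rk M Z + J'.ncard ≤ rk M (Z ∪ J) := by
  classical
  obtain ⟨N, hN⟩ : ∃ N, ∀ e, ord e < N := by
    obtain ⟨N, hN⟩ := (Set.finite_range ord).bddAbove
    exact ⟨N + 1, fun e => Nat.lt_succ_of_le (hN ⟨e, rfl⟩)⟩
  have key : ∀ d s, s + d = N → rk M Z + (tail J' ord s).ncard ≤ rk M (Z ∪ tail J ord s) := by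
    intro d
    induction d with
    | zero =>
      intro s hs
      have h1 : tail J' ord s = ∅ := by
        ext e
        simp only [tail, Set.mem_ofPred_eq, Set.mem_empty_iff_false, iff_false]
        rintro ⟨_, h2⟩
        have := hN e
        omega
      rw [h1]
      simpa using rk_mono M (Set.subset_union_left (s := Z) (t := tail J ord s))
    | succ d ih =>
      intro s hs
      have h1 := ih (s + 1) (by omega)
      have hsub : tail J ord (s + 1) ⊆ tail J ord s := fun e he => ⟨he.1, by have := he.2; omega⟩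
      by_cases hex : ∃ e ∈ J', ord e = s
      · obtain ⟨e, heJ', hes⟩ := hex
        have h2 : tail J' ord s = insert e (tail J' ord (s + 1)) := by
          ext x
          simp only [tail, Set.mem_ofPred_eq, Set.mem_insert_iff]
          constructor
          · rintro ⟨h3, h4⟩
            by_cases h5 : ord x = s
            · exact Or.inl (hord (h5.trans hes.symm))
            · exact Or.inr ⟨h3, by omega⟩
          · rintro (h3 | ⟨h3, h4⟩)
            · subst h3
              exact ⟨heJ', by omega⟩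
            · exact ⟨h3, by omega⟩
        have h3 : e ∉ tail J' ord (s + 1) := by
          rintro ⟨_, h4⟩
          omega
        rw [h2, Set.ncard_insert_of_notMem h3 (Set.toFinite _)]
        have h4 : {e' | e' ∈ J ∧ ord e < ord e'} = tail J ord (s + 1) := by
          ext x
          simp only [tail, Set.mem_ofPred_eq]
          rw [hes]
          exact Iff.rfl
        have h5 := h e heJ'
        rw [h4] at h5
        have h6 := rk_union_singleton_of_notMem_closure (M := M)
          (Y := Z ∪ tail J ord (s + 1)) (e := e)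
          (Set.union_subset hZ fun x hx => hJ hx.1) (hJ (hJ' heJ')) h5
        have h7 : Z ∪ tail J ord (s + 1) ∪ {e} ⊆ Z ∪ tail J ord s := by
          rintro x ((hx | hx) | hx)
          · exact Or.inl hx
          · exact Or.inr (hsub hx)
          · rw [Set.mem_singleton_iff] at hx
            subst hx
            exact Or.inr ⟨hJ' heJ', by omega⟩
        have h8 := rk_mono M h7
        omega
      · have h2 : tail J' ord s = tail J' ord (s + 1) := by
          ext x
          simp only [tail, Set.mem_ofPred_eq]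
          constructor
          · rintro ⟨h3, h4⟩
            have h5 : ord x ≠ s := fun h5 => hex ⟨x, h3, h5⟩
            exact ⟨h3, by omega⟩
          · rintro ⟨h3, h4⟩
            exact ⟨h3, by omega⟩
        rw [h2]
        exact h1.trans (rk_mono M (Set.union_subset_union_right _ hsub))
  have h1 := key N 0 (by omega)
  have h2 : ∀ S : Set α, tail S ord 0 = S := by
    intro S
    ext e
    simp [tail]
  rw [h2, h2] at h1
  exact h1

end null

section lemD

variable {α : Type*} [Fintype α] [DecidableEq α] {L : Type*} [Fintype L] (M : Matroid α)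
  (Pop : Set α) (ord : α → ℕ)

/-- the `A`-labelled elements of the population in the heavier classes -/
def HUp (Pop Up : Set α) (A : Set L) (ℓ : α → L) : Set α := {e | e ∈ Up ∧ e ∈ Pop ∧ ℓ e ∈ A}

/-- **Lemma D'**: the improving elements of a class `Cl` are nearly independent over the `A`-labelled
elements of the heavier classes `Up` -/
theorem null_impr (hPop : Pop ⊆ M.E) (hord : Function.Injective ord) {p : L → ℝ}
    (hp : ∑ a, p a = 1) (hp0 : ∀ a, 0 ≤ p a) (A B : Set L) (Cl Up : Set α)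
    (hUp : ∀ e ∈ Cl, ∀ u ∈ Up, ord e < ord u) :
    (∑ a, A.indicator p a) * ∑ ℓ, pw p ℓ * (((impr M Pop ord A B ℓ ∩ Cl).ncard : ℝ) -
        ((rk M (HUp Pop Up A ℓ ∪ (impr M Pop ord A B ℓ ∩ Cl)) : ℝ) - rk M (HUp Pop Up A ℓ))) ≤
      (∑ a, B.indicator p a) * ∑ ℓ, pw p ℓ * ((impr M Pop ord A B ℓ ∩ Cl).ncard : ℝ) := by
  classical
  set T : (α → L) → Set α := fun ℓ => impr M Pop ord A B ℓ ∩ Cl with hT
  set HU : (α → L) → Set α := fun ℓ => HUp Pop Up A ℓ with hHU
  set W : (α → L) → α → ℝ := fun ℓ e =>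
    if e ∈ Cl ∧ e ∈ M.closure (HU ℓ ∪ {e' | e' ∈ T ℓ ∧ ord e < ord e'}) then 1 else 0 with hW
  have hTE : ∀ ℓ, T ℓ ⊆ M.E := fun ℓ e he => hPop he.1.1
  have hHE : ∀ ℓ, HU ℓ ⊆ M.E := fun ℓ e he => hPop he.2.1
  -- labels of elements not heavier than e are irrelevant
  have habove : ∀ (ℓ : α → L) (e : α) (a : L) (x : α), ord e < ord x →
      above Pop ord A (Function.update ℓ e a) x = above Pop ord A ℓ x := by
    intro ℓ e a x hx
    ext y
    simp only [above, Set.mem_ofPred_eq]
    by_cases hy : y = e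
    · subst hy
      constructor
      · rintro ⟨_, h2, _⟩; omega
      · rintro ⟨_, h2, _⟩; omega
    · rw [Function.update_of_ne hy]
  have hWu : ∀ ℓ e a, W (Function.update ℓ e a) e = W ℓ e := by
    intro ℓ e a
    by_cases heC : e ∈ Cl
    · have h1 : HU (Function.update ℓ e a) = HU ℓ := by
        ext x
        simp only [hHU, HUp, Set.mem_ofPred_eq]
        by_cases hx : x = e
        · subst hx
          constructor
          · rintro ⟨h2, _⟩
            exact absurd (hUp x heC x h2) (lt_irrefl _)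
          · rintro ⟨h2, _⟩
            exact absurd (hUp x heC x h2) (lt_irrefl _)
        · rw [Function.update_of_ne hx]
      have h2 : {e' | e' ∈ T (Function.update ℓ e a) ∧ ord e < ord e'} =
          {e' | e' ∈ T ℓ ∧ ord e < ord e'} := by
        ext x
        simp only [hT, impr, Set.mem_ofPred_eq, Set.mem_inter_iff]
        by_cases hx : ord e < ord x
        · have hne : x ≠ e := fun h => by subst h; omega
          rw [habove ℓ e a x hx, Function.update_of_ne hne]
        · simp [hx]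
      simp only [hW, h1, h2]
    · simp only [hW, heC, false_and, if_false]
  have hswap := impr_swap M Pop ord hp A B A W hWu
  -- (a) the nullity
  have hcount : ∀ (ℓ : α → L) (B' : Set L), ∑ e, (impr M Pop ord A B' ℓ).indicator (W ℓ) e =
      (({e | e ∈ impr M Pop ord A B' ℓ ∩ Cl ∧
        e ∈ M.closure (HU ℓ ∪ {e' | e' ∈ T ℓ ∧ ord e < ord e'})}.ncard : ℕ) : ℝ) := by
    intro ℓ B'
    rw [Set.ncard_eq_toFinset_card _ (Set.toFinite _), Finset.card_eq_sum_ones, Nat.cast_sum,
      ← Finset.sum_filter_add_sum_filter_not Finset.univ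
        (fun e => e ∈ impr M Pop ord A B' ℓ ∩ Cl ∧
          e ∈ M.closure (HU ℓ ∪ {e' | e' ∈ T ℓ ∧ ord e < ord e'}))]
    have h1 : ∑ e ∈ Finset.univ with ¬ (e ∈ impr M Pop ord A B' ℓ ∩ Cl ∧
          e ∈ M.closure (HU ℓ ∪ {e' | e' ∈ T ℓ ∧ ord e < ord e'})),
        (impr M Pop ord A B' ℓ).indicator (W ℓ) e = 0 := by
      refine Finset.sum_eq_zero fun e he => ?_
      simp only [Finset.mem_filter, Finset.mem_univ, true_and] at he
      by_cases h2 : e ∈ impr M Pop ord A B' ℓ
      · rw [Set.indicator_of_mem h2]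
        have h3 : ¬ (e ∈ Cl ∧ e ∈ M.closure (HU ℓ ∪ {e' | e' ∈ T ℓ ∧ ord e < ord e'})) :=
          fun h => he ⟨⟨h2, h.1⟩, h.2⟩
        simp only [hW, if_neg h3]
      · exact Set.indicator_of_notMem h2 _
    rw [h1, add_zero]
    refine Finset.sum_congr ?_ fun e he => ?_
    · ext e
      simp only [Finset.mem_filter, Finset.mem_univ, true_and, Set.Finite.mem_toFinset,
        Set.mem_ofPred_eq]
    · simp only [Set.Finite.mem_toFinset, Set.mem_ofPred_eq] at he
      rw [Set.indicator_of_mem he.1.1]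
      simp only [hW, if_pos (show e ∈ Cl ∧ _ from ⟨he.1.2, he.2⟩), Nat.cast_one]
  have hnull : ∀ ℓ, ((T ℓ).ncard : ℝ) - ((rk M (HU ℓ ∪ T ℓ) : ℝ) - rk M (HU ℓ)) ≤
      ∑ e, (impr M Pop ord A B ℓ).indicator (W ℓ) e := by
    intro ℓ
    rw [hcount]
    set J' : Set α := {e | e ∈ T ℓ ∧ e ∉ M.closure (HU ℓ ∪ {e' | e' ∈ T ℓ ∧ ord e < ord e'})}
      with hJ'
    have h1 := rk_ge_tail (M := M) hord (hHE ℓ) (hTE ℓ) (J' := J') (fun e he => he.1)
      (fun e he => he.2)
    have h2 : T ℓ = J' ∪ {e | e ∈ impr M Pop ord A B ℓ ∩ Cl ∧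
        e ∈ M.closure (HU ℓ ∪ {e' | e' ∈ T ℓ ∧ ord e < ord e'})} := by
      ext e
      constructor
      · intro he
        by_cases h3 : e ∈ M.closure (HU ℓ ∪ {e' | e' ∈ T ℓ ∧ ord e < ord e'})
        · exact Or.inr ⟨he, h3⟩
        · exact Or.inl ⟨he, h3⟩
      · rintro (he | he)
        · exact he.1
        · exact he.1
    have h3 : (T ℓ).ncard ≤ J'.ncard + {e | e ∈ impr M Pop ord A B ℓ ∩ Cl ∧
        e ∈ M.closure (HU ℓ ∪ {e' | e' ∈ T ℓ ∧ ord e < ord e'})}.ncard := by
      have := Set.ncard_union_le J' {e | e ∈ impr M Pop ord A B ℓ ∩ Cl ∧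
        e ∈ M.closure (HU ℓ ∪ {e' | e' ∈ T ℓ ∧ ord e < ord e'})}
      rw [← h2] at this
      exact this
    have h4 : ((T ℓ).ncard : ℝ) ≤ J'.ncard + {e | e ∈ impr M Pop ord A B ℓ ∩ Cl ∧
        e ∈ M.closure (HU ℓ ∪ {e' | e' ∈ T ℓ ∧ ord e < ord e'})}.ncard := by exact_mod_cast h3
    have h5 : (rk M (HU ℓ) : ℝ) + J'.ncard ≤ rk M (HU ℓ ∪ T ℓ) := by exact_mod_cast h1
    linarith
  -- (b) the greedy basis
  have hK : ∀ ℓ, ∑ e, (impr M Pop ord A A ℓ).indicator (W ℓ) e ≤ ((T ℓ).ncard : ℝ) := by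
    intro ℓ
    rw [hcount]
    set K : Set α := {e | e ∈ impr M Pop ord A A ℓ ∩ Cl ∧
        e ∈ M.closure (HU ℓ ∪ {e' | e' ∈ T ℓ ∧ ord e < ord e'})} with hK
    have hKE : K ⊆ M.E := fun e he => hPop he.1.1.1
    have h1 := rk_ge_tail (M := M) hord (hHE ℓ) hKE (J' := K) subset_rfl (fun e he => by
      intro hcon
      refine he.1.1.2.2 (M.closure_subset_closure ?_ hcon)
      rintro x (hx | hx)
      · exact ⟨hx.2.1, hUp e he.1.2 x hx.1, hx.2.2⟩
      · exact ⟨hx.1.1.1.1, hx.2, hx.1.1.1.2.1⟩)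
    have h2 : HU ℓ ∪ K ⊆ M.closure (HU ℓ ∪ T ℓ) := by
      refine Set.union_subset ?_ ?_
      · exact Set.subset_union_left.trans (M.subset_closure _ (Set.union_subset (hHE ℓ) (hTE ℓ)))
      · intro e he
        refine M.closure_subset_closure ?_ he.2
        exact Set.union_subset_union_right _ (fun x hx => hx.1)
    have h3 := rk_mono M h2
    rw [rk_closure] at h3
    have h4 := rk_union_le M (HU ℓ) (T ℓ)
    have h5 : K.ncard ≤ (T ℓ).ncard := by omega
    exact_mod_cast h5
  have hpA0 : 0 ≤ ∑ a, A.indicator p a :=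
    Finset.sum_nonneg fun a _ => Set.indicator_nonneg (fun x _ => hp0 x) a
  have hpB0 : 0 ≤ ∑ a, B.indicator p a :=
    Finset.sum_nonneg fun a _ => Set.indicator_nonneg (fun x _ => hp0 x) a
  calc (∑ a, A.indicator p a) * ∑ ℓ, pw p ℓ * (((T ℓ).ncard : ℝ) -
        ((rk M (HU ℓ ∪ T ℓ) : ℝ) - rk M (HU ℓ)))
      ≤ (∑ a, A.indicator p a) * ∑ ℓ, pw p ℓ * ∑ e, (impr M Pop ord A B ℓ).indicator (W ℓ) e :=
        mul_le_mul_of_nonneg_left (Finset.sum_le_sum fun ℓ _ =>
          mul_le_mul_of_nonneg_left (hnull ℓ) (pw_nonneg hp0 ℓ)) hpA0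
    _ = (∑ a, B.indicator p a) * ∑ ℓ, pw p ℓ * ∑ e, (impr M Pop ord A A ℓ).indicator (W ℓ) e :=
        hswap
    _ ≤ (∑ a, B.indicator p a) * ∑ ℓ, pw p ℓ * ((T ℓ).ncard : ℝ) :=
        mul_le_mul_of_nonneg_left (Finset.sum_le_sum fun ℓ _ =>
          mul_le_mul_of_nonneg_left (hK ℓ) (pw_nonneg hp0 ℓ)) hpB0

/-- the plain nullity of the improving set of a class -/
theorem null_impr' (hPop : Pop ⊆ M.E) (hord : Function.Injective ord) {p : L → ℝ}
    (hp : ∑ a, p a = 1) (hp0 : ∀ a, 0 ≤ p a) (A B : Set L) (Cl Up : Set α)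
    (hUp : ∀ e ∈ Cl, ∀ u ∈ Up, ord e < ord u) :
    (∑ a, A.indicator p a) * ∑ ℓ, pw p ℓ * (((impr M Pop ord A B ℓ ∩ Cl).ncard : ℝ) -
        (rk M (impr M Pop ord A B ℓ ∩ Cl) : ℝ)) ≤
      (∑ a, B.indicator p a) * ∑ ℓ, pw p ℓ * ((impr M Pop ord A B ℓ ∩ Cl).ncard : ℝ) := by
  have hpA0 : 0 ≤ ∑ a, A.indicator p a :=
    Finset.sum_nonneg fun a _ => Set.indicator_nonneg (fun x _ => hp0 x) a
  refine le_trans (mul_le_mul_of_nonneg_left (Finset.sum_le_sum fun ℓ _ =>
    mul_le_mul_of_nonneg_left ?_ (pw_nonneg hp0 ℓ)) hpA0)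
    (null_impr M Pop ord hPop hord hp hp0 A B Cl Up hUp)
  have h1 := rk_marg M (Set.empty_subset (HUp Pop Up A ℓ)) (impr M Pop ord A B ℓ ∩ Cl)
  rw [Set.empty_union] at h1
  have h2 : (rk M (HUp Pop Up A ℓ ∪ (impr M Pop ord A B ℓ ∩ Cl)) : ℝ) + rk M ∅ ≤
      rk M (impr M Pop ord A B ℓ ∩ Cl) + rk M (HUp Pop Up A ℓ) := by exact_mod_cast h1
  have h3 : (0 : ℝ) ≤ rk M ∅ := Nat.cast_nonneg _
  linarith

end lemD

end Crest.Agent.MS
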