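import Mathlib
import Crest.Agent.MS.Ops
import Crest.Agent.MS.EdmondsM

/-!
# Row 305 (S0468): the encoding lemma (idea 499)

For a chain of sets `V 0 ⊆ V 1 ⊆ ...` the whole chain `Z t = F_lam(S)(V t)`, `t ≤ h`, is determined by a
partial colouring with `lam + 1` colours and at most `2 |S| / lam` coloured points, all in `S`
(`encode`).  No time labels.
-/

set_option autoImplicit false
set_option linter.unusedSectionVars false

namespace Crest.Agent.MS

open Set

variable {α : Type*} [Finite α] {M : Matroid α}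

theorem contract_rk_ge {Z Y : Set α} (hZ : Z ⊆ M.E) (hY : Y ⊆ M.E \ Z) :
    rk M (Z ∪ Y) ≤ rk (M.contract Z) Y + rk M Z := by
  obtain ⟨J, hJ⟩ := (M.contract Z).exists_isBasis Y (by simpa using hY)
  have h1 : rk (M.contract Z) Y = J.ncard := by
    have h2 : (M.contract Z).eRk Y = J.encard := hJ.eRk_eq_encard
    have h3 : ((rk (M.contract Z) Y : ℕ) : ℕ∞) = ((J.ncard : ℕ) : ℕ∞) := by
      rw [coe_rk, h2, J.toFinite.cast_ncard_eq]
    exact_mod_cast h3
  have h2 : Y ⊆ M.closure (Z ∪ J) := by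
    intro x hx
    have h3 := hJ.subset_closure hx
    rw [Matroid.contract_closure_eq] at h3
    rw [Set.union_comm]
    exact h3.1
  have hJE : J ⊆ M.E := hJ.subset.trans (hY.trans Set.sdiff_subset)
  have h3 : Z ∪ Y ⊆ M.closure (Z ∪ J) := by
    refine Set.union_subset ?_ h2
    exact (Set.subset_union_left).trans (M.subset_closure (Z ∪ J) (Set.union_subset hZ hJE))
  have h4 := rk_mono M h3
  rw [rk_closure] at h4
  have h5 := rk_union_le M Z J
  omega

theorem indOver_of_contract {Z J : Set α} (hJ : (M.contract Z).Indep J) : IndOver M Z J := by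
  obtain ⟨B, hB⟩ := M.exists_isBasis' Z
  have h1 := (hB.contract_indep_iff (J := J)).1 hJ
  have h2 : rk M Z = B.ncard := by
    have h3 : ((rk M Z : ℕ) : ℕ∞) = ((B.ncard : ℕ) : ℕ∞) := by
      rw [coe_rk, hB.eRk_eq_encard, B.toFinite.cast_ncard_eq]
    exact_mod_cast h3
  have h3 : rk M (J ∪ B) = (J ∪ B).ncard := by
    have h4 : ((rk M (J ∪ B) : ℕ) : ℕ∞) = (((J ∪ B).ncard : ℕ) : ℕ∞) := by
      rw [coe_rk, h1.1.eRk_eq_encard, (J ∪ B).toFinite.cast_ncard_eq]
    exact_mod_cast h4
  have h5 : (J ∪ B).ncard = J.ncard + B.ncard :=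
    Set.ncard_union_eq (h1.2.symm.mono_right hB.subset)
  have h6 := rk_mono M (show J ∪ B ⊆ Z ∪ J by
    rintro x (hx | hx)
    · exact Or.inr hx
    · exact Or.inl (hB.subset hx))
  have h7 := rk_union_le M Z J
  unfold IndOver
  omega

/-- covering over a flat -/
theorem cover_over {Z S : Set α} {lam : ℕ} (hlam : 0 < lam) (hZ : M.IsFlat Z) (hS : S ⊆ M.E)
    (hSp : Sp M lam S Z) :
    ∃ c : α → Fin lam, ∀ a, IndOver M Z {e | e ∈ S \ Z ∧ c e = a} := by
  classical
  have hfin := (S \ Z).toFinite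
  obtain ⟨c, hc⟩ := edmonds_cover (M.contract Z) hfin.toFinset (k := lam) (by
    rw [hfin.coe_toFinset]
    exact fun x hx => ⟨hS hx.1, hx.2⟩) hlam (by
    intro Y hY
    have hYs : (Y : Set α) ⊆ S \ Z := by
      intro x hx
      have := hY hx
      rwa [hfin.mem_toFinset] at this
    have h1 := hSp.le (Y : Set α)
    have h2 : (S ∩ (Y : Set α)) \ Z = Y := by
      ext x
      exact ⟨fun h => h.1.2, fun h => ⟨⟨(hYs h).1, h⟩, (hYs h).2⟩⟩
    rw [h2, Set.ncard_coe_finset] at h1
    have h3 := contract_rk_ge hZ.subset_ground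
      (hYs.trans (fun x hx => ⟨hS hx.1, hx.2⟩ : S \ Z ⊆ M.E \ Z))
    rw [← coe_rk]
    have h4 : Y.card ≤ lam * rk (M.contract Z) (Y : Set α) := by
      nlinarith [Nat.mul_le_mul_left lam h3]
    exact_mod_cast h4)
  refine ⟨c, fun a => indOver_of_contract ?_⟩
  have := hc a
  simpa [hfin.mem_toFinset] using this

/-- greedy choice of circuits -/
theorem greedy {κ : Type*} [Fintype κ] [DecidableEq κ] {lam : ℕ} (hcard : Fintype.card κ = lam)
    (I : κ → Set α) {Z : Set α} (hZ : M.IsFlat Z) (hI : ∀ a, I a ⊆ Z) (n : ℕ) :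
    ∀ Y₀ : Set α, M.IsFlat Y₀ → Y₀ ⊆ Z → rk M Z ≤ rk M Y₀ + n →
      (∀ Y, M.IsFlat Y → Y₀ ⊆ Y → Y ⊆ Z → Y ≠ Z →
        lam * rk M Z < lam * rk M Y + ∑ a, (I a \ Y).ncard) →
      ∃ Q : κ → Set α, (∀ a, Q a ⊆ I a) ∧ (∑ a, (Q a).ncard) + 2 * rk M Y₀ ≤ 2 * rk M Z ∧
        ∀ Y, M.IsFlat Y → Y₀ ⊆ Y → (∀ a, IndOver M Y (Q a \ Y)) → Z ⊆ Y := by
  induction n with
  | zero =>
    intro Y₀ hY₀ h₀ hn _
    have h1 : Z ⊆ Y₀ := subset_of_rk_le hY₀ h₀ hZ.subset_ground (by omega)
    refine ⟨fun _ => ∅, fun a => Set.empty_subset _, ?_, fun Y _ h2 _ => h1.trans h2⟩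
    have := rk_mono M h₀
    simp
    exact this
  | succ n ih =>
    intro Y₀ hY₀ h₀ hn hkey
    by_cases hYZ : Y₀ = Z
    · refine ⟨fun _ => ∅, fun a => Set.empty_subset _, ?_, fun Y _ h2 _ => hYZ ▸ h2⟩
      have := rk_mono M h₀
      simp
      exact this
    · -- some colour class is dependent
      have hdep : ∃ a, ¬ IndOver M Y₀ (I a \ Y₀) := by
        by_contra hcon
        push Not at hcon
        have h1 := hkey Y₀ hY₀ subset_rfl h₀ hYZ
        have h2 : ∀ a, (I a \ Y₀).ncard + rk M Y₀ ≤ rk M Z := by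
          intro a
          have h3 := hcon a
          unfold IndOver at h3
          have h4 := rk_mono M (show Y₀ ∪ (I a \ Y₀) ⊆ Z from
            Set.union_subset h₀ (Set.sdiff_subset.trans (hI a)))
          omega
        have h5 : ∑ a : κ, ((I a \ Y₀).ncard + rk M Y₀) ≤ ∑ _a : κ, rk M Z :=
          Finset.sum_le_sum fun a _ => h2 a
        rw [Finset.sum_add_distrib, Finset.sum_const, Finset.sum_const, Finset.card_univ, hcard,
          smul_eq_mul, smul_eq_mul] at h5
        omega
      obtain ⟨a, ha⟩ := hdep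
      obtain ⟨C, hCI, hC, hC'⟩ := exists_circ ha
      obtain ⟨e, he⟩ := circ_nonempty hC
      have hCZ : C ⊆ Z := hCI.trans (Set.sdiff_subset.trans (hI a))
      have hCE : C ⊆ M.E := hCZ.trans hZ.subset_ground
      have hE : Y₀ ∪ C ⊆ M.E := Set.union_subset hY₀.subset_ground hCE
      have h1 := (circ_rk hC hC' he).2
      have h2 : rk M Y₀ < rk M (Y₀ ∪ C) := by
        by_contra hcon
        push Not at hcon
        have h3 := subset_of_rk_le hY₀ Set.subset_union_left hE hcon
        exact (hCI he).2 (h3 (Or.inr he))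
      have hY₁Z : M.closure (Y₀ ∪ C) ⊆ Z := by
        rw [← hZ.closure]
        exact M.closure_subset_closure (Set.union_subset h₀ hCZ)
      have hY₀₁ : Y₀ ⊆ M.closure (Y₀ ∪ C) :=
        Set.subset_union_left.trans (M.subset_closure _ hE)
      obtain ⟨Q, hQI, hQn, hQ⟩ := ih (M.closure (Y₀ ∪ C)) (M.isFlat_closure _) hY₁Z
        (by rw [rk_closure]; omega)
        (fun Y h3 h4 h5 h6 => hkey Y h3 (hY₀₁.trans h4) h5 h6)
      refine ⟨fun b => if b = a then Q b ∪ C else Q b, fun b => ?_, ?_, fun Y h3 h4 h5 => ?_⟩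
      · by_cases hb : b = a
        · subst hb
          simp only [if_true]
          exact Set.union_subset (hQI b) (hCI.trans Set.sdiff_subset)
        · simp only [hb, if_false]
          exact hQI b
      · have h6 : ∀ b, (if b = a then Q b ∪ C else Q b).ncard ≤
            (Q b).ncard + if b = a then C.ncard else 0 := by
          intro b
          by_cases hb : b = a
          · simp only [hb, if_true]
            exact Set.ncard_union_le _ _
          · simp [hb]
        have h7 : ∑ b, (if b = a then Q b ∪ C else Q b).ncard ≤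
            (∑ b, (Q b).ncard) + C.ncard := by
          refine (Finset.sum_le_sum fun b _ => h6 b).trans ?_
          rw [Finset.sum_add_distrib]
          simp
        rw [rk_closure] at hQn
        beta_reduce
        omega
      · have h6 : ∀ b, IndOver M Y (Q b \ Y) := by
          intro b
          refine (h5 b).subset ?_
          intro x hx
          refine ⟨?_, hx.2⟩
          by_cases hb : b = a
          · simp only [hb, if_true]
            rw [← hb]
            exact Or.inl hx.1
          · simp only [hb, if_false]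
            exact hx.1
        have h7 : IndOver M Y (C \ Y) := by
          refine (h5 a).subset ?_
          intro x hx
          refine ⟨?_, hx.2⟩
          simp only [if_true]
          exact Or.inr hx.1
        have h8 : C ⊆ Y := circ_subset hC hC' h4 h7
        refine hQ Y h3 ?_ h6
        rw [← h3.closure]
        exact M.closure_subset_closure (Set.union_subset h4 h8)

/-- the decoder: colour `some none` generates `Z 0`; then the smallest flat for which all colour
classes are independent over it -/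
def dec (M : Matroid α) (lam : ℕ) (V : ℕ → Set α) (c : α → Option (Option (Fin lam))) : ℕ → Set α
  | 0 => M.closure (V 0 ∪ {e | c e = some none})
  | t + 1 => ⋂₀ {Y | (dec M lam V c t ∪ V (t + 1)) ⊆ Y ∧ M.IsFlat Y ∧
      ∀ a, IndOver M Y ({e | c e = some (some a)} \ Y)}

/-- the first colour -/
theorem encode_zero {lam : ℕ} {S V : Set α} (hS : S ⊆ M.E) (hV : V ⊆ M.E) :
    ∃ J ⊆ S ∩ Fop M lam S V, M.closure (V ∪ J) = Fop M lam S V ∧
      lam * J.ncard ≤ (S ∩ Fop M lam S V).ncard := by
  obtain ⟨hVZ, hZ, hSp⟩ := Fop_spec M lam hS hV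
  set Z := Fop M lam S V with hZdef
  have hE : V ∪ (S ∩ Z) ⊆ M.E := Set.union_subset hV (Set.inter_subset_left.trans hS)
  have hcl : M.closure (V ∪ (S ∩ Z)) = Z := by
    by_contra hcon
    have hsub : M.closure (V ∪ (S ∩ Z)) ⊆ Z := by
      conv_rhs => rw [← hZ.closure]
      exact M.closure_subset_closure (Set.union_subset hVZ Set.inter_subset_right)
    have h1 := Fop_lt (lam := lam) hS hV
      (Set.subset_union_left.trans (M.subset_closure _ hE)) hsub (M.isFlat_closure _) hcon
    rw [← hZdef] at h1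
    have h2 : (S ∩ Z) \ M.closure (V ∪ (S ∩ Z)) = ∅ := by
      rw [Set.sdiff_eq_empty]
      exact Set.subset_union_right.trans (M.subset_closure _ hE)
    rw [h2, Set.ncard_empty, add_zero] at h1
    have h3 := Nat.mul_le_mul_left lam (rk_mono M hsub)
    omega
  obtain ⟨I, hI⟩ := M.exists_isBasis' V
  obtain ⟨B, hB, hIB⟩ := hI.indep.subset_isBasis'_of_subset
    (hI.subset.trans (Set.subset_union_left : V ⊆ V ∪ (S ∩ Z)))
  have hBV : ∀ x ∈ B \ I, x ∉ V := by
    intro x hx hxV
    have h1 : M.Indep (insert x I) := hB.indep.subset (Set.insert_subset hx.1 hIB)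
    exact hI.insert_not_indep ⟨hxV, hx.2⟩ h1
  have hJ : B \ I ⊆ S ∩ Z := by
    intro x hx
    exact (hB.subset hx.1).resolve_left (hBV x hx)
  refine ⟨B \ I, hJ, ?_, ?_⟩
  · apply subset_antisymm
    · conv_rhs => rw [← hZ.closure]
      exact M.closure_subset_closure (Set.union_subset hVZ (hJ.trans Set.inter_subset_right))
    · rw [← hcl, ← hB.closure_eq_closure]
      refine M.closure_subset_closure ?_
      intro x hx
      by_cases hxI : x ∈ I
      · exact Or.inl (hI.subset hxI)
      · exact Or.inr ⟨hx, hxI⟩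
  · have h1 : rk M V = I.ncard := by
      have h3 : ((rk M V : ℕ) : ℕ∞) = ((I.ncard : ℕ) : ℕ∞) := by
        rw [coe_rk, hI.eRk_eq_encard, I.toFinite.cast_ncard_eq]
      exact_mod_cast h3
    have h2 : rk M Z = B.ncard := by
      have h3 : ((rk M Z : ℕ) : ℕ∞) = ((B.ncard : ℕ) : ℕ∞) := by
        rw [coe_rk, ← hcl, M.eRk_closure_eq, hB.eRk_eq_encard, B.toFinite.cast_ncard_eq]
      exact_mod_cast h3
    have h3 := Set.ncard_sdiff_add_ncard_of_subset hIB
    have h4 := Fop_le (lam := lam) hS hV (subset_refl V) hVZ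
    rw [← hZdef] at h4
    have h5 : ((S ∩ Z) \ V).ncard ≤ (S ∩ Z).ncard := Set.ncard_le_ncard Set.sdiff_subset
      (Set.toFinite _)
    rw [h2, h1] at h4
    have h6 : lam * B.ncard = lam * (B \ I).ncard + lam * I.ncard := by
      rw [← Nat.mul_add, h3]
    omega

/-- one step of the chain -/
theorem encode_step {lam : ℕ} (hlam : 0 < lam) {S V V' : Set α} (hS : S ⊆ M.E) (hV : V ⊆ M.E)
    (hV' : V' ⊆ M.E) (hVV' : V ⊆ V') :
    ∃ Q : Fin lam → Set α,
      (∀ a, Q a ⊆ (S ∩ Fop M lam S V') \ Fop M lam S V) ∧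
      (∀ a b, a ≠ b → Disjoint (Q a) (Q b)) ∧
      (∀ a, IndOver M (Fop M lam S V) (Q a)) ∧
      lam * (∑ a, (Q a).ncard) ≤ 2 * ((S ∩ Fop M lam S V') \ Fop M lam S V).ncard ∧
      ∀ Y, M.IsFlat Y → Fop M lam S V ∪ V' ⊆ Y → (∀ a, IndOver M Y (Q a \ Y)) →
        Fop M lam S V' ⊆ Y := by
  obtain ⟨hVZ, hZ, hSp⟩ := Fop_spec M lam hS hV
  obtain ⟨hVZ', hZ', hSp'⟩ := Fop_spec M lam hS hV'
  have hZZ' : Fop M lam S V ⊆ Fop M lam S V' := Fop_mono_left hVV'
  obtain ⟨c, hc⟩ := cover_over hlam hZ hS hSp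
  set Z := Fop M lam S V with hZdef
  set Z' := Fop M lam S V' with hZdef'
  have hE : Z ∪ V' ⊆ M.E := Set.union_subset hZ.subset_ground hV'
  have hY₀Z' : M.closure (Z ∪ V') ⊆ Z' := by
    conv_rhs => rw [← hZ'.closure]
    exact M.closure_subset_closure (Set.union_subset hZZ' hVZ')
  have hZY₀ : Z ⊆ M.closure (Z ∪ V') := Set.subset_union_left.trans (M.subset_closure _ hE)
  have hV'Y₀ : V' ⊆ M.closure (Z ∪ V') := Set.subset_union_right.trans (M.subset_closure _ hE)
  let I : Fin lam → Set α := fun a => {e | e ∈ (S ∩ Z') \ Z ∧ c e = a}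
  have hIsum : ∀ Y, Z ⊆ Y → ∑ a, (I a \ Y).ncard = ((S ∩ Z') \ Y).ncard := by
    intro Y hY
    have h1 : (S ∩ Z') \ Y = ⋃ a ∈ (Finset.univ : Finset (Fin lam)), (I a \ Y) := by
      ext x
      simp only [Finset.mem_univ, Set.iUnion_true, Set.mem_iUnion]
      constructor
      · intro hx
        exact ⟨c x, ⟨⟨hx.1, fun h => hx.2 (hY h)⟩, rfl⟩, hx.2⟩
      · rintro ⟨a, ⟨⟨hx, _⟩, _⟩, hxY⟩
        exact ⟨hx, hxY⟩
    rw [h1]
    classical
    have h2 : ∀ s : Finset (Fin lam), (⋃ a ∈ s, (I a \ Y)).ncard = ∑ a ∈ s, (I a \ Y).ncard := by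
      intro s
      induction s using Finset.induction_on with
      | empty => simp
      | insert a s has ihs =>
        rw [Finset.sum_insert has, ← ihs, Finset.set_biUnion_insert]
        refine Set.ncard_union_eq ?_
        rw [Set.disjoint_left]
        intro x hx hx'
        simp only [Set.mem_iUnion] at hx'
        obtain ⟨b, hb, hxb⟩ := hx'
        have h3 : c x = a := hx.1.2
        have h4 : c x = b := hxb.1.2
        exact has (by rw [← h3, h4]; exact hb)
    exact (h2 _).symm
  obtain ⟨Q, hQI, hQn, hQ⟩ := greedy (κ := Fin lam) (lam := lam) (by simp) I hZ'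
    (fun a x hx => hx.1.1.2) (rk M Z') (M.closure (Z ∪ V')) (M.isFlat_closure _) hY₀Z'
    (Nat.le_add_left _ _) (fun Y h1 h2 h3 h4 => by
      rw [hIsum Y (hZY₀.trans h2)]
      exact Fop_lt hS hV' (hV'Y₀.trans h2) h3 h1 h4)
  refine ⟨Q, fun a => (hQI a).trans fun x hx => hx.1, ?_, ?_, ?_, ?_⟩
  · intro a b hab
    rw [Set.disjoint_left]
    intro x hx hx'
    have h1 : c x = a := (hQI a hx).2
    have h2 : c x = b := (hQI b hx').2
    exact hab (h1.symm.trans h2)
  · intro a
    refine (hc a).subset ((hQI a).trans ?_)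
    intro x hx
    exact ⟨⟨hx.1.1.1, hx.1.2⟩, hx.2⟩
  · have h1 := Fop_le (lam := lam) hS hV' hV'Y₀ hY₀Z'
    rw [← hZdef'] at h1
    have h2 : ((S ∩ Z') \ M.closure (Z ∪ V')).ncard ≤ ((S ∩ Z') \ Z).ncard :=
      Set.ncard_le_ncard (fun x hx => ⟨hx.1, fun h => hx.2 (hZY₀ h)⟩) (Set.toFinite _)
    have h3 := Nat.mul_le_mul_left lam hQn
    rw [Nat.mul_add] at h3
    nlinarith
  · intro Y h1 h2 h3
    refine hQ Y h1 ?_ h3
    rw [← h1.closure]
    exact M.closure_subset_closure h2

/-- **the encoding lemma** -/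
theorem encode {lam : ℕ} (hlam : 0 < lam) {V : ℕ → Set α} (hV : ∀ t, V t ⊆ M.E)
    (hmono : ∀ t, V t ⊆ V (t + 1)) (h : ℕ) {S : Set α} (hS : S ⊆ M.E) :
    ∃ c : α → Option (Option (Fin lam)), (∀ e, c e ≠ none → e ∈ S) ∧
      lam * {e | c e ≠ none}.ncard ≤ 2 * S.ncard ∧
      ∀ t ≤ h, dec M lam V c t = Fop M lam S (V t) := by
  classical
  obtain ⟨J, hJS, hJcl, hJn⟩ := encode_zero (lam := lam) hS (hV 0)
  have hstep := fun t => encode_step (lam := lam) hlam hS (hV t) (hV (t + 1)) (hmono t)
  choose Q hQS hQd hQi hQn hQ using hstep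
  set Z : ℕ → Set α := fun t => Fop M lam S (V t) with hZdef
  have hZm : Monotone Z := monotone_nat_of_le_succ fun t => Fop_mono_left (hmono t)
  have hZf : ∀ t, M.IsFlat (Z t) := fun t => (Fop_spec M lam hS (hV t)).2.1
  -- disjointness over time
  have hQt : ∀ t a x, x ∈ Q t a → x ∈ Z (t + 1) ∧ x ∉ Z t ∧ x ∈ S := by
    intro t a x hx
    have := hQS t a hx
    exact ⟨this.1.2, this.2, this.1.1⟩
  have huniq : ∀ t t' a a' x, x ∈ Q t a → x ∈ Q t' a' → t = t' ∧ a = a' := by
    intro t t' a a' x hx hx'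
    have h1 := hQt t a x hx
    have h2 := hQt t' a' x hx'
    have htt : t = t' := by
      rcases lt_trichotomy t t' with h3 | h3 | h3
      · exact absurd (hZm (by omega : t + 1 ≤ t') h1.1) h2.2.1
      · exact h3
      · exact absurd (hZm (by omega : t' + 1 ≤ t) h2.1) h1.2.1
    subst htt
    refine ⟨rfl, ?_⟩
    by_contra hne
    exact Set.disjoint_left.1 (hQd t a a' hne) hx hx'
  have hJQ : ∀ t a x, x ∈ Q t a → x ∉ J := by
    intro t a x hx hxJ
    exact (hQt t a x hx).2.1 (hZm (Nat.zero_le t) (hJS hxJ).2)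
  let c : α → Option (Option (Fin lam)) := fun e =>
    if e ∈ J then some none
    else if hex : ∃ a, ∃ t, t < h ∧ e ∈ Q t a then some (some hex.choose) else none
  have hc0 : {e | c e = some none} = J := by
    ext e
    simp only [Set.mem_ofPred_eq, c]
    by_cases h1 : e ∈ J
    · simp [h1]
    · rw [if_neg h1]
      split_ifs with h2
      · simp [h1]
      · simp [h1]
  have hca : ∀ a, {e | c e = some (some a)} = {e | ∃ t, t < h ∧ e ∈ Q t a} := by
    intro a
    ext e
    simp only [Set.mem_ofPred_eq, c]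
    constructor
    · intro h1
      split_ifs at h1 with h2 h3
      · simp at h1
      · have h4 := h3.choose_spec
        have h5 : h3.choose = a := Option.some.inj (Option.some.inj h1)
        rw [h5] at h4
        exact h4
    · rintro ⟨t, ht, hx⟩
      have h1 : e ∉ J := hJQ t a e hx
      have hex : ∃ a, ∃ t, t < h ∧ e ∈ Q t a := ⟨a, t, ht, hx⟩
      rw [if_neg h1, dif_pos hex]
      obtain ⟨t', ht', hx'⟩ := hex.choose_spec
      rw [(huniq t t' a _ e hx hx').2]
  have hcn : {e | c e ≠ none} = J ∪ {e | ∃ a, ∃ t, t < h ∧ e ∈ Q t a} := by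
    ext e
    simp only [Set.mem_ofPred_eq, c, Set.mem_union]
    by_cases h1 : e ∈ J
    · simp [h1]
    · rw [if_neg h1]
      split_ifs with h2
      · simp [h2]
      · simp [h1, h2]
  -- independence of the tails
  have htail : ∀ n t, t + n = h → ∀ a, IndOver M (Z t) {e | ∃ s, t ≤ s ∧ s < h ∧ e ∈ Q s a} := by
    intro n
    induction n with
    | zero =>
      intro t ht a
      have h1 : {e | ∃ s, t ≤ s ∧ s < h ∧ e ∈ Q s a} = ∅ := by
        ext e
        simp only [Set.mem_ofPred_eq, Set.mem_empty_iff_false, iff_false]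
        rintro ⟨s, h1, h2, _⟩
        omega
      rw [h1]
      simp [IndOver]
    | succ n ih =>
      intro t ht a
      have h1 := ih (t + 1) (by omega) a
      have h2 := IndOver.union (hZm (Nat.le_succ t)) (fun x hx => (hQt t a x hx).1) (hQi t a) h1
      refine h2.subset ?_
      rintro e ⟨s, h3, h4, h5⟩
      rcases Nat.eq_or_lt_of_le h3 with h6 | h6
      · subst h6
        exact Or.inl h5
      · exact Or.inr ⟨s, h6, h4, h5⟩
  refine ⟨c, ?_, ?_, ?_⟩
  · intro e he
    have h1 : e ∈ {e | c e ≠ none} := he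
    rw [hcn] at h1
    rcases h1 with h1 | ⟨a, t, _, h1⟩
    · exact (hJS h1).1
    · exact (hQt t a e h1).2.2
  · -- counting
    have hcount : ∀ n, lam * (J ∪ {e | ∃ a, ∃ t, t < n ∧ e ∈ Q t a}).ncard ≤
        2 * (S ∩ Z n).ncard := by
      intro n
      induction n with
      | zero =>
        have h1 : {e | ∃ a, ∃ t, t < 0 ∧ e ∈ Q t a} = (∅ : Set α) := by
          ext e
          simp
        rw [h1, Set.union_empty]
        have h2 : lam * J.ncard ≤ (S ∩ Z 0).ncard := hJn
        omega
      | succ n ih =>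
        have h1 : J ∪ {e | ∃ a, ∃ t, t < n + 1 ∧ e ∈ Q t a} =
            (J ∪ {e | ∃ a, ∃ t, t < n ∧ e ∈ Q t a}) ∪ ⋃ a ∈ (Finset.univ : Finset (Fin lam)), Q n a := by
          ext e
          simp only [Set.mem_union, Set.mem_ofPred_eq, Finset.mem_univ, Set.iUnion_true,
            Set.mem_iUnion]
          constructor
          · rintro (h2 | ⟨a, t, ht, h2⟩)
            · exact Or.inl (Or.inl h2)
            · rcases Nat.lt_succ_iff_lt_or_eq.1 ht with h3 | h3
              · exact Or.inl (Or.inr ⟨a, t, h3, h2⟩)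
              · subst h3
                exact Or.inr ⟨a, h2⟩
          · rintro ((h2 | ⟨a, t, ht, h2⟩) | ⟨a, h2⟩)
            · exact Or.inl h2
            · exact Or.inr ⟨a, t, by omega, h2⟩
            · exact Or.inr ⟨a, n, by omega, h2⟩
        have h2 : (⋃ a ∈ (Finset.univ : Finset (Fin lam)), Q n a).ncard ≤ ∑ a, (Q n a).ncard := by
          have h3 : ∀ s : Finset (Fin lam), (⋃ a ∈ s, Q n a).ncard ≤ ∑ a ∈ s, (Q n a).ncard := by
            intro s
            induction s using Finset.induction_on with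
            | empty => simp
            | insert a s has ihs =>
              rw [Finset.sum_insert has, Finset.set_biUnion_insert]
              exact (Set.ncard_union_le _ _).trans (by omega)
          exact h3 _
        have h3 : (S ∩ Z (n + 1)).ncard =
            (S ∩ Z n).ncard + ((S ∩ Z (n + 1)) \ Z n).ncard := by
          rw [← Set.ncard_union_eq]
          · congr 1
            ext x
            by_cases hx : x ∈ Z n
            · have hx' : x ∈ Z (n + 1) := hZm (Nat.le_succ n) hx
              simp [hx, hx']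
            · simp [hx]
          · rw [Set.disjoint_left]
            intro x hx hx'
            exact hx'.2 hx.2
        rw [h1]
        have h4 := Set.ncard_union_le (J ∪ {e | ∃ a, ∃ t, t < n ∧ e ∈ Q t a})
          (⋃ a ∈ (Finset.univ : Finset (Fin lam)), Q n a)
        have h5 := hQn n
        have h6 : lam * ((J ∪ {e | ∃ a, ∃ t, t < n ∧ e ∈ Q t a}) ∪
            ⋃ a ∈ (Finset.univ : Finset (Fin lam)), Q n a).ncard ≤
            lam * (J ∪ {e | ∃ a, ∃ t, t < n ∧ e ∈ Q t a}).ncard + lam * ∑ a, (Q n a).ncard := by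
          rw [← Nat.mul_add]
          exact Nat.mul_le_mul_left lam (h4.trans (by omega))
        rw [h3]
        have h7 : lam * ∑ a, (Q n a).ncard ≤ 2 * ((S ∩ Z (n + 1)) \ Z n).ncard := h5
        omega
    rw [hcn]
    refine (hcount h).trans ?_
    exact Nat.mul_le_mul_left 2 (Set.ncard_le_ncard Set.inter_subset_left (Set.toFinite _))
  · -- decoding
    intro t
    induction t with
    | zero =>
      intro _
      show M.closure (V 0 ∪ {e | c e = some none}) = _
      rw [hc0]
      exact hJcl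
    | succ t ih =>
      intro ht
      have ih' := ih (by omega)
      show ⋂₀ {Y | (dec M lam V c t ∪ V (t + 1)) ⊆ Y ∧ M.IsFlat Y ∧
        ∀ a, IndOver M Y ({e | c e = some (some a)} \ Y)} = Z (t + 1)
      rw [ih']
      apply subset_antisymm
      · refine Set.sInter_subset_of_mem ⟨?_, hZf (t + 1), fun a => ?_⟩
        · exact Set.union_subset (hZm (Nat.le_succ t)) (Fop_spec M lam hS (hV (t + 1))).1
        · rw [hca a]
          refine (htail (h - (t + 1)) (t + 1) (by omega) a).subset ?_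
          rintro e ⟨⟨s, hs, hes⟩, heZ⟩
          refine ⟨s, ?_, hs, hes⟩
          by_contra hcon
          push Not at hcon
          exact heZ (hZm (by omega : s + 1 ≤ t + 1) (hQt s a e hes).1)
      · refine Set.subset_sInter ?_
        rintro Y ⟨h1, h2, h3⟩
        refine hQ t Y h2 h1 fun a => (h3 a).subset ?_
        intro x hx
        refine ⟨?_, hx.2⟩
        rw [hca a]
        exact ⟨t, by omega, hx.1⟩

end Crest.Agent.MS
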