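import Crest.Agent.MS.Model

/-!
# Row 305 (S0468): measurability of the concrete algorithm

The slots and the barriers are functions of the patterns of the weights, and the patterns are
measurable with values in a countable discrete space.
-/

set_option autoImplicit false
set_option linter.unusedSectionVars false

namespace Crest.Agent.MS

open Set MeasureTheory

variable {k : ℕ}

theorem measurable_intLog (B : ℕ) : Measurable (fun x : ℝ => Int.log B x) := by
  unfold Int.log
  refine Measurable.ite measurableSet_Ici ?_ ?_
  · have h : Measurable (fun n : ℕ => ((Nat.log B n : ℕ) : ℤ)) := measurable_from_top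
    exact h.comp Nat.measurable_floor
  · have h : Measurable (fun n : ℕ => (-((Nat.clog B n : ℕ) : ℤ))) := measurable_from_top
    exact h.comp (Nat.measurable_ceil.comp measurable_inv)

theorem measurable_pat1 (B : ℕ) : Measurable (pat1 B) := by
  unfold pat1
  refine Measurable.prodMk ?_ (measurable_intLog B)
  have h : (fun x : ℝ => decide (0 < x)) = fun x : ℝ => if 0 < x then true else false := by
    funext x
    by_cases hx : 0 < x <;> simp [hx]
  rw [h]
  exact Measurable.ite measurableSet_Ioi measurable_const measurable_const

theorem measurable_pat (B : ℕ) : Measurable (fun w : Fin k → ℝ => pat B w) := by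
  refine measurable_pi_lambda _ fun e => ?_
  exact (measurable_pat1 B).comp (measurable_pi_apply e)

theorem measurable_resA (A : Finset (Fin k)) : Measurable (fun w : Fin k → ℝ => resA A w) := by
  refine measurable_pi_lambda _ fun e => ?_
  unfold resA
  by_cases he : e ∈ A
  · simpa [he] using measurable_pi_apply e
  · simp [he]

/-- sets defined by the patterns of the visible weights and of one weight are measurable -/
theorem meas_of_pat (B : ℕ) (A : Finset (Fin k)) (e : Fin k)
    (P : Pat k → Bool × ℤ → Prop) :
    MeasurableSet {w : Fin k → ℝ | P (pat B (resA A w)) (pat1 B (w e))} := by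
  have hm : Measurable (fun w : Fin k → ℝ =>
      ((pat B (resA A w), pat1 B (w e)) : Pat k × (Bool × ℤ))) :=
    ((measurable_pat B).comp (measurable_resA A)).prodMk
      ((measurable_pat1 B).comp (measurable_pi_apply e))
  have hs : MeasurableSet {p : Pat k × (Bool × ℤ) | P p.1 p.2} :=
    MeasurableSet.of_discrete
  exact hm hs

/-- **measurability of the slots** -/
theorem algD_slot_meas (M : Matroid (Fin k)) (lam B G D : ℕ) (r : Seed k G D)
    (A : Finset (Fin k)) (e : Fin k) (o : Option ℕ) :
    MeasurableSet {w : Fin k → ℝ | (algD M lam B G D r A (resA A w)).slot e (w e) = o} :=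
  meas_of_pat B A e (fun π x => slotP M lam (labS r A) (parS r) (Function.update π e x) e = o)

/-- **measurability of the barriers** -/
theorem algD_bar_meas (M : Matroid (Fin k)) (lam B G D : ℕ) (r : Seed k G D)
    (A : Finset (Fin k)) (m : ℕ) (Z : Set (Fin k)) :
    MeasurableSet {w : Fin k → ℝ | (algD M lam B G D r A (resA A w)).bar m = Z} := by
  have hm : Measurable (fun w : Fin k → ℝ => (pat B (resA A w) : Pat k)) :=
    (measurable_pat B).comp (measurable_resA A)
  have hs : MeasurableSet {p : Pat k | wfinP M lam (labS r A) p (m + 1) = Z} :=
    MeasurableSet.of_discrete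
  exact hm hs

/-- **measurability** of the accepted set -/
theorem algD_meas (M : Matroid (Fin k)) (lam B G D : ℕ) (r : Seed k G D) (A : Finset (Fin k))
    (order : List (Fin k)) (C : Finset (Fin k)) :
    MeasurableSet {w : Fin k → ℝ |
      coreAcc (slotRule M (algD M lam B G D)) r A w order = C} :=
  slotRule_meas M (algD M lam B G D) r A (algD_slot_meas M lam B G D r A)
    (algD_bar_meas M lam B G D r A) order C

end Crest.Agent.MS
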