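import Mathlib
import Crest.Agent.MS.Dens

/-!
# Row 305 (S0468): averages over finite seeds = averages over labels and random subsets

Seeds per element: `g e : Fin G`, `sb e : Bool`, `qb e : Fin D`, `c e : Bool`, and the fair sample
set `A`.  `stb` = "the element wants to be in the sample": `sb e ∨ (qb e = 0 ∧ c e)`.
`Hset = {g e ≠ 0, e ∈ A}`, `Tset = {g e = 0, e ∈ A ↔ stb e}`.

`seed_avg`: the uniform average over `(A, g, sb, qb, c)` of `F Hset Tset {sb} {qb = 0} c` is the
average over independent labels `ℓ : α → Fin 3` (`0` = ignored, weight `1/2`; `1` = `H`, weight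
`(G-1)/(2G)`; `2` = `T`, weight `1/(2G)`), random subsets `S` (`bw (1/2)`), `Q` (`bw (1/D)`) and
uniform `c`.
-/

set_option autoImplicit false
set_option linter.unusedSectionVars false

namespace Crest.Agent.MS

open Finset

variable {α : Type*} [Fintype α] [DecidableEq α]

/-- pushforward of the uniform measure on `α → Sd` to labels -/
theorem sum_push {L Sd : Type*} [Fintype L] [DecidableEq L] [Fintype Sd] (π : Sd → L)
    (f : (α → L) → ℝ) :
    ∑ σ : α → Sd, f (fun e => π (σ e)) =
      ∑ ℓ : α → L, pw (fun a => ((univ.filter fun s => π s = a).card : ℝ)) ℓ * f ℓ := by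
  classical
  rw [← Finset.sum_fiberwise (s := (univ : Finset (α → Sd))) (g := fun σ => (fun e => π (σ e)))]
  refine Finset.sum_congr rfl fun ℓ _ => ?_
  have h1 : ∀ σ ∈ (univ : Finset (α → Sd)).filter (fun σ => (fun e => π (σ e)) = ℓ),
      f (fun e => π (σ e)) = f ℓ := by
    intro σ hσ
    rw [(Finset.mem_filter.1 hσ).2]
  rw [Finset.sum_congr rfl h1, Finset.sum_const, nsmul_eq_mul]
  congr 1
  have h2 : (univ : Finset (α → Sd)).filter (fun σ => (fun e => π (σ e)) = ℓ) =
      Fintype.piFinset (fun e => univ.filter fun s => π s = ℓ e) := by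
    ext σ
    simp only [Finset.mem_filter, Finset.mem_univ, true_and, Fintype.mem_piFinset, funext_iff]
  rw [h2, Fintype.card_piFinset]
  unfold pw
  push_cast
  rfl

/-- scaling of the weights -/
theorem pw_div {L : Type*} [Fintype L] (p : L → ℝ) (C : ℝ) (ℓ : α → L) :
    pw (fun a => p a / C) ℓ = pw p ℓ / C ^ Fintype.card α := by
  unfold pw
  rw [Finset.prod_div_distrib, Finset.prod_const, Finset.card_univ]

theorem avg_push {L Sd : Type*} [Fintype L] [DecidableEq L] [Fintype Sd] (π : Sd → L)
    (f : (α → L) → ℝ) :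
    (∑ σ : α → Sd, f (fun e => π (σ e))) / (Fintype.card Sd : ℝ) ^ Fintype.card α =
      ∑ ℓ : α → L,
        pw (fun a => ((univ.filter fun s => π s = a).card : ℝ) / Fintype.card Sd) ℓ * f ℓ := by
  rw [sum_push, Finset.sum_div]
  refine Finset.sum_congr rfl fun ℓ _ => ?_
  rw [pw_div]
  ring

/-- `Finset α ≃ (α → Bool)` -/
def fsEquiv : (α → Bool) ≃ Finset α where
  toFun b := univ.filter fun e => b e = true
  invFun S := fun e => decide (e ∈ S)
  left_inv b := by
    funext e
    simp
  right_inv S := by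
    ext e
    simp

theorem avg_push_bw {Sd : Type*} [Fintype Sd] (π : Sd → Prop) [DecidablePred π] (f : Finset α → ℝ)
    [Nonempty Sd] :
    (∑ σ : α → Sd, f (univ.filter fun e => π (σ e))) / (Fintype.card Sd : ℝ) ^ Fintype.card α =
      ∑ S : Finset α, bw (((univ.filter fun s => π s).card : ℝ) / Fintype.card Sd) S * f S := by
  classical
  have h1 := avg_push (α := α) (fun s : Sd => decide (π s))
    (fun b => f (univ.filter fun e => b e = true))
  simp only [decide_eq_true_eq] at h1
  rw [h1]
  rw [← (fsEquiv (α := α)).sum_comp]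
  refine Finset.sum_congr rfl fun b _ => ?_
  congr 1
  unfold bw pw
  refine Finset.prod_congr rfl fun e _ => ?_
  have hcard : ((univ.filter fun s : Sd => ¬ π s).card : ℝ) =
      (Fintype.card Sd : ℝ) - (univ.filter fun s : Sd => π s).card := by
    have := Finset.card_filter_add_card_filter_not (s := (univ : Finset Sd)) (fun s => π s)
    rw [Finset.card_univ] at this
    have h2 : ((univ.filter fun s : Sd => π s).card : ℝ) +
        ((univ.filter fun s : Sd => ¬ π s).card : ℝ) = Fintype.card Sd := by exact_mod_cast this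
    linarith
  have hpos : (Fintype.card Sd : ℝ) ≠ 0 := by
    have := Fintype.card_pos (α := Sd)
    positivity
  by_cases hb : b e = true
  · have h3 : e ∈ fsEquiv b := by simp [fsEquiv, hb]
    rw [if_pos h3, hb]
    simp only [decide_eq_true_eq]
  · have h3 : e ∉ fsEquiv b := by simp [fsEquiv, hb]
    rw [if_neg h3]
    have h4 : b e = false := by simpa using hb
    rw [h4]
    simp only [decide_eq_false_iff_not]
    rw [hcard]
    field_simp

/-- the involution `A ↦ {e | if z e then (e ∈ A ↔ st e) else e ∈ A}` -/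
theorem sum_flip (z st : α → Prop) [DecidablePred z] [DecidablePred st] (F : Finset α → ℝ) :
    ∑ A : Finset α, F (univ.filter fun e => if z e then (e ∈ A ↔ st e) else e ∈ A) =
      ∑ A : Finset α, F A := by
  classical
  have hinv : Function.Involutive
      (fun A : Finset α => univ.filter fun e => if z e then (e ∈ A ↔ st e) else e ∈ A) := by
    intro A
    ext e
    simp only [Finset.mem_filter, Finset.mem_univ, true_and]
    by_cases hz : z e
    · simp only [hz, if_true]
      tauto
    · simp only [hz, if_false]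
  exact Fintype.sum_equiv hinv.toPerm _ _ fun A => rfl

/-- the element wants to be in the sample -/
def stb {D : ℕ} [NeZero D] (sb : α → Bool) (qb : α → Fin D) (c : α → Bool) (e : α) : Prop :=
  sb e = true ∨ (qb e = 0 ∧ c e = true)

instance {D : ℕ} [NeZero D] (sb : α → Bool) (qb : α → Fin D) (c : α → Bool) :
    DecidablePred (stb sb qb c) := fun e => by unfold stb; infer_instance

/-- the `H`-labelled elements -/
def Hset {G : ℕ} [NeZero G] (A : Finset α) (g : α → Fin G) : Finset α :=
  univ.filter fun e => g e ≠ 0 ∧ e ∈ A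

/-- the `T`-labelled elements -/
def Tset {G D : ℕ} [NeZero G] [NeZero D] (A : Finset α) (g : α → Fin G) (sb : α → Bool)
    (qb : α → Fin D) (c : α → Bool) : Finset α :=
  univ.filter fun e => g e = 0 ∧ (e ∈ A ↔ stb sb qb c e)

/-- label weights: `0` ignored, `1` = `H`, `2` = `T` -/
noncomputable def labw (G : ℕ) : Fin 3 → ℝ := ![1 / 2, (G - 1) / (2 * G), 1 / (2 * G)]

theorem labw_nonneg {G : ℕ} (hG : 1 ≤ G) (a : Fin 3) : 0 ≤ labw G a := by
  have hG' : (1 : ℝ) ≤ G := by exact_mod_cast hG
  fin_cases a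
  · show (0 : ℝ) ≤ 1 / 2
    norm_num
  · show (0 : ℝ) ≤ (G - 1) / (2 * G)
    exact div_nonneg (by linarith) (by linarith)
  · show (0 : ℝ) ≤ 1 / (2 * G)
    positivity

theorem sum_labw {G : ℕ} (hG : 1 ≤ G) : ∑ a, labw G a = 1 := by
  have hG' : (1 : ℝ) ≤ G := by exact_mod_cast hG
  rw [Fin.sum_univ_three]
  show (1 / 2 : ℝ) + (G - 1) / (2 * G) + 1 / (2 * G) = 1
  field_simp
  ring

/-- the label of a pair (bit of `A'`, `g`) -/
def labOf {G : ℕ} [NeZero G] (x : Bool × Fin G) : Fin 3 :=
  if x.1 = true then (if x.2 = 0 then 2 else 1) else 0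

theorem card_labOf {G : ℕ} [NeZero G] (a : Fin 3) :
    ((univ.filter fun x : Bool × Fin G => labOf x = a).card : ℝ) / Fintype.card (Bool × Fin G) =
      labw G a := by
  classical
  have hG : 1 ≤ G := NeZero.one_le
  have hG' : (0 : ℝ) < G := by exact_mod_cast hG
  have hc : (Fintype.card (Bool × Fin G) : ℝ) = 2 * G := by simp
  rw [hc]
  have h0 : (univ.filter fun x : Bool × Fin G => labOf x = 0) = {false} ×ˢ univ := by
    ext ⟨b, x⟩
    rw [Finset.mem_filter]
    cases b <;> by_cases hx : x = 0 <;> simp [labOf, hx]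
  have h1 : (univ.filter fun x : Bool × Fin G => labOf x = 1) = {true} ×ˢ (univ.erase 0) := by
    ext ⟨b, x⟩
    rw [Finset.mem_filter]
    cases b <;> by_cases hx : x = 0 <;> simp [labOf, hx]
  have h2 : (univ.filter fun x : Bool × Fin G => labOf x = 2) =
      {true} ×ˢ ({0} : Finset (Fin G)) := by
    ext ⟨b, x⟩
    rw [Finset.mem_filter]
    cases b <;> by_cases hx : x = 0 <;> simp [labOf, hx]
  fin_cases a
  · show ((univ.filter fun x : Bool × Fin G => labOf x = 0).card : ℝ) / (2 * G) = 1 / 2
    rw [h0, Finset.card_product]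
    simp
    field_simp
  · show ((univ.filter fun x : Bool × Fin G => labOf x = 1).card : ℝ) / (2 * G) =
      (G - 1) / (2 * G)
    rw [h1, Finset.card_product, Finset.card_erase_of_mem (Finset.mem_univ _)]
    simp [Nat.cast_sub hG]
  · show ((univ.filter fun x : Bool × Fin G => labOf x = 2).card : ℝ) / (2 * G) = 1 / (2 * G)
    rw [h2, Finset.card_product]
    simp

/-- the average over `(A, g)` -/
theorem avg_Ag {G : ℕ} [NeZero G] (F : Finset α → Finset α → ℝ) :
    (∑ A : Finset α, ∑ g : α → Fin G, F (univ.filter fun e => g e ≠ 0 ∧ e ∈ A)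
        (univ.filter fun e => g e = 0 ∧ e ∈ A)) / ((2 * G : ℝ) ^ Fintype.card α) =
      ∑ ℓ : α → Fin 3, pw (labw G) ℓ *
        F (univ.filter fun e => ℓ e = 1) (univ.filter fun e => ℓ e = 2) := by
  classical
  have h1 := avg_push (α := α) (labOf (G := G))
    (fun ℓ => F (univ.filter fun e => ℓ e = 1) (univ.filter fun e => ℓ e = 2))
  have h2 : (fun a : Fin 3 => ((univ.filter fun x : Bool × Fin G => labOf x = a).card : ℝ) /
      Fintype.card (Bool × Fin G)) = labw G := funext card_labOf
  rw [h2] at h1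
  rw [← h1]
  have hc : (Fintype.card (Bool × Fin G) : ℝ) = 2 * G := by simp
  rw [hc]
  congr 1
  rw [← (fsEquiv (α := α)).sum_comp]
  have h3 : ∑ i : α → Bool, ∑ g : α → Fin G,
      F (univ.filter fun e => g e ≠ 0 ∧ e ∈ fsEquiv i) (univ.filter fun e => g e = 0 ∧ e ∈ fsEquiv i) =
      ∑ x : (α → Bool) × (α → Fin G),
      F (univ.filter fun e => x.2 e ≠ 0 ∧ e ∈ fsEquiv x.1)
        (univ.filter fun e => x.2 e = 0 ∧ e ∈ fsEquiv x.1) := by
    rw [Fintype.sum_prod_type]
  rw [h3]
  refine Fintype.sum_equiv (Equiv.arrowProdEquivProdArrow α (fun _ => Bool) (fun _ => Fin G)).symm _ _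
    fun x => ?_
  have h4 : (univ.filter fun e => x.2 e ≠ 0 ∧ e ∈ fsEquiv x.1) =
      (univ.filter fun e => labOf (G := G) (x.1 e, x.2 e) = 1) := by
    ext e
    simp only [Finset.mem_filter, Finset.mem_univ, true_and, fsEquiv, Equiv.coe_fn_mk, labOf]
    by_cases h5 : x.1 e = true <;> by_cases h6 : x.2 e = 0 <;> simp [h5, h6]
  have h5 : (univ.filter fun e => x.2 e = 0 ∧ e ∈ fsEquiv x.1) =
      (univ.filter fun e => labOf (G := G) (x.1 e, x.2 e) = 2) := by
    ext e
    simp only [Finset.mem_filter, Finset.mem_univ, true_and, fsEquiv, Equiv.coe_fn_mk, labOf]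
    by_cases h5 : x.1 e = true <;> by_cases h6 : x.2 e = 0 <;> simp [h5, h6]
  rw [h4, h5]
  rfl

/-- **the seed average** -/
theorem seed_avg {G D : ℕ} [NeZero G] [NeZero D]
    (F : Finset α → Finset α → Finset α → Finset α → (α → Bool) → ℝ) :
    (∑ A : Finset α, ∑ g : α → Fin G, ∑ sb : α → Bool, ∑ qb : α → Fin D, ∑ c : α → Bool,
        F (Hset A g) (Tset A g sb qb c) (univ.filter fun e => sb e = true)
          (univ.filter fun e => qb e = 0) c) /
      ((2 * G : ℝ) ^ Fintype.card α * ((2 : ℝ) ^ Fintype.card α * ((D : ℝ) ^ Fintype.card α *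
        (2 : ℝ) ^ Fintype.card α))) =
      ∑ ℓ : α → Fin 3, pw (labw G) ℓ * ∑ S : Finset α, bw (1 / 2) S * ∑ Q : Finset α,
        bw (1 / D) Q * ((∑ c : α → Bool, F (univ.filter fun e => ℓ e = 1)
          (univ.filter fun e => ℓ e = 2) S Q c) / (2 : ℝ) ^ Fintype.card α) := by
  classical
  -- flip
  have h1 : ∑ A : Finset α, ∑ g : α → Fin G, ∑ sb : α → Bool, ∑ qb : α → Fin D, ∑ c : α → Bool,
        F (Hset A g) (Tset A g sb qb c) (univ.filter fun e => sb e = true)
          (univ.filter fun e => qb e = 0) c =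
      ∑ A : Finset α, ∑ g : α → Fin G, ∑ sb : α → Bool, ∑ qb : α → Fin D, ∑ c : α → Bool,
        F (univ.filter fun e => g e ≠ 0 ∧ e ∈ A) (univ.filter fun e => g e = 0 ∧ e ∈ A)
          (univ.filter fun e => sb e = true) (univ.filter fun e => qb e = 0) c := by
    -- move the sum over A inside
    have hcomm : ∀ K : Finset α → (α → Fin G) → (α → Bool) → (α → Fin D) → (α → Bool) → ℝ,
        ∑ A : Finset α, ∑ g : α → Fin G, ∑ sb : α → Bool, ∑ qb : α → Fin D, ∑ c : α → Bool,
          K A g sb qb c =
        ∑ g : α → Fin G, ∑ sb : α → Bool, ∑ qb : α → Fin D, ∑ c : α → Bool, ∑ A : Finset α,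
          K A g sb qb c := by
      intro K
      rw [Finset.sum_comm]
      refine Finset.sum_congr rfl fun g _ => ?_
      rw [Finset.sum_comm]
      refine Finset.sum_congr rfl fun sb _ => ?_
      rw [Finset.sum_comm]
      refine Finset.sum_congr rfl fun qb _ => ?_
      rw [Finset.sum_comm]
    rw [hcomm, hcomm]
    refine Finset.sum_congr rfl fun g _ => Finset.sum_congr rfl fun sb _ =>
      Finset.sum_congr rfl fun qb _ => Finset.sum_congr rfl fun c _ => ?_
    rw [← sum_flip (fun e => g e = 0) (stb sb qb c)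
      (fun A => F (univ.filter fun e => g e ≠ 0 ∧ e ∈ A) (univ.filter fun e => g e = 0 ∧ e ∈ A)
          (univ.filter fun e => sb e = true) (univ.filter fun e => qb e = 0) c)]
    refine Finset.sum_congr rfl fun A _ => ?_
    have h2 : Hset A g = univ.filter fun e => g e ≠ 0 ∧
        e ∈ univ.filter fun e => if g e = 0 then (e ∈ A ↔ stb sb qb c e) else e ∈ A := by
      ext e
      simp only [Hset, Finset.mem_filter, Finset.mem_univ, true_and]
      by_cases h : g e = 0 <;> simp [h]
    have h3 : Tset A g sb qb c = univ.filter fun e => g e = 0 ∧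
        e ∈ univ.filter fun e => if g e = 0 then (e ∈ A ↔ stb sb qb c e) else e ∈ A := by
      ext e
      simp only [Tset, Finset.mem_filter, Finset.mem_univ, true_and]
      by_cases h : g e = 0 <;> simp [h]
    rw [h2, h3]
  rw [h1]
  -- inner averages
  have hS : ∀ f : Finset α → ℝ, (∑ sb : α → Bool, f (univ.filter fun e => sb e = true)) /
      (2 : ℝ) ^ Fintype.card α = ∑ S : Finset α, bw (1 / 2) S * f S := by
    intro f
    have := avg_push_bw (α := α) (fun b : Bool => b = true) f
    have h4 : (univ.filter fun s : Bool => s = true) = {true} := by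
      ext x; simp
    rw [h4] at this
    simpa using this
  have hQ : ∀ f : Finset α → ℝ, (∑ qb : α → Fin D, f (univ.filter fun e => qb e = 0)) /
      (D : ℝ) ^ Fintype.card α = ∑ Q : Finset α, bw (1 / D) Q * f Q := by
    intro f
    have := avg_push_bw (α := α) (fun x : Fin D => x = 0) f
    have h4 : (univ.filter fun s : Fin D => s = 0) = {0} := by
      ext x; simp
    rw [h4] at this
    simpa using this
  have hin : ∀ H T : Finset α,
      (∑ sb : α → Bool, ∑ qb : α → Fin D, ∑ c : α → Bool,
        F H T (univ.filter fun e => sb e = true) (univ.filter fun e => qb e = 0) c) /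
        ((2 : ℝ) ^ Fintype.card α * ((D : ℝ) ^ Fintype.card α * (2 : ℝ) ^ Fintype.card α)) =
      ∑ S : Finset α, bw (1 / 2) S * ∑ Q : Finset α, bw (1 / D) Q *
        ((∑ c : α → Bool, F H T S Q c) / (2 : ℝ) ^ Fintype.card α) := by
    intro H T
    rw [← hS (fun S => ∑ Q : Finset α, bw (1 / D) Q *
      ((∑ c : α → Bool, F H T S Q c) / (2 : ℝ) ^ Fintype.card α)), ← div_div]
    rw [div_right_comm, Finset.sum_div]
    congr 1
    refine Finset.sum_congr rfl fun sb _ => ?_
    rw [← hQ (fun Q => (∑ c : α → Bool, F H T (univ.filter fun e => sb e = true) Q c) /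
      (2 : ℝ) ^ Fintype.card α), ← div_div, div_right_comm, Finset.sum_div]
  rw [← div_div, ← avg_Ag (fun H T => ∑ S : Finset α, bw (1 / 2) S * ∑ Q : Finset α, bw (1 / D) Q *
        ((∑ c : α → Bool, F H T S Q c) / (2 : ℝ) ^ Fintype.card α))]
  rw [div_right_comm]
  congr 1
  rw [Finset.sum_div]
  refine Finset.sum_congr rfl fun A _ => ?_
  rw [Finset.sum_div]
  refine Finset.sum_congr rfl fun g _ => ?_
  exact hin _ _

end Crest.Agent.MS
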