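import Crest.Agent.MS.Model
import Crest.Agent.MS.Seed

/-!
# Row 305 (S0468): the average over the sample set and the seed of the concrete algorithm

`seed_avg_lab`: the uniform average over `(A, r)` of `F (labS r A) (parS r)` is the average over
independent coarse labels `l : Fin k → Co` (`pcG G`), random subsets `S` (`bw (1/2)`),
`Q` (`bw (1/(D+1))`), uniform coins `c` and a fair parity bit.
-/

set_option autoImplicit false
set_option linter.unusedSectionVars false

namespace Crest.Agent.MS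

open Finset

/-- label weights -/
noncomputable def pcG (G : ℕ) : Co → ℝ
  | Co.H => G / (2 * (G + 1))
  | Co.T => 1 / (2 * (G + 1))
  | Co.X => 1 / 2

theorem pcG_nonneg (G : ℕ) (a : Co) : 0 ≤ pcG G a := by
  cases a
  · show (0 : ℝ) ≤ G / (2 * (G + 1))
    positivity
  · show (0 : ℝ) ≤ 1 / (2 * (G + 1))
    positivity
  · show (0 : ℝ) ≤ 1 / 2
    norm_num

theorem sum_Co (f : Co → ℝ) : ∑ a, f a = f Co.H + f Co.T + f Co.X := by
  have h : (Finset.univ : Finset Co) = {Co.H, Co.T, Co.X} := rfl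
  rw [h, Finset.sum_insert (by decide), Finset.sum_insert (by decide), Finset.sum_singleton]
  ring

theorem sum_pcG (G : ℕ) : ∑ a, pcG G a = 1 := by
  rw [sum_Co]
  show (G : ℝ) / (2 * (G + 1)) + 1 / (2 * (G + 1)) + 1 / 2 = 1
  field_simp
  ring

/-- the label of a pair (bit of `A'`, `g`) -/
def coOf {G : ℕ} (x : Bool × Fin (G + 1)) : Co :=
  if x.1 = true then (if x.2 = 0 then Co.T else Co.H) else Co.X

theorem card_coOf {G : ℕ} (a : Co) :
    ((univ.filter fun x : Bool × Fin (G + 1) => coOf x = a).card : ℝ) /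
      Fintype.card (Bool × Fin (G + 1)) = pcG G a := by
  classical
  have hc : (Fintype.card (Bool × Fin (G + 1)) : ℝ) = 2 * (G + 1) := by simp
  rw [hc]
  have h0 : (univ.filter fun x : Bool × Fin (G + 1) => coOf x = Co.X) = {false} ×ˢ univ := by
    ext ⟨b, x⟩
    rw [Finset.mem_filter]
    cases b <;> by_cases hx : x = 0 <;> simp [coOf, hx]
  have h1 : (univ.filter fun x : Bool × Fin (G + 1) => coOf x = Co.H) =
      {true} ×ˢ (univ.erase 0) := by
    ext ⟨b, x⟩
    rw [Finset.mem_filter]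
    cases b <;> by_cases hx : x = 0 <;> simp [coOf, hx]
  have h2 : (univ.filter fun x : Bool × Fin (G + 1) => coOf x = Co.T) =
      {true} ×ˢ ({0} : Finset (Fin (G + 1))) := by
    ext ⟨b, x⟩
    rw [Finset.mem_filter]
    cases b <;> by_cases hx : x = 0 <;> simp [coOf, hx]
  cases a
  · show ((univ.filter fun x : Bool × Fin (G + 1) => coOf x = Co.H).card : ℝ) / (2 * (G + 1)) =
      G / (2 * (G + 1))
    rw [h1, Finset.card_product, Finset.card_erase_of_mem (Finset.mem_univ _)]
    simp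
  · show ((univ.filter fun x : Bool × Fin (G + 1) => coOf x = Co.T).card : ℝ) / (2 * (G + 1)) =
      1 / (2 * (G + 1))
    rw [h2, Finset.card_product]
    simp
  · show ((univ.filter fun x : Bool × Fin (G + 1) => coOf x = Co.X).card : ℝ) / (2 * (G + 1)) =
      1 / 2
    rw [h0, Finset.card_product]
    simp
    field_simp

variable {k : ℕ}

/-- the labels of the flipped sample set -/
def lab0 {G : ℕ} (A : Finset (Fin k)) (g : Fin k → Fin (G + 1)) (e : Fin k) : Co :=
  if e ∈ A then (if g e = 0 then Co.T else Co.H) else Co.X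

theorem avg_lab0 {G : ℕ} (f : (Fin k → Co) → ℝ) :
    (∑ A : Finset (Fin k), ∑ g : Fin k → Fin (G + 1), f (lab0 A g)) /
      ((2 : ℝ) ^ k * ((G : ℝ) + 1) ^ k) = ∑ l : Fin k → Co, pw (pcG G) l * f l := by
  classical
  have h1 := avg_push (α := Fin k) (coOf (G := G)) f
  have h2 : (fun a : Co => ((univ.filter fun x : Bool × Fin (G + 1) => coOf x = a).card : ℝ) /
      Fintype.card (Bool × Fin (G + 1))) = pcG G := funext card_coOf
  rw [h2] at h1
  rw [← h1]
  have hc : (Fintype.card (Bool × Fin (G + 1)) : ℝ) = 2 * (G + 1) := by simp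
  rw [hc, Fintype.card_fin, mul_pow]
  congr 1
  rw [← (fsEquiv (α := Fin k)).sum_comp]
  have h3 : ∑ i : Fin k → Bool, ∑ g : Fin k → Fin (G + 1), f (lab0 (fsEquiv i) g) =
      ∑ x : (Fin k → Bool) × (Fin k → Fin (G + 1)), f (lab0 (fsEquiv x.1) x.2) := by
    rw [Fintype.sum_prod_type]
  rw [h3]
  refine Fintype.sum_equiv
    (Equiv.arrowProdEquivProdArrow (Fin k) (fun _ => Bool) (fun _ => Fin (G + 1))).symm _ _
    fun x => ?_
  congr 1
  funext e
  simp only [lab0, fsEquiv, Equiv.coe_fn_mk, Finset.mem_filter, Finset.mem_univ, true_and]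
  by_cases h5 : x.1 e = true <;> by_cases h6 : x.2 e = 0 <;>
    simp [h5, h6, coOf, Equiv.arrowProdEquivProdArrow]

/-- **the seed average** -/
theorem seed_avg_lab {G D : ℕ} (F : Lab k → Bool → ℝ) :
    (∑ A : Finset (Fin k), ∑ r : Seed k G D, F (labS r A) (parS r)) /
      ((2 : ℝ) ^ k * Fintype.card (Seed k G D)) =
      ∑ l : Fin k → Co, pw (pcG G) l * ∑ S : Finset (Fin k), bw (1 / 2) S *
        ∑ Q : Finset (Fin k), bw (1 / ((D : ℝ) + 1)) Q *
          avg (fun c : Fin k → Bool => avg (fun par : Bool => F ⟨l, S, Q, c⟩ par)) := by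
  classical
  -- flip
  have h1 : ∑ A : Finset (Fin k), ∑ r : Seed k G D, F (labS r A) (parS r) =
      ∑ A : Finset (Fin k), ∑ r : Seed k G D,
        F ⟨lab0 A r.1, univ.filter fun e => r.2.1 e = true, univ.filter fun e => r.2.2.1 e = 0,
          r.2.2.2.1⟩ r.2.2.2.2 := by
    rw [Finset.sum_comm, Finset.sum_comm (s := (univ : Finset (Finset (Fin k))))]
    refine Finset.sum_congr rfl fun r _ => ?_
    rw [← sum_flip (fun e => r.1 e = 0) (fun e => stS r e = true)
      (fun A => F ⟨lab0 A r.1, univ.filter fun e => r.2.1 e = true,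
        univ.filter fun e => r.2.2.1 e = 0, r.2.2.2.1⟩ r.2.2.2.2)]
    refine Finset.sum_congr rfl fun A _ => ?_
    have h2 : lcS r A = lab0 (univ.filter fun e => if r.1 e = 0 then (e ∈ A ↔ stS r e = true)
        else e ∈ A) r.1 := by
      funext e
      simp only [lcS, lab0, Finset.mem_filter, Finset.mem_univ, true_and]
      by_cases h3 : r.1 e = 0
      · simp only [h3, if_true]
        by_cases h4 : e ∈ A <;> cases h5 : stS r e <;> simp [h4]
      · simp only [h3, if_false]
    show F ⟨lcS r A, _, _, _⟩ (parS r) = _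
    rw [h2]
    rfl
  rw [h1]
  -- inner averages
  have hS : ∀ f : Finset (Fin k) → ℝ,
      (∑ sb : Fin k → Bool, f (univ.filter fun e => sb e = true)) / (2 : ℝ) ^ k =
        ∑ S : Finset (Fin k), bw (1 / 2) S * f S := by
    intro f
    have := avg_push_bw (α := Fin k) (fun b : Bool => b = true) f
    have h4 : (univ.filter fun s : Bool => s = true) = {true} := by
      ext x; simp
    rw [h4] at this
    simpa using this
  have hQ : ∀ f : Finset (Fin k) → ℝ,
      (∑ qb : Fin k → Fin (D + 1), f (univ.filter fun e => qb e = 0)) / ((D : ℝ) + 1) ^ k =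
        ∑ Q : Finset (Fin k), bw (1 / ((D : ℝ) + 1)) Q * f Q := by
    intro f
    have := avg_push_bw (α := Fin k) (fun x : Fin (D + 1) => x = 0) f
    have h4 : (univ.filter fun s : Fin (D + 1) => s = 0) = {0} := by
      ext x; simp
    rw [h4] at this
    simpa using this
  have hcard : ((2 : ℝ) ^ k * Fintype.card (Seed k G D)) =
      ((2 : ℝ) ^ k * ((G : ℝ) + 1) ^ k) * ((2 : ℝ) ^ k * (((D : ℝ) + 1) ^ k * ((2 : ℝ) ^ k * 2))) := by
    simp only [Seed, Fintype.card_prod, Fintype.card_fun, Fintype.card_fin, Fintype.card_bool]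
    push_cast
    ring
  rw [hcard, ← div_div]
  have hin : ∀ l : Fin k → Co,
      (∑ sb : Fin k → Bool, ∑ qb : Fin k → Fin (D + 1), ∑ c : Fin k → Bool, ∑ par : Bool,
        F ⟨l, univ.filter fun e => sb e = true, univ.filter fun e => qb e = 0, c⟩ par) /
        ((2 : ℝ) ^ k * (((D : ℝ) + 1) ^ k * ((2 : ℝ) ^ k * 2))) =
      ∑ S : Finset (Fin k), bw (1 / 2) S * ∑ Q : Finset (Fin k), bw (1 / ((D : ℝ) + 1)) Q *
        avg (fun c : Fin k → Bool => avg (fun par : Bool => F ⟨l, S, Q, c⟩ par)) := by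
    intro l
    have hav : ∀ S Q : Finset (Fin k),
        avg (fun c : Fin k → Bool => avg (fun par : Bool => F ⟨l, S, Q, c⟩ par)) =
        (∑ c : Fin k → Bool, ∑ par : Bool, F ⟨l, S, Q, c⟩ par) / ((2 : ℝ) ^ k * 2) := by
      intro S Q
      unfold avg
      rw [← Finset.sum_div, Fintype.card_fun, Fintype.card_fin, Fintype.card_bool, div_div]
      push_cast
      rw [mul_comm (2 : ℝ) (2 ^ k)]
    simp only [hav]
    rw [← hS (fun S => ∑ Q : Finset (Fin k), bw (1 / ((D : ℝ) + 1)) Q *
      ((∑ c : Fin k → Bool, ∑ par : Bool, F ⟨l, S, Q, c⟩ par) / ((2 : ℝ) ^ k * 2))), ← div_div]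
    rw [div_right_comm, Finset.sum_div]
    congr 1
    refine Finset.sum_congr rfl fun sb _ => ?_
    rw [← hQ (fun Q => (∑ c : Fin k → Bool, ∑ par : Bool,
      F ⟨l, univ.filter fun e => sb e = true, Q, c⟩ par) / ((2 : ℝ) ^ k * 2)),
      ← div_div, div_right_comm, Finset.sum_div]
  simp only [← hin]
  rw [← avg_lab0 (G := G) (fun l =>
      (∑ sb : Fin k → Bool, ∑ qb : Fin k → Fin (D + 1), ∑ c : Fin k → Bool, ∑ par : Bool,
        F ⟨l, univ.filter fun e => sb e = true, univ.filter fun e => qb e = 0, c⟩ par) /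
        ((2 : ℝ) ^ k * (((D : ℝ) + 1) ^ k * ((2 : ℝ) ^ k * 2)))), div_right_comm]
  congr 1
  simp only [Seed, Fintype.sum_prod_type]
  rw [Finset.sum_div]
  refine Finset.sum_congr rfl fun A _ => ?_
  rw [Finset.sum_div]

end Crest.Agent.MS
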