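import Crest.Agent.MS.Glue
import Crest.Agent.MS.SeedM
import Crest.Agent.MS.Meas

/-! Row 305: S0468 from Locality and nestedness. -/

set_option autoImplicit false

namespace Crest.Agent.MS

open Finset Crest.OnlineMatroid
open scoped ENNReal

universe u

variable {k : ℕ}

theorem pcG_eq_pc (a : Co) : pcG GG0 a = pc a := by
  cases a <;> simp only [pcG, pc, GG0] <;> norm_num

theorem seedAvg_holds (k : ℕ) : SeedAvg k := by
  intro F
  have h := seed_avg_lab (k := k) (G := GG0) (D := DD0) F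
  have h1 : (Fintype.card (Finset (Fin k) × Seed k GG0 DD0) : ℝ) =
      (2 : ℝ) ^ k * Fintype.card (Seed k GG0 DD0) := by
    rw [Fintype.card_prod, Fintype.card_finset, Fintype.card_fin]
    push_cast
    ring
  have h2 : (1 / ((DD0 : ℝ) + 1)) = 1 / 2 ^ 30 := by
    unfold DD0
    norm_num
  have h3 : pcG GG0 = pc := funext pcG_eq_pc
  rw [h1, Fintype.sum_prod_type, h, h2, h3]

/-- nestedness (hypothesis of `result_of_slots`) -/
def Nested (M : Matroid (Fin k)) : Prop :=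
  ∀ (r : Seed k GG0 DD0) (A : Finset (Fin k)) (w : Fin k → ℝ), ∀ e m e' m', e ∉ A → e' ∉ A →
    (algD M LL BB GG0 DD0 r A (resA A w)).slot e (w e) = some m →
    (algD M LL BB GG0 DD0 r A (resA A w)).slot e' (w e') = some m' → m < m' → e ∈ M.E →
    e' ∈ M.E → e' ∈ M.closure ((algD M LL BB GG0 DD0 r A (resA A w)).bar m)

instance : Nonempty (Seed k GG0 DD0) := ⟨(fun _ => 0, fun _ => false, fun _ => 0, fun _ => false,
  false)⟩

theorem result_main (k : ℕ) (M : Matroid (Fin k)) (hLoc : Locality M) (hN : Nested M) :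
    ∃ (ΩR : Type) (_ : MeasurableSpace ΩR) (μR : MeasureTheory.Measure ΩR)
      (R : SampleRule ΩR k),
      MeasureTheory.IsProbabilityMeasure μR ∧
      (∀ (r : ΩR) (s v : Fin k → ℝ) (order : List (Fin k)),
        M.Indep (sAccepted R r s v order : Set (Fin k))) ∧
      ∀ (Ω : Type u) [MeasurableSpace Ω] (P : MeasureTheory.Measure Ω)
        [MeasureTheory.IsProbabilityMeasure P] (S V : Ω → Fin k → ℝ),
        Measurable S → Measurable V → (∀ ω e, 0 ≤ S ω e ∧ 0 ≤ V ω e) →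
        ProbabilityTheory.iIndepFun
          (fun (i : Fin k × Bool) (ω : Ω) => if i.2 = true then S ω i.1 else V ω i.1) P →
        (∀ e, P.map (fun ω => S ω e) = P.map (fun ω => V ω e)) →
        ∫⁻ ω, optWeight M (V ω) ∂P ≠ ⊤ →
        (2 : ENNReal)⁻¹ ^ 310 * ∫⁻ ω, optWeight M (V ω) ∂P ≤
          ∫⁻ p, ⨅ σ : Equiv.Perm (Fin k),
            ENNReal.ofReal (∑ e ∈ sAccepted R p.1 (S p.2) (V p.2) (List.ofFn σ), V p.2 e)
            ∂(μR.prod P) := by
  obtain ⟨ΩR, mΩ, μR, R, hμ, hind, hval⟩ := result_of_slots.{u} M (1 / 2 ^ 90) (by positivity)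
    (Seed k GG0 DD0) (algD M LL BB GG0 DD0) hN
    (fun r A e o => algD_slot_meas M LL BB GG0 DD0 r A e o)
    (fun r A m Z => algD_bar_meas M LL BB GG0 DD0 r A m Z)
    (fun w hw => hval_main M hLoc (seedAvg_holds k) w hw)
  refine ⟨ΩR, mΩ, μR, R, hμ, hind, ?_⟩
  intro Ω _ P _ S V hS hV hnn hiid hlaw hfin
  refine le_trans ?_ (hval Ω P S V hS hV hnn hiid hlaw hfin)
  refine mul_le_mul_left ?_ _
  have h1 : (2 : ENNReal)⁻¹ ^ 310 ≤ (2 : ENNReal)⁻¹ ^ 90 := by
    refine pow_le_pow_right_of_le_one' ?_ (by norm_num)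
    rw [ENNReal.inv_le_one]
    norm_num
  refine h1.trans (le_of_eq ?_)
  rw [one_div, ENNReal.ofReal_inv_of_pos (by positivity), ENNReal.ofReal_pow (by norm_num),
    ENNReal.ofReal_ofNat, ENNReal.inv_pow]

end Crest.Agent.MS
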