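import Crest.Agent.MS.Model

/-!
# Row 305 (S0468): basic facts about the flats of the concrete algorithm
-/

set_option autoImplicit false
set_option linter.unusedSectionVars false

namespace Crest.Agent.MS

open Set

variable {k : ℕ} {M : Matroid (Fin k)} {lam : ℕ} {L : Lab k} {Tv : Finset (Fin k)}
  {ci : Fin k → ℤ}

/-- nested flats -/
structure FChain (M : Matroid (Fin k)) (W : ℕ → Set (Fin k)) : Prop where
  flat : ∀ m, M.IsFlat (W m)
  anti : ∀ m, W (m + 1) ⊆ W m

theorem FChain.anti' {W : ℕ → Set (Fin k)} (h : FChain M W) {m m' : ℕ} (hm : m ≤ m') :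
    W m' ⊆ W m := by
  induction hm with
  | refl => exact subset_rfl
  | step _ ih => exact (h.anti _).trans ih

theorem vst_chain (j : ℤ) {W : ℕ → Set (Fin k)} (hW : FChain M W) :
    FChain M (vst M lam L Tv ci j W) where
  flat m := (Fop_spec M lam (selB_ground M _) (hW.flat m).subset_ground).2.1
  anti m := Fop_mono_left (hW.anti m)

theorem subset_vst (j : ℤ) {W : ℕ → Set (Fin k)} (hW : FChain M W) (m : ℕ) :
    W m ⊆ vst M lam L Tv ci j W m :=
  (Fop_spec M lam (selB_ground M _) (hW.flat m).subset_ground).1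

theorem vst_subset_wst (j : ℤ) {W : ℕ → Set (Fin k)} (hW : FChain M W) (m : ℕ) :
    vst M lam L Tv ci j W m ⊆ wst M lam L Tv ci j W m := by
  intro z hz
  exact M.mem_closure_of_mem' (Or.inl hz)
    (((vst_chain (lam := lam) (L := L) (Tv := Tv) (ci := ci) j hW).flat m).subset_ground hz)

theorem wst_chain (j : ℤ) {W : ℕ → Set (Fin k)} (hW : FChain M W) :
    FChain M (wst M lam L Tv ci j W) where
  flat m := M.isFlat_closure _
  anti m := by
    have hV := vst_chain (lam := lam) (L := L) (Tv := Tv) (ci := ci) j hW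
    refine M.closure_subset_closure_of_subset_closure ?_
    rintro z (hz | ⟨-, hz⟩)
    · exact vst_subset_wst j hW m (hV.anti m hz)
    · rcases hz with hz | hz
      · omega
      · exact vst_subset_wst j hW m hz

theorem bot_chain : FChain M (fun _ : ℕ => M.closure ∅) where
  flat _ := M.isFlat_closure _
  anti _ := subset_rfl

theorem wit_chain (b : ℤ) (n : ℕ) : FChain M (wit M lam L Tv ci b n) := by
  induction n with
  | zero => exact bot_chain
  | succ n ih => exact wst_chain _ ih

theorem wit_subset_succ (b : ℤ) (n m : ℕ) :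
    wit M lam L Tv ci b n m ⊆ wit M lam L Tv ci b (n + 1) m :=
  (subset_vst (b + n) (wit_chain b n) m).trans (vst_subset_wst (b + n) (wit_chain b n) m)

theorem wit_mono (b : ℤ) {n n' : ℕ} (h : n ≤ n') (m : ℕ) :
    wit M lam L Tv ci b n m ⊆ wit M lam L Tv ci b n' m := by
  induction h with
  | refl => exact subset_rfl
  | step _ ih => exact ih.trans (wit_subset_succ b _ m)

/-! ### trivial classes -/

theorem vst_trivial {j : ℤ} (hj : ∀ z ∈ Tv, ci z ≠ j) {W : ℕ → Set (Fin k)} (hW : FChain M W)
    (m : ℕ) : vst M lam L Tv ci j W m = W m := by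
  unfold vst
  have h1 : L.S ∩ Tv.filter (fun e => ci e = j) = ∅ := by
    ext z
    simp only [Finset.mem_inter, Finset.mem_filter, Finset.notMem_empty, iff_false]
    rintro ⟨-, h1, h2⟩
    exact hj z h1 h2
  rw [h1, selB_empty, Finset.coe_empty]
  exact Fop_empty (hW.flat m)

theorem wst_trivial {j : ℤ} (hj : ∀ z ∈ Tv, ci z ≠ j) {W : ℕ → Set (Fin k)} (hW : FChain M W) :
    wst M lam L Tv ci j W = W := by
  funext m
  unfold wst
  rw [vst_trivial hj hW]
  have h1 : {z | (z ∈ Tv ∧ ci z = j ∧ z ∈ L.Q ∧ z ∉ L.S ∧ L.c z = true) ∧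
      (m = 0 ∨ z ∈ vst M lam L Tv ci j W (m - 1))} = (∅ : Set (Fin k)) := by
    ext z
    simp only [mem_ofPred_eq, mem_empty_iff_false, iff_false]
    rintro ⟨⟨h1, h2, -⟩, -⟩
    exact hj z h1 h2
  rw [h1, union_empty]
  exact (hW.flat m).closure

/-- shift of the base over classes without visible elements -/
theorem wit_base (b : ℤ) (d : ℕ) (h : ∀ z ∈ Tv, ¬ (b ≤ ci z ∧ ci z < b + d)) (n : ℕ) :
    wit M lam L Tv ci b (d + n) = wit M lam L Tv ci (b + d) n := by
  induction n with
  | zero =>
    have key : ∀ d' ≤ d, wit M lam L Tv ci b d' = fun _ => M.closure ∅ := by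
      intro d'
      induction d' with
      | zero => intro _; rfl
      | succ d' ih =>
        intro hd
        have h1 := ih (by omega)
        show wst M lam L Tv ci (b + d') (wit M lam L Tv ci b d') = _
        rw [h1]
        exact wst_trivial (fun z hz hzc => h z hz ⟨by omega, by omega⟩) bot_chain
    rw [Nat.add_zero, key d le_rfl]
    rfl
  | succ n ih =>
    show wst M lam L Tv ci (b + ((d + n : ℕ) : ℤ)) (wit M lam L Tv ci b (d + n)) =
      wst M lam L Tv ci (b + d + n) (wit M lam L Tv ci (b + d) n)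
    rw [ih]
    congr 1
    push_cast
    ring

theorem wit_up (b : ℤ) (n : ℕ) (h : ∀ z ∈ Tv, ci z < b + n) (d : ℕ) :
    wit M lam L Tv ci b (n + d) = wit M lam L Tv ci b n := by
  induction d with
  | zero => rfl
  | succ d ih =>
    show wst M lam L Tv ci (b + ((n + d : ℕ) : ℤ)) (wit M lam L Tv ci b (n + d)) = _
    rw [ih]
    refine wst_trivial (fun z hz hzc => ?_) (wit_chain b n)
    have := h z hz
    push_cast at hzc
    omega

theorem wit_empty (h : Tv = ∅) (b : ℤ) (n : ℕ) :
    wit M lam L Tv ci b n = fun _ => M.closure ∅ := by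
  have := wit_up (M := M) (lam := lam) (L := L) (Tv := Tv) (ci := ci) b 0
    (by rw [h]; simp) n
  rw [Nat.zero_add] at this
  rw [this]
  rfl

/-- two bases -/
theorem wit_eq_of_base {b b' : ℤ} (hb' : ∀ z ∈ Tv, b' ≤ ci z) (hbb : b ≤ b') {j : ℤ}
    (hj : b ≤ j) :
    wit M lam L Tv ci b (j - b).toNat = wit M lam L Tv ci b' (j - b').toNat := by
  rcases le_total j b' with h | h
  · have h1 : (j - b').toNat = 0 := by omega
    rw [h1]
    have := wit_base (M := M) (lam := lam) (L := L) (Tv := Tv) (ci := ci) b (j - b).toNat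
      (fun z hz hzc => by have := hb' z hz; omega) 0
    rw [Nat.add_zero] at this
    rw [this]
    rfl
  · have h1 : (j - b).toNat = (b' - b).toNat + (j - b').toNat := by omega
    rw [h1, wit_base b (b' - b).toNat (fun z hz hzc => by have := hb' z hz; omega)]
    congr 1
    omega

/-! ### the flats of the algorithm -/

variable {π : Pat k}

theorem lowP_le {z : Fin k} (hz : z ∈ visP M L π) : lowP M L π ≤ ciP π z := by
  classical
  unfold lowP
  have h1 : ciP π z ∈ (visP M L π).image (ciP π) := Finset.mem_image_of_mem _ hz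
  rw [dif_pos ⟨_, h1⟩]
  exact Finset.min'_le _ _ h1

theorem lt_topP {z : Fin k} (hz : z ∈ visP M L π) : ciP π z < topP M L π := by
  classical
  unfold topP
  have h1 : ciP π z ∈ (visP M L π).image (ciP π) := Finset.mem_image_of_mem _ hz
  rw [dif_pos ⟨_, h1⟩]
  have := Finset.le_max' _ _ h1
  omega

theorem le_lowP (hne : (visP M L π).Nonempty) {b : ℤ} (hb : ∀ z ∈ visP M L π, b ≤ ciP π z) :
    b ≤ lowP M L π := by
  classical
  unfold lowP
  have h1 : ((visP M L π).image (ciP π)).Nonempty := hne.image _
  rw [dif_pos h1]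
  refine Finset.le_min' _ _ _ ?_
  intro y hy
  rw [Finset.mem_image] at hy
  obtain ⟨z, hz, rfl⟩ := hy
  exact hb z hz

theorem lowP_le_topP : lowP M L π ≤ topP M L π := by
  classical
  by_cases hne : (visP M L π).Nonempty
  · obtain ⟨z, hz⟩ := hne
    exact (lowP_le hz).trans (lt_topP hz).le
  · rw [Finset.not_nonempty_iff_eq_empty] at hne
    unfold lowP topP
    rw [dif_neg, dif_neg] <;> simp [hne]

/-- independence of the base -/
theorem wlowP_eq {b : ℤ} (hb : ∀ z ∈ visP M L π, b ≤ ciP π z) {j : ℤ} (hj : b ≤ j) (m : ℕ) :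
    wlowP M lam L π j m = wit M lam L (visP M L π) (ciP π) b (j - b).toNat m := by
  unfold wlowP
  by_cases hne : (visP M L π).Nonempty
  · rw [← wit_eq_of_base (b := b) (b' := lowP M L π) (fun z hz => lowP_le hz) (le_lowP hne hb) hj]
  · rw [Finset.not_nonempty_iff_eq_empty] at hne
    rw [wit_empty hne, wit_empty hne]

theorem wlowP_chain (j : ℤ) : FChain M (wlowP M lam L π j) := wit_chain _ _

theorem vP_chain (j : ℤ) : FChain M (vP M lam L π j) := vst_chain j (wlowP_chain j)

theorem wfinP_chain : FChain M (wfinP M lam L π) := wlowP_chain _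

/-- classes above the top are trivial -/
theorem wlowP_of_top_le {j : ℤ} (hj : topP M L π ≤ j) (m : ℕ) :
    wlowP M lam L π j m = wfinP M lam L π m := by
  unfold wfinP wlowP
  have h0 := lowP_le_topP (M := M) (L := L) (π := π)
  have h1 : (j - lowP M L π).toNat = (topP M L π - lowP M L π).toNat + (j - topP M L π).toNat := by
    omega
  rw [h1, wit_up]
  intro z hz
  have := lt_topP hz
  omega

theorem vP_subset_wfinP (j : ℤ) (m : ℕ) : vP M lam L π j m ⊆ wfinP M lam L π m := by
  rcases le_or_gt (topP M L π) j with h | h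
  · unfold vP
    rw [vst_trivial (fun z hz hzc => by have := lt_topP hz; omega) (wlowP_chain j),
      wlowP_of_top_le h]
  · unfold vP
    rcases le_or_gt (lowP M L π) j with h' | h'
    · have h1 : vst M lam L (visP M L π) (ciP π) j (wlowP M lam L π j) m ⊆
          wst M lam L (visP M L π) (ciP π) j (wlowP M lam L π j) m :=
        vst_subset_wst j (wlowP_chain j) m
      have h2 : wst M lam L (visP M L π) (ciP π) j (wlowP M lam L π j) =
          wit M lam L (visP M L π) (ciP π) (lowP M L π) ((j - lowP M L π).toNat + 1) := by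
        show _ = wst M lam L (visP M L π) (ciP π) (lowP M L π + ((j - lowP M L π).toNat : ℤ))
          (wit M lam L (visP M L π) (ciP π) (lowP M L π) (j - lowP M L π).toNat)
        have h3 : lowP M L π + ((j - lowP M L π).toNat : ℤ) = j := by omega
        rw [h3]
        rfl
      rw [h2] at h1
      refine h1.trans ?_
      unfold wfinP wlowP
      exact wit_mono _ (by omega) m
    · rw [vst_trivial (fun z hz hzc => by have := lowP_le hz; omega) (wlowP_chain j)]
      unfold wfinP wlowP
      exact wit_mono _ (by omega) m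

end Crest.Agent.MS
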