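import Mathlib
import Crest.Prelude.Def_OnlineMatroid
import Crest.Prelude.Def_SampleRule

/-!
# Row 305 (S0468): outer reduction to fixed weights and fair labels

`CoreRule O k`: a rule with finite seed space `O`; the seed, the set `A` of sample elements, the
weights on `A`, the history of the arrivals of `R`-elements (elements outside `A`) with their
values, the arriving `R`-element and its value.

`result_of_core`: if some core rule is always feasible, measurable in the weights and satisfies
for all nonnegative fixed weights `w`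
`c * optWeight M w ≤ average over (A, r) of min over orders of the accepted weight`,
then the statement S0468 holds with the constant `c`.
-/

set_option autoImplicit false

namespace Crest.Agent.MS

open Crest.OnlineMatroid MeasureTheory ProbabilityTheory
open scoped ENNReal

universe u

/-- online rule with fixed labels: seed, sample set, weights on the sample set (0 elsewhere),
history of the arrivals outside the sample set, arriving element, its value. -/
structure CoreRule (O : Type) (k : ℕ) where
  dec : O → Finset (Fin k) → (Fin k → ℝ) → List (Fin k × ℝ) → Fin k → ℝ → Bool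

/-- restriction of the weights to the sample set -/
def resA {k : ℕ} (A : Finset (Fin k)) (w : Fin k → ℝ) : Fin k → ℝ :=
  fun e => if e ∈ A then w e else 0

/-- elements accepted along the remaining arrival list -/
def coreAux {O : Type} {k : ℕ} (C : CoreRule O k) (r : O) (A : Finset (Fin k))
    (a w : Fin k → ℝ) : List (Fin k) → List (Fin k × ℝ) → Finset (Fin k)
  | [], _ => ∅
  | e :: rest, hist =>
      if e ∈ A then coreAux C r A a w rest hist
      else (if C.dec r A a hist e (w e) = true then {e} else ∅) ∪
        coreAux C r A a w rest (hist ++ [(e, w e)])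

/-- accepted set of a core rule -/
def coreAcc {O : Type} {k : ℕ} (C : CoreRule O k) (r : O) (A : Finset (Fin k))
    (w : Fin k → ℝ) (order : List (Fin k)) : Finset (Fin k) :=
  coreAux C r A (resA A w) w order []

/-- the sample rule of a core rule: seed = (sample set, core seed) -/
def toSample {O : Type} {k : ℕ} (C : CoreRule O k) : SampleRule (Finset (Fin k) × O) k where
  decide := fun p s hist e x =>
    if e ∈ p.1 then false
    else C.dec p.2 p.1 (resA p.1 s) (hist.filter (fun q => q.1 ∉ p.1)) e x

/-- mixture of two weight vectors: first one on `A`, second one off `A` -/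
def mixA {k : ℕ} (A : Finset (Fin k)) (s v : Fin k → ℝ) : Fin k → ℝ :=
  fun e => if e ∈ A then s e else v e

theorem resA_mixA {k : ℕ} (A : Finset (Fin k)) (s v : Fin k → ℝ) :
    resA A (mixA A s v) = resA A s := by
  funext e
  unfold resA mixA
  split_ifs <;> rfl

theorem coreAux_congr {O : Type} {k : ℕ} (C : CoreRule O k) (r : O) (A : Finset (Fin k))
    (a w w' : Fin k → ℝ) (h : ∀ e, e ∉ A → w e = w' e) (l : List (Fin k)) :
    ∀ hist, coreAux C r A a w l hist = coreAux C r A a w' l hist := by
  induction l with
  | nil => intro hist; rfl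
  | cons e rest ih =>
    intro hist
    simp only [coreAux]
    by_cases he : e ∈ A
    · simp only [he, if_true, ih]
    · simp only [he, if_false, ih, h e he]

theorem coreAux_subset {O : Type} {k : ℕ} (C : CoreRule O k) (r : O) (A : Finset (Fin k))
    (a w : Fin k → ℝ) (l : List (Fin k)) :
    ∀ hist, ∀ e ∈ coreAux C r A a w l hist, e ∉ A := by
  induction l with
  | nil => intro hist e he; simp [coreAux] at he
  | cons e rest ih =>
    intro hist f hf
    simp only [coreAux] at hf
    by_cases he : e ∈ A
    · simp only [he, if_true] at hf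
      exact ih _ f hf
    · simp only [he, if_false, Finset.mem_union] at hf
      rcases hf with hf | hf
      · split_ifs at hf
        · simp only [Finset.mem_singleton] at hf
          rw [hf]; exact he
        · simp at hf
      · exact ih _ f hf

theorem sAcceptedAux_toSample {O : Type} {k : ℕ} (C : CoreRule O k) (p : Finset (Fin k) × O)
    (s v : Fin k → ℝ) (l : List (Fin k)) :
    ∀ hist, sAcceptedAux (toSample C) p s v l hist =
      coreAux C p.2 p.1 (resA p.1 s) v l (hist.filter (fun q => q.1 ∉ p.1)) := by
  induction l with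
  | nil => intro hist; rfl
  | cons e rest ih =>
    intro hist
    simp only [sAcceptedAux, coreAux, ih]
    by_cases he : e ∈ p.1
    · simp [toSample, he, List.filter_append]
    · simp [toSample, he, List.filter_append]

theorem sAccepted_toSample {O : Type} {k : ℕ} (C : CoreRule O k) (p : Finset (Fin k) × O)
    (s v : Fin k → ℝ) (l : List (Fin k)) :
    sAccepted (toSample C) p s v l = coreAcc C p.2 p.1 (mixA p.1 s v) l := by
  unfold sAccepted coreAcc
  rw [sAcceptedAux_toSample, resA_mixA]
  simp only [List.filter_nil]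
  apply coreAux_congr
  intro e he
  unfold mixA
  simp [he]

theorem coreAcc_not_mem {O : Type} {k : ℕ} (C : CoreRule O k) (r : O) (A : Finset (Fin k))
    (w : Fin k → ℝ) (l : List (Fin k)) {e : Fin k} (he : e ∈ coreAcc C r A w l) : e ∉ A :=
  coreAux_subset C r A _ w l [] e he

/-- value of a core rule on fixed weights: minimum over the arrival orders -/
noncomputable def coreVal {O : Type} {k : ℕ} (C : CoreRule O k) (r : O) (A : Finset (Fin k))
    (w : Fin k → ℝ) : ℝ≥0∞ :=
  ⨅ σ : Equiv.Perm (Fin k), ENNReal.ofReal (∑ e ∈ coreAcc C r A w (List.ofFn σ), w e)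

theorem measurable_coreVal {O : Type} {k : ℕ} (C : CoreRule O k) (r : O) (A : Finset (Fin k))
    (hm : ∀ (order : List (Fin k)) (B : Finset (Fin k)),
      MeasurableSet {w : Fin k → ℝ | coreAcc C r A w order = B}) :
    Measurable (coreVal C r A) := by
  unfold coreVal
  refine Measurable.iInf fun σ => ?_
  have : (fun w : Fin k → ℝ => ∑ e ∈ coreAcc C r A w (List.ofFn σ), w e) =
      fun w => ∑ B : Finset (Fin k),
        Set.indicator {w : Fin k → ℝ | coreAcc C r A w (List.ofFn σ) = B}
          (fun w => ∑ e ∈ B, w e) w := by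
    funext w
    rw [Finset.sum_eq_single (coreAcc C r A w (List.ofFn σ))]
    · simp
    · intro B _ hB
      rw [Set.indicator_of_notMem]
      exact fun h => hB (Eq.symm h)
    · intro h; exact absurd (Finset.mem_univ _) h
  refine ENNReal.measurable_ofReal.comp ?_
  rw [this]
  refine Finset.measurable_sum _ fun B _ => ?_
  refine Measurable.indicator ?_ (hm _ B)
  exact Finset.measurable_sum _ fun e _ => measurable_pi_apply e

theorem law_mixA {k : ℕ} {Ω : Type u} [MeasurableSpace Ω] (P : Measure Ω)
    [IsProbabilityMeasure P] (S V : Ω → Fin k → ℝ) (hS : Measurable S) (hV : Measurable V)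
    (hind : iIndepFun
      (fun (i : Fin k × Bool) (ω : Ω) => if i.2 = true then S ω i.1 else V ω i.1) P)
    (hlaw : ∀ e, P.map (fun ω => S ω e) = P.map (fun ω => V ω e)) (A : Finset (Fin k)) :
    P.map (fun ω => mixA A (S ω) (V ω)) = P.map V := by
  have hSe : ∀ e, Measurable (fun ω => S ω e) := fun e => (measurable_pi_apply e).comp hS
  have hVe : ∀ e, Measurable (fun ω => V ω e) := fun e => (measurable_pi_apply e).comp hV
  -- independence of the mixed coordinates
  have h1 : iIndepFun (fun (e : Fin k) (ω : Ω) => mixA A (S ω) (V ω) e) P := by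
    have hg : Function.Injective (fun e : Fin k => ((e, decide (e ∈ A)) : Fin k × Bool)) := by
      intro a b hab
      exact (Prod.mk.inj hab).1
    have := hind.precomp hg
    refine (iIndepFun_congr ?_).mp this
    intro e
    refine Filter.Eventually.of_forall fun ω => ?_
    unfold mixA
    by_cases he : e ∈ A <;> simp [he]
  have h2 : iIndepFun (fun (e : Fin k) (ω : Ω) => V ω e) P := by
    have hg : Function.Injective (fun e : Fin k => ((e, false) : Fin k × Bool)) := by
      intro a b hab
      exact (Prod.mk.inj hab).1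
    have := hind.precomp hg
    refine (iIndepFun_congr ?_).mp this
    intro e
    refine Filter.Eventually.of_forall fun ω => ?_
    simp
  have hm1 : ∀ e, Measurable (fun ω => mixA A (S ω) (V ω) e) := by
    intro e
    unfold mixA
    by_cases he : e ∈ A
    · simpa [he] using hSe e
    · simpa [he] using hVe e
  have e1 := (iIndepFun_iff_map_fun_eq_pi_map (fun e => (hm1 e).aemeasurable)).mp h1
  have e2 := (iIndepFun_iff_map_fun_eq_pi_map (fun e => (hVe e).aemeasurable)).mp h2
  have e3 : P.map V = P.map (fun ω e => V ω e) := rfl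
  have e4 : P.map (fun ω => mixA A (S ω) (V ω)) =
      P.map (fun ω e => mixA A (S ω) (V ω) e) := rfl
  rw [e4, e3, e1, e2]
  congr 1
  funext e
  by_cases he : e ∈ A
  · have : (fun ω => mixA A (S ω) (V ω) e) = fun ω => S ω e := by
      funext ω; simp [mixA, he]
    rw [this, hlaw e]
  · have : (fun ω => mixA A (S ω) (V ω) e) = fun ω => V ω e := by
      funext ω; simp [mixA, he]
    rw [this]

/-- uniform probability measure on a finite type -/
noncomputable def unif (X : Type) [Fintype X] [MeasurableSpace X] : Measure X :=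
  ((Fintype.card X : ℝ≥0∞)⁻¹) • Measure.count

theorem unif_prob (X : Type) [Fintype X] [Nonempty X] [MeasurableSpace X] :
    IsProbabilityMeasure (unif X) := by
  refine ⟨?_⟩
  unfold unif
  rw [Measure.smul_apply, smul_eq_mul, Measure.count_apply MeasurableSet.univ]
  rw [Set.encard_univ, ENat.card_eq_coe_fintype_card]
  simp only [ENat.toENNReal_coe]
  exact ENNReal.inv_mul_cancel (by simp) (by simp)

theorem lintegral_unif_prod {X : Type} [Fintype X] [Nonempty X] [MeasurableSpace X]
    [DiscreteMeasurableSpace X] {Ω : Type u}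
    [MeasurableSpace Ω] (P : Measure Ω) [IsProbabilityMeasure P] (f : X → Ω → ℝ≥0∞)
    (hf : ∀ x, Measurable (f x)) :
    ∫⁻ p : X × Ω, f p.1 p.2 ∂((unif X).prod P) =
      ((Fintype.card X : ℝ≥0∞)⁻¹) * ∑ x, ∫⁻ ω, f x ω ∂P := by
  have := unif_prob X
  have hm : Measurable (fun p : X × Ω => f p.1 p.2) := by
    refine measurable_from_prod_countable_right (fun x => ?_)
    exact hf x
  rw [lintegral_prod _ hm.aemeasurable]
  unfold unif
  rw [lintegral_smul_measure, lintegral_count, tsum_fintype, smul_eq_mul]

/-- abstract form: a finite seed space gives the measure space of the statement -/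
theorem exists_of_finite_seed {k : ℕ} (M : Matroid (Fin k)) (c : ℝ≥0∞) (X : Type) [Fintype X]
    [Nonempty X] (R : SampleRule X k)
    (hind : ∀ (r : X) (s v : Fin k → ℝ) (order : List (Fin k)),
        M.Indep (sAccepted R r s v order : Set (Fin k)))
    (hval : ∀ (Ω : Type u) [MeasurableSpace Ω] (P : MeasureTheory.Measure Ω)
        [MeasureTheory.IsProbabilityMeasure P] (S V : Ω → Fin k → ℝ),
        Measurable S → Measurable V → (∀ ω e, 0 ≤ S ω e ∧ 0 ≤ V ω e) →
        ProbabilityTheory.iIndepFun
          (fun (i : Fin k × Bool) (ω : Ω) => if i.2 = true then S ω i.1 else V ω i.1) P →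
        (∀ e, P.map (fun ω => S ω e) = P.map (fun ω => V ω e)) →
        (∀ x, Measurable fun ω => ⨅ σ : Equiv.Perm (Fin k),
            ENNReal.ofReal (∑ e ∈ sAccepted R x (S ω) (V ω) (List.ofFn σ), V ω e)) ∧
        c * ∫⁻ ω, optWeight M (V ω) ∂P ≤ ((Fintype.card X : ℝ≥0∞)⁻¹) *
          ∑ x : X, ∫⁻ ω, (⨅ σ : Equiv.Perm (Fin k),
            ENNReal.ofReal (∑ e ∈ sAccepted R x (S ω) (V ω) (List.ofFn σ), V ω e)) ∂P) :
    ∃ (ΩR : Type) (_ : MeasurableSpace ΩR) (μR : MeasureTheory.Measure ΩR)
      (R : SampleRule ΩR k),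
      MeasureTheory.IsProbabilityMeasure μR ∧
      (∀ (r : ΩR) (s v : Fin k → ℝ) (order : List (Fin k)),
        M.Indep (sAccepted R r s v order : Set (Fin k))) ∧
      ∀ (Ω : Type u) [MeasurableSpace Ω] (P : MeasureTheory.Measure Ω)
        [MeasureTheory.IsProbabilityMeasure P] (S V : Ω → Fin k → ℝ),
        Measurable S → Measurable V → (∀ ω e, 0 ≤ S ω e ∧ 0 ≤ V ω e) →
        ProbabilityTheory.iIndepFun
          (fun (i : Fin k × Bool) (ω : Ω) => if i.2 = true then S ω i.1 else V ω i.1) P →
        (∀ e, P.map (fun ω => S ω e) = P.map (fun ω => V ω e)) →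
        ∫⁻ ω, optWeight M (V ω) ∂P ≠ ⊤ →
        c * ∫⁻ ω, optWeight M (V ω) ∂P ≤
          ∫⁻ p, ⨅ σ : Equiv.Perm (Fin k),
            ENNReal.ofReal (∑ e ∈ sAccepted R p.1 (S p.2) (V p.2) (List.ofFn σ), V p.2 e)
            ∂(μR.prod P) := by
  letI mX : MeasurableSpace X := ⊤
  have : DiscreteMeasurableSpace X := ⟨fun _ => trivial⟩
  refine ⟨X, mX, unif X, R, unif_prob X, hind, ?_⟩
  intro Ω _ P _ S V hS hV hpos hindep hlaw hfin
  obtain ⟨h1, h2⟩ := hval Ω P S V hS hV hpos hindep hlaw
  rw [lintegral_unif_prod P (fun x ω => ⨅ σ : Equiv.Perm (Fin k),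
            ENNReal.ofReal (∑ e ∈ sAccepted R x (S ω) (V ω) (List.ofFn σ), V ω e)) h1]
  exact h2

/-- **Outer reduction**: S0468 follows from a core rule with the guarantee for fixed weights. -/
theorem result_of_core {k : ℕ} (M : Matroid (Fin k)) (c : ℝ≥0∞) (O : Type) [Fintype O]
    [Nonempty O] (C : CoreRule O k)
    (hind : ∀ (r : O) (A : Finset (Fin k)) (w : Fin k → ℝ) (order : List (Fin k)),
      M.Indep (coreAcc C r A w order : Set (Fin k)))
    (hmeas : ∀ (r : O) (A : Finset (Fin k)) (order : List (Fin k)) (B : Finset (Fin k)),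
      MeasurableSet {w : Fin k → ℝ | coreAcc C r A w order = B})
    (hval : ∀ w : Fin k → ℝ, (∀ e, 0 ≤ w e) →
      c * optWeight M w ≤ ((Fintype.card (Finset (Fin k) × O) : ℝ≥0∞)⁻¹) *
        ∑ p : Finset (Fin k) × O, coreVal C p.2 p.1 w) :
    ∃ (ΩR : Type) (_ : MeasurableSpace ΩR) (μR : MeasureTheory.Measure ΩR)
      (R : SampleRule ΩR k),
      MeasureTheory.IsProbabilityMeasure μR ∧
      (∀ (r : ΩR) (s v : Fin k → ℝ) (order : List (Fin k)),
        M.Indep (sAccepted R r s v order : Set (Fin k))) ∧
      ∀ (Ω : Type u) [MeasurableSpace Ω] (P : MeasureTheory.Measure Ω)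
        [MeasureTheory.IsProbabilityMeasure P] (S V : Ω → Fin k → ℝ),
        Measurable S → Measurable V → (∀ ω e, 0 ≤ S ω e ∧ 0 ≤ V ω e) →
        ProbabilityTheory.iIndepFun
          (fun (i : Fin k × Bool) (ω : Ω) => if i.2 = true then S ω i.1 else V ω i.1) P →
        (∀ e, P.map (fun ω => S ω e) = P.map (fun ω => V ω e)) →
        ∫⁻ ω, optWeight M (V ω) ∂P ≠ ⊤ →
        c * ∫⁻ ω, optWeight M (V ω) ∂P ≤
          ∫⁻ p, ⨅ σ : Equiv.Perm (Fin k),
            ENNReal.ofReal (∑ e ∈ sAccepted R p.1 (S p.2) (V p.2) (List.ofFn σ), V p.2 e)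
            ∂(μR.prod P) := by
  classical
  refine exists_of_finite_seed M c (Finset (Fin k) × O) (toSample C) ?_ ?_
  · intro r s v order
    rw [sAccepted_toSample]
    exact hind _ _ _ _
  · intro Ω _ P _ S V hS hV hpos hindep hlaw
    -- the integrand in terms of the core value of the mixed vector
    have key : ∀ (p : Finset (Fin k) × O) (ω : Ω),
        (⨅ σ : Equiv.Perm (Fin k),
          ENNReal.ofReal (∑ e ∈ sAccepted (toSample C) p (S ω) (V ω) (List.ofFn σ), V ω e)) =
        coreVal C p.2 p.1 (mixA p.1 (S ω) (V ω)) := by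
      intro p ω
      unfold coreVal
      refine iInf_congr fun σ => ?_
      rw [sAccepted_toSample]
      congr 1
      refine Finset.sum_congr rfl fun e he => ?_
      have := coreAcc_not_mem C _ _ _ _ he
      simp [mixA, this]
    have hcm : ∀ p : Finset (Fin k) × O, Measurable (coreVal C p.2 p.1) := fun p =>
      measurable_coreVal C p.2 p.1 (hmeas p.2 p.1)
    have hSe : ∀ e, Measurable (fun ω => S ω e) := fun e => (measurable_pi_apply e).comp hS
    have hVe : ∀ e, Measurable (fun ω => V ω e) := fun e => (measurable_pi_apply e).comp hV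
    have hmix : ∀ A : Finset (Fin k), Measurable (fun ω => mixA A (S ω) (V ω)) := by
      intro A
      refine measurable_pi_lambda _ fun e => ?_
      unfold mixA
      by_cases he : e ∈ A
      · simpa [he] using hSe e
      · simpa [he] using hVe e
    have h2 : ∀ x : Finset (Fin k) × O,
        ∫⁻ ω, coreVal C x.2 x.1 (mixA x.1 (S ω) (V ω)) ∂P =
          ∫⁻ ω, coreVal C x.2 x.1 (V ω) ∂P := by
      intro x
      rw [← lintegral_map (hcm x) (hmix x.1), law_mixA P S V hS hV hindep hlaw,
        lintegral_map (hcm x) hV]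
    have h3 : c * ∫⁻ ω, optWeight M (V ω) ∂P ≤
        ((Fintype.card (Finset (Fin k) × O) : ℝ≥0∞)⁻¹) *
            ∑ p : Finset (Fin k) × O,
              ∫⁻ ω, coreVal C p.2 p.1 (mixA p.1 (S ω) (V ω)) ∂P := by
      calc c * ∫⁻ ω, optWeight M (V ω) ∂P
          ≤ ∫⁻ ω, c * optWeight M (V ω) ∂P := lintegral_const_mul_le _ _
        _ ≤ ∫⁻ ω, ((Fintype.card (Finset (Fin k) × O) : ℝ≥0∞)⁻¹) *
              ∑ p : Finset (Fin k) × O, coreVal C p.2 p.1 (V ω) ∂P :=
            lintegral_mono fun ω => hval _ fun e => (hpos ω e).2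
        _ = ((Fintype.card (Finset (Fin k) × O) : ℝ≥0∞)⁻¹) *
              ∑ p : Finset (Fin k) × O, ∫⁻ ω, coreVal C p.2 p.1 (V ω) ∂P := by
            rw [lintegral_const_mul, lintegral_finsetSum]
            · exact fun p _ => (hcm p).comp hV
            · exact Finset.measurable_sum _ fun p _ => (hcm p).comp hV
        _ = _ := by simp_rw [← h2]
    simp_rw [key]
    exact ⟨fun x => (hcm x).comp (hmix x.1), h3⟩

end Crest.Agent.MS
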