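import Mathlib
import Crest.Agent.MS.Reduce
import Crest.Agent.MS.Ops

/-!
# Row 305 (S0468): the slot rule

For fixed seed, sample set and sample weights a `SlotData` gives the slot of an arriving element
with its value (`none` = reject) and the barrier of every slot.  An element of slot `m` is accepted
iff it lies in `M.E` and outside `M.closure (bar m ∪ accepted elements of slot m)`.

* `slotRule` : the `CoreRule`;
* `slotRule_indep` : the accepted set is independent if the slots are nested;
* `slotRule_spec` : for a permutation, the accepted set of slot `m` is a basis over the barrier of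
  the candidates of slot `m`;
* `acc_inter_ge` : rank lower bound for the number of accepted elements;
* `slotRule_meas` : measurability.
-/

set_option autoImplicit false

namespace Crest.Agent.MS

open Crest.OnlineMatroid MeasureTheory

/-- slots and barriers (for fixed seed, sample set and sample weights) -/
structure SlotData (k : ℕ) where
  slot : Fin k → ℝ → Option ℕ
  bar : ℕ → Set (Fin k)

variable {k : ℕ}

/-- elements of slot `m` in the state -/
def inSlot (acc : Finset (Fin k × ℕ)) (m : ℕ) : Set (Fin k) := {f | (f, m) ∈ acc}

open Classical in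
/-- decision for an element of slot `o` with barrier `Z` in state `acc` -/
noncomputable def slotDec (M : Matroid (Fin k)) (o : Option ℕ) (Z : ℕ → Set (Fin k))
    (acc : Finset (Fin k × ℕ)) (e : Fin k) : Bool :=
  match o with
  | none => false
  | some m => decide (e ∈ M.E ∧ e ∉ M.closure (Z m ∪ inSlot acc m))

/-- new state -/
noncomputable def slotStep (M : Matroid (Fin k)) (D : SlotData k) (acc : Finset (Fin k × ℕ))
    (p : Fin k × ℝ) : Finset (Fin k × ℕ) :=
  match D.slot p.1 p.2 with
  | none => acc
  | some m => if slotDec M (some m) D.bar acc p.1 = true then insert (p.1, m) acc else acc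

/-- state after a history -/
noncomputable def slotRun (M : Matroid (Fin k)) (D : SlotData k) (l : List (Fin k × ℝ)) :
    Finset (Fin k × ℕ) :=
  l.foldl (slotStep M D) ∅

theorem slotRun_append (M : Matroid (Fin k)) (D : SlotData k) (l : List (Fin k × ℝ))
    (p : Fin k × ℝ) : slotRun M D (l ++ [p]) = slotStep M D (slotRun M D l) p := by
  unfold slotRun
  rw [List.foldl_append]
  rfl

theorem image_slotStep (M : Matroid (Fin k)) (D : SlotData k) (acc : Finset (Fin k × ℕ))
    (p : Fin k × ℝ) : (slotStep M D acc p).image Prod.fst =
      acc.image Prod.fst ∪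
        (if slotDec M (D.slot p.1 p.2) D.bar acc p.1 = true then {p.1} else ∅) := by
  unfold slotStep
  cases h : D.slot p.1 p.2 with
  | none => simp [slotDec]
  | some m =>
    simp only
    split_ifs with h1
    · rw [Finset.image_insert, Finset.insert_eq, Finset.union_comm]
    · simp

/-- the slot rule as a core rule -/
noncomputable def slotRule {O : Type} (M : Matroid (Fin k))
    (D : O → Finset (Fin k) → (Fin k → ℝ) → SlotData k) : CoreRule O k where
  dec := fun r A a hist e x =>
    slotDec M ((D r A a).slot e x) (D r A a).bar (slotRun M (D r A a) hist) e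

/-- the history of the real arrivals -/
def histOf (A : Finset (Fin k)) (w : Fin k → ℝ) (order : List (Fin k)) : List (Fin k × ℝ) :=
  (order.filter (fun e => e ∉ A)).map (fun e => (e, w e))

theorem coreAux_slotRule {O : Type} (M : Matroid (Fin k))
    (D : O → Finset (Fin k) → (Fin k → ℝ) → SlotData k) (r : O) (A : Finset (Fin k))
    (a w : Fin k → ℝ) (l : List (Fin k)) : ∀ hist,
    (slotRun M (D r A a) (hist ++ histOf A w l)).image Prod.fst =
      (slotRun M (D r A a) hist).image Prod.fst ∪ coreAux (slotRule M D) r A a w l hist := by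
  induction l with
  | nil => intro hist; simp [histOf, coreAux]
  | cons e rest ih =>
    intro hist
    simp only [coreAux]
    by_cases he : e ∈ A
    · have : histOf A w (e :: rest) = histOf A w rest := by simp [histOf, he]
      rw [this, ih]
      simp [he]
    · have h1 : histOf A w (e :: rest) = [(e, w e)] ++ histOf A w rest := by
        simp [histOf, he]
      rw [h1, ← List.append_assoc, ih, slotRun_append, image_slotStep]
      simp only [he, if_false, Finset.union_assoc]
      rfl

/-- final state -/
noncomputable def slotFin {O : Type} (M : Matroid (Fin k))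
    (D : O → Finset (Fin k) → (Fin k → ℝ) → SlotData k) (r : O) (A : Finset (Fin k))
    (w : Fin k → ℝ) (order : List (Fin k)) : Finset (Fin k × ℕ) :=
  slotRun M (D r A (resA A w)) (histOf A w order)

theorem coreAcc_slotRule {O : Type} (M : Matroid (Fin k))
    (D : O → Finset (Fin k) → (Fin k → ℝ) → SlotData k) (r : O) (A : Finset (Fin k))
    (w : Fin k → ℝ) (order : List (Fin k)) :
    coreAcc (slotRule M D) r A w order = (slotFin M D r A w order).image Prod.fst := by
  have := coreAux_slotRule M D r A (resA A w) w order []
  simp only [List.nil_append] at this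
  unfold coreAcc slotFin
  rw [this]
  simp [slotRun]

/-! ### invariants of a run -/

theorem indOver_insert {M : Matroid (Fin k)} {Z J : Set (Fin k)} {e : Fin k}
    (h : IndOver M Z J) (heE : e ∈ M.E) (he : e ∉ M.closure (Z ∪ J)) :
    IndOver M Z (insert e J) := by
  have h1 : M.eRk (insert e (Z ∪ J)) = M.eRk (Z ∪ J) + 1 := M.eRk_insert_eq_add_one ⟨heE, he⟩
  have h2 : e ∉ J := fun hJ => he (M.mem_closure_of_mem' (Or.inr hJ) heE)
  have h3 : rk M (insert e (Z ∪ J)) = rk M (Z ∪ J) + 1 := by
    have := h1
    rw [← coe_rk, ← coe_rk] at this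
    exact_mod_cast this
  unfold IndOver at *
  rw [Set.union_insert, h3, h, Set.ncard_insert_of_notMem h2]
  ring

theorem slotRun_mem (M : Matroid (Fin k)) (D : SlotData k) (l : List (Fin k × ℝ)) :
    ∀ f m, (f, m) ∈ slotRun M D l → f ∈ M.E ∧ ∃ x, (f, x) ∈ l ∧ D.slot f x = some m := by
  induction l using List.reverseRecOn with
  | nil => intro f m h; simp [slotRun] at h
  | append_singleton l p ih =>
    intro f m h
    rw [slotRun_append] at h
    unfold slotStep at h
    cases hs : D.slot p.1 p.2 with
    | none =>
      rw [hs] at h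
      obtain ⟨h1, x, h2, h3⟩ := ih f m h
      exact ⟨h1, x, List.mem_append_left _ h2, h3⟩
    | some m' =>
      rw [hs] at h
      simp only at h
      split_ifs at h with hd
      · rw [Finset.mem_insert] at h
        rcases h with h | h
        · obtain ⟨h1, h2⟩ := Prod.mk.inj h
          subst h1; subst h2
          simp only [slotDec, decide_eq_true_eq] at hd
          exact ⟨hd.1, p.2, by simp, hs⟩
        · obtain ⟨h1, x, h2, h3⟩ := ih f m h
          exact ⟨h1, x, List.mem_append_left _ h2, h3⟩
      · obtain ⟨h1, x, h2, h3⟩ := ih f m h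
        exact ⟨h1, x, List.mem_append_left _ h2, h3⟩

theorem inSlot_insert_same (acc : Finset (Fin k × ℕ)) (e : Fin k) (m : ℕ) :
    inSlot (insert (e, m) acc) m = insert e (inSlot acc m) := by
  ext f
  simp [inSlot, Set.mem_insert_iff]

theorem inSlot_insert_ne (acc : Finset (Fin k × ℕ)) (e : Fin k) {m m' : ℕ} (h : m' ≠ m) :
    inSlot (insert (e, m) acc) m' = inSlot acc m' := by
  ext f
  simp [inSlot, h]

theorem slotRun_indOver (M : Matroid (Fin k)) (D : SlotData k) (l : List (Fin k × ℝ)) :
    ∀ m, IndOver M (D.bar m) (inSlot (slotRun M D l) m) := by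
  induction l using List.reverseRecOn with
  | nil => intro m; simp [slotRun, inSlot, IndOver]
  | append_singleton l p ih =>
    intro m
    rw [slotRun_append]
    unfold slotStep
    cases hs : D.slot p.1 p.2 with
    | none => exact ih m
    | some m' =>
      simp only
      split_ifs with hd
      · by_cases hm : m = m'
        · subst hm
          rw [inSlot_insert_same]
          simp only [slotDec, decide_eq_true_eq] at hd
          exact indOver_insert (ih m) hd.1 hd.2
        · rw [inSlot_insert_ne _ _ hm]
          exact ih m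
      · exact ih m

theorem slotRun_spans (M : Matroid (Fin k)) (D : SlotData k) (l : List (Fin k × ℝ)) :
    ∀ e x m, (e, x) ∈ l → D.slot e x = some m → e ∈ M.E →
      e ∈ M.closure (D.bar m ∪ inSlot (slotRun M D l) m) := by
  induction l using List.reverseRecOn with
  | nil => intro e x m h; simp at h
  | append_singleton l p ih =>
    intro e x m hmem hslot heE
    have hmono : ∀ acc : Finset (Fin k × ℕ), ∀ m, inSlot acc m ⊆ inSlot (slotStep M D acc p) m := by
      intro acc m f hf
      unfold slotStep
      cases hs : D.slot p.1 p.2 with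
      | none => exact hf
      | some m' =>
        simp only
        split_ifs with hd
        · exact Finset.mem_insert_of_mem hf
        · exact hf
    rw [slotRun_append]
    rw [List.mem_append, List.mem_singleton] at hmem
    rcases hmem with hmem | hmem
    · refine M.closure_subset_closure ?_ (ih e x m hmem hslot heE)
      exact Set.union_subset_union_right _ (hmono _ m)
    · subst hmem
      by_cases hcl : e ∈ M.closure (D.bar m ∪ inSlot (slotRun M D l) m)
      · refine M.closure_subset_closure ?_ hcl
        exact Set.union_subset_union_right _ (hmono _ m)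
      · have : slotStep M D (slotRun M D l) (e, x) = insert (e, m) (slotRun M D l) := by
          unfold slotStep
          simp only [hslot]
          rw [if_pos]
          simp only [slotDec, decide_eq_true_eq]
          exact ⟨heE, hcl⟩
        rw [this, inSlot_insert_same]
        exact M.mem_closure_of_mem' (Or.inr (Set.mem_insert _ _)) heE

/-! ### feasibility -/

theorem indep_of_indOver_empty {M : Matroid (Fin k)} {X : Set (Fin k)} (h : IndOver M ∅ X) :
    M.Indep X := by
  unfold IndOver at h
  rw [Set.empty_union] at h
  have h0 : rk M (∅ : Set (Fin k)) = 0 := by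
    have := rk_le_ncard M (∅ : Set (Fin k))
    simpa using this
  rw [h0, zero_add] at h
  rw [Matroid.indep_iff_eRk_eq_encard_of_finite X.toFinite, ← coe_rk, h,
    X.toFinite.cast_ncard_eq]

/-- union over nested slots -/
theorem indep_of_slots (M : Matroid (Fin k)) (bar : ℕ → Set (Fin k))
    (acc : Finset (Fin k × ℕ)) (hind : ∀ m, IndOver M (bar m) (inSlot acc m))
    (hnest : ∀ e m e' m', (e, m) ∈ acc → (e', m') ∈ acc → m < m' → e' ∈ M.closure (bar m)) :
    M.Indep ((acc.image Prod.fst : Finset (Fin k)) : Set (Fin k)) := by
  classical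
  -- X t = elements of slots ≥ t
  have key : ∀ n t, (∀ e m, (e, m) ∈ acc → m < t + n) →
      IndOver M ∅ {f | ∃ m, t ≤ m ∧ (f, m) ∈ acc} := by
    intro n
    induction n with
    | zero =>
      intro t ht
      have : {f | ∃ m, t ≤ m ∧ (f, m) ∈ acc} = (∅ : Set (Fin k)) := by
        ext f
        simp only [Set.mem_ofPred_eq, Set.mem_empty_iff_false, iff_false, not_exists, not_and]
        intro m hm hf
        have := ht f m hf
        omega
      rw [this]
      simp [IndOver]
    | succ n ih =>
      intro t ht
      have h1 := ih (t + 1) (fun e m hm => by have := ht e m hm; omega)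
      have hsplit : {f | ∃ m, t ≤ m ∧ (f, m) ∈ acc} =
          {f | ∃ m, t + 1 ≤ m ∧ (f, m) ∈ acc} ∪ inSlot acc t := by
        ext f
        simp only [Set.mem_ofPred_eq, Set.mem_union, inSlot]
        constructor
        · rintro ⟨m, hm, hf⟩
          rcases Nat.eq_or_lt_of_le hm with h | h
          · right; rw [h]; exact hf
          · left; exact ⟨m, h, hf⟩
        · rintro (⟨m, hm, hf⟩ | hf)
          · exact ⟨m, by omega, hf⟩
          · exact ⟨t, le_rfl, hf⟩
      by_cases hne : inSlot acc t = ∅
      · rw [hsplit, hne, Set.union_empty]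
        exact h1
      · obtain ⟨e, he⟩ := Set.nonempty_iff_ne_empty.2 hne
        have h2 : IndOver M (M.closure (bar t)) (inSlot acc t) := by
          have := hind t
          unfold IndOver at *
          rw [rk_union_closure_left, this, rk_closure]
        rw [hsplit]
        refine IndOver.union (Set.empty_subset _) ?_ h1 h2
        rintro f ⟨m, hm, hf⟩
        exact hnest e t f m he hf (by omega)
  have hb : ∃ n, ∀ e m, (e, m) ∈ acc → m < 0 + n := by
    refine ⟨(acc.image Prod.snd).sup id + 1, fun e m hm => ?_⟩
    have : m ≤ (acc.image Prod.snd).sup id :=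
      Finset.le_sup (f := id) (Finset.mem_image_of_mem Prod.snd hm)
    omega
  obtain ⟨n, hn⟩ := hb
  have := indep_of_indOver_empty (key n 0 hn)
  convert this using 1
  ext f
  simp

/-- **feasibility** of the slot rule -/
theorem slotRule_indep {O : Type} (M : Matroid (Fin k))
    (D : O → Finset (Fin k) → (Fin k → ℝ) → SlotData k)
    (r : O) (A : Finset (Fin k)) (w : Fin k → ℝ)
    (hnest : ∀ e m e' m', e ∉ A → e' ∉ A → (D r A (resA A w)).slot e (w e) = some m →
      (D r A (resA A w)).slot e' (w e') = some m' → m < m' → e ∈ M.E → e' ∈ M.E →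
      e' ∈ M.closure ((D r A (resA A w)).bar m))
    (order : List (Fin k)) :
    M.Indep (coreAcc (slotRule M D) r A w order : Set (Fin k)) := by
  rw [coreAcc_slotRule]
  refine indep_of_slots M (D r A (resA A w)).bar _ (slotRun_indOver M _ _) ?_
  intro e m e' m' h h' hm
  obtain ⟨h1, x, h2, h3⟩ := slotRun_mem M _ _ e m h
  obtain ⟨h1', x', h2', h3'⟩ := slotRun_mem M _ _ e' m' h'
  simp only [histOf, List.mem_map, List.mem_filter, Prod.mk.injEq] at h2 h2'
  obtain ⟨f, ⟨-, hf⟩, hfe, hfx⟩ := h2
  obtain ⟨f', ⟨-, hf'⟩, hfe', hfx'⟩ := h2'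
  subst hfe; subst hfe'; subst hfx; subst hfx'
  exact hnest _ _ _ _ (by simpa using hf) (by simpa using hf') h3 h3' hm h1 h1'

/-- the candidates of slot `m` -/
def cand (D : SlotData k) (A : Finset (Fin k)) (w : Fin k → ℝ) (m : ℕ) : Set (Fin k) :=
  {e | e ∉ A ∧ D.slot e (w e) = some m}

/-- **basis property** of the slot rule for a complete order -/
theorem slotRule_spec {O : Type} (M : Matroid (Fin k))
    (D : O → Finset (Fin k) → (Fin k → ℝ) → SlotData k)
    (r : O) (A : Finset (Fin k)) (w : Fin k → ℝ) (order : List (Fin k))
    (hord : ∀ e, e ∈ order) (m : ℕ) :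
    inSlot (slotFin M D r A w order) m ⊆ cand (D r A (resA A w)) A w m ∧
    inSlot (slotFin M D r A w order) m ⊆ M.E ∧
    IndOver M ((D r A (resA A w)).bar m) (inSlot (slotFin M D r A w order) m) ∧
    cand (D r A (resA A w)) A w m ∩ M.E ⊆
      M.closure ((D r A (resA A w)).bar m ∪ inSlot (slotFin M D r A w order) m) := by
  refine ⟨?_, ?_, slotRun_indOver M _ _ m, ?_⟩
  · intro e he
    obtain ⟨h1, x, h2, h3⟩ := slotRun_mem M _ _ e m he
    simp only [histOf, List.mem_map, List.mem_filter, Prod.mk.injEq] at h2
    obtain ⟨f, ⟨-, hf⟩, hfe, hfx⟩ := h2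
    subst hfe; subst hfx
    exact ⟨by simpa using hf, h3⟩
  · intro e he
    exact (slotRun_mem M _ _ e m he).1
  · rintro e ⟨⟨heA, hes⟩, heE⟩
    refine slotRun_spans M _ _ e (w e) m ?_ hes heE
    simp only [histOf, List.mem_map, List.mem_filter, Prod.mk.injEq]
    exact ⟨e, ⟨hord e, by simpa using heA⟩, rfl, rfl⟩

/-- **counting**: accepted elements of slot `m` in `X` -/
theorem acc_inter_ge {O : Type} (M : Matroid (Fin k))
    (D : O → Finset (Fin k) → (Fin k → ℝ) → SlotData k)
    (r : O) (A : Finset (Fin k)) (w : Fin k → ℝ) (order : List (Fin k))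
    (hord : ∀ e, e ∈ order) (m : ℕ) (X : Set (Fin k)) :
    rk M ((D r A (resA A w)).bar m ∪ cand (D r A (resA A w)) A w m) ≤
      rk M ((D r A (resA A w)).bar m ∪ (cand (D r A (resA A w)) A w m \ X)) +
        (inSlot (slotFin M D r A w order) m ∩ X).ncard := by
  obtain ⟨h1, h2, h3, h4⟩ := slotRule_spec M D r A w order hord m
  set Z := (D r A (resA A w)).bar m
  set C := cand (D r A (resA A w)) A w m
  set J := inSlot (slotFin M D r A w order) m
  have e1 : rk M (Z ∪ C) ≤ rk M (Z ∪ J) := by
    have : rk M ((Z ∪ C) ∩ M.E) ≤ rk M (M.closure (Z ∪ J)) := by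
      refine rk_mono M ?_
      rintro e ⟨he | he, heE⟩
      · exact M.mem_closure_of_mem' (Or.inl he) heE
      · exact h4 ⟨he, heE⟩
    rw [rk_closure] at this
    unfold rk at *
    rwa [M.eRk_inter_ground] at this
  have e2 : rk M (Z ∪ J) ≤ rk M ((Z ∪ (C \ X)) ∪ (J ∩ X)) := by
    refine rk_mono M ?_
    rintro e (he | he)
    · exact Or.inl (Or.inl he)
    · by_cases hX : e ∈ X
      · exact Or.inr ⟨he, hX⟩
      · exact Or.inl (Or.inr ⟨h1 he, hX⟩)
  exact e1.trans (e2.trans (rk_union_le M _ _))

/-! ### measurability -/

theorem slotRun_meas (M : Matroid (Fin k)) (D : (Fin k → ℝ) → SlotData k)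
    (hslot : ∀ e (o : Option ℕ), MeasurableSet {w : Fin k → ℝ | (D w).slot e (w e) = o})
    (hbar : ∀ m (Z : Set (Fin k)), MeasurableSet {w : Fin k → ℝ | (D w).bar m = Z})
    (A : Finset (Fin k)) (order : List (Fin k)) :
    ∀ B : Finset (Fin k × ℕ),
      MeasurableSet {w : Fin k → ℝ | slotRun M (D w) (histOf A w order) = B} := by
  classical
  induction order using List.reverseRecOn with
  | nil =>
    intro B
    simp only [histOf, List.filter_nil, List.map_nil, slotRun, List.foldl_nil]
    exact MeasurableSet.const _
  | append_singleton l e ih =>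
    intro B
    by_cases he : e ∈ A
    · have : ∀ w, histOf A w (l ++ [e]) = histOf A w l := by
        intro w; simp [histOf, List.filter_append, he]
      simp only [this]
      exact ih B
    · have h1 : ∀ w, histOf A w (l ++ [e]) = histOf A w l ++ [(e, w e)] := by
        intro w; simp [histOf, List.filter_append, he]
      have h2 : {w : Fin k → ℝ | slotRun M (D w) (histOf A w (l ++ [e])) = B} =
          ⋃ (R0 : Finset (Fin k × ℕ)), ({w | slotRun M (D w) (histOf A w l) = R0} ∩
            (({w | (D w).slot e (w e) = none} ∩ {_w | R0 = B}) ∪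
            ⋃ (m : ℕ), ({w | (D w).slot e (w e) = some m} ∩
              ⋃ (Z : Set (Fin k)), ({w | (D w).bar m = Z} ∩
                {_w | (if slotDec M (some m) (fun _ => Z) R0 e = true then insert (e, m) R0
                  else R0) = B})))) := by
        ext w
        simp only [Set.mem_ofPred_eq, Set.mem_iUnion, Set.mem_inter_iff, Set.mem_union,
          exists_eq_left', h1, slotRun_append]
        unfold slotStep
        cases hs : (D w).slot e (w e) with
        | none => simp
        | some m =>
          simp only [reduceCtorEq, false_and, Option.some.injEq, exists_eq_left', false_or]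
          rfl
      rw [h2]
      refine MeasurableSet.iUnion fun R0 => ?_
      refine (ih R0).inter ?_
      refine ((hslot e none).inter (MeasurableSet.const _)).union ?_
      refine MeasurableSet.iUnion fun m => ?_
      refine (hslot e (some m)).inter ?_
      refine MeasurableSet.iUnion fun Z => ?_
      exact (hbar m Z).inter (MeasurableSet.const _)

/-- **measurability** of the slot rule -/
theorem slotRule_meas {O : Type} (M : Matroid (Fin k))
    (D : O → Finset (Fin k) → (Fin k → ℝ) → SlotData k) (r : O) (A : Finset (Fin k))
    (hslot : ∀ e (o : Option ℕ),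
      MeasurableSet {w : Fin k → ℝ | (D r A (resA A w)).slot e (w e) = o})
    (hbar : ∀ m (Z : Set (Fin k)), MeasurableSet {w : Fin k → ℝ | (D r A (resA A w)).bar m = Z})
    (order : List (Fin k)) (B : Finset (Fin k)) :
    MeasurableSet {w : Fin k → ℝ | coreAcc (slotRule M D) r A w order = B} := by
  classical
  have : {w : Fin k → ℝ | coreAcc (slotRule M D) r A w order = B} =
      ⋃ (R0 : Finset (Fin k × ℕ)), ({w | slotRun M (D r A (resA A w)) (histOf A w order) = R0} ∩
        {_w | R0.image Prod.fst = B}) := by
    ext w
    simp only [Set.mem_ofPred_eq, Set.mem_iUnion, Set.mem_inter_iff, exists_eq_left',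
      coreAcc_slotRule, slotFin]
  rw [this]
  refine MeasurableSet.iUnion fun R0 => ?_
  exact (slotRun_meas M (fun w => D r A (resA A w)) hslot hbar A order R0).inter
    (MeasurableSet.const _)

end Crest.Agent.MS
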