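import Mathlib
import Crest.Agent.MS.Rule

/-!
# Row 305 (S0468): value of the slot rule for every order, and the reduction of S0468 to averages

* `slot_value` : lower bound for the accepted weight (Abel summation over the classes);
* `result_of_slots` : S0468 from a slot rule with a real-valued average bound.
-/

set_option autoImplicit false

namespace Crest.Agent.MS

open Crest.OnlineMatroid MeasureTheory ProbabilityTheory
open scoped ENNReal

universe u

variable {k : ℕ}

/-- rank gain of the class `j` in slot `m`: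
`r(bar m ∪ {candidates of class ≤ j}) - r(bar m ∪ {candidates of class < j})` -/
noncomputable def gain (M : Matroid (Fin k)) (D : SlotData k) (A : Finset (Fin k))
    (w : Fin k → ℝ) (ci : Fin k → ℤ) (j : ℤ) (m : ℕ) : ℝ :=
  (rk M (D.bar m ∪ {e | e ∈ cand D A w m ∧ ci e ≤ j}) : ℝ) -
    (rk M (D.bar m ∪ {e | e ∈ cand D A w m ∧ ci e < j}) : ℝ)

theorem gain_nonneg (M : Matroid (Fin k)) (D : SlotData k) (A : Finset (Fin k))
    (w : Fin k → ℝ) (ci : Fin k → ℤ) (j : ℤ) (m : ℕ) : 0 ≤ gain M D A w ci j m := by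
  unfold gain
  rw [sub_nonneg]
  have : rk M (D.bar m ∪ {e | e ∈ cand D A w m ∧ ci e < j}) ≤
      rk M (D.bar m ∪ {e | e ∈ cand D A w m ∧ ci e ≤ j}) := by
    refine rk_mono M (Set.union_subset_union_right _ ?_)
    rintro e ⟨h1, h2⟩
    exact ⟨h1, h2.le⟩
  exact_mod_cast this

theorem gain_le_acc {O : Type} (M : Matroid (Fin k))
    (D : O → Finset (Fin k) → (Fin k → ℝ) → SlotData k)
    (r : O) (A : Finset (Fin k)) (w : Fin k → ℝ) (order : List (Fin k))
    (hord : ∀ e, e ∈ order) (ci : Fin k → ℤ) (j : ℤ) (m : ℕ) :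
    gain M (D r A (resA A w)) A w ci j m ≤
      ((inSlot (slotFin M D r A w order) m ∩ {e | j ≤ ci e}).ncard : ℝ) := by
  have h1 := acc_inter_ge M D r A w order hord m {e | j ≤ ci e}
  have h2 : rk M ((D r A (resA A w)).bar m ∪
      {e | e ∈ cand (D r A (resA A w)) A w m ∧ ci e ≤ j}) ≤
      rk M ((D r A (resA A w)).bar m ∪ cand (D r A (resA A w)) A w m) := by
    refine rk_mono M (Set.union_subset_union_right _ ?_)
    rintro e ⟨h1, -⟩
    exact h1
  have h3 : cand (D r A (resA A w)) A w m \ {e | j ≤ ci e} =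
      {e | e ∈ cand (D r A (resA A w)) A w m ∧ ci e < j} := by
    ext e
    simp
  rw [h3] at h1
  unfold gain
  have h4 : rk M ((D r A (resA A w)).bar m ∪
      {e | e ∈ cand (D r A (resA A w)) A w m ∧ ci e ≤ j}) ≤
      rk M ((D r A (resA A w)).bar m ∪
        {e | e ∈ cand (D r A (resA A w)) A w m ∧ ci e < j}) +
        (inSlot (slotFin M D r A w order) m ∩ {e | j ≤ ci e}).ncard := h2.trans h1
  have h5 : (rk M ((D r A (resA A w)).bar m ∪
      {e | e ∈ cand (D r A (resA A w)) A w m ∧ ci e ≤ j}) : ℝ) ≤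
      (rk M ((D r A (resA A w)).bar m ∪
        {e | e ∈ cand (D r A (resA A w)) A w m ∧ ci e < j}) : ℝ) +
        ((inSlot (slotFin M D r A w order) m ∩ {e | j ≤ ci e}).ncard : ℝ) := by
    exact_mod_cast h4
  linarith

/-- **value of the slot rule** (every complete order) -/
theorem slot_value {O : Type} (M : Matroid (Fin k))
    (D : O → Finset (Fin k) → (Fin k → ℝ) → SlotData k)
    (r : O) (A : Finset (Fin k)) (w : Fin k → ℝ) (order : List (Fin k))
    (hord : ∀ e, e ∈ order) (ci : Fin k → ℤ) (ω : ℤ → ℝ) (I : Finset ℤ) (Sl : Finset ℕ)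
    (c : ℝ) (hc : 0 ≤ c) (hω : ∀ j ∈ I, 0 ≤ ω j)
    (hw : ∀ e m, e ∈ cand (D r A (resA A w)) A w m →
      c * ∑ j ∈ I.filter (fun j => j ≤ ci e), ω j ≤ w e) :
    c * ∑ j ∈ I, ω j * ∑ m ∈ Sl, gain M (D r A (resA A w)) A w ci j m ≤
      ∑ e ∈ coreAcc (slotRule M D) r A w order, w e := by
  classical
  set acc := slotFin M D r A w order with hacc
  have hslot : ∀ e m, (e, m) ∈ acc → e ∈ cand (D r A (resA A w)) A w m := by
    intro e m h
    exact (slotRule_spec M D r A w order hord m).1 h
  -- each accepted element lies in one slot only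
  have huniq : ∀ e m m', (e, m) ∈ acc → (e, m') ∈ acc → m = m' := by
    intro e m m' h h'
    have h1 := (hslot e m h).2
    have h2 := (hslot e m' h').2
    rw [h1] at h2
    exact Option.some.inj h2
  set B := acc.image Prod.fst with hB
  have hcore : coreAcc (slotRule M D) r A w order = B := coreAcc_slotRule M D r A w order
  rw [hcore]
  -- number of accepted elements of class ≥ j
  have hcount : ∀ j, ∑ m ∈ Sl, gain M (D r A (resA A w)) A w ci j m ≤
      ((B.filter (fun e => j ≤ ci e)).card : ℝ) := by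
    intro j
    have h1 : ∑ m ∈ Sl, gain M (D r A (resA A w)) A w ci j m ≤
        ∑ m ∈ Sl, ((B.filter (fun e => (e, m) ∈ acc ∧ j ≤ ci e)).card : ℝ) := by
      refine Finset.sum_le_sum fun m _ => ?_
      refine (gain_le_acc M D r A w order hord ci j m).trans ?_
      rw [← hacc]
      have : (inSlot acc m ∩ {e | j ≤ ci e}) =
          ((B.filter (fun e => (e, m) ∈ acc ∧ j ≤ ci e) : Finset (Fin k)) : Set (Fin k)) := by
        ext e
        simp only [inSlot, Set.mem_inter_iff, Set.mem_ofPred_eq, Finset.coe_filter, hB,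
          Finset.mem_image, Prod.exists, exists_and_right, exists_eq_right]
        constructor
        · rintro ⟨h1, h2⟩
          exact ⟨⟨m, h1⟩, h1, h2⟩
        · rintro ⟨-, h1, h2⟩
          exact ⟨h1, h2⟩
      rw [this, Set.ncard_coe_finset]
    refine h1.trans ?_
    rw [← Nat.cast_sum]
    have h2 : ∑ m ∈ Sl, (B.filter (fun e => (e, m) ∈ acc ∧ j ≤ ci e)).card =
        (Sl.biUnion (fun m => B.filter (fun e => (e, m) ∈ acc ∧ j ≤ ci e))).card := by
      rw [Finset.card_biUnion]
      intro m _ m' _ hmm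
      simp only [Function.onFun]
      rw [Finset.disjoint_left]
      intro e he he'
      rw [Finset.mem_filter] at he he'
      exact hmm (huniq e m m' he.2.1 he'.2.1)
    rw [h2]
    exact_mod_cast Finset.card_le_card (by
      intro e he
      rw [Finset.mem_biUnion] at he
      obtain ⟨m, -, he⟩ := he
      rw [Finset.mem_filter] at he ⊢
      exact ⟨he.1, he.2.2⟩)
  calc c * ∑ j ∈ I, ω j * ∑ m ∈ Sl, gain M (D r A (resA A w)) A w ci j m
      ≤ c * ∑ j ∈ I, ω j * ((B.filter (fun e => j ≤ ci e)).card : ℝ) := by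
        refine mul_le_mul_of_nonneg_left ?_ hc
        exact Finset.sum_le_sum fun j hj => mul_le_mul_of_nonneg_left (hcount j) (hω j hj)
    _ = ∑ e ∈ B, c * ∑ j ∈ I.filter (fun j => j ≤ ci e), ω j := by
        rw [← Finset.mul_sum]
        congr 1
        have h3 : ∀ j ∈ I, ω j * ((B.filter (fun e => j ≤ ci e)).card : ℝ) =
            ∑ e ∈ B, if j ≤ ci e then ω j else 0 := by
          intro j _
          rw [Finset.sum_ite, Finset.sum_const, Finset.sum_const_zero, add_zero, nsmul_eq_mul,
            mul_comm]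
        rw [Finset.sum_congr rfl h3, Finset.sum_comm]
        refine Finset.sum_congr rfl fun e _ => ?_
        rw [Finset.sum_filter]
    _ ≤ ∑ e ∈ B, w e := by
        refine Finset.sum_le_sum fun e he => ?_
        rw [hB, Finset.mem_image] at he
        obtain ⟨⟨f, m⟩, hfm, hfe⟩ := he
        simp only at hfe
        subst hfe
        exact hw _ m (hslot _ m hfm)

/-- geometric weights: `(1 - q) ∑_{j ≤ i} ω_j ≤ ω_i` for classes with `ω_j ≤ q ω_{j'}`, `j < j'` -/
theorem geom_classes (ω : ℤ → ℝ) (q : ℝ) (hq0 : 0 ≤ q) (I : Finset ℤ)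
    (hω : ∀ j, 0 ≤ ω j) (hgap : ∀ j ∈ I, ∀ j' ∈ I, j < j' → ω j ≤ q * ω j') (i : ℤ)
    (hi : i ∈ I) : (1 - q) * ∑ j ∈ I.filter (fun j => j ≤ i), ω j ≤ ω i := by
  classical
  -- strong induction on the number of classes below `i`
  have key : ∀ n : ℕ, ∀ i ∈ I, (I.filter (fun j => j < i)).card = n →
      (1 - q) * ∑ j ∈ I.filter (fun j => j ≤ i), ω j ≤ ω i := by
    intro n
    induction n using Nat.strong_induction_on with
    | _ n ih =>
      intro i hi hn
      have hsplit : I.filter (fun j => j ≤ i) = insert i (I.filter (fun j => j < i)) := by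
        ext j
        simp only [Finset.mem_filter, Finset.mem_insert]
        constructor
        · rintro ⟨h1, h2⟩
          rcases h2.lt_or_eq with h | h
          · exact Or.inr ⟨h1, h⟩
          · exact Or.inl h
        · rintro (h | ⟨h1, h2⟩)
          · subst h; exact ⟨hi, le_rfl⟩
          · exact ⟨h1, h2.le⟩
      have hnot : i ∉ I.filter (fun j => j < i) := by simp
      rw [hsplit, Finset.sum_insert hnot]
      by_cases hne : (I.filter (fun j => j < i)).Nonempty
      · obtain ⟨i', hi', hmax⟩ := Finset.exists_max_image (I.filter (fun j => j < i)) id hne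
        rw [Finset.mem_filter] at hi'
        have heq : I.filter (fun j => j < i) = I.filter (fun j => j ≤ i') := by
          ext j
          simp only [Finset.mem_filter]
          constructor
          · rintro ⟨h1, h2⟩
            exact ⟨h1, hmax j (by simp [h1, h2])⟩
          · rintro ⟨h1, h2⟩
            exact ⟨h1, lt_of_le_of_lt h2 hi'.2⟩
        have hcard : (I.filter (fun j => j < i')).card < n := by
          rw [← hn]
          refine Finset.card_lt_card ?_
          rw [Finset.ssubset_iff_of_subset]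
          · exact ⟨i', by simp [hi'.1, hi'.2], by simp⟩
          · intro j hj
            rw [Finset.mem_filter] at hj ⊢
            exact ⟨hj.1, hj.2.trans hi'.2⟩
        have h1 := ih _ hcard i' hi'.1 rfl
        have h2 := hgap i' hi'.1 i hi hi'.2
        rw [heq, mul_add]
        have h3 := hω i
        nlinarith
      · rw [Finset.not_nonempty_iff_eq_empty] at hne
        rw [hne, Finset.sum_empty, add_zero]
        have := hω i
        nlinarith
  exact key _ i hi rfl

/-- **Reduction of S0468 to an average over a finite seed** -/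
theorem result_of_slots {k : ℕ} (M : Matroid (Fin k)) (c : ℝ) (hc : 0 ≤ c) (O : Type) [Fintype O]
    [Nonempty O] (D : O → Finset (Fin k) → (Fin k → ℝ) → SlotData k)
    (hnest : ∀ (r : O) (A : Finset (Fin k)) (w : Fin k → ℝ), ∀ e m e' m', e ∉ A → e' ∉ A →
      (D r A (resA A w)).slot e (w e) = some m →
      (D r A (resA A w)).slot e' (w e') = some m' → m < m' → e ∈ M.E → e' ∈ M.E →
      e' ∈ M.closure ((D r A (resA A w)).bar m))
    (hslot : ∀ (r : O) (A : Finset (Fin k)) e (o : Option ℕ),
      MeasurableSet {w : Fin k → ℝ | (D r A (resA A w)).slot e (w e) = o})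
    (hbar : ∀ (r : O) (A : Finset (Fin k)) m (Z : Set (Fin k)),
      MeasurableSet {w : Fin k → ℝ | (D r A (resA A w)).bar m = Z})
    (hval : ∀ w : Fin k → ℝ, (∀ e, 0 ≤ w e) →
      ∃ G : Finset (Fin k) × O → ℝ,
        (∀ p (σ : Equiv.Perm (Fin k)),
          G p ≤ ∑ e ∈ coreAcc (slotRule M D) p.2 p.1 w (List.ofFn σ), w e) ∧
        ∀ I : Finset (Fin k), M.Indep (I : Set (Fin k)) →
          c * ∑ e ∈ I, w e ≤ (∑ p, G p) / (Fintype.card (Finset (Fin k) × O) : ℝ)) :
    ∃ (ΩR : Type) (_ : MeasurableSpace ΩR) (μR : MeasureTheory.Measure ΩR)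
      (R : SampleRule ΩR k),
      MeasureTheory.IsProbabilityMeasure μR ∧
      (∀ (r : ΩR) (s v : Fin k → ℝ) (order : List (Fin k)),
        M.Indep (sAccepted R r s v order : Set (Fin k))) ∧
      ∀ (Ω : Type u) [MeasurableSpace Ω] (P : MeasureTheory.Measure Ω)
        [MeasureTheory.IsProbabilityMeasure P] (S V : Ω → Fin k → ℝ),
        Measurable S → Measurable V → (∀ ω e, 0 ≤ S ω e ∧ 0 ≤ V ω e) →
        ProbabilityTheory.iIndepFun
          (fun (i : Fin k × Bool) (ω : Ω) => if i.2 = true then S ω i.1 else V ω i.1) P →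
        (∀ e, P.map (fun ω => S ω e) = P.map (fun ω => V ω e)) →
        ∫⁻ ω, optWeight M (V ω) ∂P ≠ ⊤ →
        ENNReal.ofReal c * ∫⁻ ω, optWeight M (V ω) ∂P ≤
          ∫⁻ p, ⨅ σ : Equiv.Perm (Fin k),
            ENNReal.ofReal (∑ e ∈ sAccepted R p.1 (S p.2) (V p.2) (List.ofFn σ), V p.2 e)
            ∂(μR.prod P) := by
  classical
  refine result_of_core M (ENNReal.ofReal c) O (slotRule M D) ?_ ?_ ?_
  · intro r A w order
    exact slotRule_indep M D r A w (hnest r A w) order
  · intro r A order B
    exact slotRule_meas M D r A (hslot r A) (hbar r A) order B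
  · intro w hw
    obtain ⟨G, hG, hI⟩ := hval w hw
    have h1 : ∀ p, ENNReal.ofReal (G p) ≤ coreVal (slotRule M D) p.2 p.1 w := by
      intro p
      exact le_iInf fun σ => ENNReal.ofReal_le_ofReal (hG p σ)
    have hpos : ∀ p, (0 : ℝ) ≤ max (G p) 0 := fun p => le_max_right _ _
    have h2 : ENNReal.ofReal ((∑ p, G p) / (Fintype.card (Finset (Fin k) × O) : ℝ)) ≤
        ((Fintype.card (Finset (Fin k) × O) : ℝ≥0∞)⁻¹) *
        ∑ p : Finset (Fin k) × O, coreVal (slotRule M D) p.2 p.1 w := by
      have hcard : (0 : ℝ) < (Fintype.card (Finset (Fin k) × O) : ℝ) := by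
        exact_mod_cast Fintype.card_pos
      rw [div_eq_inv_mul, ENNReal.ofReal_mul (by positivity),
        ENNReal.ofReal_inv_of_pos hcard, ENNReal.ofReal_natCast]
      refine mul_le_mul_right ?_ _
      calc ENNReal.ofReal (∑ p, G p) ≤ ENNReal.ofReal (∑ p, max (G p) 0) :=
            ENNReal.ofReal_le_ofReal (Finset.sum_le_sum fun p _ => le_max_left _ _)
        _ = ∑ p, ENNReal.ofReal (max (G p) 0) :=
            ENNReal.ofReal_sum_of_nonneg fun p _ => hpos p
        _ ≤ _ := by
            refine Finset.sum_le_sum fun p _ => ?_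
            refine le_trans ?_ (h1 p)
            rw [ENNReal.ofReal_max, ENNReal.ofReal_zero]
            exact (max_eq_left zero_le).le
    refine le_trans ?_ h2
    unfold optWeight
    rw [ENNReal.mul_iSup]
    refine iSup_le fun I => ?_
    rw [ENNReal.mul_iSup]
    refine iSup_le fun hIm => ?_
    rw [← ENNReal.ofReal_mul hc]
    exact ENNReal.ofReal_le_ofReal (hI I hIm)

end Crest.Agent.MS
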