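import Crest.Agent.MS.Setup
import Crest.Agent.MS.Value

/-!
# Row 305 (S0468): the concrete algorithm (definitions)

Everything is a function of the labels `L` (computed from the sample set and the seed) and of the
pattern `pat B w e = (0 < w e, Int.log B (w e))` of the weights.
-/

set_option autoImplicit false
set_option linter.unusedSectionVars false

namespace Crest.Agent.MS

open Set

variable {k : ℕ}

/-! ### patterns -/

/-- pattern of the weights: positivity and class -/
abbrev Pat (k : ℕ) : Type := Fin k → Bool × ℤ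

/-- the pattern of one weight -/
noncomputable def pat1 (B : ℕ) (x : ℝ) : Bool × ℤ := (decide (0 < x), Int.log B x)

/-- the pattern of a weight function -/
noncomputable def pat (B : ℕ) (w : Fin k → ℝ) : Pat k := fun e => pat1 B (w e)

open Classical in
/-- the population -/
noncomputable def PopP (M : Matroid (Fin k)) (π : Pat k) : Finset (Fin k) :=
  Finset.univ.filter (fun e => e ∈ M.E ∧ (π e).1 = true)

/-- class of an element -/
def ciP (π : Pat k) (e : Fin k) : ℤ := (π e).2

/-- lexicographic order (class, index) -/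
def ltP (π : Pat k) (f e : Fin k) : Prop :=
  (π f).2 < (π e).2 ∨ ((π f).2 = (π e).2 ∧ f < e)

instance (π : Pat k) (f e : Fin k) : Decidable (ltP π f e) := by
  unfold ltP
  infer_instance

/-- rank in the lexicographic order -/
def ordP (π : Pat k) (e : Fin k) : ℕ := (Finset.univ.filter (fun f => ltP π f e)).card

/-! ### labels -/

/-- labels -/
structure Lab (k : ℕ) where
  l : Fin k → Co
  S : Finset (Fin k)
  Q : Finset (Fin k)
  c : Fin k → Bool

/-- improving elements -/
noncomputable def TP (M : Matroid (Fin k)) (L : Lab k) (π : Pat k) : Finset (Fin k) :=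
  Timp M (PopP M π) (ordP π) L.l

/-- visible improving elements (label `S` or `A`) -/
noncomputable def visP (M : Matroid (Fin k)) (L : Lab k) (π : Pat k) : Finset (Fin k) :=
  (TP M L π).filter (fun e => e ∈ L.S ∨ (e ∈ L.Q ∧ L.c e = true))

/-! ### the flats -/

/-- flats at the start of class `j` -/
noncomputable def vst (M : Matroid (Fin k)) (lam : ℕ) (L : Lab k) (Tv : Finset (Fin k))
    (ci : Fin k → ℤ) (j : ℤ) (W : ℕ → Set (Fin k)) (m : ℕ) : Set (Fin k) :=
  Fop M lam ((selB M (L.S ∩ Tv.filter (fun e => ci e = j)) : Finset (Fin k)) : Set (Fin k)) (W m)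

/-- flats after class `j` -/
noncomputable def wst (M : Matroid (Fin k)) (lam : ℕ) (L : Lab k) (Tv : Finset (Fin k))
    (ci : Fin k → ℤ) (j : ℤ) (W : ℕ → Set (Fin k)) (m : ℕ) : Set (Fin k) :=
  M.closure (vst M lam L Tv ci j W m ∪
    {z | (z ∈ Tv ∧ ci z = j ∧ z ∈ L.Q ∧ z ∉ L.S ∧ L.c z = true) ∧
      (m = 0 ∨ z ∈ vst M lam L Tv ci j W (m - 1))})

/-- flats after the classes `b, b + 1, …, b + n - 1` -/
noncomputable def wit (M : Matroid (Fin k)) (lam : ℕ) (L : Lab k) (Tv : Finset (Fin k))
    (ci : Fin k → ℤ) (b : ℤ) : ℕ → ℕ → Set (Fin k)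
  | 0 => fun _ => M.closure ∅
  | n + 1 => wst M lam L Tv ci (b + n) (wit M lam L Tv ci b n)

open Classical in
/-- the lowest visible class -/
noncomputable def lowP (M : Matroid (Fin k)) (L : Lab k) (π : Pat k) : ℤ :=
  if h : ((visP M L π).image (ciP π)).Nonempty then ((visP M L π).image (ciP π)).min' h else 0

open Classical in
/-- one plus the highest visible class -/
noncomputable def topP (M : Matroid (Fin k)) (L : Lab k) (π : Pat k) : ℤ :=
  if h : ((visP M L π).image (ciP π)).Nonempty then ((visP M L π).image (ciP π)).max' h + 1 else 0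

/-- flats before class `j` -/
noncomputable def wlowP (M : Matroid (Fin k)) (lam : ℕ) (L : Lab k) (π : Pat k) (j : ℤ) (m : ℕ) :
    Set (Fin k) :=
  wit M lam L (visP M L π) (ciP π) (lowP M L π) (j - lowP M L π).toNat m

/-- flats at the start of class `j` -/
noncomputable def vP (M : Matroid (Fin k)) (lam : ℕ) (L : Lab k) (π : Pat k) (j : ℤ) (m : ℕ) :
    Set (Fin k) :=
  vst M lam L (visP M L π) (ciP π) j (wlowP M lam L π j) m

/-- final flats -/
noncomputable def wfinP (M : Matroid (Fin k)) (lam : ℕ) (L : Lab k) (π : Pat k) (m : ℕ) :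
    Set (Fin k) := wlowP M lam L π (topP M L π) m

open Classical in
/-- the slot of an element (`par` = parity of the active levels) -/
noncomputable def slotP (M : Matroid (Fin k)) (lam : ℕ) (L : Lab k) (par : Bool) (π : Pat k)
    (e : Fin k) : Option ℕ :=
  if h : (e ∈ TP M L π ∧ e ∉ L.S ∧ e ∈ L.Q ∧ L.c e = false) ∧
      ∃ m, e ∉ vP M lam L π (ciP π e) m then
    (if decide (Nat.find h.2 % 2 = 1) = par then some (Nat.find h.2) else none)
  else none

/-- the slot data for known labels, from the pattern of the visible weights -/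
noncomputable def slotDataP (M : Matroid (Fin k)) (lam B : ℕ) (L : Lab k) (par : Bool)
    (π : Pat k) : SlotData k where
  slot e x := slotP M lam L par (Function.update π e (pat1 B x)) e
  bar m := wfinP M lam L π (m + 1)

/-! ### seeds -/

/-- seeds: `g`, `sb`, `qb`, `c` per element and a parity bit -/
abbrev Seed (k G D : ℕ) : Type :=
  (Fin k → Fin (G + 1)) × (Fin k → Bool) × (Fin k → Fin (D + 1)) × (Fin k → Bool) × Bool

/-- status of a test element: `true` = must be a sample element -/
def stS {G D : ℕ} (r : Seed k G D) (e : Fin k) : Bool :=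
  r.2.1 e || (decide (r.2.2.1 e = 0) && r.2.2.2.1 e)

/-- coarse label -/
def lcS {G D : ℕ} (r : Seed k G D) (A : Finset (Fin k)) (e : Fin k) : Co :=
  if r.1 e = 0 then (if decide (e ∈ A) = stS r e then Co.T else Co.X)
  else (if e ∈ A then Co.H else Co.X)

/-- the labels -/
def labS {G D : ℕ} (r : Seed k G D) (A : Finset (Fin k)) : Lab k where
  l := lcS r A
  S := Finset.univ.filter (fun e => r.2.1 e = true)
  Q := Finset.univ.filter (fun e => r.2.2.1 e = 0)
  c := r.2.2.2.1

/-- the parity bit -/
def parS {G D : ℕ} (r : Seed k G D) : Bool := r.2.2.2.2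

/-- **the algorithm** -/
noncomputable def algD (M : Matroid (Fin k)) (lam B G D : ℕ) (r : Seed k G D)
    (A : Finset (Fin k)) (a : Fin k → ℝ) : SlotData k :=
  slotDataP M lam B (labS r A) (parS r) (pat B a)

end Crest.Agent.MS
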