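import Crest.Agent.MS.Total
import Crest.Agent.MS.Model

/-! Row 305: the final glue: from `total`, the seed average and locality to the value hypothesis
of `result_of_slots`. -/

set_option autoImplicit false

namespace Crest.Agent.MS

open Finset

variable {k : ℕ}

/-- base -/
def BB : ℕ := 2 ^ 40
/-- number of `g`-seeds minus one -/
def GG0 : ℕ := 2 ^ 13 - 1
/-- number of `q`-seeds minus one -/
def DD0 : ℕ := 2 ^ 30 - 1
/-- density parameter -/
def LL : ℕ := 2 ^ 16

theorem one_le_LL : 1 ≤ LL := by unfold LL; norm_num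

/-- class index relative to `b` -/
def clsN (π : Pat k) (b : ℤ) (e : Fin k) : ℕ := (ciP π e - b).toNat

/-- **Locality** (statement): the gain of the slot rule is the contribution in the process -/
def Locality (M : Matroid (Fin k)) : Prop :=
  ∀ (w : Fin k → ℝ), (∀ e, 0 ≤ w e) → ∀ (b : ℤ) (n : ℕ),
    (∀ e ∈ PopP M (pat BB w), b ≤ ciP (pat BB w) e ∧ ciP (pat BB w) e < b + n) →
    ∀ (A : Finset (Fin k)) (r : Seed k GG0 DD0), ∀ i < n, ∀ m,
      gain M (algD M LL BB GG0 DD0 r A (resA A w)) A w (ciP (pat BB w)) (b + i) m =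
        if decide (m % 2 = 1) = parS r then
          (proc M LL one_le_LL (TP M (labS r A) (pat BB w)) (clsN (pat BB w) b) (labS r A).S
            (labS r A).Q).contrib (labS r A).c n i m
        else 0

/-- **Seed average** (statement) -/
def SeedAvg (k : ℕ) : Prop :=
  ∀ F : Lab k → Bool → ℝ,
    (∑ p : Finset (Fin k) × Seed k GG0 DD0, F (labS p.2 p.1) (parS p.2)) /
        (Fintype.card (Finset (Fin k) × Seed k GG0 DD0) : ℝ) =
      ∑ l : Fin k → Co, pw pc l * ∑ S : Finset (Fin k), bw (1 / 2) S *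
        ∑ Q : Finset (Fin k), bw (1 / 2 ^ 30) Q *
          avg (fun c : Fin k → Bool => avg (fun par : Bool => F ⟨l, S, Q, c⟩ par))

theorem glue_ordP_inj (π : Pat k) : Function.Injective (ordP π) := by
  intro e f h
  by_contra hne
  have key : ∀ e f : Fin k, ltP π e f → ordP π e < ordP π f := by
    intro e f hef
    unfold ordP
    apply Finset.card_lt_card
    rw [Finset.ssubset_iff_of_subset]
    · refine ⟨e, by simp [hef], ?_⟩
      simp only [Finset.mem_filter, Finset.mem_univ, true_and]
      unfold ltP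
      rintro (h1 | ⟨_, h1⟩)
      · exact lt_irrefl _ h1
      · exact lt_irrefl _ h1
    · intro x hx
      simp only [Finset.mem_filter, Finset.mem_univ, true_and] at hx ⊢
      unfold ltP at *
      rcases hx with h1 | ⟨h1, h1'⟩ <;> rcases hef with h2 | ⟨h2, h2'⟩
      · exact Or.inl (h1.trans h2)
      · exact Or.inl (by rwa [← h2])
      · exact Or.inl (by rwa [h1])
      · exact Or.inr ⟨h1.trans h2, h1'.trans h2'⟩
  have htri : ltP π e f ∨ ltP π f e := by
    unfold ltP
    rcases lt_trichotomy (π e).2 (π f).2 with h1 | h1 | h1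
    · exact Or.inl (Or.inl h1)
    · rcases lt_trichotomy e f with h2 | h2 | h2
      · exact Or.inl (Or.inr ⟨h1, h2⟩)
      · exact absurd h2 hne
      · exact Or.inr (Or.inr ⟨h1.symm, h2⟩)
    · exact Or.inr (Or.inl h1)
  rcases htri with h1 | h1
  · have := key _ _ h1
    omega
  · have := key _ _ h1
    omega

theorem glue_ordP_cls (π : Pat k) (e f : Fin k) (h : ordP π e < ordP π f) :
    ciP π e ≤ ciP π f := by
  by_contra hc
  push Not at hc
  have h1 : ordP π f ≤ ordP π e := by
    unfold ordP
    apply Finset.card_le_card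
    intro x hx
    simp only [Finset.mem_filter, Finset.mem_univ, true_and] at hx ⊢
    unfold ltP at *
    unfold ciP at hc
    rcases hx with h1 | ⟨h1, _⟩
    · exact Or.inl (h1.trans hc)
    · exact Or.inl (by rw [h1]; exact hc)
  omega

theorem BB_cast : ((BB : ℕ) : ℝ) = 2 ^ 40 := by
  unfold BB
  norm_num

theorem one_lt_BB : 1 < BB := by unfold BB; norm_num

/-- **the value hypothesis** -/
theorem hval_main (M : Matroid (Fin k)) (hLoc : Locality M) (hSeed : SeedAvg k)
    (w : Fin k → ℝ) (hw : ∀ e, 0 ≤ w e) :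
    ∃ G : Finset (Fin k) × Seed k GG0 DD0 → ℝ,
      (∀ p (σ : Equiv.Perm (Fin k)),
        G p ≤ ∑ e ∈ coreAcc (slotRule M (algD M LL BB GG0 DD0)) p.2 p.1 w (List.ofFn σ), w e) ∧
      ∀ I : Finset (Fin k), M.Indep (I : Set (Fin k)) →
        (1 / 2 ^ 90 : ℝ) * ∑ e ∈ I, w e ≤
          (∑ p, G p) / (Fintype.card (Finset (Fin k) × Seed k GG0 DD0) : ℝ) := by
  classical
  set π := pat BB w with hπ
  -- range of the classes
  obtain ⟨b, n, hbn⟩ : ∃ (b : ℤ) (n : ℕ), ∀ e ∈ PopP M π, b ≤ ciP π e ∧ ciP π e < b + n := by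
    by_cases hne : (PopP M π).Nonempty
    · obtain ⟨e₁, _, h1⟩ := Finset.exists_min_image (PopP M π) (ciP π) hne
      obtain ⟨e₂, _, h2⟩ := Finset.exists_max_image (PopP M π) (ciP π) hne
      refine ⟨ciP π e₁, (ciP π e₂ + 1 - ciP π e₁).toNat, fun e he => ⟨h1 e he, ?_⟩⟩
      have h3 := h2 e he
      have h4 := h1 e he
      have h5 : ((ciP π e₂ + 1 - ciP π e₁).toNat : ℤ) = ciP π e₂ + 1 - ciP π e₁ :=
        Int.toNat_of_nonneg (by omega)
      omega
    · refine ⟨0, 0, fun e he => absurd ⟨e, he⟩ hne⟩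
  set ω : ℤ → ℝ := fun j => (BB : ℝ) ^ j with hω
  have hB0 : (0 : ℝ) < (BB : ℝ) := by rw [BB_cast]; positivity
  have hB1 : (1 : ℝ) < (BB : ℝ) := by rw [BB_cast]; norm_num
  have hωpos : ∀ j, 0 < ω j := fun j => zpow_pos hB0 j
  have hinj : Function.Injective (fun i : ℕ => b + (i : ℤ)) := by
    intro i j h
    simp only at h
    omega
  set J : Finset ℤ := (range n).image (fun i : ℕ => b + (i : ℤ)) with hJ
  set N : ℕ := Fintype.card (Fin k) + 2 with hN
  set G : Finset (Fin k) × Seed k GG0 DD0 → ℝ := fun p =>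
    (1 / 2 : ℝ) * ∑ j ∈ J, ω j * ∑ m ∈ range (2 * N),
      gain M (algD M LL BB GG0 DD0 p.2 p.1 (resA p.1 w)) p.1 w (ciP π) j m with hG
  refine ⟨G, ?_, ?_⟩
  · intro p σ
    refine slot_value M (algD M LL BB GG0 DD0) p.2 p.1 w (List.ofFn σ) ?_ (ciP π) ω J
      (range (2 * N)) (1 / 2) (by norm_num) (fun j _ => (hωpos j).le) ?_
    · intro e
      rw [List.mem_ofFn]
      exact ⟨σ.symm e, by simp⟩
    · intro e m he
      -- the candidate is in the population
      have h1 : slotP M LL (labS p.2 p.1) (parS p.2)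
          (Function.update (pat BB (resA p.1 w)) e (pat1 BB (w e))) e = some m := he.2
      have h2 : e ∈ TP M (labS p.2 p.1)
          (Function.update (pat BB (resA p.1 w)) e (pat1 BB (w e))) := by
        unfold slotP at h1
        split_ifs at h1 with h3 h4
        · exact h3.1.1
      have h3 : e ∈ PopP M (Function.update (pat BB (resA p.1 w)) e (pat1 BB (w e))) :=
        Timp_subset _ _ _ _ h2
      unfold PopP at h3
      rw [Finset.mem_filter, Function.update_self] at h3
      have hpos : 0 < w e := by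
        have := h3.2.2
        simpa [pat1] using this
      have hePop : e ∈ PopP M π := by
        unfold PopP
        rw [Finset.mem_filter]
        exact ⟨Finset.mem_univ _, h3.2.1, by simp [hπ, pat, pat1, hpos]⟩
      have heJ : ciP π e ∈ J := by
        rw [hJ, Finset.mem_image]
        obtain ⟨h4, h5⟩ := hbn e hePop
        refine ⟨(ciP π e - b).toNat, ?_, ?_⟩
        · rw [Finset.mem_range]
          omega
        · omega
      have h6 := geom_classes ω (1 / (BB : ℝ)) (by positivity) J (fun j => (hωpos j).le) (by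
        intro j _ j' _ hjj
        rw [hω]
        simp only
        rw [one_div, ← zpow_neg_one, ← zpow_add₀ hB0.ne']
        exact zpow_le_zpow_right₀ hB1.le (by omega)) (ciP π e) heJ
      have h7 : ω (ciP π e) ≤ w e := Int.zpow_log_le_self one_lt_BB hpos
      have h8 : 0 ≤ ∑ j ∈ J.filter (fun j => j ≤ ciP π e), ω j :=
        Finset.sum_nonneg fun j _ => (hωpos j).le
      have h9 : (1 : ℝ) / 2 ≤ 1 - 1 / (BB : ℝ) := by
        rw [BB_cast]
        norm_num
      refine le_trans ?_ (h6.trans h7)
      exact mul_le_mul_of_nonneg_right h9 h8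
  · intro I hI
    set F : Lab k → Bool → ℝ := fun L par => ∑ i ∈ range n, ω (b + (i : ℤ)) *
      ∑ m ∈ range (2 * N), if decide (m % 2 = 1) = par then
        (proc M LL one_le_LL (TP M L π) (clsN π b) L.S L.Q).contrib L.c n i m else 0 with hF
    have hGF : ∀ p : Finset (Fin k) × Seed k GG0 DD0,
        G p = (1 / 2 : ℝ) * F (labS p.2 p.1) (parS p.2) := by
      intro p
      simp only [hG, hF]
      congr 1
      rw [hJ, Finset.sum_image (fun i _ j _ h => hinj h)]
      refine Finset.sum_congr rfl fun i hi => ?_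
      congr 1
      refine Finset.sum_congr rfl fun m _ => ?_
      exact hLoc w hw b n hbn p.1 p.2 i (Finset.mem_range.1 hi) m
    have hsum : (∑ p, G p) / (Fintype.card (Finset (Fin k) × Seed k GG0 DD0) : ℝ) =
        (1 / 2 : ℝ) * ∑ l : Fin k → Co, pw pc l * ∑ S : Finset (Fin k), bw (1 / 2) S *
        ∑ Q : Finset (Fin k), bw (1 / 2 ^ 30) Q *
          avg (fun c : Fin k → Bool => avg (fun par : Bool => F ⟨l, S, Q, c⟩ par)) := by
      rw [← hSeed F, ← mul_div_assoc, Finset.mul_sum]
      congr 1
      exact Finset.sum_congr rfl fun p _ => hGF p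
    have hpar : ∀ (l : Fin k → Co) (S Q : Finset (Fin k)) (c : Fin k → Bool),
        avg (fun par : Bool => F ⟨l, S, Q, c⟩ par) = (1 / 2 : ℝ) *
          ∑ i ∈ range n, ω (b + (i : ℤ)) * ∑ m ∈ range (2 * N),
            (proc M LL one_le_LL (Timp M (PopP M π) (ordP π) l) (clsN π b) S Q).contrib c n i m := by
      intro l S Q c
      unfold avg
      rw [Fintype.card_bool, Fintype.sum_bool, ← Finset.sum_add_distrib, div_eq_inv_mul,
        Nat.cast_ofNat, one_div]
      congr 1
      refine Finset.sum_congr rfl fun i _ => ?_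
      rw [← mul_add, ← Finset.sum_add_distrib]
      congr 1
      refine Finset.sum_congr rfl fun m _ => ?_
      by_cases hm : m % 2 = 1
      · simp [hm, TP]
      · simp [hm, TP]
    -- the independent set of positive elements
    set I' := I.filter (fun e => 0 < w e) with hI'
    have hI'Pop : I' ⊆ PopP M π := by
      intro e he
      rw [hI', Finset.mem_filter] at he
      unfold PopP
      rw [Finset.mem_filter]
      refine ⟨Finset.mem_univ _, hI.subset_ground (by exact_mod_cast he.1), ?_⟩
      simp [hπ, pat, pat1, he.2]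
    have hI'ind : M.Indep (I' : Set (Fin k)) :=
      hI.subset (by exact_mod_cast Finset.filter_subset _ _)
    have hcls : ∀ e ∈ PopP M π, b + ((clsN π b e : ℕ) : ℤ) = ciP π e := by
      intro e he
      unfold clsN
      have := (hbn e he).1
      omega
    have hPopE : ((PopP M π : Finset (Fin k)) : Set (Fin k)) ⊆ M.E := by
      intro e he
      unfold PopP at he
      rw [Finset.mem_coe, Finset.mem_filter] at he
      exact he.2.1
    have htot := total M (PopP M π) hPopE (ordP π) (glue_ordP_inj π) (clsN π b)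
      (by
        intro e f h
        have := glue_ordP_cls π e f h
        unfold clsN
        omega) n
      (by
        intro e he
        have := hbn e he
        unfold clsN
        omega) (fun i => ω (b + (i : ℤ))) (fun i => (hωpos _).le)
      (by
        intro i j hij
        exact zpow_le_zpow_right₀ hB1.le (by omega))
      (by
        intro e _ f _ h
        simp only [hω]
        rw [← BB_cast, ← zpow_one_add₀ hB0.ne']
        exact zpow_le_zpow_right₀ hB1.le (by omega)) (by norm_num) N le_rfl I' hI'Pop hI'ind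
    have hwI : ∑ e ∈ I, w e ≤ (2 : ℝ) ^ 40 * ∑ e ∈ I', ω (b + ((clsN π b e : ℕ) : ℤ)) := by
      have h1 : ∑ e ∈ I, w e = ∑ e ∈ I', w e := by
        rw [hI', Finset.sum_filter]
        refine Finset.sum_congr rfl fun e _ => ?_
        split_ifs with h
        · rfl
        · exact le_antisymm (not_lt.1 h) (hw e)
      rw [h1, Finset.mul_sum]
      refine Finset.sum_le_sum fun e he => ?_
      rw [hcls e (hI'Pop he)]
      have h2 := Int.lt_zpow_succ_log_self one_lt_BB (w e)
      rw [zpow_add₀ hB0.ne', zpow_one, mul_comm] at h2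
      have h3 : ciP π e = Int.log BB (w e) := rfl
      rw [h3, ← BB_cast]
      exact h2.le
    rw [hsum]
    have h5 : ∑ l : Fin k → Co, pw pc l * ∑ S : Finset (Fin k), bw (1 / 2) S *
        ∑ Q : Finset (Fin k), bw (1 / 2 ^ 30) Q *
          avg (fun c : Fin k → Bool => avg (fun par : Bool => F ⟨l, S, Q, c⟩ par)) =
        (1 / 2 : ℝ) * ∑ l : Fin k → Co, pw pc l * ∑ S : Finset (Fin k), bw (1 / 2) S *
        ∑ Q : Finset (Fin k), bw (1 / 2 ^ 30) Q *
          avg (fun c : Fin k → Bool => ∑ i ∈ range n, ω (b + (i : ℤ)) *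
            ∑ m ∈ range (2 * N),
            (proc M LL one_le_LL (Timp M (PopP M π) (ordP π) l) (clsN π b) S Q).contrib c n i m) := by
      simp only [hpar, avg_mul_left]
      have key : ∀ X : (Fin k → Co) → Finset (Fin k) → Finset (Fin k) → ℝ,
          ∑ l : Fin k → Co, pw pc l * ∑ S : Finset (Fin k), bw (1 / 2) S *
            ∑ Q : Finset (Fin k), bw (1 / 2 ^ 30) Q * (1 / 2 * X l S Q) =
          (1 / 2 : ℝ) * ∑ l : Fin k → Co, pw pc l * ∑ S : Finset (Fin k), bw (1 / 2) S *
            ∑ Q : Finset (Fin k), bw (1 / 2 ^ 30) Q * X l S Q := by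
        intro X
        simp only [Finset.mul_sum]
        refine Finset.sum_congr rfl fun l _ => ?_
        refine Finset.sum_congr rfl fun S _ => ?_
        refine Finset.sum_congr rfl fun Q _ => ?_
        ring
      exact key _
    rw [h5]
    have h6 : (1 / 2 ^ 90 : ℝ) * ∑ e ∈ I, w e ≤
        (1 / 2 ^ 90 : ℝ) * ((2 : ℝ) ^ 40 * ∑ e ∈ I', ω (b + ((clsN π b e : ℕ) : ℤ))) :=
      mul_le_mul_of_nonneg_left hwI (by positivity)
    refine h6.trans ?_
    have h7 : (1 / 2 ^ 90 : ℝ) * ((2 : ℝ) ^ 40 * ∑ e ∈ I', ω (b + ((clsN π b e : ℕ) : ℤ))) =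
        (1 / 2 : ℝ) * ((1 / 2 : ℝ) *
          ((1 / 2 ^ 48 : ℝ) * ∑ e ∈ I', ω (b + ((clsN π b e : ℕ) : ℤ)))) := by
      rw [← mul_assoc, ← mul_assoc, ← mul_assoc]
      congr 1
      norm_num
    rw [h7]
    refine mul_le_mul_of_nonneg_left ?_ (by norm_num)
    refine mul_le_mul_of_nonneg_left ?_ (by norm_num)
    exact htot

end Crest.Agent.MS
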