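import Mathlib
import Crest.Agent.MS.Union

/-!
# Row 305 (S0468): union bound relative to a subset `T`, resampling of the coordinates in `T`
-/

set_option autoImplicit false
set_option linter.unusedSectionVars false

namespace Crest.Agent.MS

open Finset

variable {α : Type*} [Fintype α] [DecidableEq α]

/-- exchange the coordinates in `T` -/
def mix (T S S' : Finset α) : Finset α := (S \ T) ∪ (S' ∩ T)

theorem mem_mix {T S S' : Finset α} {x : α} :
    x ∈ mix T S S' ↔ (x ∉ T ∧ x ∈ S) ∨ (x ∈ T ∧ x ∈ S') := by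
  simp only [mix, Finset.mem_union, Finset.mem_sdiff, Finset.mem_inter]
  tauto

theorem mix_mix (T S S' : Finset α) : mix T (mix T S S') (mix T S' S) = S := by
  ext x
  simp only [mem_mix]
  tauto

theorem bw_mix (s : ℝ) (T S S' : Finset α) :
    bw s S * bw s S' = bw s (mix T S S') * bw s (mix T S' S) := by
  unfold bw
  rw [← Finset.prod_mul_distrib, ← Finset.prod_mul_distrib]
  refine Finset.prod_congr rfl fun i _ => ?_
  by_cases hT : i ∈ T
  · have h1 : (i ∈ mix T S S') ↔ i ∈ S' := by simp [mem_mix, hT]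
    have h2 : (i ∈ mix T S' S) ↔ i ∈ S := by simp [mem_mix, hT]
    simp only [h1, h2]
    ring
  · have h1 : (i ∈ mix T S S') ↔ i ∈ S := by simp [mem_mix, hT]
    have h2 : (i ∈ mix T S' S) ↔ i ∈ S' := by simp [mem_mix, hT]
    simp only [h1, h2]

/-- exchanging the coordinates in `T` of a pair -/
def mixEquiv (T : Finset α) : (Finset α × Finset α) ≃ (Finset α × Finset α) where
  toFun p := (mix T p.1 p.2, mix T p.2 p.1)
  invFun p := (mix T p.1 p.2, mix T p.2 p.1)
  left_inv p := by simp [mix_mix]
  right_inv p := by simp [mix_mix]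

theorem sum_mix (T : Finset α) (g : Finset α × Finset α → ℝ) :
    ∑ p : Finset α × Finset α, g (mix T p.1 p.2, mix T p.2 p.1) = ∑ p, g p :=
  Equiv.sum_comp (mixEquiv T) g

/-- **resampling**: the coordinates in `T` may be replaced by an independent copy -/
theorem resample (s : ℝ) (T : Finset α) (f : Finset α → ℝ) :
    ∑ S : Finset α, bw s S * f S =
      ∑ S : Finset α, bw s S * ∑ S' : Finset α, bw s S' * f (mix T S S') := by
  have h2 := sum_mix T (fun p => (bw s p.1 * bw s p.2) * f p.1)
  have h3 : ∑ p : Finset α × Finset α, (bw s p.1 * bw s p.2) * f p.1 =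
      ∑ S : Finset α, bw s S * f S := by
    rw [Fintype.sum_prod_type]
    refine Finset.sum_congr rfl fun S _ => ?_
    have h4 : ∀ S' : Finset α, (bw s S * bw s S') * f S = (bw s S * f S) * bw s S' := by
      intro S'
      ring
    simp only [h4]
    rw [← Finset.mul_sum, sum_bw, mul_one]
  have h5 : ∑ p : Finset α × Finset α, (bw s (mix T p.1 p.2) * bw s (mix T p.2 p.1)) *
      f (mix T p.1 p.2) =
      ∑ S : Finset α, bw s S * ∑ S' : Finset α, bw s S' * f (mix T S S') := by
    rw [Fintype.sum_prod_type]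
    refine Finset.sum_congr rfl fun S _ => ?_
    rw [Finset.mul_sum]
    refine Finset.sum_congr rfl fun S' _ => ?_
    show (bw s (mix T S S') * bw s (mix T S' S)) * f (mix T S S') = _
    rw [← bw_mix]
    ring
  rw [← h3, ← h5]
  exact h2.symm

/-- probability that a given element is chosen -/
theorem sum_bw_mem (s : ℝ) (x : α) : ∑ S : Finset α, bw s S * (if x ∈ S then 1 else 0) = s := by
  have h1 : ∀ S : Finset α, bw s S * (if x ∈ S then (1 : ℝ) else 0) =
      ∏ i, (if i ∈ S then s else if i = x then 0 else 1 - s) := by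
    intro S
    unfold bw
    by_cases hx : x ∈ S
    · rw [if_pos hx, mul_one]
      refine Finset.prod_congr rfl fun i _ => ?_
      by_cases hi : i ∈ S
      · simp [hi]
      · have : i ≠ x := fun h => hi (h ▸ hx)
        simp [hi, this]
    · rw [if_neg hx, mul_zero]
      symm
      refine Finset.prod_eq_zero (Finset.mem_univ x) ?_
      simp [hx]
  simp only [h1]
  rw [sum_prod_ite (fun _ => s) (fun i => if i = x then 0 else 1 - s)]
  have h2 : ∀ i : α, (s + if i = x then 0 else 1 - s) = if i = x then s else 1 := by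
    intro i
    split_ifs
    · ring
    · ring
  simp only [h2]
  rw [Finset.prod_ite_eq' Finset.univ x (fun _ => s)]
  simp

/-- expected size of `S ∩ B` -/
theorem sum_bw_card (s : ℝ) (B : Finset α) :
    ∑ S : Finset α, bw s S * ((S ∩ B).card : ℝ) = s * B.card := by
  have h1 : ∀ S : Finset α, ((S ∩ B).card : ℝ) = ∑ x ∈ B, if x ∈ S then (1 : ℝ) else 0 := by
    intro S
    rw [Finset.sum_ite_mem, Finset.inter_comm]
    simp
  simp only [h1, Finset.mul_sum]
  rw [Finset.sum_comm]
  simp only [sum_bw_mem]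
  rw [Finset.sum_const, nsmul_eq_mul]
  ring

/-- union bound, the sets `B (f S)` only have to be poor if they are large -/
theorem union_bw' {β : Type*} (C : Finset β) (f : Finset α → β) (hf : ∀ S, f S ∈ C)
    (B : β → Finset α) {s : ℝ} (h0 : 0 ≤ s) (h1 : s ≤ 1) {δ : ℝ} (hδ : δ ≤ s / 10) (b : ℝ)
    (hB : ∀ S, b ≤ ((B (f S)).card : ℝ) → ((S ∩ B (f S)).card : ℝ) ≤ δ * (B (f S)).card) :
    ∑ S : Finset α with b ≤ ((B (f S)).card : ℝ), bw s S ≤ C.card * Real.exp (-(s * b / 2)) := by
  have hstep : ∑ S : Finset α with b ≤ ((B (f S)).card : ℝ), bw s S ≤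
      ∑ S : Finset α, ∑ c ∈ C, if b ≤ ((B c).card : ℝ) ∧ ((S ∩ B c).card : ℝ) ≤ δ * (B c).card
        then bw s S else 0 := by
    rw [Finset.sum_filter]
    refine Finset.sum_le_sum fun S _ => ?_
    have hb := bw_nonneg h0 h1 S
    have hnn : ∀ c ∈ C, 0 ≤ (if b ≤ ((B c).card : ℝ) ∧ ((S ∩ B c).card : ℝ) ≤ δ * (B c).card
        then bw s S else 0) := by
      intro c _
      split_ifs
      · exact hb
      · exact le_rfl
    split_ifs with h
    · have := Finset.single_le_sum hnn (hf S)
      rw [if_pos ⟨h, hB S h⟩] at this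
      exact this
    · exact Finset.sum_nonneg hnn
  refine hstep.trans ?_
  rw [Finset.sum_comm]
  have hc : ∀ c ∈ C, (∑ S : Finset α, if b ≤ ((B c).card : ℝ) ∧
      ((S ∩ B c).card : ℝ) ≤ δ * (B c).card then bw s S else 0) ≤ Real.exp (-(s * b / 2)) := by
    intro c _
    by_cases h : b ≤ ((B c).card : ℝ)
    · have h2 : (∑ S : Finset α, if b ≤ ((B c).card : ℝ) ∧
          ((S ∩ B c).card : ℝ) ≤ δ * (B c).card then bw s S else 0) =
          ∑ S : Finset α with ((S ∩ B c).card : ℝ) ≤ δ * (B c).card, bw s S := by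
        rw [Finset.sum_filter]
        refine Finset.sum_congr rfl fun S _ => ?_
        simp [h]
      rw [h2]
      refine (chernoff_bw h0 h1 hδ (B c)).trans (Real.exp_le_exp.2 ?_)
      have := mul_le_mul_of_nonneg_left h h0
      linarith
    · simp only [h, false_and, if_false, Finset.sum_const_zero]
      exact (Real.exp_pos _).le
  refine (Finset.sum_le_sum hc).trans ?_
  rw [Finset.sum_const, nsmul_eq_mul]

/-- codes: partial colourings supported in `T` with at most `m` coloured points -/
noncomputable def codes (κ : Type*) [Fintype κ] [DecidableEq κ] (T : Finset α) (m : ℝ) :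
    Finset (α → Option κ) :=
  Finset.univ.filter fun c : α → Option κ => (∀ i, c i ≠ none → i ∈ T) ∧
    ((Finset.univ.filter fun i => c i ≠ none).card : ℝ) ≤ m

theorem card_codes_sub_le {κ : Type*} [Fintype κ] [DecidableEq κ] (T : Finset α) (m : ℝ) {t : ℝ}
    (ht : 0 < t) (ht1 : t ≤ 1) :
    ((codes κ T m).card : ℝ) ≤ t ^ (-m) * (1 + Fintype.card κ * t) ^ T.card := by
  have h1 : ∀ c : α → Option κ, (∀ i, c i ≠ none → i ∈ T) →
      t ^ (Finset.univ.filter fun i => c i ≠ none).card =
      ∏ i, (if c i = none then 1 else if i ∈ T then t else 0) := by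
    intro c hc
    have h2 : ∀ i, (if c i = none then (1 : ℝ) else if i ∈ T then t else 0) =
        if c i = none then 1 else t := by
      intro i
      by_cases hi : c i = none
      · simp [hi]
      · simp [hi, hc i hi]
    simp only [h2]
    rw [Finset.prod_ite, Finset.prod_const_one, one_mul, Finset.prod_const]
  have h2 : ∑ c : α → Option κ, ∏ i, (if c i = none then (1 : ℝ) else if i ∈ T then t else 0) =
      (1 + Fintype.card κ * t) ^ T.card := by
    rw [← Fintype.prod_sum (f := fun (i : α) (o : Option κ) =>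
      if o = none then (1 : ℝ) else if i ∈ T then t else 0)]
    simp only [Fintype.sum_option, if_true, reduceCtorEq, if_false, Finset.sum_const,
      Finset.card_univ, nsmul_eq_mul]
    have h3 : ∀ i : α, (1 + (Fintype.card κ : ℝ) * if i ∈ T then t else 0) =
        if i ∈ T then 1 + Fintype.card κ * t else 1 := by
      intro i
      by_cases hi : i ∈ T <;> simp [hi]
    simp only [h3]
    rw [Finset.prod_ite_mem, Finset.univ_inter, Finset.prod_const]
  rw [← h2, Finset.mul_sum]
  have h3 : ((codes κ T m).card : ℝ) = ∑ c ∈ codes κ T m, (1 : ℝ) := by simp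
  rw [h3, codes, Finset.sum_filter]
  refine Finset.sum_le_sum fun c _ => ?_
  split_ifs with h
  · rw [← h1 c h.1, ← Real.rpow_natCast, ← Real.rpow_add ht]
    exact Real.one_le_rpow_of_pos_of_le_one_of_nonpos ht ht1 (by linarith [h.2])
  · refine mul_nonneg (Real.rpow_nonneg ht.le _) (Finset.prod_nonneg fun i _ => ?_)
    split_ifs
    · exact zero_le_one
    · exact ht.le
    · exact le_rfl

theorem card_codes_sub_exp {κ : Type*} [Fintype κ] [DecidableEq κ] (T : Finset α) {lam : ℝ}
    (hlam : 3 ≤ lam) (hκ : (Fintype.card κ : ℝ) ≤ lam + 1) {m : ℝ} (hm : m ≤ 2 * T.card / lam) :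
    ((codes κ T m).card : ℝ) ≤ Real.exp (6 * T.card * Real.log lam / lam) := by
  have hl0 : 0 < lam := by linarith
  have hlog : 1 ≤ Real.log lam := by
    rw [Real.le_log_iff_exp_le hl0]
    linarith [Real.exp_one_lt_d9]
  have ht : 0 < (lam ^ 2)⁻¹ := by positivity
  have ht1 : (lam ^ 2)⁻¹ ≤ 1 := inv_le_one_of_one_le₀ (by nlinarith)
  refine (card_codes_sub_le (κ := κ) T m ht ht1).trans ?_
  have e1 : ((lam ^ 2)⁻¹ : ℝ) ^ (-m) = Real.exp (2 * m * Real.log lam) := by
    rw [Real.rpow_def_of_pos ht, Real.log_inv, Real.log_pow]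
    congr 1
    push_cast
    ring
  have e2 : (1 + Fintype.card κ * (lam ^ 2)⁻¹) ^ T.card ≤ Real.exp (T.card * (2 / lam)) := by
    have h3 : 1 + (Fintype.card κ : ℝ) * (lam ^ 2)⁻¹ ≤ Real.exp (2 / lam) := by
      have h4 : (Fintype.card κ : ℝ) * (lam ^ 2)⁻¹ ≤ 2 / lam := by
        rw [← div_eq_mul_inv, div_le_div_iff₀ (by positivity) hl0]
        nlinarith
      have := Real.add_one_le_exp (2 / lam)
      linarith
    calc (1 + (Fintype.card κ : ℝ) * (lam ^ 2)⁻¹) ^ T.card
        ≤ (Real.exp (2 / lam)) ^ T.card := pow_le_pow_left₀ (by positivity) h3 _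
      _ = _ := by rw [← Real.exp_nat_mul]
  rw [e1]
  refine (mul_le_mul_of_nonneg_left e2 (Real.exp_pos _).le).trans ?_
  rw [← Real.exp_add]
  refine Real.exp_le_exp.2 ?_
  have h5 : 2 * m * Real.log lam ≤ 2 * (2 * T.card / lam) * Real.log lam := by
    have : 0 ≤ Real.log lam := by linarith
    gcongr
  have h6 : (T.card : ℝ) * (2 / lam) ≤ T.card * (2 / lam) * Real.log lam :=
    le_mul_of_one_le_right (by positivity) hlog
  have h7 : 6 * (T.card : ℝ) * Real.log lam / lam =
      2 * (2 * T.card / lam) * Real.log lam + T.card * (2 / lam) * Real.log lam := by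
    ring
  rw [h7]
  linarith

/-- **the rich set is small in expectation**, relative version with defect `ν` -/
theorem rich_expect' {β : Type*} (C : Finset β) (f : Finset α → β) (hf : ∀ S, f S ∈ C)
    (B : β → Finset α) (T : Finset α) {s lam Lam δ ν : ℝ} (h0 : 0 < s) (h1 : s ≤ 1)
    (hlam : 3 ≤ lam) (hδ : δ ≤ s / 20) (hν : 0 ≤ ν)
    (hC : (C.card : ℝ) ≤ Real.exp (6 * T.card * Real.log lam / lam))
    (hBT : ∀ S, B (f S) ⊆ T)
    (hB : ∀ S, ((S ∩ B (f S)).card : ℝ) ≤ δ * (B (f S)).card + ν)
    (hbig : ∀ S, (B (f S)).card = 0 ∨ Lam ≤ (B (f S)).card) :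
    ∑ S : Finset α, bw s S * (B (f S)).card ≤
      T.card * (24 * Real.log lam / (lam * s) + Real.exp (-(s * Lam / 4))) + 20 * ν / s := by
  set n : ℝ := (T.card : ℝ) with hn
  have hn0 : 0 ≤ n := Nat.cast_nonneg _
  have hl0 : 0 < lam := by linarith
  have hlog : 0 ≤ Real.log lam := Real.log_nonneg (by linarith)
  set β' : ℝ := 24 * Real.log lam / (lam * s) with hβ
  have hβ0 : 0 ≤ β' := by positivity
  have hν' : 0 ≤ 20 * ν / s := by positivity
  set b : ℝ := max (max (β' * n) Lam) (20 * ν / s) with hb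
  have hP := union_bw' C f hf B h0.le h1 (le_refl (s / 10)) b (fun S hS => by
    have h3 : 20 * ν / s ≤ ((B (f S)).card : ℝ) := (le_max_right _ _).trans hS
    rw [div_le_iff₀ h0] at h3
    have h4 := hB S
    have h5 : δ * ((B (f S)).card : ℝ) ≤ s / 20 * (B (f S)).card :=
      mul_le_mul_of_nonneg_right hδ (Nat.cast_nonneg _)
    linarith)
  have hP2 : (C.card : ℝ) * Real.exp (-(s * b / 2)) ≤ Real.exp (-(s * Lam / 4)) := by
    refine (mul_le_mul_of_nonneg_right hC (Real.exp_pos _).le).trans ?_
    rw [← Real.exp_add]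
    refine Real.exp_le_exp.2 ?_
    have h3 : s * (β' * n) ≤ s * b :=
      mul_le_mul_of_nonneg_left ((le_max_left _ _).trans (le_max_left _ _)) h0.le
    have h4 : s * Lam ≤ s * b :=
      mul_le_mul_of_nonneg_left ((le_max_right _ _).trans (le_max_left _ _)) h0.le
    have h5 : s * (β' * n) = 24 * n * Real.log lam / lam := by
      rw [hβ]
      field_simp
    have h6 : 6 * n * Real.log lam / lam = (24 * n * Real.log lam / lam) / 4 := by ring
    rw [h6, ← h5]
    linarith
  have hterm : ∀ S : Finset α, bw s S * (B (f S)).card ≤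
      bw s S * (β' * n + 20 * ν / s) +
        (if b ≤ ((B (f S)).card : ℝ) then bw s S else 0) * n := by
    intro S
    have hbw := bw_nonneg h0.le h1 S
    have hcard : ((B (f S)).card : ℝ) ≤ n := by
      rw [hn]
      exact_mod_cast Finset.card_le_card (hBT S)
    split_ifs with h
    · have := mul_le_mul_of_nonneg_left hcard hbw
      have h7 : 0 ≤ bw s S * (β' * n + 20 * ν / s) := by positivity
      linarith
    · have h8 : ((B (f S)).card : ℝ) ≤ β' * n + 20 * ν / s := by
        rcases hbig S with h9 | h9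
        · rw [h9]
          simp only [Nat.cast_zero]
          positivity
        · push Not at h
          rw [hb, lt_max_iff, lt_max_iff] at h
          rcases h with (h | h) | h
          · linarith
          · linarith
          · have : 0 ≤ β' * n := by positivity
            linarith
      have := mul_le_mul_of_nonneg_left h8 hbw
      linarith
  calc ∑ S : Finset α, bw s S * (B (f S)).card
      ≤ ∑ S : Finset α, (bw s S * (β' * n + 20 * ν / s) +
        (if b ≤ ((B (f S)).card : ℝ) then bw s S else 0) * n) := Finset.sum_le_sum fun S _ => hterm S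
    _ = (β' * n + 20 * ν / s) +
        (∑ S : Finset α with b ≤ ((B (f S)).card : ℝ), bw s S) * n := by
        rw [Finset.sum_add_distrib, ← Finset.sum_mul, sum_bw, one_mul, ← Finset.sum_mul,
          Finset.sum_filter]
    _ ≤ (β' * n + 20 * ν / s) + Real.exp (-(s * Lam / 4)) * n := by
        have := mul_le_mul_of_nonneg_right (hP.trans hP2) hn0
        linarith
    _ = n * (β' + Real.exp (-(s * Lam / 4))) + 20 * ν / s := by ring

end Crest.Agent.MS
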