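import Mathlib
import Crest.Agent.MS.EncodeM
import Crest.Agent.MS.Rich
import Crest.Agent.MS.Union2

/-!
# Row 305 (S0468): the KEY LEMMA in expectation form

`S`, `Q` independent random subsets of `α` (weights `bw s`, `bw q`); effective sets `S ∩ T`,
`(Q ∩ T) \ S`; `Z t = F_lam(sel (S ∩ T))(V t)`.  The expected loss of the thin set along the chain is
at most `q (|T| ε + 20 ν / s)`.
-/

set_option autoImplicit false
set_option linter.unusedSectionVars false

namespace Crest.Agent.MS

open Set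

variable {α : Type*} [Fintype α] [DecidableEq α] {M : Matroid α}

theorem rich_congr {Lam : ℕ} {T : Set α} {Z Z' : ℕ → Set α} {h : ℕ} (hZ : ∀ t ≤ h, Z t = Z' t) :
    rich M Lam T Z h = rich M Lam T Z' h := by
  ext x
  simp only [rich, Set.mem_iUnion, Set.mem_Iio, exists_prop]
  constructor
  · rintro ⟨t, ht, hx⟩
    rw [hZ t (by omega), hZ (t + 1) (by omega)] at hx
    exact ⟨t, ht, hx⟩
  · rintro ⟨t, ht, hx⟩
    rw [← hZ t (by omega), ← hZ (t + 1) (by omega)] at hx
    exact ⟨t, ht, hx⟩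

/-- the chain of the operator -/
def Zc (M : Matroid α) (lam : ℕ) (V : ℕ → Set α) (S : Finset α) (t : ℕ) : Set α :=
  Fop M lam (S : Set α) (V t)

theorem Zc_flat {lam : ℕ} {V : ℕ → Set α} (hV : ∀ t, V t ⊆ M.E) {S : Finset α}
    (hS : (S : Set α) ⊆ M.E) (t : ℕ) : M.IsFlat (Zc M lam V S t) := (Fop_spec M lam hS (hV t)).2.1

theorem Zc_mono {lam : ℕ} {V : ℕ → Set α} (hmono : ∀ t, V t ⊆ V (t + 1)) {S : Finset α} (t : ℕ) :
    Zc M lam V S t ⊆ Zc M lam V S (t + 1) := Fop_mono_left (hmono t)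

/-- expected size of the rich set -/
theorem rich_expect_chain (T : Finset α) (hT : (T : Set α) ⊆ M.E) {V : ℕ → Set α}
    (hV : ∀ t, V t ⊆ M.E) (hmono : ∀ t, V t ⊆ V (t + 1)) (h : ℕ) (sel : Finset α → Finset α)
    (hsel : ∀ S, sel S ⊆ S) {ν : ℕ} (hν : ∀ S ⊆ T, (S \ sel S).card ≤ ν) {lam Lam : ℕ}
    (hlam : 3 ≤ lam) (hLam0 : 0 < Lam) {s : ℝ} (h0 : 0 < s) (h1 : s ≤ 1)
    (hLam : (lam : ℝ) ≤ s / 20 * Lam) :
    ∑ S : Finset α, bw s S *
        ((rich M Lam (T : Set α) (Zc M lam V (sel (S ∩ T))) h).ncard : ℝ) ≤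
      T.card * (24 * Real.log lam / (lam * s) + Real.exp (-(s * Lam / 4))) + 20 * ν / s := by
  classical
  have hselT : ∀ S : Finset α, sel (S ∩ T) ⊆ T := fun S =>
    (hsel _).trans Finset.inter_subset_right
  have hselE : ∀ S : Finset α, ((sel (S ∩ T) : Finset α) : Set α) ⊆ M.E := fun S =>
    (Finset.coe_subset.2 (hselT S)).trans hT
  have henc := fun S : Finset α => encode (M := M) (lam := lam) (by omega) hV hmono h (hselE S)
  choose f hf1 hf2 hf3 using henc
  let B : (α → Option (Option (Fin lam))) → Finset α := fun c =>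
    (Set.toFinite (rich M Lam (T : Set α) (dec M lam V c) h)).toFinset
  have hB : ∀ S, ((B (f S) : Finset α) : Set α) =
      rich M Lam (T : Set α) (Zc M lam V (sel (S ∩ T))) h := by
    intro S
    simp only [B, Set.Finite.coe_toFinset]
    exact rich_congr (hf3 S)
  have hBn : ∀ S, (B (f S)).card =
      (rich M Lam (T : Set α) (Zc M lam V (sel (S ∩ T))) h).ncard := by
    intro S
    rw [← hB S, Set.ncard_coe_finset]
  have hlam0 : (0 : ℝ) < lam := by
    have : 0 < lam := by omega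
    exact_mod_cast this
  have hLam0' : (0 : ℝ) < Lam := by exact_mod_cast hLam0
  have hcodes : ∀ S, f S ∈ codes (Option (Fin lam)) T (2 * T.card / lam) := by
    intro S
    unfold codes
    rw [Finset.mem_filter]
    refine ⟨Finset.mem_univ _, fun i hi => hselT S (hf1 S i hi), ?_⟩
    have h2 := hf2 S
    have h3 : ({e | f S e ≠ none} : Set α).ncard =
        (Finset.univ.filter fun i => f S i ≠ none).card := by
      rw [← Set.ncard_coe_finset]
      congr 1
      ext x
      simp
    rw [h3] at h2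
    have h4 : ((sel (S ∩ T) : Finset α) : Set α).ncard ≤ T.card := by
      rw [Set.ncard_coe_finset]
      exact Finset.card_le_card (hselT S)
    rw [le_div_iff₀ hlam0]
    have h5 : lam * (Finset.univ.filter fun i => f S i ≠ none).card ≤ 2 * T.card := by omega
    have h6 : ((lam : ℝ) * ((Finset.univ.filter fun i => f S i ≠ none).card : ℝ)) ≤
        2 * T.card := by exact_mod_cast h5
    linarith
  have hcard := card_codes_sub_exp (κ := Option (Fin lam)) T (lam := (lam : ℝ))
    (by exact_mod_cast hlam) (by simp) (le_refl (2 * (T.card : ℝ) / lam))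
  have key := rich_expect' (codes (Option (Fin lam)) T (2 * T.card / lam)) f hcodes B T
    (s := s) (lam := (lam : ℝ)) (Lam := (Lam : ℝ)) (δ := s / 20) (ν := (ν : ℝ)) h0 h1
    (by exact_mod_cast hlam) le_rfl (Nat.cast_nonneg _) hcard (fun S => by
      rw [← Finset.coe_subset, hB S]
      exact rich_subset _ _ _ _) (fun S => ?_) (fun S => ?_)
  · simp only [hBn] at key
    exact key
  · -- the true sample is poor in the rich set
    have hZf := fun t => Zc_flat (M := M) (lam := lam) hV (hselE S) t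
    have hZm := fun t => Zc_mono (M := M) (lam := lam) hmono (S := sel (S ∩ T)) t
    have h2 := rich_sparse (M := M) (lam := lam) (Lam := Lam) (T := (T : Set α))
      (S := ((sel (S ∩ T) : Finset α) : Set α)) hZf hZm h
      (fun t _ => (Fop_spec M lam (hselE S) (hV t)).2.2)
    rw [← hB S] at h2
    have h3 : (((sel (S ∩ T) : Finset α) : Set α) ∩ ((B (f S) : Finset α) : Set α)).ncard =
        (sel (S ∩ T) ∩ B (f S)).card := by
      rw [← Finset.coe_inter, Set.ncard_coe_finset]
    rw [h3, Set.ncard_coe_finset] at h2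
    have hBT : B (f S) ⊆ T := by
      rw [← Finset.coe_subset, hB S]
      exact rich_subset _ _ _ _
    have h4 : (S ∩ B (f S)).card ≤ (sel (S ∩ T) ∩ B (f S)).card + ν := by
      have h5 : S ∩ B (f S) ⊆ (sel (S ∩ T) ∩ B (f S)) ∪ ((S ∩ T) \ sel (S ∩ T)) := by
        intro x hx
        rw [Finset.mem_inter] at hx
        rw [Finset.mem_union, Finset.mem_inter, Finset.mem_sdiff, Finset.mem_inter]
        by_cases h6 : x ∈ sel (S ∩ T)
        · exact Or.inl ⟨h6, hx.2⟩
        · exact Or.inr ⟨⟨hx.1, hBT hx.2⟩, h6⟩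
      have h6 := Finset.card_le_card h5
      have h7 := Finset.card_union_le (sel (S ∩ T) ∩ B (f S)) ((S ∩ T) \ sel (S ∩ T))
      have h8 := hν (S ∩ T) Finset.inter_subset_right
      omega
    have h5 : ((S ∩ B (f S)).card : ℝ) ≤ ((sel (S ∩ T) ∩ B (f S)).card : ℝ) + ν := by
      exact_mod_cast h4
    have h6 : (Lam : ℝ) * ((sel (S ∩ T) ∩ B (f S)).card : ℝ) ≤ lam * (B (f S)).card := by
      exact_mod_cast h2
    have h7 : (Lam : ℝ) * ((sel (S ∩ T) ∩ B (f S)).card : ℝ) ≤
        Lam * (s / 20 * (B (f S)).card) := by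
      refine h6.trans ?_
      have h8 := mul_le_mul_of_nonneg_right hLam (Nat.cast_nonneg (α := ℝ) (B (f S)).card)
      linarith
    have h8 := le_of_mul_le_mul_left h7 hLam0'
    linarith
  · have hZf := fun t => Zc_flat (M := M) (lam := lam) hV (hselE S) t
    have hZm := fun t => Zc_mono (M := M) (lam := lam) hmono (S := sel (S ∩ T)) t
    rcases rich_empty_or (M := M) (Lam := Lam) (T := (T : Set α)) hZf hZm h with h2 | h2
    · left
      rw [hBn S, h2, Set.ncard_empty]
    · right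
      rw [hBn S]
      exact_mod_cast h2

/-- thinness of `(Q ∩ T) \ S` in `T \ S` -/
theorem thin_eff (T S : Finset α) (q : ℝ) (G : Set α) (hG : G ⊆ ((T \ S : Finset α) : Set α)) :
    Thin (fun Q : Finset α => bw q Q)
      (fun Q => (((Q ∩ T) \ S : Finset α) : Set α) ∩ G) q G := by
  have h1 := thin_bw (T := α) (α := α) id Function.injective_id q G (by simp)
  have h2 : (fun Q : Finset α => (((Q ∩ T) \ S : Finset α) : Set α) ∩ G) =
      fun Q : Finset α => (id '' (Q : Set α)) ∩ G := by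
    funext Q
    ext x
    simp only [Set.mem_inter_iff, Finset.mem_coe, Finset.mem_sdiff, Finset.mem_inter, Set.image_id]
    constructor
    · rintro ⟨⟨⟨h3, _⟩, _⟩, h4⟩
      exact ⟨h3, h4⟩
    · rintro ⟨h3, h4⟩
      have h5 := hG h4
      simp only [Finset.coe_sdiff, Set.mem_sdiff, Finset.mem_coe] at h5
      exact ⟨⟨⟨h3, h5.1⟩, h5.2⟩, h4⟩
  rw [h2]
  exact h1

/-- the loss of `P` along the chain `Z` -/
noncomputable def loss (M : Matroid α) (Z : ℕ → Set α) (h : ℕ) (P : Set α) : ℝ :=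
  ∑ t ∈ Finset.range h, ((((P ∩ Z (t + 1)) \ Z t).ncard : ℝ) -
    ((rk M (Z t ∪ (P ∩ Z (t + 1))) : ℝ) - rk M (Z t)))

/-- **KEY LEMMA** -/
theorem key_lemma (T : Finset α) (hT : (T : Set α) ⊆ M.E) {V : ℕ → Set α}
    (hV : ∀ t, V t ⊆ M.E) (hmono : ∀ t, V t ⊆ V (t + 1)) (h : ℕ) (sel : Finset α → Finset α)
    (hsel : ∀ S, sel S ⊆ S) {ν : ℕ} (hν : ∀ S ⊆ T, (S \ sel S).card ≤ ν) {lam Lam : ℕ}
    (hlam : 3 ≤ lam) (hLam0 : 0 < Lam) {s q : ℝ} (h0 : 0 < s) (h1 : s ≤ 1) (hq : 0 ≤ q)
    (hq1 : q ≤ 1) (hqL : q * Lam ≤ 1) (hLam : (lam : ℝ) ≤ s / 20 * Lam) :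
    ∑ S : Finset α, bw s S * ∑ Q : Finset α, bw q Q *
        loss M (Zc M lam V (sel (S ∩ T))) h (((Q ∩ T) \ S : Finset α) : Set α) ≤
      q * (T.card * (24 * Real.log lam / (lam * s) + Real.exp (-(s * Lam / 4)) + q * Lam) +
        20 * ν / s) := by
  classical
  have hselT : ∀ S : Finset α, sel (S ∩ T) ⊆ T := fun S =>
    (hsel _).trans Finset.inter_subset_right
  have hselE : ∀ S : Finset α, ((sel (S ∩ T) : Finset α) : Set α) ⊆ M.E := fun S =>
    (Finset.coe_subset.2 (hselT S)).trans hT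
  have hinner : ∀ S : Finset α, ∑ Q : Finset α, bw q Q *
      loss M (Zc M lam V (sel (S ∩ T))) h (((Q ∩ T) \ S : Finset α) : Set α) ≤
      q * (q * Lam * T.card +
        (rich M Lam (T : Set α) (Zc M lam V (sel (S ∩ T))) h).ncard) := by
    intro S
    have hZf := fun t => Zc_flat (M := M) (lam := lam) hV (hselE S) t
    have hZm := fun t => Zc_mono (M := M) (lam := lam) hmono (S := sel (S ∩ T)) t
    have h2 := thin_chain_loss (M := M) (Ω := Finset α) (fun Q => bw q Q)
      (fun Q => bw_nonneg hq hq1 Q) (fun Q => (((Q ∩ T) \ S : Finset α) : Set α)) (κ := q) hq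
      (T := (T : Set α)) (T' := ((T \ S : Finset α) : Set α)) (Lam := Lam) hqL
      (Finset.coe_subset.2 Finset.sdiff_subset) hZf hZm h
      (fun Q => by
        rw [Finset.coe_subset]
        intro x hx
        rw [Finset.mem_sdiff, Finset.mem_inter] at hx
        exact Finset.mem_sdiff.2 ⟨hx.1.2, hx.2⟩)
      (fun G hG => thin_eff T S q G hG)
    rw [sum_bw, mul_one] at h2
    refine h2.trans ?_
    refine mul_le_mul_of_nonneg_left ?_ hq
    have h3 : (((T \ S : Finset α) : Set α).ncard : ℝ) ≤ T.card := by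
      rw [Set.ncard_coe_finset]
      exact_mod_cast Finset.card_le_card Finset.sdiff_subset
    have h4 : 0 ≤ q * (Lam : ℝ) := mul_nonneg hq (Nat.cast_nonneg _)
    have h5 := mul_le_mul_of_nonneg_left h3 h4
    linarith
  have hrich := rich_expect_chain (M := M) T hT hV hmono h sel hsel hν hlam hLam0 h0 h1 hLam
  calc ∑ S : Finset α, bw s S * ∑ Q : Finset α, bw q Q *
        loss M (Zc M lam V (sel (S ∩ T))) h (((Q ∩ T) \ S : Finset α) : Set α)
      ≤ ∑ S : Finset α, bw s S * (q * (q * Lam * T.card +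
        (rich M Lam (T : Set α) (Zc M lam V (sel (S ∩ T))) h).ncard)) :=
        Finset.sum_le_sum fun S _ => mul_le_mul_of_nonneg_left (hinner S) (bw_nonneg h0.le h1 S)
    _ = q * (q * Lam * T.card + ∑ S : Finset α, bw s S *
        ((rich M Lam (T : Set α) (Zc M lam V (sel (S ∩ T))) h).ncard : ℝ)) := by
        have h2 : ∀ S : Finset α, bw s S * (q * (q * Lam * T.card +
            ((rich M Lam (T : Set α) (Zc M lam V (sel (S ∩ T))) h).ncard : ℝ))) =
            bw s S * (q * (q * Lam * T.card)) + q * (bw s S *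
            ((rich M Lam (T : Set α) (Zc M lam V (sel (S ∩ T))) h).ncard : ℝ)) := by
          intro S
          ring
        simp only [h2]
        rw [Finset.sum_add_distrib, ← Finset.sum_mul, sum_bw, ← Finset.mul_sum]
        ring
    _ ≤ q * (q * Lam * T.card + (T.card * (24 * Real.log lam / (lam * s) +
        Real.exp (-(s * Lam / 4))) + 20 * ν / s)) :=
        mul_le_mul_of_nonneg_left (by linarith) hq
    _ = _ := by ring

end Crest.Agent.MS
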