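import Crest.Agent.MS.Bins

/-!
Row 305 (S0468): exchange law, freshness of coins, Lemma G.  Author: helper41.
-/

set_option autoImplicit false

namespace Crest.Agent.MS

open Finset

namespace Dyn

variable {β L : Type*} [PartialOrder L] [Fintype β] [DecidableEq β] (D : Dyn β L)

omit [Fintype β] in
lemma run_update {X : List (Step β L)} {z : β} (hz : z ∉ elems X) (V : L) (c : β → Bool) (b : Bool) :
    D.run V X (Function.update c z b) = D.run V X c :=
  D.run_congr X V _ _ fun e he => by
    rw [Function.update_of_ne]; rintro rfl; exact hz he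

omit [Fintype β] in
lemma filt_update {X : List (Step β L)} {z : β} (hz : z ∉ elems X) (V : L) (c : β → Bool) (b : Bool) :
    D.filt V X (Function.update c z b) = D.filt V X c :=
  D.filt_congr X V _ _ fun e he => by
    rw [Function.update_of_ne]; rintro rfl; exact hz he

omit [Fintype β] in
lemma runY_update {X : List (Step β L)} {z : β} (hz : z ∉ elems X) (V Y : L) (c : β → Bool) (b : Bool) :
    D.runY V Y X (Function.update c z b) = D.runY V Y X c :=
  D.runY_congr X V Y _ _ fun e he => by
    rw [Function.update_of_ne]; rintro rfl; exact hz he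

omit [Fintype β] in
lemma run_bnot_update {X : List (Step β L)} {z : β} (hz : z ∉ elems X) (V : L) (c : β → Bool) (b : Bool) :
    D.run V X (bnot (Function.update c z b)) = D.run V X (bnot c) := by
  rw [bnot_update]; exact D.run_update hz V _ _

/-- EXCHANGE: the pair (W_0, Y_0) has the law of (f(A), f(R)). -/
theorem joint_law (X : List (Step β L)) (hX : (elems X).Nodup) (φ : L → L → ℝ) : ∀ (V Y : L),
    avg (fun c : β → Bool => φ (D.run V X c) (D.runY V Y X c)) =
      avg (fun c : β → Bool => φ (D.run V X c) (D.run Y X (bnot c))) := by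
  induction X with
  | nil => intro V Y; rfl
  | cons s X ih =>
    intro V Y
    cases s with
    | inl z =>
      simp only [elems, List.nodup_cons] at hX
      obtain ⟨hz, hX⟩ := hX
      rw [avg_split z, avg_split z (fun c : β → Bool => φ (D.run V (Sum.inl z :: X) c)
        (D.run Y (Sum.inl z :: X) (bnot c)))]
      simp only [run, runY, Function.update_self, bnot_update, Bool.not_true, Bool.not_false,
        Bool.false_eq_true, if_true, if_false, D.run_update hz, D.runY_update hz]
      by_cases hm : D.mem z V
      · simp only [if_pos hm, D.add_of_mem hm]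
        rw [ih hX V (D.add Y z), ih hX V Y]
        ring
      · simp only [if_neg hm]
        rw [ih hX (D.add V z) Y, ih hX V (D.add Y z)]
    | inr F =>
      simp only [elems] at hX
      simp only [run, runY]
      exact ih hX (F V) (F Y)

/-- law of `Y_0` = law of `W_0` -/
theorem exchange (X : List (Step β L)) (hX : (elems X).Nodup) (φ : L → ℝ) (V Y : L) :
    avg (fun c : β → Bool => φ (D.runY V Y X c)) =
      avg (fun c : β → Bool => φ (D.run Y X c)) := by
  rw [D.joint_law X hX (fun _ y => φ y) V Y]
  exact avg_bnot (fun c => φ (D.run Y X c))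

/-- FRESHNESS of the coins of the elements of level `≥ 1`. -/
theorem fresh (X : List (Step β L)) (hX : (elems X).Nodup) :
    ∀ (V : L) (Ψ : L → List (Step β L) → (β → Bool) → ℝ),
      (∀ v X', DependsOn' (Ψ v X') {e | e ∈ elems X'}) →
      avg (fun c : β → Bool => Ψ (D.run V X c) (D.filt V X c) c) =
        avg (fun c : β → Bool => avg (fun c' : β → Bool => Ψ (D.run V X c) (D.filt V X c) c')) := by
  induction X with
  | nil =>
    intro V Ψ hΨ
    simp only [run, filt]
    exact (avg_const _).symm
  | cons s X ih =>
    intro V Ψ hΨ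
    cases s with
    | inl z =>
      simp only [elems, List.nodup_cons] at hX
      obtain ⟨hz, hX⟩ := hX
      by_cases hm : D.mem z V
      · -- `z` passes to the next level
        have hrun : ∀ c : β → Bool, D.run V (Sum.inl z :: X) c = D.run V X c := by
          intro c
          simp only [run]
          split_ifs
          · rw [D.add_of_mem hm]
          · rfl
        have hfilt : ∀ c : β → Bool, D.filt V (Sum.inl z :: X) c = Sum.inl z :: D.filt V X c := by
          intro c
          simp only [filt, if_pos hm]
        simp only [hrun, hfilt]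
        have key : ∀ b : Bool,
            avg (fun c : β → Bool => Ψ (D.run V X c) (Sum.inl z :: D.filt V X c)
              (Function.update c z b)) =
            avg (fun c : β → Bool => avg (fun c' : β → Bool =>
              Ψ (D.run V X c) (Sum.inl z :: D.filt V X c) (Function.update c' z b))) := by
          intro b
          refine ih hX V (fun v X' c => Ψ v (Sum.inl z :: X') (Function.update c z b)) ?_
          intro v X' c c' h
          refine hΨ v _ _ _ ?_
          intro e he
          by_cases hez : e = z
          · subst hez; simp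
          · rw [Function.update_of_ne hez, Function.update_of_ne hez]
            apply h
            simp only [Set.mem_ofPred_eq, elems, List.mem_cons] at he ⊢
            exact he.resolve_left hez
        rw [avg_split z]
        simp only [D.run_update hz, D.filt_update hz]
        rw [key true, key false, ← avg_add, ← avg_div]
        refine avg_congr fun c => ?_
        exact (avg_split z (fun c' : β → Bool =>
          Ψ (D.run V X c) (Sum.inl z :: D.filt V X c) c')).symm
      · -- `z` stops at level 0
        rw [avg_split z, avg_split z (fun c : β → Bool => avg (fun c' : β → Bool =>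
          Ψ (D.run V (Sum.inl z :: X) c) (D.filt V (Sum.inl z :: X) c) c'))]
        simp only [run, filt, Function.update_self, if_neg hm, Bool.false_eq_true, if_true,
          if_false, D.run_update hz, D.filt_update hz]
        have h1 : ∀ (V : L) (b : Bool),
            avg (fun c : β → Bool => Ψ (D.run V X c) (D.filt V X c) (Function.update c z b)) =
            avg (fun c : β → Bool => Ψ (D.run V X c) (D.filt V X c) c) := by
          intro V b
          refine avg_congr fun c => ?_
          refine hΨ _ _ _ _ ?_
          intro e he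
          rw [Function.update_of_ne]
          intro h
          subst h
          exact hz (D.elems_filt_subset X V c _ he)
        rw [h1, h1, ih hX (D.add V z) Ψ hΨ, ih hX V Ψ hΨ]
    | inr F =>
      simp only [elems] at hX
      simp only [run, filt]
      refine ih hX (F V) (fun v X' c => Ψ v (Sum.inr F :: X') c) ?_
      intro v X' c c' h
      exact hΨ v _ _ _ (by simpa [elems] using h)

/-! ### Lemma G, one level -/

open Classical in
/-- indicator -/
noncomputable def ind (p : Prop) : ℝ := if p then 1 else 0

lemma ind_nonneg (p : Prop) : 0 ≤ ind p := by unfold ind; split_ifs <;> norm_num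

lemma ind_le_one (p : Prop) : ind p ≤ 1 := by unfold ind; split_ifs <;> norm_num

lemma ind_mono {p q : Prop} (h : p → q) : ind p ≤ ind q := by
  unfold ind
  split_ifs with h1 h2 <;> first | exact absurd (h h1) h2 | norm_num

lemma ind_congr {p q : Prop} (h : p ↔ q) : ind p = ind q := by rw [propext h]

variable (P : L → Prop)

/-- G functional -/
noncomputable def GG (V' V1 V2 : L) (X : List (Step β L)) : ℝ :=
  avg (fun c : β → Bool => ind (P (D.run3 V' V1 V2 X c).1 ∧ ¬ P (D.run3 V' V1 V2 X c).2.1 ∧
    ¬ P (D.run3 V' V1 V2 X c).2.2))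

/-- H functional -/
noncomputable def HH (V' V1 V2 : L) (X : List (Step β L)) : ℝ :=
  (avg (fun c : β → Bool => ind (P (D.run V1 X (bnot c)) ∧ ¬ P (D.run V' X c))) +
   avg (fun c : β → Bool => ind (P (D.run V2 X (bnot c)) ∧ ¬ P (D.run V' X c))) +
   avg (fun c : β → Bool => ind (¬ P (D.run V1 X c) ∧ ¬ P (D.run V2 X (bnot c)) ∧
      P (D.run V' X c))) +
   avg (fun c : β → Bool => ind (¬ P (D.run V2 X c) ∧ ¬ P (D.run V1 X (bnot c)) ∧
      P (D.run V' X c)))) / 2

omit [Fintype β] in
/-- swapping the colours -/
lemma swap_avg [Fintype β] (φ : (β → Bool) → (β → Bool) → ℝ) :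
    avg (fun c : β → Bool => φ c (bnot c)) = avg (fun c : β → Bool => φ (bnot c) c) := by
  have := avg_bnot (fun c : β → Bool => φ c (bnot c))
  rw [← this]
  simp only [bnot_bnot]

theorem HH_le_GG (hP : Monotone P) (X : List (Step β L)) (hX : (elems X).Nodup) :
    ∀ (V' V1 V2 : L), V1 ≤ V' → V2 ≤ V' → D.HH P V' V1 V2 X ≤ D.GG P V' V1 V2 X := by
  induction X with
  | nil =>
    intro V' V1 V2 h1 h2
    unfold HH GG
    simp only [run, run3]
    simp only [avg_const]
    have e1 : ind (P V1 ∧ ¬ P V') = 0 := by
      unfold ind; rw [if_neg]; exact fun h => h.2 (hP h1 h.1)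
    have e2 : ind (P V2 ∧ ¬ P V') = 0 := by
      unfold ind; rw [if_neg]; exact fun h => h.2 (hP h2 h.1)
    rw [e1, e2, ind_congr (p := ¬ P V1 ∧ ¬ P V2 ∧ P V') (q := P V' ∧ ¬ P V1 ∧ ¬ P V2) (by tauto),
      ind_congr (p := ¬ P V2 ∧ ¬ P V1 ∧ P V') (q := P V' ∧ ¬ P V1 ∧ ¬ P V2) (by tauto)]
    apply le_of_eq; ring
  | cons s X ih =>
    intro V' V1 V2 h1 h2
    cases s with
    | inl z =>
      simp only [elems, List.nodup_cons] at hX
      obtain ⟨hz, hX⟩ := hX
      have hr3 : ∀ (V' V1 V2 : L) (c : β → Bool) (b : Bool),
          D.run3 V' V1 V2 X (Function.update c z b) = D.run3 V' V1 V2 X c := by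
        intro V' V1 V2 c b
        exact D.run3_congr X V' V1 V2 _ _ fun e he => by
          rw [Function.update_of_ne]; rintro rfl; exact hz he
      -- expansion of HH
      have hH : D.HH P V' V1 V2 (Sum.inl z :: X) =
        (((avg (fun c : β → Bool => ind (P (D.run V1 X (bnot c)) ∧ ¬ P (D.run (D.add V' z) X c))) +
           avg (fun c : β → Bool => ind (P (D.run (D.add V1 z) X (bnot c)) ∧ ¬ P (D.run V' X c)))) / 2 +
          (avg (fun c : β → Bool => ind (P (D.run V2 X (bnot c)) ∧ ¬ P (D.run (D.add V' z) X c))) +
           avg (fun c : β → Bool => ind (P (D.run (D.add V2 z) X (bnot c)) ∧ ¬ P (D.run V' X c)))) / 2 +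
          (avg (fun c : β → Bool => ind (¬ P (D.run (D.add V1 z) X c) ∧ ¬ P (D.run V2 X (bnot c)) ∧
              P (D.run (D.add V' z) X c))) +
           avg (fun c : β → Bool => ind (¬ P (D.run V1 X c) ∧ ¬ P (D.run (D.add V2 z) X (bnot c)) ∧
              P (D.run V' X c)))) / 2 +
          (avg (fun c : β → Bool => ind (¬ P (D.run (D.add V2 z) X c) ∧ ¬ P (D.run V1 X (bnot c)) ∧
              P (D.run (D.add V' z) X c))) +
           avg (fun c : β → Bool => ind (¬ P (D.run V2 X c) ∧ ¬ P (D.run (D.add V1 z) X (bnot c)) ∧
              P (D.run V' X c)))) / 2) / 2) := by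
        unfold HH
        rw [avg_split z (fun c : β → Bool => ind (P (D.run V1 (Sum.inl z :: X) (bnot c)) ∧
              ¬ P (D.run V' (Sum.inl z :: X) c))),
            avg_split z (fun c : β → Bool => ind (P (D.run V2 (Sum.inl z :: X) (bnot c)) ∧
              ¬ P (D.run V' (Sum.inl z :: X) c))),
            avg_split z (fun c : β → Bool => ind (¬ P (D.run V1 (Sum.inl z :: X) c) ∧
              ¬ P (D.run V2 (Sum.inl z :: X) (bnot c)) ∧ P (D.run V' (Sum.inl z :: X) c))),
            avg_split z (fun c : β → Bool => ind (¬ P (D.run V2 (Sum.inl z :: X) c) ∧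
              ¬ P (D.run V1 (Sum.inl z :: X) (bnot c)) ∧ P (D.run V' (Sum.inl z :: X) c)))]
        simp only [run, Function.update_self, bnot_update, Bool.not_true, Bool.not_false,
          Bool.false_eq_true, if_true, if_false, D.run_update hz]
      have hG : D.GG P V' V1 V2 (Sum.inl z :: X) =
          (avg (fun c : β → Bool =>
            ind (P (D.run3 V' V1 V2 (Sum.inl z :: X) (Function.update c z true)).1 ∧
              ¬ P (D.run3 V' V1 V2 (Sum.inl z :: X) (Function.update c z true)).2.1 ∧
              ¬ P (D.run3 V' V1 V2 (Sum.inl z :: X) (Function.update c z true)).2.2)) +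
           avg (fun c : β → Bool =>
            ind (P (D.run3 V' V1 V2 (Sum.inl z :: X) (Function.update c z false)).1 ∧
              ¬ P (D.run3 V' V1 V2 (Sum.inl z :: X) (Function.update c z false)).2.1 ∧
              ¬ P (D.run3 V' V1 V2 (Sum.inl z :: X) (Function.update c z false)).2.2))) / 2 := by
        unfold GG
        exact avg_split z _
      rw [hG]
      by_cases hm : D.mem z V'
      · -- z in V'
        have hadd : D.add V' z = V' := D.add_of_mem hm
        have e1 : D.add V1 z ≤ V' := by rw [← hadd]; exact D.add_mono z h1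
        have e2 : D.add V2 z ≤ V' := by rw [← hadd]; exact D.add_mono z h2
        simp only [run3, if_pos hm, Function.update_self, Bool.false_eq_true, if_true, if_false, hr3]
        have i1 := ih hX V' (D.add V1 z) V2 e1 h2
        have i2 := ih hX V' V1 (D.add V2 z) h1 e2
        rw [hH]
        rw [hadd]
        unfold HH GG at i1 i2
        linarith
      · -- z not in V'
        simp only [run3, if_neg hm, Function.update_self, Bool.false_eq_true, if_true, if_false, hr3]
        have i1 := ih hX (D.add V' z) V1 V2 (h1.trans (D.le_add V' z)) (h2.trans (D.le_add V' z))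
        have i2 := ih hX V' V1 V2 h1 h2
        rw [hH]
        -- the key inequality
        -- abbreviations
        have kA1 : avg (fun c : β → Bool => ind (¬ P (D.run V1 X c) ∧ ¬ P (D.run V2 X (bnot c)) ∧
              P (D.run (D.add V' z) X c))) =
            avg (fun c : β → Bool => ind (¬ P (D.run (D.add V1 z) X c) ∧
              ¬ P (D.run V2 X (bnot c)) ∧ P (D.run (D.add V' z) X c))) +
            avg (fun c : β → Bool => ind (P (D.run (D.add V1 z) X (bnot c)) ∧
              ¬ P (D.run V1 X (bnot c)) ∧ ¬ P (D.run V2 X c))) := by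
          rw [← swap_avg (fun a b => ind (P (D.run (D.add V1 z) X a) ∧
              ¬ P (D.run V1 X a) ∧ ¬ P (D.run V2 X b))), ← avg_add]
          refine avg_congr fun c => ?_
          have m1 : P (D.run V1 X c) → P (D.run (D.add V1 z) X c) :=
            fun h => hP (D.run_mono X _ _ c (D.le_add V1 z)) h
          have m2 : P (D.run (D.add V1 z) X c) → P (D.run (D.add V' z) X c) :=
            fun h => hP (D.run_mono X _ _ c (D.add_mono z h1)) h
          unfold ind
          by_cases a1 : P (D.run V1 X c) <;> by_cases a2 : P (D.run (D.add V1 z) X c) <;>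
            by_cases a3 : P (D.run (D.add V' z) X c) <;> by_cases a4 : P (D.run V2 X (bnot c)) <;>
            simp_all
        have kA2 : avg (fun c : β → Bool => ind (¬ P (D.run V2 X c) ∧ ¬ P (D.run V1 X (bnot c)) ∧
              P (D.run (D.add V' z) X c))) =
            avg (fun c : β → Bool => ind (¬ P (D.run (D.add V2 z) X c) ∧
              ¬ P (D.run V1 X (bnot c)) ∧ P (D.run (D.add V' z) X c))) +
            avg (fun c : β → Bool => ind (P (D.run (D.add V2 z) X (bnot c)) ∧
              ¬ P (D.run V2 X (bnot c)) ∧ ¬ P (D.run V1 X c))) := by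
          rw [← swap_avg (fun a b => ind (P (D.run (D.add V2 z) X a) ∧
              ¬ P (D.run V2 X a) ∧ ¬ P (D.run V1 X b))), ← avg_add]
          refine avg_congr fun c => ?_
          have m1 : P (D.run V2 X c) → P (D.run (D.add V2 z) X c) :=
            fun h => hP (D.run_mono X _ _ c (D.le_add V2 z)) h
          have m2 : P (D.run (D.add V2 z) X c) → P (D.run (D.add V' z) X c) :=
            fun h => hP (D.run_mono X _ _ c (D.add_mono z h2)) h
          unfold ind
          by_cases a1 : P (D.run V2 X c) <;> by_cases a2 : P (D.run (D.add V2 z) X c) <;>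
            by_cases a3 : P (D.run (D.add V' z) X c) <;> by_cases a4 : P (D.run V1 X (bnot c)) <;>
            simp_all
        have kB1 : avg (fun c : β → Bool => ind (P (D.run (D.add V1 z) X (bnot c)) ∧
              ¬ P (D.run V' X c))) ≤
            avg (fun c : β → Bool => ind (P (D.run V1 X (bnot c)) ∧ ¬ P (D.run V' X c))) +
            avg (fun c : β → Bool => ind (P (D.run (D.add V1 z) X (bnot c)) ∧
              ¬ P (D.run V1 X (bnot c)) ∧ ¬ P (D.run V2 X c))) := by
          rw [← avg_add]
          refine avg_le fun c => ?_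
          have m1 : P (D.run V2 X c) → P (D.run V' X c) :=
            fun h => hP (D.run_mono X _ _ c h2) h
          unfold ind
          by_cases a1 : P (D.run V1 X (bnot c)) <;>
            by_cases a2 : P (D.run (D.add V1 z) X (bnot c)) <;>
            by_cases a3 : P (D.run V' X c) <;> by_cases a4 : P (D.run V2 X c) <;>
            simp_all
        have kB2 : avg (fun c : β → Bool => ind (P (D.run (D.add V2 z) X (bnot c)) ∧
              ¬ P (D.run V' X c))) ≤
            avg (fun c : β → Bool => ind (P (D.run V2 X (bnot c)) ∧ ¬ P (D.run V' X c))) +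
            avg (fun c : β → Bool => ind (P (D.run (D.add V2 z) X (bnot c)) ∧
              ¬ P (D.run V2 X (bnot c)) ∧ ¬ P (D.run V1 X c))) := by
          rw [← avg_add]
          refine avg_le fun c => ?_
          have m1 : P (D.run V1 X c) → P (D.run V' X c) :=
            fun h => hP (D.run_mono X _ _ c h1) h
          unfold ind
          by_cases a1 : P (D.run V2 X (bnot c)) <;>
            by_cases a2 : P (D.run (D.add V2 z) X (bnot c)) <;>
            by_cases a3 : P (D.run V' X c) <;> by_cases a4 : P (D.run V1 X c) <;>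
            simp_all
        have kC1 : avg (fun c : β → Bool => ind (¬ P (D.run V1 X c) ∧
              ¬ P (D.run (D.add V2 z) X (bnot c)) ∧ P (D.run V' X c))) ≤
            avg (fun c : β → Bool => ind (¬ P (D.run V1 X c) ∧ ¬ P (D.run V2 X (bnot c)) ∧
              P (D.run V' X c))) := by
          refine avg_le fun c => ind_mono ?_
          rintro ⟨a, b, d⟩
          exact ⟨a, fun h => b (hP (D.run_mono X _ _ _ (D.le_add V2 z)) h), d⟩
        have kC2 : avg (fun c : β → Bool => ind (¬ P (D.run V2 X c) ∧
              ¬ P (D.run (D.add V1 z) X (bnot c)) ∧ P (D.run V' X c))) ≤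
            avg (fun c : β → Bool => ind (¬ P (D.run V2 X c) ∧ ¬ P (D.run V1 X (bnot c)) ∧
              P (D.run V' X c))) := by
          refine avg_le fun c => ind_mono ?_
          rintro ⟨a, b, d⟩
          exact ⟨a, fun h => b (hP (D.run_mono X _ _ _ (D.le_add V1 z)) h), d⟩
        unfold HH GG at i1 i2
        linarith
    | inr F =>
      simp only [elems] at hX
      have := ih hX (F V') (F V1) (F V2) (F.monotone h1) (F.monotone h2)
      unfold HH GG at this ⊢
      simpa only [run, run3] using this


/-! ### levels -/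

/-- substream of the elements of level `≥ m` (all flats start from `b`), operators kept -/
noncomputable def strm (b : L) : ℕ → List (Step β L) → (β → Bool) → List (Step β L)
  | 0, X, _ => X
  | m + 1, X, c => D.filt b (strm b m X c) c

/-- flat `W_m` (final) -/
noncomputable def Wf (b : L) (m : ℕ) (X : List (Step β L)) (c : β → Bool) : L :=
  D.run b (D.strm b m X c) c

/-- flat `Y_m` (final) -/
noncomputable def Yf (b : L) (m : ℕ) (X : List (Step β L)) (c : β → Bool) : L :=
  D.runY b b (D.strm b m X c) c

omit [Fintype β] [DecidableEq β] in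
lemma elems_strm_subset (b : L) (X : List (Step β L)) (c : β → Bool) :
    ∀ (m : ℕ) (e : β), e ∈ elems (D.strm b m X c) → e ∈ elems X := by
  intro m
  induction m with
  | zero => intro e h; exact h
  | succ m ih => intro e h; exact ih e (D.elems_filt_subset _ _ _ _ h)

omit [Fintype β] [DecidableEq β] in
lemma nodup_strm (b : L) {X : List (Step β L)} (hX : (elems X).Nodup) (c : β → Bool) (m : ℕ) :
    (elems (D.strm b m X c)).Nodup := by
  induction m with
  | zero => exact hX
  | succ m ih => exact D.nodup_filt ih _ _

omit [Fintype β] [DecidableEq β] in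
lemma Wf_succ_le_Wf (b : L) (m : ℕ) (X : List (Step β L)) (c : β → Bool) :
    D.Wf b (m + 1) X c ≤ D.Wf b m X c :=
  D.run_filt_le _ _ _ _ le_rfl

omit [Fintype β] [DecidableEq β] in
lemma Wf_succ_le_Yf (b : L) (m : ℕ) (X : List (Step β L)) (c : β → Bool) :
    D.Wf b (m + 1) X c ≤ D.Yf b m X c :=
  D.run_filt_le_runY _ _ _ _ _ le_rfl

omit [Fintype β] [DecidableEq β] in
lemma Yf_succ_le_Wf (b : L) (m : ℕ) (X : List (Step β L)) (c : β → Bool) :
    D.Yf b (m + 1) X c ≤ D.Wf b m X c :=
  D.runY_filt_le _ _ _ _ _ le_rfl le_rfl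

/-- freshness of the coins of level `≥ m` -/
theorem level_fresh (b : L) (X : List (Step β L)) (hX : (elems X).Nodup) (m : ℕ) :
    ∀ (Ψ : List (Step β L) → (β → Bool) → ℝ),
      (∀ X', DependsOn' (Ψ X') {e | e ∈ elems X'}) →
      avg (fun c : β → Bool => Ψ (D.strm b m X c) c) =
        avg (fun c : β → Bool => avg (fun c' : β → Bool => Ψ (D.strm b m X c) c')) := by
  induction m with
  | zero =>
    intro Ψ _
    exact (avg_const _).symm
  | succ m ih =>
    intro Ψ hΨ
    have hsub : ∀ (X' : List (Step β L)) (c c' : β → Bool),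
        (∀ e ∈ elems X', c e = c' e) → D.filt b X' c = D.filt b X' c' :=
      fun X' c c' h => D.filt_congr X' b c c' h
    have e1 := ih (fun X' c => Ψ (D.filt b X' c) c) (by
      intro X' c c' h
      show Ψ (D.filt b X' c) c = Ψ (D.filt b X' c') c'
      rw [hsub X' c c' h]
      exact hΨ _ _ _ fun e he => h e (D.elems_filt_subset _ _ _ _ he))
    have e2 := ih (fun X' c => avg (fun c' : β → Bool => Ψ (D.filt b X' c) c')) (by
      intro X' c c' h
      show avg (fun c'' : β → Bool => Ψ (D.filt b X' c) c'') =
        avg (fun c'' : β → Bool => Ψ (D.filt b X' c') c'')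
      rw [hsub X' c c' h])
    show avg (fun c : β → Bool => Ψ (D.filt b (D.strm b m X c) c) c) =
      avg (fun c : β → Bool => avg (fun c' : β → Bool => Ψ (D.filt b (D.strm b m X c) c) c'))
    rw [e1, e2]
    refine avg_congr fun c => ?_
    exact D.fresh (D.strm b m X c) (D.nodup_strm b hX c m) b (fun _ X' c => Ψ X' c)
      (fun _ X' => hΨ X')

/-- EXCHANGE at level 0 -/
theorem exchange_zero (b : L) (X : List (Step β L)) (hX : (elems X).Nodup) (φ : L → ℝ) :
    avg (fun c : β → Bool => φ (D.Yf b 0 X c)) = avg (fun c : β → Bool => φ (D.Wf b 0 X c)) :=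
  D.exchange X hX φ b b

/-- EXCHANGE at level `m + 1`, jointly with `W_m` -/
theorem exchange_succ (b : L) (X : List (Step β L)) (hX : (elems X).Nodup) (m : ℕ)
    (φ : L → L → ℝ) :
    avg (fun c : β → Bool => φ (D.Wf b m X c) (D.Yf b (m + 1) X c)) =
      avg (fun c : β → Bool => φ (D.Wf b m X c) (D.Wf b (m + 1) X c)) := by
  have h1 := D.level_fresh b X hX m
    (fun X' c => φ (D.run b X' c) (D.runY b b (D.filt b X' c) c)) (by
      intro X' c c' h
      show φ (D.run b X' c) (D.runY b b (D.filt b X' c) c) =
        φ (D.run b X' c') (D.runY b b (D.filt b X' c') c')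
      rw [D.run_congr X' b c c' h, D.filt_congr X' b c c' h,
        D.runY_congr _ b b c c' fun e he => h e (D.elems_filt_subset _ _ _ _ he)])
  have h2 := D.level_fresh b X hX m
    (fun X' c => φ (D.run b X' c) (D.run b (D.filt b X' c) c)) (by
      intro X' c c' h
      show φ (D.run b X' c) (D.run b (D.filt b X' c) c) =
        φ (D.run b X' c') (D.run b (D.filt b X' c') c')
      rw [D.run_congr X' b c c' h, D.filt_congr X' b c c' h,
        D.run_congr _ b c c' fun e he => h e (D.elems_filt_subset _ _ _ _ he)])
  show avg (fun c : β → Bool => φ (D.run b (D.strm b m X c) c)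
      (D.runY b b (D.filt b (D.strm b m X c) c) c)) =
    avg (fun c : β → Bool => φ (D.run b (D.strm b m X c) c)
      (D.run b (D.filt b (D.strm b m X c) c) c))
  rw [h1, h2]
  refine avg_congr fun c => ?_
  have hn := D.nodup_strm b hX c m
  have f1 := D.fresh (D.strm b m X c) hn b (fun v X' c => φ v (D.runY b b X' c))
    (fun v X' c c' h => by
      show φ v (D.runY b b X' c) = φ v (D.runY b b X' c')
      rw [D.runY_congr X' b b c c' h])
  have f2 := D.fresh (D.strm b m X c) hn b (fun v X' c => φ v (D.run b X' c))
    (fun v X' c c' h => by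
      show φ v (D.run b X' c) = φ v (D.run b X' c')
      rw [D.run_congr X' b c c' h])
  rw [f1, f2]
  refine avg_congr fun c' => ?_
  exact D.exchange _ (D.nodup_filt hn _ _) (φ (D.run b (D.strm b m X c) c')) b b

omit [Fintype β] [DecidableEq β] in
lemma bnot_congr {S : List β} {c c' : β → Bool} (h : ∀ e ∈ S, c e = c' e) :
    ∀ e ∈ S, bnot c e = bnot c' e := fun e he => by simp [bnot, h e he]

/-- one level of Lemma G: `P(x ∈ Y_0 \ W_0) ≤ P(x ∈ W_0, x ∉ W_1 ∪ Y_1)`. -/
theorem one_level (hP : Monotone P) (b : L) (X : List (Step β L)) (hX : (elems X).Nodup) :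
    avg (fun c : β → Bool => ind (P (D.runY b b X c) ∧ ¬ P (D.run b X c))) ≤
      avg (fun c : β → Bool => ind (P (D.run b X c) ∧ ¬ P (D.run b (D.filt b X c) c) ∧
        ¬ P (D.runY b b (D.filt b X c) c))) := by
  have e1 := D.joint_law X hX (fun w y => ind (P y ∧ ¬ P w)) b b
  rw [e1]
  have hH : D.HH P b b b X =
      avg (fun c : β → Bool => ind (P (D.run b X (bnot c)) ∧ ¬ P (D.run b X c))) := by
    unfold HH
    have z : ∀ c : β → Bool, ind (¬ P (D.run b X c) ∧ ¬ P (D.run b X (bnot c)) ∧
        P (D.run b X c)) = 0 := by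
      intro c; unfold ind; rw [if_neg]; tauto
    rw [avg_congr z, avg_const]
    ring
  rw [← hH]
  refine (D.HH_le_GG P hP X hX b b b le_rfl le_rfl).trans (le_of_eq ?_)
  unfold GG
  simp only [D.run3_eq]
  have f1 := D.fresh X hX b (fun v X' c => ind (P v ∧ ¬ P (D.run b X' c) ∧
      ¬ P (D.run b X' (bnot c))))
    (fun v X' c c' h => by
      show ind _ = ind _
      rw [D.run_congr X' b c c' h, D.run_congr X' b (bnot c) (bnot c') (bnot_congr h)])
  have f2 := D.fresh X hX b (fun v X' c => ind (P v ∧ ¬ P (D.run b X' c) ∧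
      ¬ P (D.runY b b X' c)))
    (fun v X' c c' h => by
      show ind _ = ind _
      rw [D.run_congr X' b c c' h, D.runY_congr X' b b c c' h])
  rw [f1, f2]
  refine avg_congr fun c => ?_
  exact (D.joint_law (D.filt b X c) (D.nodup_filt hX _ _)
    (fun w y => ind (P (D.run b X c) ∧ ¬ P w ∧ ¬ P y)) b b).symm

/-- bad event at level `m`: `x ∈ Y_m \ W_m` -/
def Bad (b : L) (X : List (Step β L)) (m : ℕ) (c : β → Bool) : Prop :=
  P (D.Yf b m X c) ∧ ¬ P (D.Wf b m X c)

/-- good event at level `m`: `x` has level `m` (`x ∈ W_{m-1} \ W_m`) and `x ∉ Y_m` -/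
def Good (b : L) (X : List (Step β L)) : ℕ → (β → Bool) → Prop
  | 0, c => ¬ P (D.Wf b 0 X c) ∧ ¬ P (D.Yf b 0 X c)
  | m + 1, c => P (D.Wf b m X c) ∧ ¬ P (D.Wf b (m + 1) X c) ∧ ¬ P (D.Yf b (m + 1) X c)

theorem bad_le_good (hP : Monotone P) (b : L) (X : List (Step β L)) (hX : (elems X).Nodup)
    (m : ℕ) :
    avg (fun c : β → Bool => ind (D.Bad P b X m c)) ≤
      avg (fun c : β → Bool => ind (D.Good P b X (m + 1) c)) := by
  have h1 := D.level_fresh b X hX m
    (fun X' c => ind (P (D.runY b b X' c) ∧ ¬ P (D.run b X' c))) (by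
      intro X' c c' h
      show ind _ = ind _
      rw [D.run_congr X' b c c' h, D.runY_congr X' b b c c' h])
  have h2 := D.level_fresh b X hX m
    (fun X' c => ind (P (D.run b X' c) ∧ ¬ P (D.run b (D.filt b X' c) c) ∧
        ¬ P (D.runY b b (D.filt b X' c) c))) (by
      intro X' c c' h
      show ind _ = ind _
      rw [D.run_congr X' b c c' h, D.filt_congr X' b c c' h,
        D.run_congr _ b c c' fun e he => h e (D.elems_filt_subset _ _ _ _ he),
        D.runY_congr _ b b c c' fun e he => h e (D.elems_filt_subset _ _ _ _ he)])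
  show avg (fun c : β → Bool => ind (P (D.runY b b (D.strm b m X c) c) ∧
      ¬ P (D.run b (D.strm b m X c) c))) ≤
    avg (fun c : β → Bool => ind (P (D.run b (D.strm b m X c) c) ∧
      ¬ P (D.run b (D.filt b (D.strm b m X c) c) c) ∧
      ¬ P (D.runY b b (D.filt b (D.strm b m X c) c) c)))
  rw [h1, h2]
  refine avg_le fun c => ?_
  exact D.one_level P hP b _ (D.nodup_strm b hX c m)

/-- LEMMA G: at least half of the mass of `{x ∉ W_M}` is good. -/
theorem lemma_G (hP : Monotone P) (b : L) (X : List (Step β L)) (hX : (elems X).Nodup) (M : ℕ) :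
    avg (fun c : β → Bool => ind (¬ P (D.Wf b M X c))) ≤
      2 * ∑ m ∈ Finset.range (M + 2), avg (fun c : β → Bool => ind (D.Good P b X m c)) := by
  have key : ∀ c : β → Bool, ind (¬ P (D.Wf b M X c)) =
      ∑ m ∈ Finset.range (M + 1), (ind (D.Good P b X m c) + ind (D.Bad P b X m c)) := by
    intro c
    induction M with
    | zero =>
      simp only [Finset.sum_range_succ, Finset.range_zero, Finset.sum_empty, zero_add]
      unfold Good Bad ind
      by_cases a1 : P (D.Wf b 0 X c) <;> by_cases a2 : P (D.Yf b 0 X c) <;> simp_all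
    | succ M ih =>
      rw [Finset.sum_range_succ, ← ih]
      have m1 : P (D.Wf b (M + 1) X c) → P (D.Wf b M X c) :=
        fun h => hP (D.Wf_succ_le_Wf b M X c) h
      have m2 : P (D.Yf b (M + 1) X c) → P (D.Wf b M X c) :=
        fun h => hP (D.Yf_succ_le_Wf b M X c) h
      unfold Good Bad ind
      by_cases a1 : P (D.Wf b (M + 1) X c) <;> by_cases a2 : P (D.Yf b (M + 1) X c) <;>
        by_cases a3 : P (D.Wf b M X c) <;> simp_all
  rw [avg_congr key, avg_sum]
  have e : ∀ m, avg (fun c : β → Bool => ind (D.Good P b X m c) + ind (D.Bad P b X m c)) =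
      avg (fun c : β → Bool => ind (D.Good P b X m c)) +
      avg (fun c : β → Bool => ind (D.Bad P b X m c)) := fun m => avg_add _ _
  rw [Finset.sum_congr rfl fun m _ => e m, Finset.sum_add_distrib]
  have h1 : ∑ m ∈ Finset.range (M + 1), avg (fun c : β → Bool => ind (D.Good P b X m c)) ≤
      ∑ m ∈ Finset.range (M + 2), avg (fun c : β → Bool => ind (D.Good P b X m c)) := by
    rw [Finset.sum_range_succ _ (M + 1)]
    have : 0 ≤ avg (fun c : β → Bool => ind (D.Good P b X (M + 1) c)) :=
      avg_nonneg fun c => ind_nonneg _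
    linarith
  have h2 : ∑ m ∈ Finset.range (M + 1), avg (fun c : β → Bool => ind (D.Bad P b X m c)) ≤
      ∑ m ∈ Finset.range (M + 2), avg (fun c : β → Bool => ind (D.Good P b X m c)) := by
    rw [Finset.sum_range_succ' _ (M + 1)]
    have h0 : 0 ≤ avg (fun c : β → Bool => ind (D.Good P b X 0 c)) :=
      avg_nonneg fun c => ind_nonneg _
    have : ∑ m ∈ Finset.range (M + 1), avg (fun c : β → Bool => ind (D.Bad P b X m c)) ≤
        ∑ m ∈ Finset.range (M + 1), avg (fun c : β → Bool => ind (D.Good P b X (m + 1) c)) :=
      Finset.sum_le_sum fun m _ => D.bad_le_good P hP b X hX m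
    linarith
  linarith

end Dyn

end Crest.Agent.MS
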