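import Crest.Agent.MS.Locality
import Crest.Agent.MS.Glue

/-!
# Row 305 (S0468): the algorithm and the process: `Locality`
-/

set_option autoImplicit false
set_option linter.unusedSectionVars false

namespace Crest.Agent.MS

open Set

variable {k : ℕ} {M : Matroid (Fin k)} {lam : ℕ} {L : Lab k}

/-- the process of the full pattern -/
noncomputable def procP (M : Matroid (Fin k)) (lam : ℕ) (hlam : 1 ≤ lam) (L : Lab k) (π : Pat k)
    (b : ℤ) : ProcData M :=
  proc M lam hlam (TP M L π) (clsN π b) L.S L.Q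

variable {hlam : 1 ≤ lam} {π : Pat k} {b : ℤ}

theorem clsN_eq_iff (hb : ∀ e ∈ PopP M π, b ≤ ciP π e) {e : Fin k} (he : e ∈ PopP M π) (i : ℕ) :
    clsN π b e = i ↔ ciP π e = b + i := by
  have := hb e he
  unfold clsN
  omega

theorem TP_subset_PopP : TP M L π ⊆ PopP M π := Timp_subset _ _ _ _

theorem sel_eq (hb : ∀ e ∈ PopP M π, b ≤ ciP π e) (i : ℕ) :
    L.S ∩ clsOf (TP M L π) (clsN π b) i =
      L.S ∩ (visP M L π).filter (fun e => ciP π e = b + i) := by
  ext e
  simp only [Finset.mem_inter, clsOf, Finset.mem_filter, mem_visP]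
  constructor
  · rintro ⟨h1, h2, h3⟩
    exact ⟨h1, ⟨h2, Or.inl h1⟩, (clsN_eq_iff hb (TP_subset_PopP h2) i).1 h3⟩
  · rintro ⟨h1, ⟨h2, -⟩, h3⟩
    exact ⟨h1, h2, (clsN_eq_iff hb (TP_subset_PopP h2) i).2 h3⟩

theorem mem_procP_Q {i : ℕ} {z : Fin k} : z ∈ (procP M lam hlam L π b).Q i ↔
    z ∈ L.Q ∧ z ∈ TP M L π ∧ clsN π b z = i ∧ z ∉ L.S := mem_proc_Q

/-- the flats of the process are the flats of the algorithm -/
theorem procP_WV (hb : ∀ e ∈ PopP M π, b ≤ ciP π e) (i : ℕ) :
    (∀ m, (procP M lam hlam L π b).W L.c i m = wit M lam L (visP M L π) (ciP π) b i m) ∧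
    (∀ m, (procP M lam hlam L π b).V L.c i m =
      vst M lam L (visP M L π) (ciP π) (b + i) (wit M lam L (visP M L π) (ciP π) b i) m) := by
  have hV : ∀ i, (∀ m, (procP M lam hlam L π b).W L.c i m =
      wit M lam L (visP M L π) (ciP π) b i m) → ∀ m, (procP M lam hlam L π b).V L.c i m =
        vst M lam L (visP M L π) (ciP π) (b + i) (wit M lam L (visP M L π) (ciP π) b i) m := by
    intro i ih m
    unfold ProcData.V vst
    rw [ih m]
    show Fop M lam ((selB M (L.S ∩ clsOf (TP M L π) (clsN π b) i) : Finset (Fin k)) :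
      Set (Fin k)) _ = _
    rw [sel_eq hb]
  have hW : ∀ i m, (procP M lam hlam L π b).W L.c i m =
      wit M lam L (visP M L π) (ciP π) b i m := by
    intro i
    induction i with
    | zero =>
      intro m
      have h : ∀ m, (FPair.dyn M).strm (FPair.bot M) m [] L.c = [] := by
        intro m
        induction m with
        | zero => rfl
        | succ m ih => simp only [Dyn.strm]; rw [ih]; rfl
      show ((FPair.dyn M).Wf (FPair.bot M) m [] L.c).cur = M.closure ∅
      unfold Dyn.Wf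
      rw [h m]
      rfl
    | succ i ih =>
      intro m
      rw [ProcData.W_succ_eq', hV i ih]
      show M.closure _ = M.closure _
      congr 2
      ext z
      cases m with
      | zero =>
        simp only [ProcData.reach, mem_ofPred_eq, true_or, and_true, mem_visP, mem_procP_Q]
        constructor
        · rintro ⟨⟨h1, h2, h3, h4⟩, h5⟩
          exact ⟨⟨h2, Or.inr ⟨h1, h5⟩⟩, (clsN_eq_iff hb (TP_subset_PopP h2) i).1 h3, h1, h4, h5⟩
        · rintro ⟨⟨h2, -⟩, h3, h1, h4, h5⟩
          exact ⟨⟨h1, h2, (clsN_eq_iff hb (TP_subset_PopP h2) i).2 h3, h4⟩, h5⟩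
      | succ m =>
        simp only [ProcData.reach, mem_ofPred_eq, mem_visP, Nat.add_sub_cancel, hV i ih,
          mem_procP_Q]
        constructor
        · rintro ⟨⟨⟨h1, h2, h3, h4⟩, h6⟩, h5⟩
          exact ⟨⟨⟨h2, Or.inr ⟨h1, h5⟩⟩, (clsN_eq_iff hb (TP_subset_PopP h2) i).1 h3, h1, h4,
            h5⟩, Or.inr h6⟩
        · rintro ⟨⟨⟨h2, -⟩, h3, h1, h4, h5⟩, h6⟩
          rcases h6 with h6 | h6
          · omega
          · exact ⟨⟨⟨h1, h2, (clsN_eq_iff hb (TP_subset_PopP h2) i).2 h3, h4⟩, h6⟩, h5⟩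
  exact ⟨hW i, hV i (hW i)⟩

theorem visP_base (hb : ∀ e ∈ PopP M π, b ≤ ciP π e) : ∀ z ∈ visP M L π, b ≤ ciP π z := by
  intro z hz
  rw [mem_visP] at hz
  exact hb z (TP_subset_PopP hz.1)

/-- flats at the start of class `b + i` -/
theorem vP_eq_V (hb : ∀ e ∈ PopP M π, b ≤ ciP π e) (i m : ℕ) :
    vP M lam L π (b + i) m = (procP M lam hlam L π b).V L.c i m := by
  rw [(procP_WV hb i).2]
  unfold vP
  have h1 : wlowP M lam L π (b + i) = wit M lam L (visP M L π) (ciP π) b i := by
    funext m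
    rw [wlowP_eq (visP_base hb) (by omega)]
    congr 1
    omega
  rw [h1]

/-- the final flats -/
theorem wfinP_eq_W {n : ℕ} (hb : ∀ e ∈ PopP M π, b ≤ ciP π e ∧ ciP π e < b + n) (m : ℕ) :
    wfinP M lam L π m = (procP M lam hlam L π b).W L.c n m := by
  have hb' : ∀ e ∈ PopP M π, b ≤ ciP π e := fun e he => (hb e he).1
  rw [(procP_WV hb' n).1]
  have hlt : ∀ z ∈ visP M L π, ciP π z < b + n := by
    intro z hz
    rw [mem_visP] at hz
    exact (hb z (TP_subset_PopP hz.1)).2
  by_cases hne : (visP M L π).Nonempty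
  · have h1 : topP M L π ≤ b + n := by
      classical
      unfold topP
      have h1 : ((visP M L π).image (ciP π)).Nonempty := hne.image _
      rw [dif_pos h1]
      have h2 := Finset.max'_mem _ h1
      rw [Finset.mem_image] at h2
      obtain ⟨z, hz, hz'⟩ := h2
      rw [← hz']
      have := hlt z hz
      omega
    rw [← wlowP_of_top_le h1, wlowP_eq (visP_base hb') (by omega)]
    congr 1
    omega
  · rw [Finset.not_nonempty_iff_eq_empty] at hne
    unfold wfinP wlowP
    rw [wit_empty hne, wit_empty hne]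

/-- the candidates of a slot -/
theorem mem_cand_iff {B G D : ℕ} {r : Seed k G D} {A : Finset (Fin k)} {w : Fin k → ℝ}
    {m : ℕ} {e : Fin k} (hb : ∀ e ∈ PopP M (pat B w), b ≤ ciP (pat B w) e) :
    e ∈ cand (algD M lam B G D r A (resA A w)) A w m ↔
      decide (m % 2 = 1) = parS r ∧ ∃ i : ℕ, ciP (pat B w) e = b + i ∧
        e ∈ (procP M lam hlam (labS r A) (pat B w) b).Cel (labS r A).c i m := by
  have hcand : e ∈ cand (algD M lam B G D r A (resA A w)) A w m ↔
      e ∉ A ∧ (algD M lam B G D r A (resA A w)).slot e (w e) = some m := Iff.rfl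
  rw [hcand, algD_slot, slotP_eq_some]
  constructor
  · rintro ⟨hA, ⟨h1, h2, h3, h4⟩, ⟨h5, h6⟩, h7⟩
    have h8 := hb e (TP_subset_PopP h1)
    obtain ⟨i, hi⟩ : ∃ i : ℕ, ciP (pat B w) e = b + i :=
      ⟨(ciP (pat B w) e - b).toNat, by omega⟩
    refine ⟨h7, i, hi, ⟨⟨?_, ?_⟩, h4⟩⟩
    · have hQ : e ∈ (procP M lam hlam (labS r A) (pat B w) b).Q i := by
        rw [mem_procP_Q]
        exact ⟨h3, h1, (clsN_eq_iff hb (TP_subset_PopP h1) i).2 hi, h2⟩
      cases m with
      | zero => exact hQ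
      | succ m =>
        refine ⟨hQ, ?_⟩
        have := h6 m (Nat.lt_succ_self m)
        rw [hi, vP_eq_V (hlam := hlam) hb] at this
        exact this
    · rw [hi, vP_eq_V (hlam := hlam) hb] at h5
      exact h5
  · rintro ⟨h7, i, hi, ⟨h1, h2⟩, h4⟩
    have hQ := (procP M lam hlam (labS r A) (pat B w) b).reach_subset _ _ _ h1
    rw [mem_ofPred_eq, mem_procP_Q] at hQ
    obtain ⟨h3, h5, h6, h8⟩ := hQ
    have hl : (labS r A).l e = Co.T := (mem_TP.1 h5).2.1
    refine ⟨(labS_cons r A).real e hl h8 h3 h4, ⟨h5, h8, h3, h4⟩, ⟨?_, ?_⟩, h7⟩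
    · rw [hi, vP_eq_V (hlam := hlam) hb]
      exact h2
    · intro m' hm'
      rw [hi, vP_eq_V (hlam := hlam) hb]
      have h9 := (procP M lam hlam (labS r A) (pat B w) b).reach_anti (labS r A).c i
        (Nat.succ_le_of_lt hm') h1
      exact h9.2

/-- **Locality** -/
theorem locality (M : Matroid (Fin k)) : Locality M := by
  intro w hw b n hbn A r i hi m
  have hb : ∀ e ∈ PopP M (pat BB w), b ≤ ciP (pat BB w) e := fun e he => (hbn e he).1
  set π := pat BB w with hπ
  set L := labS r A with hL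
  set P := procP M LL one_le_LL L π b with hP
  have hbar : (algD M LL BB GG0 DD0 r A (resA A w)).bar m = P.W L.c n (m + 1) := by
    rw [algD_bar]
    exact wfinP_eq_W hbn (m + 1)
  unfold gain
  rw [hbar]
  split_ifs with hpar
  · have hle : {e | e ∈ cand (algD M LL BB GG0 DD0 r A (resA A w)) A w m ∧ ciP π e ≤ b + i} =
        P.Dl L.c i m ∪ P.Cel L.c i m := by
      ext e
      simp only [mem_ofPred_eq, mem_union, ProcData.Dl, mem_iUnion, mem_Iio, exists_prop]
      rw [mem_cand_iff (hlam := one_le_LL) hb]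
      constructor
      · rintro ⟨⟨-, i', h1, h2⟩, h3⟩
        change ciP π e = b + i' at h1
        rcases Nat.lt_or_ge i' i with h4 | h4
        · exact Or.inl ⟨i', h4, h2⟩
        · have h5 : i' = i := by omega
          subst h5
          exact Or.inr h2
      · rintro (⟨i', h1, h2⟩ | h2)
        · have hQ := P.reach_subset _ _ _ h2.1.1
          rw [mem_ofPred_eq, hP, mem_procP_Q] at hQ
          have h3 := (clsN_eq_iff hb (TP_subset_PopP hQ.2.1) i').1 hQ.2.2.1
          exact ⟨⟨hpar, i', h3, h2⟩, by omega⟩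
        · have hQ := P.reach_subset _ _ _ h2.1.1
          rw [mem_ofPred_eq, hP, mem_procP_Q] at hQ
          have h3 := (clsN_eq_iff hb (TP_subset_PopP hQ.2.1) i).1 hQ.2.2.1
          exact ⟨⟨hpar, i, h3, h2⟩, by omega⟩
    have hlt : {e | e ∈ cand (algD M LL BB GG0 DD0 r A (resA A w)) A w m ∧ ciP π e < b + i} =
        P.Dl L.c i m := by
      ext e
      simp only [mem_ofPred_eq, ProcData.Dl, mem_iUnion, mem_Iio, exists_prop]
      rw [mem_cand_iff (hlam := one_le_LL) hb]
      constructor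
      · rintro ⟨⟨-, i', h1, h2⟩, h3⟩
        change ciP π e = b + i' at h1
        exact ⟨i', by omega, h2⟩
      · rintro ⟨i', h1, h2⟩
        have hQ := P.reach_subset _ _ _ h2.1.1
        rw [mem_ofPred_eq, hP, mem_procP_Q] at hQ
        have h3 := (clsN_eq_iff hb (TP_subset_PopP hQ.2.1) i').1 hQ.2.2.1
        exact ⟨⟨hpar, i', h3, h2⟩, by omega⟩
    rw [hle, hlt, ← union_assoc]
    rfl
  · have hle : {e | e ∈ cand (algD M LL BB GG0 DD0 r A (resA A w)) A w m ∧ ciP π e ≤ b + i} =
        ∅ := by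
      ext e
      simp only [mem_ofPred_eq, mem_empty_iff_false, iff_false]
      rw [mem_cand_iff (hlam := one_le_LL) hb]
      rintro ⟨⟨h, -⟩, -⟩
      exact hpar h
    have hlt : {e | e ∈ cand (algD M LL BB GG0 DD0 r A (resA A w)) A w m ∧ ciP π e < b + i} =
        ∅ := by
      ext e
      simp only [mem_ofPred_eq, mem_empty_iff_false, iff_false]
      rw [mem_cand_iff (hlam := one_le_LL) hb]
      rintro ⟨⟨h, -⟩, -⟩
      exact hpar h
    rw [hle, hlt, sub_self]

end Crest.Agent.MS
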