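import Crest.Agent.MS.Flats

/-!
# Row 305 (S0468): locality of the concrete algorithm and nestedness of its slots
-/

set_option autoImplicit false
set_option linter.unusedSectionVars false

namespace Crest.Agent.MS

open Set

variable {k : ℕ} {M : Matroid (Fin k)} {lam : ℕ} {L : Lab k}

/-! ### the order -/

theorem ltP_irrefl (π : Pat k) (e : Fin k) : ¬ ltP π e e := by
  rintro (h | ⟨-, h⟩)
  · exact lt_irrefl _ h
  · exact lt_irrefl _ h

theorem ltP_trans {π : Pat k} {e f g : Fin k} (h : ltP π e f) (h' : ltP π f g) : ltP π e g := by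
  unfold ltP at *
  rcases h with h | ⟨h1, h2⟩ <;> rcases h' with h' | ⟨h1', h2'⟩
  · left; omega
  · left; omega
  · left; omega
  · right; exact ⟨h1.trans h1', h2.trans h2'⟩

theorem ltP_trichotomy (π : Pat k) (e f : Fin k) : ltP π e f ∨ e = f ∨ ltP π f e := by
  unfold ltP
  rcases lt_trichotomy (π e).2 (π f).2 with h | h | h
  · left; left; exact h
  · rcases lt_trichotomy e f with h' | h' | h'
    · left; right; exact ⟨h, h'⟩
    · right; left; exact h'
    · right; right; right; exact ⟨h.symm, h'⟩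
  · right; right; left; exact h

theorem ordP_lt_of_ltP {π : Pat k} {e f : Fin k} (h : ltP π e f) : ordP π e < ordP π f := by
  unfold ordP
  refine Finset.card_lt_card ?_
  rw [Finset.ssubset_iff_of_subset]
  · exact ⟨e, by simp [h], by simp [ltP_irrefl]⟩
  · intro g hg
    rw [Finset.mem_filter] at hg ⊢
    exact ⟨hg.1, ltP_trans hg.2 h⟩

theorem ordP_lt_iff {π : Pat k} {e f : Fin k} : ordP π e < ordP π f ↔ ltP π e f := by
  constructor
  · intro h
    rcases ltP_trichotomy π e f with h' | h' | h'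
    · exact h'
    · subst h'; exact absurd h (lt_irrefl _)
    · exact absurd (ordP_lt_of_ltP h') (by omega)
  · exact ordP_lt_of_ltP

theorem ciP_le_of_ordP {π : Pat k} {e f : Fin k} (h : ordP π e < ordP π f) :
    ciP π e ≤ ciP π f := by
  rw [ordP_lt_iff] at h
  unfold ciP
  rcases h with h | ⟨h, -⟩
  · exact h.le
  · exact h.le

/-! ### locality -/

/-- consistency of the labels with the sample set -/
structure Cons (L : Lab k) (A : Finset (Fin k)) : Prop where
  H : ∀ e, L.l e = Co.H → e ∈ A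
  vis : ∀ e, L.l e = Co.T → (e ∈ L.S ∨ (e ∈ L.Q ∧ L.c e = true)) → e ∈ A
  real : ∀ e, L.l e = Co.T → e ∉ L.S → e ∈ L.Q → L.c e = false → e ∉ A

theorem labS_cons {G D : ℕ} (r : Seed k G D) (A : Finset (Fin k)) : Cons (labS r A) A where
  H e h := by
    simp only [labS, lcS] at h
    split_ifs at h
    assumption
  vis e h h' := by
    simp only [labS, lcS] at h
    simp only [labS, Finset.mem_filter, Finset.mem_univ, true_and] at h'
    split_ifs at h with h1 h2
    have h3 : stS r e = true := by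
      unfold stS
      rcases h' with h' | ⟨h', h''⟩
      · rw [h']; rfl
      · rw [h', h'']; simp
    rw [h3] at h2
    simpa using h2
  real e h hS hQ hc := by
    simp only [labS, lcS] at h
    simp only [labS, Finset.mem_filter, Finset.mem_univ, true_and] at hS hQ hc
    split_ifs at h with h1 h2
    have h3 : stS r e = false := by
      unfold stS
      rw [hc]
      simp [hS]
    rw [h3] at h2
    simpa using h2

theorem mem_PopP {π : Pat k} {e : Fin k} : e ∈ PopP M π ↔ e ∈ M.E ∧ (π e).1 = true := by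
  classical
  unfold PopP
  simp

theorem mem_TP {π : Pat k} {e : Fin k} : e ∈ TP M L π ↔
    (e ∈ M.E ∧ (π e).1 = true) ∧ L.l e = Co.T ∧
      e ∉ M.closure {f | (f ∈ M.E ∧ (π f).1 = true) ∧ L.l f = Co.H ∧ ltP π e f} := by
  unfold TP
  rw [mem_Timp, mem_PopP]
  simp only [mem_PopP, ordP_lt_iff]

theorem mem_TP_congr {A : Finset (Fin k)} (hL : Cons L A) {π π' : Pat k}
    (hπ : ∀ e ∈ A, π e = π' e) {e : Fin k} (he : π e = π' e) :
    e ∈ TP M L π ↔ e ∈ TP M L π' := by
  rw [mem_TP, mem_TP]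
  have h1 : {f | (f ∈ M.E ∧ (π f).1 = true) ∧ L.l f = Co.H ∧ ltP π e f} =
      {f | (f ∈ M.E ∧ (π' f).1 = true) ∧ L.l f = Co.H ∧ ltP π' e f} := by
    ext f
    simp only [mem_ofPred_eq]
    constructor
    · rintro ⟨⟨h1, h2⟩, h3, h4⟩
      have h5 := hπ f (hL.H f h3)
      unfold ltP at *
      rw [h5] at h2 h4
      rw [he] at h4
      exact ⟨⟨h1, h2⟩, h3, h4⟩
    · rintro ⟨⟨h1, h2⟩, h3, h4⟩
      have h5 := hπ f (hL.H f h3)
      unfold ltP at *
      rw [← h5] at h2 h4
      rw [← he] at h4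
      exact ⟨⟨h1, h2⟩, h3, h4⟩
  rw [h1, he]

theorem mem_visP {π : Pat k} {e : Fin k} : e ∈ visP M L π ↔
    e ∈ TP M L π ∧ (e ∈ L.S ∨ (e ∈ L.Q ∧ L.c e = true)) := by
  unfold visP
  rw [Finset.mem_filter]

theorem mem_A_of_mem_visP {A : Finset (Fin k)} (hL : Cons L A) {π : Pat k} {e : Fin k}
    (he : e ∈ visP M L π) : e ∈ A := by
  rw [mem_visP, mem_TP] at he
  exact hL.vis e he.1.2.1 he.2

theorem visP_congr {A : Finset (Fin k)} (hL : Cons L A) {π π' : Pat k}
    (hπ : ∀ e ∈ A, π e = π' e) : visP M L π = visP M L π' := by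
  ext e
  constructor
  · intro he
    have hA := mem_A_of_mem_visP hL he
    rw [mem_visP] at he ⊢
    exact ⟨(mem_TP_congr hL hπ (hπ e hA)).1 he.1, he.2⟩
  · intro he
    have hA := mem_A_of_mem_visP hL he
    rw [mem_visP] at he ⊢
    exact ⟨(mem_TP_congr hL hπ (hπ e hA)).2 he.1, he.2⟩

theorem vst_congr {Tv : Finset (Fin k)} {ci ci' : Fin k → ℤ} (h : ∀ z ∈ Tv, ci z = ci' z) (j : ℤ)
    (W : ℕ → Set (Fin k)) : vst M lam L Tv ci j W = vst M lam L Tv ci' j W := by
  funext m
  unfold vst
  have h1 : Tv.filter (fun e => ci e = j) = Tv.filter (fun e => ci' e = j) :=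
    Finset.filter_congr fun z hz => by rw [h z hz]
  rw [h1]

theorem wst_congr {Tv : Finset (Fin k)} {ci ci' : Fin k → ℤ} (h : ∀ z ∈ Tv, ci z = ci' z) (j : ℤ)
    (W : ℕ → Set (Fin k)) : wst M lam L Tv ci j W = wst M lam L Tv ci' j W := by
  funext m
  unfold wst
  rw [vst_congr h]
  congr 2
  ext z
  simp only [mem_ofPred_eq]
  constructor
  · rintro ⟨⟨h1, h2, h3⟩, h4⟩
    exact ⟨⟨h1, (h z h1) ▸ h2, h3⟩, h4⟩
  · rintro ⟨⟨h1, h2, h3⟩, h4⟩
    exact ⟨⟨h1, (h z h1).symm ▸ h2, h3⟩, h4⟩

theorem wit_congr {Tv : Finset (Fin k)} {ci ci' : Fin k → ℤ} (h : ∀ z ∈ Tv, ci z = ci' z) (b : ℤ)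
    (n : ℕ) : wit M lam L Tv ci b n = wit M lam L Tv ci' b n := by
  induction n with
  | zero => rfl
  | succ n ih =>
    show wst M lam L Tv ci (b + n) (wit M lam L Tv ci b n) =
      wst M lam L Tv ci' (b + n) (wit M lam L Tv ci' b n)
    rw [ih, wst_congr h]

theorem image_congr {A : Finset (Fin k)} (hL : Cons L A) {π π' : Pat k}
    (hπ : ∀ e ∈ A, π e = π' e) :
    (visP M L π).image (ciP π) = (visP M L π').image (ciP π') := by
  rw [visP_congr hL hπ]
  refine Finset.image_congr fun z hz => ?_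
  have hA := mem_A_of_mem_visP (π := π') hL hz
  unfold ciP
  rw [hπ z hA]

theorem lowP_congr {A : Finset (Fin k)} (hL : Cons L A) {π π' : Pat k}
    (hπ : ∀ e ∈ A, π e = π' e) : lowP M L π = lowP M L π' := by
  unfold lowP
  simp only [image_congr (M := M) hL hπ]

theorem topP_congr {A : Finset (Fin k)} (hL : Cons L A) {π π' : Pat k}
    (hπ : ∀ e ∈ A, π e = π' e) : topP M L π = topP M L π' := by
  unfold topP
  simp only [image_congr (M := M) hL hπ]

theorem ciP_congr {A : Finset (Fin k)} (hL : Cons L A) {π π' : Pat k}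
    (hπ : ∀ e ∈ A, π e = π' e) : ∀ z ∈ visP M L π', ciP π z = ciP π' z := by
  intro z hz
  have hA := mem_A_of_mem_visP (π := π') hL hz
  unfold ciP
  rw [hπ z hA]

theorem wlowP_congr {A : Finset (Fin k)} (hL : Cons L A) {π π' : Pat k}
    (hπ : ∀ e ∈ A, π e = π' e) : wlowP M lam L π = wlowP M lam L π' := by
  funext j m
  unfold wlowP
  rw [visP_congr hL hπ, lowP_congr hL hπ, wit_congr (ciP_congr hL hπ)]

theorem vP_congr {A : Finset (Fin k)} (hL : Cons L A) {π π' : Pat k}
    (hπ : ∀ e ∈ A, π e = π' e) : vP M lam L π = vP M lam L π' := by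
  funext j m
  unfold vP
  rw [visP_congr hL hπ, wlowP_congr hL hπ, vst_congr (ciP_congr hL hπ)]

theorem wfinP_congr {A : Finset (Fin k)} (hL : Cons L A) {π π' : Pat k}
    (hπ : ∀ e ∈ A, π e = π' e) : wfinP M lam L π = wfinP M lam L π' := by
  funext m
  unfold wfinP
  rw [wlowP_congr hL hπ, topP_congr hL hπ]

/-! ### the slots -/

theorem slotP_eq_some {par : Bool} {π : Pat k} {e : Fin k} {m : ℕ} :
    slotP M lam L par π e = some m ↔
      (e ∈ TP M L π ∧ e ∉ L.S ∧ e ∈ L.Q ∧ L.c e = false) ∧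
        (e ∉ vP M lam L π (ciP π e) m ∧ ∀ m' < m, e ∈ vP M lam L π (ciP π e) m') ∧
        decide (m % 2 = 1) = par := by
  classical
  unfold slotP
  constructor
  · intro h
    split_ifs at h with h1 h2
    rw [Option.some.injEq] at h
    subst h
    refine ⟨h1.1, ⟨?_, ?_⟩, by convert h2⟩
    · exact Nat.find_spec h1.2
    · intro m' hm'
      by_contra hcon
      exact Nat.find_min h1.2 hm' hcon
  · rintro ⟨h1, ⟨h2, h3⟩, h4⟩
    have h5 : ∃ m, e ∉ vP M lam L π (ciP π e) m := ⟨m, h2⟩
    rw [dif_pos ⟨h1, h5⟩]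
    have h7 := (Nat.find_eq_iff (p := fun m => e ∉ vP M lam L π (ciP π e) m) h5).2
      ⟨h2, fun n hn hcon => hcon (h3 n hn)⟩
    split_ifs with h8
    · rw [Option.some.injEq]
      convert h7
    · exfalso
      apply h8
      rw [← h4]
      congr 3

theorem slotP_congr {A : Finset (Fin k)} (hL : Cons L A) {par : Bool} {π π' : Pat k}
    (hπ : ∀ e ∈ A, π e = π' e) {e : Fin k} (he : π e = π' e) :
    slotP M lam L par π e = slotP M lam L par π' e := by
  refine Option.ext fun m => ?_
  rw [slotP_eq_some, slotP_eq_some, vP_congr hL hπ, mem_TP_congr hL hπ he]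
  unfold ciP
  rw [he]

/-! ### the algorithm -/

theorem pat_update_eq {B : ℕ} {A : Finset (Fin k)} {w : Fin k → ℝ} {e : Fin k} :
    (∀ f ∈ A, (Function.update (pat B (resA A w)) e (pat1 B (w e))) f = pat B w f) ∧
      (Function.update (pat B (resA A w)) e (pat1 B (w e))) e = pat B w e := by
  constructor
  · intro f hf
    by_cases h : f = e
    · subst h; simp [pat]
    · rw [Function.update_of_ne h]
      unfold pat resA
      simp [hf]
  · simp [pat]

theorem pat_resA {B : ℕ} {A : Finset (Fin k)} {w : Fin k → ℝ} :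
    ∀ f ∈ A, pat B (resA A w) f = pat B w f := by
  intro f hf
  unfold pat resA
  simp [hf]

/-- the slot of an element is computed from the full pattern -/
theorem algD_slot {B G D : ℕ} (r : Seed k G D) (A : Finset (Fin k)) (w : Fin k → ℝ) (e : Fin k) :
    (algD M lam B G D r A (resA A w)).slot e (w e) =
      slotP M lam (labS r A) (parS r) (pat B w) e := by
  show slotP M lam (labS r A) (parS r) (Function.update (pat B (resA A w)) e (pat1 B (w e))) e = _
  exact slotP_congr (labS_cons r A) pat_update_eq.1 pat_update_eq.2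

theorem algD_bar {B G D : ℕ} (r : Seed k G D) (A : Finset (Fin k)) (w : Fin k → ℝ) (m : ℕ) :
    (algD M lam B G D r A (resA A w)).bar m = wfinP M lam (labS r A) (pat B w) (m + 1) := by
  show wfinP M lam (labS r A) (pat B (resA A w)) (m + 1) = _
  rw [wfinP_congr (labS_cons r A) pat_resA]

/-- **nestedness** of the slots -/
theorem algD_nest {B G D : ℕ} (r : Seed k G D) (A : Finset (Fin k)) (w : Fin k → ℝ) :
    ∀ e m e' m', e ∉ A → e' ∉ A →
      (algD M lam B G D r A (resA A w)).slot e (w e) = some m →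
      (algD M lam B G D r A (resA A w)).slot e' (w e') = some m' → m < m' → e ∈ M.E → e' ∈ M.E →
      e' ∈ M.closure ((algD M lam B G D r A (resA A w)).bar m) := by
  intro e m e' m' _ _ h h' hm _ _
  rw [algD_slot, slotP_eq_some] at h h'
  rw [algD_bar]
  have h1 : m + 1 < m' := by
    rcases Nat.lt_or_ge (m + 1) m' with h1 | h1
    · exact h1
    · exfalso
      have h2 : m' = m + 1 := by omega
      have h3 := h.2.2
      have h4 := h'.2.2
      rw [← h4, h2] at h3
      have h5 : (m % 2 = 1) ↔ ((m + 1) % 2 = 1) := by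
        have := h3
        rw [decide_eq_decide] at this
        exact this
      omega
  have h2 := h'.2.1.2 (m + 1) h1
  exact M.mem_closure_of_mem' (vP_subset_wfinP _ _ h2) ((vP_chain _).flat _ |>.subset_ground h2)

end Crest.Agent.MS
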