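import Crest.Agent.MS.ClassAvg
import Crest.Agent.MS.Key

/-!
# Row 305 (S0468): shared definitions of the final assembly

* `Co` : coarse labels `H` (hint), `T` (test), `X` (ignored);
* `Timp M Pop ord l` : the improving elements of `Pop` with coarse label `T`;
* `selB M S` : a maximal independent subset of `S`;
* `proc M lam hlam T cls S Q` : the process with operators `F_i = Fop M lam (selB (S ∩ T_i))` and
  element lists `Q_i = (Q ∩ T_i) \ S`, `T_i = T.filter (cls = i)`.
-/

set_option autoImplicit false
set_option linter.unusedSectionVars false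

namespace Crest.Agent.MS

open Set

/-- coarse labels -/
inductive Co
  | H
  | T
  | X
  deriving DecidableEq, Fintype

variable {α : Type*} [Fintype α] [DecidableEq α]

open Classical in
/-- improving elements -/
noncomputable def Timp (M : Matroid α) (Pop : Finset α) (ord : α → ℕ) (l : α → Co) : Finset α :=
  Pop.filter (fun e => l e = Co.T ∧ e ∉ M.closure {f | f ∈ Pop ∧ l f = Co.H ∧ ord e < ord f})

theorem Timp_subset (M : Matroid α) (Pop : Finset α) (ord : α → ℕ) (l : α → Co) :
    Timp M Pop ord l ⊆ Pop := by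
  classical
  exact Finset.filter_subset _ _

theorem mem_Timp {M : Matroid α} {Pop : Finset α} {ord : α → ℕ} {l : α → Co} {e : α} :
    e ∈ Timp M Pop ord l ↔ e ∈ Pop ∧ l e = Co.T ∧
      e ∉ M.closure {f | f ∈ Pop ∧ l f = Co.H ∧ ord e < ord f} := by
  classical
  exact Finset.mem_filter

theorem Timp_nonloop {M : Matroid α} {Pop : Finset α} {ord : α → ℕ} {l : α → Co} {e : α}
    (he : e ∈ Timp M Pop ord l) : e ∉ M.closure ∅ := by
  rw [mem_Timp] at he
  exact fun h => he.2.2 (M.closure_subset_closure (empty_subset _) h)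

/-! ### maximal independent subsets -/

/-- a maximal independent subset -/
noncomputable def selB (M : Matroid α) (S : Finset α) : Finset α :=
  ((M.exists_isBasis' (S : Set α)).choose).toFinite.toFinset

theorem coe_selB (M : Matroid α) (S : Finset α) :
    ((selB M S : Finset α) : Set α) = (M.exists_isBasis' (S : Set α)).choose := by
  unfold selB
  simp

theorem selB_isBasis' (M : Matroid α) (S : Finset α) :
    M.IsBasis' ((selB M S : Finset α) : Set α) (S : Set α) := by
  rw [coe_selB]
  exact (M.exists_isBasis' (S : Set α)).choose_spec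

theorem selB_indep (M : Matroid α) (S : Finset α) : M.Indep ((selB M S : Finset α) : Set α) :=
  (selB_isBasis' M S).indep

theorem selB_subset (M : Matroid α) (S : Finset α) : selB M S ⊆ S := by
  have := (selB_isBasis' M S).subset
  exact_mod_cast this

theorem selB_ground (M : Matroid α) (S : Finset α) :
    ((selB M S : Finset α) : Set α) ⊆ M.E := (selB_indep M S).subset_ground

theorem card_selB (M : Matroid α) (S : Finset α) : (selB M S).card = rk M (S : Set α) := by
  have h1 := (selB_isBasis' M S).encard_eq_eRk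
  have h2 : ((selB M S).card : ℕ∞) = M.eRk (S : Set α) := by
    rw [← h1, Set.encard_coe_eq_coe_finsetCard]
  rw [← coe_rk] at h2
  exact_mod_cast h2

theorem selB_empty (M : Matroid α) : selB M ∅ = ∅ :=
  Finset.subset_empty.1 (selB_subset M ∅)

/-- `|S \ sel S| ≤ null T` for `S ⊆ T` -/
theorem card_sdiff_selB (M : Matroid α) {S T : Finset α} (h : S ⊆ T) :
    (S \ selB M S).card ≤ T.card - rk M (T : Set α) := by
  have h1 := Finset.card_sdiff_add_card_eq_card (selB_subset M S)
  have h2 := card_selB M S
  have h3 : rk M (T : Set α) ≤ rk M (S : Set α) + (T \ S).card := by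
    have := rk_union_le M (S : Set α) ((T \ S : Finset α) : Set α)
    rw [← Finset.coe_union, Finset.union_sdiff_of_subset h, Set.ncard_coe_finset] at this
    exact this
  have h4 := Finset.card_sdiff_add_card_eq_card h
  have h5 : rk M (S : Set α) ≤ S.card := by
    rw [← h2]
    exact Finset.card_le_card (selB_subset M S)
  omega

/-! ### the operator -/

theorem Fop_empty {M : Matroid α} {lam : ℕ} {V : Set α} (hV : M.IsFlat V) :
    Fop M lam ∅ V = V := by
  refine subset_antisymm (Fop_subset_of subset_rfl hV ?_) ?_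
  · intro X hX
    simp only [empty_inter, empty_sdiff, ncard_empty, zero_add]
    exact Nat.mul_le_mul_left _ (rk_mono M hX)
  · exact (Fop_spec M lam (empty_subset _) hV.subset_ground).1

theorem Fop_subset_closure {M : Matroid α} {lam : ℕ} {S V : Set α} (hS : S ⊆ M.E)
    (hV : V ⊆ M.E) : Fop M lam S V ⊆ M.closure (V ∪ S) := by
  refine Fop_subset_of ?_ (M.isFlat_closure _) ?_
  · intro x hx
    exact M.mem_closure_of_mem' (Or.inl hx) (hV hx)
  · intro X hX
    have h1 : (S ∩ X) \ M.closure (V ∪ S) = ∅ := by
      ext x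
      simp only [Set.mem_sdiff, Set.mem_inter_iff, Set.mem_empty_iff_false, iff_false]
      rintro ⟨⟨h1, _⟩, h2⟩
      exact h2 (M.mem_closure_of_mem' (Or.inr h1) (hS h1))
    rw [h1]
    simp only [Set.ncard_empty, zero_add]
    exact Nat.mul_le_mul_left _ (rk_mono M hX)

/-- an independent set is sparse over the bottom -/
theorem Fop_bot {M : Matroid α} {lam : ℕ} (hlam : 1 ≤ lam) {S : Set α} (hS : M.Indep S) :
    Fop M lam S (M.closure ∅) = M.closure ∅ := by
  refine subset_antisymm (Fop_subset_of subset_rfl (M.isFlat_closure _) ?_) ?_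
  · intro X _
    have h0 : rk M (M.closure ∅) = 0 := by
      rw [rk_closure]
      have := rk_le_ncard M (∅ : Set α)
      simpa using this
    have h1 : ((S ∩ X) \ M.closure ∅).ncard ≤ rk M X := by
      have h2 : M.Indep ((S ∩ X) \ M.closure ∅) :=
        hS.subset fun x hx => hx.1.1
      have h3 : M.eRk ((S ∩ X) \ M.closure ∅) = ((S ∩ X) \ M.closure ∅).encard :=
        h2.eRk_eq_encard
      have h4 : rk M ((S ∩ X) \ M.closure ∅) = ((S ∩ X) \ M.closure ∅).ncard := by
        have h5 := h3
        rw [← coe_rk, ← (Set.toFinite _).cast_ncard_eq] at h5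
        exact_mod_cast h5
      rw [← h4]
      exact rk_mono M fun x hx => hx.1.2
    rw [h0, mul_zero, add_zero]
    nlinarith [rk M X]
  · exact (Fop_spec M lam hS.subset_ground (M.closure_subset_ground _)).1

/-! ### the process -/

/-- the elements of class `i` -/
def clsOf (T : Finset α) (cls : α → ℕ) (i : ℕ) : Finset α := T.filter (fun e => cls e = i)

/-- the process of the labels `S`, `Q` on `T` -/
noncomputable def proc (M : Matroid α) (lam : ℕ) (hlam : 1 ≤ lam) (T : Finset α) (cls : α → ℕ)
    (S Q : Finset α) : ProcData M where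
  F i := Fop M lam ((selB M (S ∩ clsOf T cls i) : Finset α) : Set α)
  flat _ _ hV := (Fop_spec M lam (selB_ground M _) hV.subset_ground).2.1
  mono _ _ _ _ _ h := Fop_mono_left h
  ext _ _ hV := (Fop_spec M lam (selB_ground M _) hV.subset_ground).1
  fix _ := Fop_bot hlam (selB_indep M _)
  Q i := ((Q ∩ clsOf T cls i) \ S).toList

theorem proc_F_subset (M : Matroid α) (lam : ℕ) (hlam : 1 ≤ lam) (T : Finset α) (cls : α → ℕ)
    (S Q : Finset α) (j : ℕ) (V : Set α) (hV : M.IsFlat V) :
    (proc M lam hlam T cls S Q).F j V ⊆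
      M.closure (V ∪ ((selB M (S ∩ clsOf T cls j) : Finset α) : Set α)) :=
  Fop_subset_closure (selB_ground M _) hV.subset_ground

theorem mem_proc_Q {M : Matroid α} {lam : ℕ} {hlam : 1 ≤ lam} {T : Finset α} {cls : α → ℕ}
    {S Q : Finset α} {i : ℕ} {z : α} :
    z ∈ (proc M lam hlam T cls S Q).Q i ↔ z ∈ Q ∧ z ∈ T ∧ cls z = i ∧ z ∉ S := by
  simp only [proc, Finset.mem_toList, Finset.mem_sdiff, Finset.mem_inter, clsOf,
    Finset.mem_filter]
  tauto

theorem proc_Ok (M : Matroid α) (lam : ℕ) (hlam : 1 ≤ lam) (T : Finset α)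
    (hT : (T : Set α) ⊆ M.E) (hT' : ∀ e ∈ T, e ∉ M.closure ∅) (cls : α → ℕ) (S Q : Finset α) :
    (proc M lam hlam T cls S Q).Ok where
  mem _ _ hz := hT (mem_proc_Q.1 hz).2.1
  nonloop _ z hz := hT' z (mem_proc_Q.1 hz).2.1
  nodup _ := Finset.nodup_toList _
  disj _ _ hij _ hz hz' := hij ((mem_proc_Q.1 hz).2.2.1.symm.trans (mem_proc_Q.1 hz').2.2.1)

end Crest.Agent.MS
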