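import Crest.Agent.MS.LemG

/-!
Row 305 (S0468): behaviour of the level flats `W_m`, `Y_m` when steps are appended.
Author: helper41.
-/

set_option autoImplicit false

namespace Crest.Agent.MS

open Finset

namespace Dyn

variable {β L : Type*} [PartialOrder L] (D : Dyn β L)

lemma run_append (X X' : List (Step β L)) (c : β → Bool) : ∀ V : L,
    D.run V (X ++ X') c = D.run (D.run V X c) X' c := by
  induction X with
  | nil => intro V; rfl
  | cons s X ih =>
    intro V
    cases s with
    | inl z => simp only [List.cons_append, run]; split_ifs <;> exact ih _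
    | inr F => simp only [List.cons_append, run]; exact ih _

lemma filt_append (X X' : List (Step β L)) (c : β → Bool) : ∀ V : L,
    D.filt V (X ++ X') c = D.filt V X c ++ D.filt (D.run V X c) X' c := by
  induction X with
  | nil => intro V; simp [filt, run]
  | cons s X ih =>
    intro V
    cases s with
    | inl z =>
      simp only [List.cons_append, run, filt]
      by_cases hm : D.mem z V
      · simp only [if_pos hm]
        rw [ih V, List.cons_append]
        have : (if c z = true then D.run (D.add V z) X c else D.run V X c) = D.run V X c := by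
          rw [D.add_of_mem hm, ite_self]
        rw [this]
      · simp only [if_neg hm]
        split_ifs <;> exact ih _
    | inr F =>
      simp only [List.cons_append, run, filt]
      rw [ih]

lemma runY_append (X X' : List (Step β L)) (c : β → Bool) : ∀ V Y : L,
    D.runY V Y (X ++ X') c = D.runY (D.run V X c) (D.runY V Y X c) X' c := by
  induction X with
  | nil => intro V Y; rfl
  | cons s X ih =>
    intro V Y
    cases s with
    | inl z =>
      simp only [List.cons_append, run, runY]
      by_cases hm : D.mem z V
      · simp only [if_pos hm, D.add_of_mem hm, ite_self]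
        split_ifs <;> exact ih _ _
      · simp only [if_neg hm]
        split_ifs <;> exact ih _ _
    | inr F =>
      simp only [List.cons_append, run, runY]
      exact ih _ _

lemma elems_append (X X' : List (Step β L)) : elems (X ++ X') = elems X ++ elems X' := by
  induction X with
  | nil => rfl
  | cons s X ih =>
    cases s with
    | inl z => simp [elems, ih]
    | inr F => simp [elems, ih]

open Classical in
/-- what a single appended element contributes to the stream of level `m` -/
lemma strm_append_inl (b : L) (X : List (Step β L)) (z : β) (c : β → Bool) (m : ℕ) :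
    D.strm b m (X ++ [Sum.inl z]) c =
      D.strm b m X c ++ (if ∀ j < m, D.mem z (D.Wf b j X c) then [Sum.inl z] else []) := by
  induction m with
  | zero => simp [strm]
  | succ m ih =>
    simp only [strm]
    rw [ih, filt_append]
    congr 1
    by_cases h : ∀ j < m, D.mem z (D.Wf b j X c)
    · rw [if_pos h]
      by_cases hm : D.mem z (D.Wf b m X c)
      · have h' : ∀ j < m + 1, D.mem z (D.Wf b j X c) := by
          intro j hj
          rcases Nat.lt_succ_iff_lt_or_eq.1 hj with hj | rfl
          · exact h j hj
          · exact hm
        rw [if_pos h']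
        show D.filt (D.Wf b m X c) [Sum.inl z] c = _
        simp [filt, hm]
      · have h' : ¬ ∀ j < m + 1, D.mem z (D.Wf b j X c) := fun h'' => hm (h'' m (Nat.lt_succ_self m))
        rw [if_neg h']
        show D.filt (D.Wf b m X c) [Sum.inl z] c = _
        simp [filt, hm]
    · have h' : ¬ ∀ j < m + 1, D.mem z (D.Wf b j X c) :=
        fun h'' => h fun j hj => h'' j (Nat.lt_succ_of_lt hj)
      rw [if_neg h, if_neg h']
      rfl

lemma strm_append_inr (b : L) (X : List (Step β L)) (F : L →o L) (c : β → Bool) (m : ℕ) :
    D.strm b m (X ++ [Sum.inr F]) c = D.strm b m X c ++ [Sum.inr F] := by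
  induction m with
  | zero => simp [strm]
  | succ m ih =>
    simp only [strm]
    rw [ih, filt_append]
    rfl

lemma Wf_append_inr (b : L) (X : List (Step β L)) (F : L →o L) (c : β → Bool) (m : ℕ) :
    D.Wf b m (X ++ [Sum.inr F]) c = F (D.Wf b m X c) := by
  unfold Wf
  rw [strm_append_inr, run_append]
  rfl

lemma Yf_append_inr (b : L) (X : List (Step β L)) (F : L →o L) (c : β → Bool) (m : ℕ) :
    D.Yf b m (X ++ [Sum.inr F]) c = F (D.Yf b m X c) := by
  unfold Yf
  rw [strm_append_inr, runY_append]
  rfl

lemma mem_Wf_anti (b : L) (X : List (Step β L)) (c : β → Bool) (z : β) {j m : ℕ} (h : j ≤ m)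
    (hm : D.mem z (D.Wf b m X c)) : D.mem z (D.Wf b j X c) := by
  induction m with
  | zero =>
    obtain rfl : j = 0 := by omega
    exact hm
  | succ m ih =>
    rcases Nat.le_succ_iff.1 h with h | rfl
    · exact ih h (D.mem_mono (D.Wf_succ_le_Wf b m X c) hm)
    · exact hm

lemma Wf_anti (b : L) (X : List (Step β L)) (c : β → Bool) {j m : ℕ} (h : j ≤ m) :
    D.Wf b m X c ≤ D.Wf b j X c := by
  induction m with
  | zero =>
    obtain rfl : j = 0 := by omega
    exact le_rfl
  | succ m ih =>
    rcases Nat.le_succ_iff.1 h with h | rfl
    · exact (D.Wf_succ_le_Wf b m X c).trans (ih h)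
    · exact le_rfl

/-- `z` reaches level `m` : it lies in `W_{m-1}` (everything for `m = 0`) -/
def Reach (b : L) (X : List (Step β L)) (c : β → Bool) (z : β) : ℕ → Prop
  | 0 => True
  | m + 1 => D.mem z (D.Wf b m X c)

lemma reach_iff (b : L) (X : List (Step β L)) (c : β → Bool) (z : β) (m : ℕ) :
    (∀ j < m, D.mem z (D.Wf b j X c)) ↔ D.Reach b X c z m := by
  cases m with
  | zero => simp [Reach]
  | succ m =>
    refine ⟨fun h => h m (Nat.lt_succ_self m), fun h j hj => ?_⟩
    exact D.mem_Wf_anti b X c z (Nat.lt_succ_iff.1 hj) h

open Classical in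
lemma Wf_append_inl (b : L) (X : List (Step β L)) (z : β) (c : β → Bool) (m : ℕ) :
    D.Wf b m (X ++ [Sum.inl z]) c =
      if D.Reach b X c z m ∧ c z = true then D.add (D.Wf b m X c) z else D.Wf b m X c := by
  unfold Wf
  rw [strm_append_inl, run_append]
  by_cases h : ∀ j < m, D.mem z (D.Wf b j X c)
  · have h' := (D.reach_iff b X c z m).1 h
    rw [if_pos h]
    by_cases hc : c z = true
    · rw [if_pos ⟨h', hc⟩]
      simp [run, hc]
    · rw [if_neg (fun h'' => hc h''.2)]
      simp [run, hc]
  · have h' : ¬ D.Reach b X c z m := fun h'' => h ((D.reach_iff b X c z m).2 h'')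
    rw [if_neg h, if_neg (fun h'' => h' h''.1)]
    rfl

open Classical in
lemma Yf_append_inl (b : L) (X : List (Step β L)) (z : β) (c : β → Bool) (m : ℕ) :
    D.Yf b m (X ++ [Sum.inl z]) c =
      if D.Reach b X c z m ∧ (D.mem z (D.Wf b m X c) ↔ c z = true) then
        D.add (D.Yf b m X c) z else D.Yf b m X c := by
  unfold Yf
  rw [strm_append_inl, runY_append]
  by_cases h : ∀ j < m, D.mem z (D.Wf b j X c)
  · have h' := (D.reach_iff b X c z m).1 h
    rw [if_pos h]
    show D.runY (D.Wf b m X c) _ [Sum.inl z] c = _
    by_cases hc : c z = true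
    · by_cases hm : D.mem z (D.Wf b m X c)
      · rw [if_pos ⟨h', by simp [hm, hc]⟩]
        simp [runY, hc, hm]
      · rw [if_neg (by rintro ⟨_, h2⟩; exact hm (h2.2 hc))]
        simp [runY, hc, hm]
    · by_cases hm : D.mem z (D.Wf b m X c)
      · rw [if_neg (by rintro ⟨_, h2⟩; exact hc (h2.1 hm))]
        simp [runY, hc, hm]
      · rw [if_pos ⟨h', by simp [hm, hc]⟩]
        simp [runY, hc, hm]
  · have h' : ¬ D.Reach b X c z m := fun h'' => h ((D.reach_iff b X c z m).2 h'')
    rw [if_neg h, if_neg (fun h'' => h' h''.1)]
    rfl

/-- operators of a stream are extensive -/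
def Ext (X : List (Step β L)) : Prop := ∀ F : L →o L, Sum.inr F ∈ X → ∀ V, V ≤ F V

lemma Wf_le_append (b : L) (X : List (Step β L)) (c : β → Bool) (m : ℕ) :
    ∀ X' : List (Step β L), Ext X' → D.Wf b m X c ≤ D.Wf b m (X ++ X') c := by
  intro X'
  induction X' using List.reverseRecOn with
  | nil => intro _; simp
  | append_singleton X' s ih =>
    intro hE
    have h1 := ih (fun F hF => hE F (by simp [hF]))
    refine h1.trans ?_
    rw [← List.append_assoc]
    cases s with
    | inl z =>
      rw [Wf_append_inl]
      split_ifs
      · exact D.le_add _ _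
      · exact le_rfl
    | inr F =>
      rw [Wf_append_inr]
      exact hE F (by simp) _

lemma Yf_le_append (b : L) (X : List (Step β L)) (c : β → Bool) (m : ℕ) :
    ∀ X' : List (Step β L), Ext X' → D.Yf b m X c ≤ D.Yf b m (X ++ X') c := by
  intro X'
  induction X' using List.reverseRecOn with
  | nil => intro _; simp
  | append_singleton X' s ih =>
    intro hE
    have h1 := ih (fun F hF => hE F (by simp [hF]))
    refine h1.trans ?_
    rw [← List.append_assoc]
    cases s with
    | inl z =>
      rw [Yf_append_inl]
      split_ifs
      · exact D.le_add _ _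
      · exact le_rfl
    | inr F =>
      rw [Yf_append_inr]
      exact hE F (by simp) _

/-- if all operators fix `b` then `W_m` is `b` for `m ≥` number of elements, provided the elements
are not in `b` -/
lemma strm_elems_nil (b : L) (X : List (Step β L)) (c : β → Bool)
    (hF : ∀ F : L →o L, Sum.inr F ∈ X → F b = b) (hb : ∀ z ∈ elems X, ¬ D.mem z b) :
    (elems (D.filt b X c)).length ≤ (elems X).length - 1 := by
  induction X with
  | nil => simp [filt, elems]
  | cons s X ih =>
    cases s with
    | inl z =>
      have hz : ¬ D.mem z b := hb z (by simp [elems])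
      simp only [filt, if_neg hz, elems, List.length_cons, Nat.add_sub_cancel]
      split_ifs
      · exact (D.elems_filt_sublist X _ c).length_le
      · exact (D.elems_filt_sublist X _ c).length_le
    | inr F =>
      simp only [filt, elems]
      rw [hF F (by simp)]
      exact ih (fun G hG => hF G (by simp [hG])) (fun z hz => hb z (by simpa [elems] using hz))

lemma inr_mem_filt {X : List (Step β L)} {c : β → Bool} {F : L →o L} : ∀ {V : L},
    Sum.inr F ∈ D.filt V X c → Sum.inr F ∈ X := by
  induction X with
  | nil => intro V h; simp [filt] at h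
  | cons s X ih =>
    intro V h
    cases s with
    | inl z =>
      simp only [filt] at h
      split_ifs at h
      · simp only [List.mem_cons, reduceCtorEq, false_or] at h
        exact List.mem_cons_of_mem _ (ih h)
      · exact List.mem_cons_of_mem _ (ih h)
      · exact List.mem_cons_of_mem _ (ih h)
    | inr G =>
      simp only [filt, List.mem_cons] at h
      rcases h with h | h
      · rw [h]; simp
      · exact List.mem_cons_of_mem _ (ih h)

lemma inr_mem_strm (b : L) {X : List (Step β L)} {c : β → Bool} {F : L →o L} {m : ℕ}
    (h : Sum.inr F ∈ D.strm b m X c) : Sum.inr F ∈ X := by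
  induction m with
  | zero => exact h
  | succ m ih => exact ih (D.inr_mem_filt h)

lemma elems_strm_length (b : L) (X : List (Step β L)) (c : β → Bool)
    (hF : ∀ F : L →o L, Sum.inr F ∈ X → F b = b) (hb : ∀ z ∈ elems X, ¬ D.mem z b) (m : ℕ) :
    (elems (D.strm b m X c)).length ≤ (elems X).length - m := by
  induction m with
  | zero => simp [strm]
  | succ m ih =>
    have h1 := D.strm_elems_nil b (D.strm b m X c) c
      (fun F h => hF F (D.inr_mem_strm b h))
      (fun z hz => hb z (D.elems_strm_subset b X c m z hz))
    simp only [strm]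
    omega

lemma run_of_elems_nil (b : L) {X : List (Step β L)} (c : β → Bool) (hX : elems X = [])
    (hF : ∀ F : L →o L, Sum.inr F ∈ X → F b = b) : D.run b X c = b := by
  induction X with
  | nil => rfl
  | cons s X ih =>
    cases s with
    | inl z => simp [elems] at hX
    | inr F =>
      simp only [run]
      rw [hF F (by simp)]
      exact ih (by simpa [elems] using hX) (fun G hG => hF G (by simp [hG]))

/-- `W_m = b` for `m ≥` number of elements -/
lemma Wf_eq_bot (b : L) (X : List (Step β L)) (c : β → Bool)
    (hF : ∀ F : L →o L, Sum.inr F ∈ X → F b = b) (hb : ∀ z ∈ elems X, ¬ D.mem z b) {m : ℕ}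
    (hm : (elems X).length ≤ m) : D.Wf b m X c = b := by
  have h1 := D.elems_strm_length b X c hF hb m
  have h2 : elems (D.strm b m X c) = [] := by
    rw [← List.length_eq_zero_iff]
    omega
  exact D.run_of_elems_nil b c h2 (fun F h => hF F (D.inr_mem_strm b h))

end Dyn

end Crest.Agent.MS
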