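import Crest.Agent.MS.TotalB
import Crest.Agent.MS.Setup
import Crest.Agent.MS.ClassTotal

/-! Row 305: the total accounting (stages 1 and 2 together). -/

set_option autoImplicit false

namespace Crest.Agent.MS

open Finset

variable {α : Type*} [Fintype α] [DecidableEq α]

/-- numerical constants -/
theorem eps_bound : 24 * Real.log ((2 ^ 16 : ℕ) : ℝ) / (((2 ^ 16 : ℕ) : ℝ) * (1 / 2)) +
    Real.exp (-(1 / 2 * ((2 ^ 22 : ℕ) : ℝ) / 4)) + (1 / 2 ^ 30 : ℝ) * ((2 ^ 22 : ℕ) : ℝ) ≤ 1 / 64 := by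
  have h1 : Real.log ((2 ^ 16 : ℕ) : ℝ) = 16 * Real.log 2 := by
    rw [Nat.cast_pow, Real.log_pow]
    norm_num
  have h2 := Real.log_two_lt_d9
  have h3 : Real.exp (-(1 / 2 * ((2 ^ 22 : ℕ) : ℝ) / 4)) ≤ 1 / 2 ^ 19 := by
    have h4 : (1 / 2 * ((2 ^ 22 : ℕ) : ℝ) / 4) = 2 ^ 19 := by norm_num
    rw [h4, Real.exp_neg, inv_eq_one_div]
    apply one_div_le_one_div_of_le (by positivity)
    have := Real.add_one_le_exp ((2 : ℝ) ^ 19)
    linarith
  rw [h1]
  push_cast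
  push_cast at h3
  have h5 : 24 * (16 * Real.log 2) / ((65536 : ℝ) * (1 / 2)) ≤ 0.0082 := by
    rw [div_le_iff₀ (by positivity)]
    norm_num
    linarith
  have h6 : (1 / 2 ^ 30 : ℝ) * 4194304 = 1 / 2 ^ 8 := by norm_num
  rw [h6]
  have h7 : (1 : ℝ) / 2 ^ 19 ≤ 0.00001 := by norm_num
  have h8 : (1 : ℝ) / 2 ^ 8 ≤ 0.004 := by norm_num
  linarith

/-- coarse label weights -/
noncomputable def pc : Co → ℝ
  | Co.X => 1 / 2
  | Co.H => ((2 : ℝ) ^ 13 - 1) / (2 * 2 ^ 13)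
  | Co.T => 1 / (2 * 2 ^ 13)

theorem sum_pc : ∑ a, pc a = 1 := by
  have : (Finset.univ : Finset Co) = {Co.H, Co.T, Co.X} := rfl
  rw [this, Finset.sum_insert (by decide), Finset.sum_insert (by decide), Finset.sum_singleton]
  simp only [pc]
  norm_num

theorem pc_nonneg (a : Co) : 0 ≤ pc a := by
  cases a <;> simp only [pc] <;> norm_num

theorem coe_Timp (M : Matroid α) (Pop : Finset α) (ord : α → ℕ) (l : α → Co) :
    ((Timp M Pop ord l : Finset α) : Set α) = impr M (Pop : Set α) ord {Co.H} {Co.T} l := by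
  ext e
  rw [Finset.mem_coe, mem_Timp]
  simp only [impr, above, Set.mem_ofPred_eq, Finset.mem_coe, Set.mem_singleton_iff]
  have h : {f | f ∈ Pop ∧ l f = Co.H ∧ ord e < ord f} =
      {e' | e' ∈ Pop ∧ ord e < ord e' ∧ l e' = Co.H} := by
    ext f
    simp only [Set.mem_ofPred_eq]
    tauto
  rw [h]

theorem coe_clsOf (M : Matroid α) (Pop : Finset α) (ord : α → ℕ) (cls : α → ℕ) (l : α → Co) (i : ℕ) :
    ((clsOf (Timp M Pop ord l) cls i : Finset α) : Set α) =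
      impr M (Pop : Set α) ord {Co.H} {Co.T} l ∩ {e | cls e = i} := by
  rw [← coe_Timp]
  ext e
  simp [clsOf]

/-- **Stage 1** (helper41's ClassTotal) -/
theorem class_total' (M : Matroid α) (T : Finset α) (hT : (T : Set α) ⊆ M.E)
    (hT' : ∀ e ∈ T, e ∉ M.closure ∅) (cls : α → ℕ) {lam Lam : ℕ} (hlam1 : 1 ≤ lam)
    (hlam : 3 ≤ lam) (hLam0 : 0 < Lam) {s q : ℝ} (h0 : 0 < s) (h1 : s ≤ 1) (hq : 0 ≤ q)
    (hq1 : q ≤ 1) (hqL : q * Lam ≤ 1) (hLam : (lam : ℝ) ≤ s / 20 * Lam)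
    {i n : ℕ} (hi : i < n) {N : ℕ} (hN : Fintype.card α + 2 ≤ N) :
    q * (1 - s) / 4 * ((clsOf T cls i).card : ℝ) -
      q * ((clsOf T cls i).card * (24 * Real.log lam / (lam * s) + Real.exp (-(s * Lam / 4)) +
        q * Lam) + 20 * (((clsOf T cls i).card : ℝ) - (rk M (clsOf T cls i : Set α) : ℝ)) / s) -
      2 * ∑ j ∈ (range n).filter (fun j => i < j), ((clsOf T cls j).card : ℝ) ≤
    ∑ S : Finset α, bw s S * ∑ Q : Finset α, bw q Q * avg (fun c : α → Bool =>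
      ∑ m ∈ range (2 * N), (proc M lam hlam1 T cls S Q).contrib c n i m) := by
  have hC : Classes M (fun i => clsOf T cls i) := {
    mem := fun i z hz => hT (Finset.mem_of_mem_filter z hz)
    nonloop := fun i z hz => hT' z (Finset.mem_of_mem_filter z hz)
    disj := by
      intro i j hij
      rw [Finset.disjoint_left]
      intro e he he'
      exact hij ((Finset.mem_filter.1 he).2.symm.trans (Finset.mem_filter.1 he').2) }
  have h := class_total (M := M) (lam := lam) hlam1 hC (i := i) (n := n) (N := N) (by omega)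
    (by omega) hlam hLam0 h0 h1 hq hq1 hqL hLam
  unfold Eb at h
  refine le_trans (le_of_eq ?_) h
  have hle : rk M (clsOf T cls i : Set α) ≤ (clsOf T cls i).card := by
    have := rk_le_ncard M (clsOf T cls i : Set α)
    rwa [Set.ncard_coe_finset] at this
  rw [Nat.cast_sub hle]
  have e1 : (range n).filter (fun j => i < j) = Finset.Ioo i n := by
    ext j
    simp only [Finset.mem_filter, Finset.mem_range, Finset.mem_Ioo]
    tauto
  rw [e1]
  ring

theorem total (M : Matroid α) (Pop : Finset α) (hPop : (Pop : Set α) ⊆ M.E) (ord : α → ℕ)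
    (hord : Function.Injective ord) (cls : α → ℕ)
    (hcls : ∀ e f, ord e < ord f → cls e ≤ cls f) (n : ℕ) (hn : ∀ e ∈ Pop, cls e < n)
    (ω : ℕ → ℝ) (hω : ∀ i, 0 ≤ ω i) (hmono : ∀ i j, i ≤ j → ω i ≤ ω j)
    (hgap : ∀ e ∈ Pop, ∀ f ∈ Pop, cls e < cls f → 2 ^ 40 * ω (cls e) ≤ ω (cls f))
    (hlam : 1 ≤ 2 ^ 16) (N : ℕ) (hN : Fintype.card α + 2 ≤ N)
    (I : Finset α) (hIP : I ⊆ Pop) (hI : M.Indep (I : Set α)) :
    (1 / 2 ^ 48 : ℝ) * ∑ e ∈ I, ω (cls e) ≤
      ∑ l : α → Co, pw pc l * ∑ S : Finset α, bw (1 / 2) S * ∑ Q : Finset α, bw (1 / 2 ^ 30) Q *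
        avg (fun c : α → Bool => ∑ i ∈ range n, ω i * ∑ m ∈ range (2 * N),
          (proc M (2 ^ 16) hlam (Timp M Pop ord l) cls S Q).contrib c n i m) := by
  classical
  set G : (α → Co) → ℕ → ℝ := fun l i =>
    ∑ S : Finset α, bw (1 / 2) S * ∑ Q : Finset α, bw (1 / 2 ^ 30) Q * avg (fun c : α → Bool =>
      ∑ m ∈ range (2 * N), (proc M (2 ^ 16) hlam (Timp M Pop ord l) cls S Q).contrib c n i m)
    with hG
  have hbw1 : ∀ S : Finset α, (0 : ℝ) ≤ bw (1 / 2) S := fun S =>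
    bw_nonneg (by norm_num) (by norm_num) S
  have hbw2 : ∀ S : Finset α, (0 : ℝ) ≤ bw (1 / 2 ^ 30) S := fun S =>
    bw_nonneg (by norm_num) (by norm_num) S
  have hG0 : ∀ l i, i < n → 0 ≤ G l i := by
    intro l i _
    refine Finset.sum_nonneg fun S _ => mul_nonneg (hbw1 S) ?_
    refine Finset.sum_nonneg fun Q _ => mul_nonneg (hbw2 Q) ?_
    refine avg_nonneg fun c => Finset.sum_nonneg fun m _ => ?_
    exact ProcData.contrib_nonneg _ c n i m
  set a : ℝ := 1 / 2 ^ 30 * (1 - 1 / 2) / 4 - 1 / 2 ^ 30 * (24 * Real.log ((2 ^ 16 : ℕ) : ℝ) /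
    (((2 ^ 16 : ℕ) : ℝ) * (1 / 2)) + Real.exp (-(1 / 2 * ((2 ^ 22 : ℕ) : ℝ) / 4)) +
    (1 / 2 ^ 30 : ℝ) * ((2 ^ 22 : ℕ) : ℝ)) with ha
  set b : ℝ := 1 / 2 ^ 30 * 20 / (1 / 2) with hb
  have hstage := stage2 M Pop hPop ord hord cls hcls n hn ω hω hmono (2 ^ 40) (by norm_num) hgap
    pc sum_pc pc_nonneg Co.H Co.T (by simp only [pc]; norm_num) a b (by rw [hb]; positivity)
    (by
      have := eps_bound
      rw [ha, hb]
      simp only [pc]
      have h2 : (0 : ℝ) ≤ 1 / 2 ^ 30 * (1 / 64 - (24 * Real.log ((2 ^ 16 : ℕ) : ℝ) /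
        (((2 ^ 16 : ℕ) : ℝ) * (1 / 2)) + Real.exp (-(1 / 2 * ((2 ^ 22 : ℕ) : ℝ) / 4)) +
        (1 / 2 ^ 30 : ℝ) * ((2 ^ 22 : ℕ) : ℝ))) := by
        apply mul_nonneg (by positivity)
        linarith
      rw [mul_sub] at h2
      norm_num at h2 ⊢
      linarith) G hG0 (by
      intro l i hi
      have h1 := class_total' M (Timp M Pop ord l)
        ((Finset.coe_subset.2 (Timp_subset M Pop ord l)).trans hPop)
        (fun e he => Timp_nonloop he) cls (lam := 2 ^ 16) (Lam := 2 ^ 22) hlam (by norm_num)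
        (by norm_num) (s := 1 / 2) (q := 1 / 2 ^ 30) (by norm_num) (by norm_num) (by norm_num)
        (by norm_num) (by norm_num) (by norm_num) hi hN
      refine le_trans (le_of_eq ?_) h1
      have e1 : ∀ j, ((impr M (Pop : Set α) ord {Co.H} {Co.T} l ∩ {e | cls e = j}).ncard : ℝ) =
          ((clsOf (Timp M Pop ord l) cls j).card : ℝ) := by
        intro j
        rw [← coe_clsOf, Set.ncard_coe_finset]
      simp only [e1]
      rw [← coe_clsOf, ha, hb]
      ring) I hIP hI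
  have hfin : ∑ l : α → Co, pw pc l * ∑ i ∈ range n, ω i * G l i =
      ∑ l : α → Co, pw pc l * ∑ S : Finset α, bw (1 / 2) S * ∑ Q : Finset α, bw (1 / 2 ^ 30) Q *
        avg (fun c : α → Bool => ∑ i ∈ range n, ω i * ∑ m ∈ range (2 * N),
          (proc M (2 ^ 16) hlam (Timp M Pop ord l) cls S Q).contrib c n i m) := by
    refine Finset.sum_congr rfl fun l _ => ?_
    congr 1
    simp only [hG, avg_sum, avg_mul_left, Finset.mul_sum]
    rw [Finset.sum_comm]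
    refine Finset.sum_congr rfl fun S _ => ?_
    rw [Finset.sum_comm]
    refine Finset.sum_congr rfl fun Q _ => ?_
    refine Finset.sum_congr rfl fun i _ => ?_
    refine Finset.sum_congr rfl fun m _ => ?_
    ring
  rw [← hfin]
  refine le_trans ?_ hstage
  rw [← mul_assoc]
  refine mul_le_mul_of_nonneg_right ?_ (Finset.sum_nonneg fun e _ => hω _)
  have := eps_bound
  rw [ha, hb]
  simp only [pc]
  have h2 : (0 : ℝ) ≤ 1 / 2 ^ 30 * (1 / 64 - (24 * Real.log ((2 ^ 16 : ℕ) : ℝ) /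
    (((2 ^ 16 : ℕ) : ℝ) * (1 / 2)) + Real.exp (-(1 / 2 * ((2 ^ 22 : ℕ) : ℝ) / 4)) +
    (1 / 2 ^ 30 : ℝ) * ((2 ^ 22 : ℕ) : ℝ))) := by
    apply mul_nonneg (by positivity)
    linarith
  rw [mul_sub] at h2
  norm_num at h2 ⊢
  linarith

end Crest.Agent.MS
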