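import Mathlib

/-! Row 305: summation over the classes (numerical part). -/

set_option autoImplicit false

namespace Crest.Agent.MS

open Finset

/-- geometric weights below `i` (strict) -/
theorem geom_strict (ω : ℕ → ℝ) (B : ℝ) (hB : 1 < B) (J : Finset ℕ)
    (hω : ∀ j, 0 ≤ ω j) (hgap : ∀ j ∈ J, ∀ j' ∈ J, j < j' → B * ω j ≤ ω j') :
    ∀ i ∈ J, (B - 1) * ∑ j ∈ J.filter (fun j => j < i), ω j ≤ ω i := by
  classical
  have key : ∀ n : ℕ, ∀ i ∈ J, (J.filter (fun j => j < i)).card = n →
      (B - 1) * ∑ j ∈ J.filter (fun j => j < i), ω j ≤ ω i := by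
    intro n
    induction n using Nat.strong_induction_on with
    | _ n ih =>
      intro i hi hn
      by_cases hne : (J.filter (fun j => j < i)).Nonempty
      · obtain ⟨i', hi', hmax⟩ := Finset.exists_max_image (J.filter (fun j => j < i)) id hne
        rw [Finset.mem_filter] at hi'
        have heq : J.filter (fun j => j < i) = insert i' (J.filter (fun j => j < i')) := by
          ext j
          simp only [Finset.mem_filter, Finset.mem_insert]
          constructor
          · rintro ⟨h1, h2⟩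
            have h3 : j ≤ i' := hmax j (by simp [h1, h2])
            rcases h3.lt_or_eq with h | h
            · exact Or.inr ⟨h1, h⟩
            · exact Or.inl h
          · rintro (h | ⟨h1, h2⟩)
            · subst h; exact hi'
            · exact ⟨h1, h2.trans hi'.2⟩
        have hnot : i' ∉ J.filter (fun j => j < i') := by simp
        have hcard : (J.filter (fun j => j < i')).card < n := by
          rw [← hn, heq, Finset.card_insert_of_notMem hnot]
          omega
        have h1 := ih _ hcard i' hi'.1 rfl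
        have h2 := hgap i' hi'.1 i hi hi'.2
        rw [heq, Finset.sum_insert hnot, mul_add]
        linarith
      · rw [Finset.not_nonempty_iff_eq_empty] at hne
        rw [hne, Finset.sum_empty, mul_zero]
        exact hω i
  exact fun i hi => key _ i hi rfl

/-- summation over the classes: `t i` = expected size of the class, `g i` = expected gain -/
theorem class_sum (n : ℕ) (ω t g ν : ℕ → ℝ) (J : Finset ℕ) (hJ : ∀ j ∈ J, j < n) (a b B η : ℝ)
    (hB : 1 < B) (hω : ∀ j, 0 ≤ ω j) (ht : ∀ j, 0 ≤ t j) (htJ : ∀ j, j ∉ J → t j = 0)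
    (hgap : ∀ j ∈ J, ∀ j' ∈ J, j < j' → B * ω j ≤ ω j')
    (hg0 : ∀ i, i < n → 0 ≤ g i) (hb : 0 ≤ b) (hν : ∀ i ∈ J, ν i ≤ η * t i)
    (hg : ∀ i ∈ J, a * t i - b * ν i - 2 * ∑ j ∈ (range n).filter (fun j => i < j), t j ≤ g i) :
    (a - b * η - 2 / (B - 1)) * ∑ i ∈ range n, ω i * t i ≤ ∑ i ∈ range n, ω i * g i := by
  classical
  have hJn : J ⊆ range n := fun j hj => Finset.mem_range.2 (hJ j hj)
  have e1 : ∑ i ∈ range n, ω i * t i = ∑ i ∈ J, ω i * t i := by
    symm
    apply Finset.sum_subset hJn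
    intro i _ hi
    rw [htJ i hi, mul_zero]
  have e2 : ∑ i ∈ J, ω i * g i ≤ ∑ i ∈ range n, ω i * g i := by
    apply Finset.sum_le_sum_of_subset_of_nonneg hJn
    intro i hi _
    exact mul_nonneg (hω i) (hg0 i (Finset.mem_range.1 hi))
  have e3 : ∀ i ∈ J, ∑ j ∈ (range n).filter (fun j => i < j), t j =
      ∑ j ∈ J.filter (fun j => i < j), t j := by
    intro i _
    symm
    apply Finset.sum_subset
    · intro j hj
      rw [Finset.mem_filter] at hj ⊢
      exact ⟨hJn hj.1, hj.2⟩
    · intro j hj hj'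
      rw [Finset.mem_filter] at hj hj'
      exact htJ j fun h => hj' ⟨h, hj.2⟩
  have e4 : ∑ i ∈ J, ω i * ∑ j ∈ J.filter (fun j => i < j), t j =
      ∑ j ∈ J, t j * ∑ i ∈ J.filter (fun i => i < j), ω i := by
    have h1 : ∀ i ∈ J, ω i * ∑ j ∈ J.filter (fun j => i < j), t j =
        ∑ j ∈ J, if i < j then ω i * t j else 0 := by
      intro i _
      rw [Finset.mul_sum, Finset.sum_filter]
    have h2 : ∀ j ∈ J, t j * ∑ i ∈ J.filter (fun i => i < j), ω i =
        ∑ i ∈ J, if i < j then ω i * t j else 0 := by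
      intro j _
      rw [Finset.mul_sum, Finset.sum_filter]
      refine Finset.sum_congr rfl fun i _ => ?_
      split_ifs <;> ring
    rw [Finset.sum_congr rfl h1, Finset.sum_comm, Finset.sum_congr rfl h2]
  have hgs := geom_strict ω B hB J hω hgap
  have hB1 : 0 < B - 1 := by linarith
  have e5 : ∑ j ∈ J, t j * ∑ i ∈ J.filter (fun i => i < j), ω i ≤
      (1 / (B - 1)) * ∑ j ∈ J, ω j * t j := by
    rw [Finset.mul_sum]
    refine Finset.sum_le_sum fun j hj => ?_
    have h1 := hgs j hj
    have h2 : ∑ i ∈ J.filter (fun i => i < j), ω i ≤ ω j / (B - 1) := by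
      rw [le_div_iff₀ hB1, mul_comm]
      exact h1
    calc t j * ∑ i ∈ J.filter (fun i => i < j), ω i ≤ t j * (ω j / (B - 1)) :=
          mul_le_mul_of_nonneg_left h2 (ht j)
      _ = 1 / (B - 1) * (ω j * t j) := by ring
  have e6 : ∀ i ∈ J, ω i * (a * t i - b * (η * t i) -
      2 * ∑ j ∈ J.filter (fun j => i < j), t j) ≤ ω i * g i := by
    intro i hi
    refine mul_le_mul_of_nonneg_left ?_ (hω i)
    have h1 := hg i hi
    rw [e3 i hi] at h1
    have h2 := mul_le_mul_of_nonneg_left (hν i hi) hb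
    linarith
  have e7 := Finset.sum_le_sum e6
  have e8 : ∑ i ∈ J, ω i * (a * t i - b * (η * t i) -
      2 * ∑ j ∈ J.filter (fun j => i < j), t j) =
      (a - b * η) * ∑ i ∈ J, ω i * t i -
        2 * ∑ i ∈ J, ω i * ∑ j ∈ J.filter (fun j => i < j), t j := by
    rw [Finset.mul_sum, Finset.mul_sum, ← Finset.sum_sub_distrib]
    refine Finset.sum_congr rfl fun i _ => ?_
    ring
  rw [e8, e4] at e7
  rw [e1]
  have e9 : (a - b * η - 2 / (B - 1)) * ∑ i ∈ J, ω i * t i =
      (a - b * η) * ∑ i ∈ J, ω i * t i - 2 * ((1 / (B - 1)) * ∑ j ∈ J, ω j * t j) := by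
    ring
  rw [e9]
  linarith

end Crest.Agent.MS
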