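import Crest.Agent.MS.TotalA
import Crest.Agent.MS.Dens
import Crest.Agent.MS.ClassAvg
import Crest.Agent.MS.Union2

/-! Row 305: the total accounting, stage 2 (expectation over the labels H/T/X). -/

set_option autoImplicit false

namespace Crest.Agent.MS

open Finset

variable {α : Type*} [Fintype α] [DecidableEq α]

/-- Stage 2 in abstract form: `G l i` = expected gain of class `i` for the labelling `l`. -/
theorem stage2 {L : Type*} [Fintype L] [DecidableEq L] (M : Matroid α) (Pop : Finset α)
    (hPop : (Pop : Set α) ⊆ M.E) (ord : α → ℕ) (hord : Function.Injective ord) (cls : α → ℕ)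
    (hcls : ∀ e f, ord e < ord f → cls e ≤ cls f) (n : ℕ) (hn : ∀ e ∈ Pop, cls e < n)
    (ω : ℕ → ℝ) (hω : ∀ i, 0 ≤ ω i) (hmono : ∀ i j, i ≤ j → ω i ≤ ω j) (B : ℝ) (hB : 1 < B)
    (hgap : ∀ e ∈ Pop, ∀ f ∈ Pop, cls e < cls f → B * ω (cls e) ≤ ω (cls f))
    (p : L → ℝ) (hp : ∑ a, p a = 1) (hp0 : ∀ a, 0 ≤ p a) (H T : L) (hH : 0 < p H)
    (a b : ℝ) (hb : 0 ≤ b) (ha : 0 ≤ a - b * (p T / p H) - 2 / (B - 1))
    (G : (α → L) → ℕ → ℝ) (hG0 : ∀ l i, i < n → 0 ≤ G l i)
    (hG : ∀ l i, i < n →
      a * ((impr M (Pop : Set α) ord {H} {T} l ∩ {e | cls e = i}).ncard : ℝ) -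
      b * (((impr M (Pop : Set α) ord {H} {T} l ∩ {e | cls e = i}).ncard : ℝ) -
        (rk M (impr M (Pop : Set α) ord {H} {T} l ∩ {e | cls e = i}) : ℝ)) -
      2 * ∑ j ∈ (range n).filter (fun j => i < j),
        ((impr M (Pop : Set α) ord {H} {T} l ∩ {e | cls e = j}).ncard : ℝ) ≤ G l i)
    (I : Finset α) (hIP : I ⊆ Pop) (hI : M.Indep (I : Set α)) :
    (a - b * (p T / p H) - 2 / (B - 1)) * (p T * ∑ e ∈ I, ω (cls e)) ≤
      ∑ l : α → L, pw p l * ∑ i ∈ range n, ω i * G l i := by
  classical
  set Ti : (α → L) → ℕ → Set α := fun l i => impr M (Pop : Set α) ord {H} {T} l ∩ {e | cls e = i}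
    with hTi
  set t : ℕ → ℝ := fun i => ∑ l : α → L, pw p l * ((Ti l i).ncard : ℝ) with ht
  set g : ℕ → ℝ := fun i => ∑ l : α → L, pw p l * G l i with hg
  set ν : ℕ → ℝ := fun i => ∑ l : α → L, pw p l * (((Ti l i).ncard : ℝ) - (rk M (Ti l i) : ℝ))
    with hν
  have hpw := fun l : α → L => pw_nonneg hp0 l
  have hsum := sum_pw (α := α) hp
  have hpH : ∑ x, ({H} : Set L).indicator p x = p H := by
    rw [Finset.sum_eq_single H]
    · simp
    · intro x _ hx; simp [hx]
    · simp
  have hpT : ∑ x, ({T} : Set L).indicator p x = p T := by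
    rw [Finset.sum_eq_single T]
    · simp
    · intro x _ hx; simp [hx]
    · simp
  -- sizes
  have htot : ∑ i ∈ range n, ω i * t i =
      ∑ l : α → L, pw p l * ∑ e, (impr M (Pop : Set α) ord {H} {T} l).indicator
        (fun e => ω (cls e)) e := by
    have h1 : ∀ l : α → L, ∑ e, (impr M (Pop : Set α) ord {H} {T} l).indicator
        (fun e => ω (cls e)) e = ∑ i ∈ range n, ω i * ((Ti l i).ncard : ℝ) := by
      intro l
      have h2 : ∀ i, ((Ti l i).ncard : ℝ) = ∑ e, (Ti l i).indicator (fun _ => (1 : ℝ)) e := by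
        intro i
        rw [Set.ncard_eq_toFinset_card' (Ti l i)]
        rw [Finset.card_eq_sum_ones, Nat.cast_sum]
        simp only [Nat.cast_one, Set.indicator_apply]
        rw [← Finset.sum_filter]
        congr 1
        ext e
        simp
      simp only [h2, Finset.mul_sum]
      rw [Finset.sum_comm]
      refine Finset.sum_congr rfl fun e _ => ?_
      by_cases he : e ∈ impr M (Pop : Set α) ord {H} {T} l
      · rw [Set.indicator_of_mem he]
        have hen : cls e < n := hn e (by exact_mod_cast he.1)
        rw [Finset.sum_eq_single (cls e)]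
        · rw [Set.indicator_of_mem (show e ∈ Ti l (cls e) from ⟨he, rfl⟩), mul_one]
        · intro i _ hi
          rw [Set.indicator_of_notMem, mul_zero]
          intro h3
          exact hi h3.2.symm
        · intro h3
          exact absurd (Finset.mem_range.2 hen) h3
      · rw [Set.indicator_of_notMem he]
        symm
        apply Finset.sum_eq_zero
        intro i _
        rw [Set.indicator_of_notMem (fun h3 : e ∈ Ti l i => he h3.1), mul_zero]
    simp only [h1, ht, Finset.mul_sum]
    rw [Finset.sum_comm]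
    refine Finset.sum_congr rfl fun l _ => ?_
    refine Finset.sum_congr rfl fun i _ => ?_
    ring
  have hmain : (a - b * (p T / p H) - 2 / (B - 1)) * ∑ i ∈ range n, ω i * t i ≤
      ∑ i ∈ range n, ω i * g i := by
    refine class_sum n ω t g ν (Pop.image cls) ?_ a b B (p T / p H) hB hω ?_ ?_ ?_ ?_ hb ?_ ?_
    · intro j hj
      obtain ⟨e, he, rfl⟩ := Finset.mem_image.1 hj
      exact hn e he
    · intro j
      exact Finset.sum_nonneg fun l _ => mul_nonneg (hpw l) (Nat.cast_nonneg _)
    · intro j hj
      apply Finset.sum_eq_zero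
      intro l _
      have : Ti l j = ∅ := by
        rw [Set.eq_empty_iff_forall_notMem]
        intro e he
        apply hj
        rw [Finset.mem_image]
        exact ⟨e, by exact_mod_cast he.1.1, he.2⟩
      rw [this, Set.ncard_empty]
      simp
    · intro j hj j' hj' hjj
      obtain ⟨e, he, rfl⟩ := Finset.mem_image.1 hj
      obtain ⟨f, hf, rfl⟩ := Finset.mem_image.1 hj'
      exact hgap e he f hf hjj
    · intro i hi
      exact Finset.sum_nonneg fun l _ => mul_nonneg (hpw l) (hG0 l i hi)
    · intro i _
      have h1 := null_impr' M (Pop : Set α) ord hPop hord hp hp0 {H} {T} {e | cls e = i}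
        {e | i < cls e} (by
          intro e he u hu
          rcases lt_trichotomy (ord e) (ord u) with h | h | h
          · exact h
          · have := hord h
            subst this
            simp only [Set.mem_ofPred_eq] at he hu
            omega
          · have := hcls u e h
            simp only [Set.mem_ofPred_eq] at he hu
            omega)
      rw [hpH, hpT] at h1
      have h2 : p H * ν i ≤ p T * t i := h1
      rw [div_mul_eq_mul_div, le_div_iff₀ hH, mul_comm (ν i)]
      exact h2
    · intro i hi
      have hin : i < n := by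
        obtain ⟨e, he, rfl⟩ := Finset.mem_image.1 hi
        exact hn e he
      have h1 : ∀ l : α → L, pw p l * (a * ((Ti l i).ncard : ℝ) -
          b * (((Ti l i).ncard : ℝ) - (rk M (Ti l i) : ℝ)) -
          2 * ∑ j ∈ (range n).filter (fun j => i < j), ((Ti l j).ncard : ℝ)) ≤
          pw p l * G l i := fun l => mul_le_mul_of_nonneg_left (hG l i hin) (hpw l)
      have h2 := Finset.sum_le_sum (s := (Finset.univ : Finset (α → L))) fun l _ => h1 l
      refine le_trans (le_of_eq ?_) h2
      simp only [mul_sub, Finset.sum_sub_distrib]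
      have e1 : ∑ l : α → L, pw p l * (a * ((Ti l i).ncard : ℝ)) = a * t i := by
        rw [ht, Finset.mul_sum]
        exact Finset.sum_congr rfl fun l _ => by ring
      have e2 : ∑ l : α → L, pw p l * (b * ((Ti l i).ncard : ℝ)) -
          ∑ l : α → L, pw p l * (b * (rk M (Ti l i) : ℝ)) = b * ν i := by
        rw [hν, Finset.mul_sum, ← Finset.sum_sub_distrib]
        exact Finset.sum_congr rfl fun l _ => by ring
      have e3 : ∑ l : α → L, pw p l *
          (2 * ∑ j ∈ (range n).filter (fun j => i < j), ((Ti l j).ncard : ℝ)) =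
          2 * ∑ j ∈ (range n).filter (fun j => i < j), t j := by
        simp only [ht, Finset.mul_sum]
        rw [Finset.sum_comm]
        exact Finset.sum_congr rfl fun j _ => Finset.sum_congr rfl fun l _ => by ring
      rw [e1, e2, e3]
  have hw := weight_impr_ge M (Pop : Set α) ord hPop hord hp hp0 {H} {T} (by rw [hpH]; exact hH) hI
    (by exact_mod_cast hIP) (fun e => ω (cls e))
    (by
      intro e e' h
      rcases h.lt_or_eq with h | h
      · exact hmono _ _ (hcls e e' h)
      · have := hord h
        subst this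
        exact le_rfl) (fun e => hω _)
  rw [hpT, ← htot] at hw
  have hIs : ∑ e, (I : Set α).indicator (fun e => ω (cls e)) e = ∑ e ∈ I, ω (cls e) := by
    simp only [Set.indicator_apply, Finset.mem_coe]
    rw [← Finset.sum_filter]
    congr 1
    ext e
    simp
  rw [hIs] at hw
  have hfin : ∑ i ∈ range n, ω i * g i = ∑ l : α → L, pw p l * ∑ i ∈ range n, ω i * G l i := by
    simp only [hg, Finset.mul_sum]
    rw [Finset.sum_comm]
    exact Finset.sum_congr rfl fun l _ => Finset.sum_congr rfl fun i _ => by ring
  rw [← hfin]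
  exact (mul_le_mul_of_nonneg_left hw ha).trans hmain

end Crest.Agent.MS
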